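import Vale.Agent.P078.FDefs

/-! The arrowhead matrix. -/

set_option linter.unusedSectionVars false

namespace Vale.Agent.P078

open Finset Polynomial MeasureTheory Complex Filter Topology
open scoped ComplexConjugate Matrix

variable {V : Type} [Fintype V] [DecidableEq V] {r : ℕ}

theorem arrow_det {K : Type} [Fintype K] [DecidableEq K] (d w : K → ℂ) (c : ℂ)
    (hd : ∀ k, d k ≠ 0) (M : Matrix (Option K) (Option K) ℂ) (m0 : M none none = c)
    (m1 : ∀ k, M none (some k) = w k) (m2 : ∀ k, M (some k) none = w k)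
    (m3 : ∀ k k', M (some k) (some k') = if k = k' then d k else 0) :
    M.det = (c - ∑ k, w k ^ 2 / d k) * ∏ k, d k := by
  set e := Equiv.optionEquivSumPUnit.{0} K with he
  rw [← Matrix.det_submatrix_equiv_self e.symm M]
  have key : M.submatrix e.symm e.symm =
      Matrix.fromBlocks (1 : Matrix K K ℂ) 0 (Matrix.of fun (_ : PUnit.{1}) k => w k / d k) 1 *
      Matrix.fromBlocks (Matrix.diagonal d) (Matrix.of fun k (_ : PUnit.{1}) => w k) 0
        (Matrix.of fun _ _ => c - ∑ k, w k ^ 2 / d k) := by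
    rw [Matrix.fromBlocks_multiply]
    ext i j
    rcases i with i | i <;> rcases j with j | j
    · simp [he, m3, Matrix.diagonal_apply]
    · simp [he, m2]
    · simp [he, m1, Matrix.mul_diagonal, hd]
    · simp [he, m0, Matrix.mul_apply]
      have : ∑ k, w k / d k * w k = ∑ k, w k ^ 2 / d k :=
        Finset.sum_congr rfl fun k _ => by ring
      rw [this]; ring
  rw [key, Matrix.det_mul, Matrix.det_fromBlocks_zero₁₂, Matrix.det_fromBlocks_zero₂₁]
  simp [Matrix.det_unique, mul_comm]

theorem arrow_eigen {K : Type} [Fintype K] [DecidableEq K] (s v : K → ℝ) (t : ℝ) :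
    ∃ (l : Option K → ℝ) (u : Option K → Option K → ℝ),
      (∀ i j, ∑ a, u a i * u a j = if i = j then 1 else 0) ∧
      (∀ a b, ∑ i, u a i * u b i = if a = b then 1 else 0) ∧
      (∑ a, l a * (u a none * u a none) = -t) ∧
      (∀ k, ∑ a, l a * (u a none * u a (some k)) = v k) ∧
      (∀ k k', ∑ a, l a * (u a (some k) * u a (some k')) = if k = k' then s k else 0) ∧
      (∀ τ : ℂ, 0 < τ.im → ∏ j, (τ - l j) =
        (τ + t - ∑ k, ((v k ^ 2 : ℝ) : ℂ) / (τ - s k)) * ∏ k, (τ - s k)) ∧
      ∑ j, l j = ∑ k, s k - t := by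
  let A : Matrix (Option K) (Option K) ℝ := Matrix.of fun i j =>
    Option.elim i (Option.elim j (-t) v) fun k => Option.elim j (v k) fun k' =>
      if k = k' then s k else 0
  have hA : A.IsHermitian := by
    ext i j
    rcases i with _ | i <;> rcases j with _ | j
    · simp [A]
    · simp [A]
    · simp [A]
    · by_cases h : i = j
      · simp [A, h]
      · simp [A, h, Ne.symm h]
  set U : Matrix (Option K) (Option K) ℝ := hA.eigenvectorUnitary.1 with hU
  set l := hA.eigenvalues with hl
  have u1 : U * star U = 1 := (Unitary.mem_iff.mp hA.eigenvectorUnitary.2).2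
  have u2 : star U * U = 1 := (Unitary.mem_iff.mp hA.eigenvectorUnitary.2).1
  have hsp : A = U * Matrix.diagonal l * star U := by
    have := hA.spectral_theorem
    simpa [Unitary.conjStarAlgAut_apply] using this
  have h1 : ∀ i j, ∑ a, U i a * U j a = if i = j then 1 else 0 := by
    intro i j
    have := congrFun (congrFun u1 i) j
    simpa [Matrix.mul_apply, Matrix.one_apply] using this
  have h2 : ∀ a b, ∑ i, U i a * U i b = if a = b then 1 else 0 := by
    intro a b
    have := congrFun (congrFun u2 a) b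
    simpa [Matrix.mul_apply, Matrix.one_apply] using this
  have h3 : ∀ i j, ∑ a, l a * (U i a * U j a) = A i j := by
    intro i j
    have := congrFun (congrFun hsp i) j
    rw [this, Matrix.mul_apply]
    refine Finset.sum_congr rfl fun a _ => ?_
    rw [Matrix.mul_diagonal]
    simp
    ring
  refine ⟨l, fun a i => U i a, h1, h2, ?_, ?_, ?_, ?_, ?_⟩
  · rw [h3]; simp [A]
  · intro k; rw [h3]; simp [A]
  · intro k k'; rw [h3]; simp [A]
  · intro τ hτ
    have hd : ∀ k, τ - (s k : ℂ) ≠ 0 := by
      intro k h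
      have := congrArg Complex.im h
      simp at this
      linarith
    let M : Matrix (Option K) (Option K) ℂ := Matrix.of fun i j =>
      (if i = j then τ else 0) - (A i j : ℂ)
    have hM := arrow_det (fun k => τ - (s k : ℂ)) (fun k => -(v k : ℂ)) (τ + t) hd M
      (by simp [M, A]) (by intro k; simp [M, A]) (by intro k; simp [M, A])
      (by
        intro k k'
        by_cases h : k = k'
        · simp [M, A, h]
        · simp [M, A, h])
    let W : Matrix (Option K) (Option K) ℂ := U.map (fun x => (x : ℂ))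
    have hW : W * Wᵀ = 1 := by
      ext i j
      have := congrArg (fun x : ℝ => (x : ℂ)) (h1 i j)
      simp only [Matrix.mul_apply, Matrix.one_apply, W, Matrix.map_apply, Matrix.transpose_apply]
      push_cast at this
      rw [this]; split_ifs <;> simp
    have hM2 : M = W * Matrix.diagonal (fun j => τ - (l j : ℂ)) * Wᵀ := by
      ext i j
      have e1 := congrArg (fun x : ℝ => (x : ℂ)) (h1 i j)
      have e3 := congrArg (fun x : ℝ => (x : ℂ)) (h3 i j)
      push_cast at e1 e3
      rw [Matrix.mul_apply]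
      simp only [Matrix.mul_diagonal, W, Matrix.map_apply, Matrix.transpose_apply, M,
        Matrix.of_apply]
      have : ∑ a, (U i a : ℂ) * (τ - l a) * U j a =
          τ * ∑ a, (U i a : ℂ) * U j a - ∑ a, (l a : ℂ) * (U i a * U j a) := by
        rw [Finset.mul_sum, ← Finset.sum_sub_distrib]
        exact Finset.sum_congr rfl fun a _ => by ring
      rw [this, e1, e3]
      split_ifs <;> simp
    have hdet : M.det = ∏ j, (τ - (l j : ℂ)) := by
      rw [hM2, Matrix.det_mul, Matrix.det_mul, Matrix.det_diagonal]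
      have := congrArg Matrix.det hW
      rw [Matrix.det_mul, Matrix.det_one] at this
      linear_combination (∏ j, (τ - (l j : ℂ))) * this
    rw [← hdet, hM]
    simp
  · have : ∑ j, l j = ∑ i, A i i := by
      simp_rw [← h3]
      rw [Finset.sum_comm]
      refine Finset.sum_congr rfl fun a _ => ?_
      rw [← Finset.mul_sum, h2]; simp
    rw [this, Fintype.sum_option]
    simp [A]; ring

theorem sum_max_ge {I : Type} [Fintype I] (l p : I → ℝ) (h0 : ∀ a, 0 ≤ p a) (h1 : ∀ a, p a ≤ 1) :
    ∑ a, l a * p a ≤ ∑ a, max (l a) 0 := by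
  refine Finset.sum_le_sum fun a _ => ?_
  rcases le_total (l a) 0 with h | h
  · rw [max_eq_right h]; nlinarith [h0 a]
  · rw [max_eq_left h]; nlinarith [h1 a]

theorem sum_max_eq {K : Type} [Fintype K] (s : K → ℝ) :
    ∑ k, max (s k) 0 = ∑ k with 0 < s k, s k := by
  rw [Finset.sum_filter]
  refine Finset.sum_congr rfl fun k _ => ?_
  split_ifs with h
  · exact max_eq_left h.le
  · exact max_eq_right (not_lt.mp h)

section

variable {K : Type} [Fintype K] [DecidableEq K] {s v : K → ℝ} {t : ℝ} {l : Option K → ℝ}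
  {u : Option K → Option K → ℝ}
  (h1 : ∀ i j, ∑ a, u a i * u a j = if i = j then 1 else 0)
  (h2 : ∀ a b, ∑ i, u a i * u b i = if a = b then 1 else 0)
  (h3 : ∑ a, l a * (u a none * u a none) = -t)
  (h4 : ∀ k, ∑ a, l a * (u a none * u a (some k)) = v k)
  (h5 : ∀ k k', ∑ a, l a * (u a (some k) * u a (some k')) = if k = k' then s k else 0)

include h3 h4 h5 in
theorem arrow_quad (c : ℝ) (ψ : K → ℝ) :
    ∑ a, l a * (u a none * c + ∑ k, u a (some k) * ψ k) ^ 2 =
      -t * c ^ 2 + 2 * c * ∑ k, v k * ψ k + ∑ k, s k * ψ k ^ 2 := by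
  have e : ∀ a, l a * (u a none * c + ∑ k, u a (some k) * ψ k) ^ 2 =
      l a * (u a none * u a none) * c ^ 2 +
        2 * c * ∑ k, l a * (u a none * u a (some k)) * ψ k +
        ∑ k, ∑ k', l a * (u a (some k) * u a (some k')) * (ψ k * ψ k') := by
    intro a
    have e1 : ∑ k, l a * (u a none * u a (some k)) * ψ k =
        l a * u a none * ∑ k, u a (some k) * ψ k := by
      rw [Finset.mul_sum]; exact Finset.sum_congr rfl fun k _ => by ring
    have e2 : ∑ k, ∑ k', l a * (u a (some k) * u a (some k')) * (ψ k * ψ k') =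
        l a * (∑ k, u a (some k) * ψ k) ^ 2 := by
      rw [sq, Finset.sum_mul_sum, Finset.mul_sum]
      refine Finset.sum_congr rfl fun k _ => ?_
      rw [Finset.mul_sum]; exact Finset.sum_congr rfl fun k' _ => by ring
    rw [e1, e2]; ring
  simp_rw [e]
  rw [Finset.sum_add_distrib, Finset.sum_add_distrib, ← Finset.sum_mul, h3, ← Finset.mul_sum,
    Finset.sum_comm]
  congr 1
  · congr 2
    refine Finset.sum_congr rfl fun k _ => ?_
    rw [← Finset.sum_mul, h4]
  · rw [Finset.sum_comm]
    refine Finset.sum_congr rfl fun k _ => ?_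
    rw [Finset.sum_comm]
    simp_rw [← Finset.sum_mul, h5]
    simp [sq]

include h5 in
theorem arrow_pos : ∑ a, l a * ∑ k with 0 < s k, u a (some k) ^ 2 = ∑ k, max (s k) 0 := by
  rw [sum_max_eq]
  simp_rw [Finset.mul_sum]
  rw [Finset.sum_comm]
  refine Finset.sum_congr rfl fun k _ => ?_
  have := h5 k k
  simp only [if_true] at this
  rw [← this]
  exact Finset.sum_congr rfl fun a _ => by ring

include h2 in
theorem arrow_norm (a : Option K) :
    u a none ^ 2 + ∑ k with 0 < s k, u a (some k) ^ 2 + ∑ k with s k ≤ 0, u a (some k) ^ 2 = 1 := by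
  have := h2 a a
  simp only [if_true] at this
  rw [Fintype.sum_option] at this
  have e := Finset.sum_filter_add_sum_filter_not Finset.univ (fun k => 0 < s k)
    (fun k => u a (some k) ^ 2)
  simp only [not_lt] at e
  rw [add_assoc, e, ← this]
  simp [sq]

theorem arrow_cs (T : Finset K) (x c : ℝ) (y ψ : K → ℝ) (hψ : ∀ k, k ∉ T → ψ k = 0) :
    (x * c + ∑ k, y k * ψ k) ^ 2 ≤ (x ^ 2 + ∑ k ∈ T, y k ^ 2) * (c ^ 2 + ∑ k, ψ k ^ 2) := by
  have := Finset.sum_mul_sq_le_sq_mul_sq (Finset.univ : Finset (Option K))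
    (fun i => Option.elim i x fun k => if k ∈ T then y k else 0) (fun i => Option.elim i c ψ)
  simp only [Fintype.sum_option, Option.elim] at this
  have e1 : ∑ k, (if k ∈ T then y k else 0) * ψ k = ∑ k, y k * ψ k := by
    refine Finset.sum_congr rfl fun k _ => ?_
    split_ifs with h
    · rfl
    · rw [hψ k h]; simp
  have e2 : ∑ k, (if k ∈ T then y k else 0) ^ 2 = ∑ k ∈ T, y k ^ 2 := by
    rw [← Finset.sum_ite_mem_eq T (fun k => y k ^ 2)]
    refine Finset.sum_congr rfl fun k _ => ?_
    split_ifs <;> simp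
  rwa [e1, e2] at this

include h1 h2 h3 h4 h5

theorem arrow_lower (ht : 0 < t) : 0 ≤ ∑ j, max (l j) 0 - ∑ k, max (s k) 0 ∧
    ∀ θ : ℝ, 0 < θ → ∑ j, max (l j) 0 - ∑ k, max (s k) 0 ≤ θ →
      ∑ k with 0 < s k, v k ^ 2 / (s k + t + θ) ≤ θ ∧
      ∑ k with s k ≤ 0, v k ^ 2 / (θ - s k) ≤ t + θ := by
  have hp := arrow_pos h5
  have hn := arrow_norm (s := s) h2
  have n1 : ∀ a, 0 ≤ ∑ k with 0 < s k, u a (some k) ^ 2 := fun a =>
    Finset.sum_nonneg fun k _ => sq_nonneg _
  have n2 : ∀ a, 0 ≤ ∑ k with s k ≤ 0, u a (some k) ^ 2 := fun a =>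
    Finset.sum_nonneg fun k _ => sq_nonneg _
  refine ⟨?_, fun θ hθ hle => ⟨?_, ?_⟩⟩
  · have := sum_max_ge l (fun a => ∑ k with 0 < s k, u a (some k) ^ 2) n1
      (fun a => by nlinarith [hn a, n2 a, sq_nonneg (u a none)])
    linarith
  · set ψ : K → ℝ := fun k => if 0 < s k then -v k / (s k + t + θ) else 0 with hψ
    set N : ℝ := 1 ^ 2 + ∑ k, ψ k ^ 2 with hN
    have hN0 : 0 < N := by
      have : 0 ≤ ∑ k, ψ k ^ 2 := Finset.sum_nonneg fun k _ => sq_nonneg _
      rw [hN]; linarith
    have hcs : ∀ a, (u a none * 1 + ∑ k, u a (some k) * ψ k) ^ 2 ≤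
        (u a none ^ 2 + ∑ k with 0 < s k, u a (some k) ^ 2) * N := fun a =>
      arrow_cs _ _ _ _ _ (by intro k hk; simp at hk; simp [hψ, not_lt.mpr hk])
    have := sum_max_ge l (fun a => u a none ^ 2 + ∑ k with 0 < s k, u a (some k) ^ 2 -
      (u a none * 1 + ∑ k, u a (some k) * ψ k) ^ 2 / N)
      (fun a => by rw [sub_nonneg, div_le_iff₀ hN0]; exact hcs a)
      (fun a => by
        have : 0 ≤ (u a none * 1 + ∑ k, u a (some k) * ψ k) ^ 2 / N := by positivity
        linarith [hn a, n2 a])
    have hq := arrow_quad h3 h4 h5 1 ψ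
    have e : ∑ a, l a * (u a none ^ 2 + ∑ k with 0 < s k, u a (some k) ^ 2 -
        (u a none * 1 + ∑ k, u a (some k) * ψ k) ^ 2 / N) =
        ∑ a, l a * (u a none * u a none) + ∑ a, l a * ∑ k with 0 < s k, u a (some k) ^ 2 -
        (∑ a, l a * (u a none * 1 + ∑ k, u a (some k) * ψ k) ^ 2) / N := by
      rw [Finset.sum_div, ← Finset.sum_add_distrib, ← Finset.sum_sub_distrib]
      exact Finset.sum_congr rfl fun a _ => by ring
    rw [e, h3, hp, hq] at this
    have h6 : -(t + θ) ≤ (-t * 1 ^ 2 + 2 * 1 * ∑ k, v k * ψ k + ∑ k, s k * ψ k ^ 2) / N := by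
      linarith
    rw [le_div_iff₀ hN0, hN] at h6
    have e2 : ∑ k with 0 < s k, v k ^ 2 / (s k + t + θ) =
        -(2 * ∑ k, v k * ψ k + ∑ k, s k * ψ k ^ 2 + (t + θ) * ∑ k, ψ k ^ 2) := by
      rw [Finset.mul_sum, Finset.mul_sum, ← Finset.sum_add_distrib, ← Finset.sum_add_distrib,
        ← Finset.sum_neg_distrib, Finset.sum_filter]
      refine Finset.sum_congr rfl fun k _ => ?_
      simp only [hψ]
      split_ifs with h
      · have : s k + t + θ ≠ 0 := by positivity
        field_simp
        ring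
      · simp
    rw [e2]; nlinarith
  · set ψ : K → ℝ := fun k => if s k ≤ 0 then v k / (θ - s k) else 0 with hψ
    set N : ℝ := 1 ^ 2 + ∑ k, ψ k ^ 2 with hN
    have hN0 : 0 < N := by
      have : 0 ≤ ∑ k, ψ k ^ 2 := Finset.sum_nonneg fun k _ => sq_nonneg _
      rw [hN]; linarith
    have hcs : ∀ a, (u a none * 1 + ∑ k, u a (some k) * ψ k) ^ 2 ≤
        (u a none ^ 2 + ∑ k with s k ≤ 0, u a (some k) ^ 2) * N := fun a =>
      arrow_cs _ _ _ _ _ (by intro k hk; simp at hk; simp [hψ, not_le.mpr hk])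
    have := sum_max_ge l (fun a => ∑ k with 0 < s k, u a (some k) ^ 2 +
      (u a none * 1 + ∑ k, u a (some k) * ψ k) ^ 2 / N)
      (fun a => by
        have : 0 ≤ (u a none * 1 + ∑ k, u a (some k) * ψ k) ^ 2 / N := by positivity
        linarith [n1 a])
      (fun a => by
        have : (u a none * 1 + ∑ k, u a (some k) * ψ k) ^ 2 / N ≤
            u a none ^ 2 + ∑ k with s k ≤ 0, u a (some k) ^ 2 := by
          rw [div_le_iff₀ hN0]; exact hcs a
        linarith [hn a])
    have hq := arrow_quad h3 h4 h5 1 ψ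
    have e : ∑ a, l a * (∑ k with 0 < s k, u a (some k) ^ 2 +
        (u a none * 1 + ∑ k, u a (some k) * ψ k) ^ 2 / N) =
        ∑ a, l a * ∑ k with 0 < s k, u a (some k) ^ 2 +
        (∑ a, l a * (u a none * 1 + ∑ k, u a (some k) * ψ k) ^ 2) / N := by
      rw [Finset.sum_div, ← Finset.sum_add_distrib]
      exact Finset.sum_congr rfl fun a _ => by ring
    rw [e, hp, hq] at this
    have h6 : (-t * 1 ^ 2 + 2 * 1 * ∑ k, v k * ψ k + ∑ k, s k * ψ k ^ 2) / N ≤ θ := by
      linarith
    rw [div_le_iff₀ hN0, hN] at h6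
    have e2 : ∑ k with s k ≤ 0, v k ^ 2 / (θ - s k) =
        2 * ∑ k, v k * ψ k + ∑ k, s k * ψ k ^ 2 - θ * ∑ k, ψ k ^ 2 := by
      rw [Finset.mul_sum, Finset.mul_sum, ← Finset.sum_add_distrib, ← Finset.sum_sub_distrib,
        Finset.sum_filter]
      refine Finset.sum_congr rfl fun k _ => ?_
      simp only [hψ]
      split_ifs with h
      · have : θ - s k ≠ 0 := by linarith
        field_simp
        ring
      · simp
    rw [e2]; nlinarith

theorem arrow_upper (ht : 0 < t) {F σ : ℝ} (hF : 0 < F) (hσ : 0 < σ)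
    (a1 : ∑ k with 0 < s k, v k ^ 2 / (s k + t / 2 + F) ≤ F)
    (a2 : ∑ k with s k ≤ 0, v k ^ 2 / (σ - s k) ≤ t / 2 + σ) :
    ∑ j, max (l j) 0 - ∑ k, max (s k) 0 ≤ F + σ := by
  set T : Finset (Option K) := Finset.univ.filter fun a => 0 < l a with hT
  set p : ℝ := ∑ a ∈ T, u a none ^ 2 with hp
  set q : K → ℝ := fun k => ∑ a ∈ T, u a none * u a (some k) with hq
  set w : K → ℝ := fun k => ∑ a ∈ T, u a (some k) ^ 2 with hw
  have hl : ∀ a, l a = -t * u a none ^ 2 + 2 * u a none * ∑ k, v k * u a (some k) +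
      ∑ k, s k * u a (some k) ^ 2 := by
    intro a
    rw [← arrow_quad h3 h4 h5 (u a none) (fun k => u a (some k))]
    have : ∀ b, u b none * u a none + ∑ k, u b (some k) * u a (some k) =
        if b = a then 1 else 0 := by
      intro b; rw [← h2 b a, Fintype.sum_option]
    simp_rw [this]
    simp
  have e1 : ∑ j, max (l j) 0 = -t * p + ∑ k, (2 * v k * q k + s k * w k) := by
    rw [sum_max_eq, ← hT, Finset.sum_congr rfl fun a _ => hl a, Finset.sum_add_distrib,
      Finset.sum_add_distrib, ← Finset.mul_sum, ← hp, add_assoc, Finset.sum_add_distrib]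
    congr 2
    · simp only [hq, Finset.mul_sum]
      rw [Finset.sum_comm]
      exact Finset.sum_congr rfl fun k _ => Finset.sum_congr rfl fun a _ => by ring
    · simp only [hw, Finset.mul_sum]
      rw [Finset.sum_comm]
  have e2 : p ^ 2 + ∑ k, q k ^ 2 = p := by
    have : ∑ i, (∑ a ∈ T, u a none * u a i) ^ 2 = p := by
      simp_rw [sq (∑ a ∈ T, _), Finset.sum_mul_sum]
      rw [Finset.sum_comm, hp]
      refine Finset.sum_congr rfl fun a ha => ?_
      rw [Finset.sum_comm]
      have : ∀ b, ∑ i, u a none * u a i * (u b none * u b i) =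
          u a none * u b none * if a = b then 1 else 0 := by
        intro b
        rw [← h2 a b, Finset.mul_sum]
        exact Finset.sum_congr rfl fun i _ => by ring
      simp_rw [this]
      simp [ha, sq]
    rw [Fintype.sum_option] at this
    rw [← this]
    congr 1
    rw [this, hp]; simp [sq]
  have c1 : ∀ k, q k ^ 2 ≤ p * w k := fun k => Finset.sum_mul_sq_le_sq_mul_sq _ _ _
  have compl : ∀ i j, ∑ a ∈ T, u a i * u a j + ∑ a ∈ Tᶜ, u a i * u a j =
      if i = j then 1 else 0 := fun i j => by rw [Finset.sum_add_sum_compl, h1]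
  have cp : ∑ a ∈ Tᶜ, u a none ^ 2 = 1 - p := by
    have := compl none none
    simp only [if_true, ← sq] at this
    linarith
  have cw : ∀ k, ∑ a ∈ Tᶜ, u a (some k) ^ 2 = 1 - w k := by
    intro k
    have := compl (some k) (some k)
    simp only [if_true, ← sq] at this
    simp only [hw]; linarith
  have c2 : ∀ k, q k ^ 2 ≤ (1 - p) * (1 - w k) := by
    intro k
    have := Finset.sum_mul_sq_le_sq_mul_sq Tᶜ (fun a => u a none) (fun a => u a (some k))
    rw [cp, cw] at this
    have h := compl none (some k)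
    simp only [reduceCtorEq, if_false] at h
    have h' : ∑ a ∈ Tᶜ, u a none * u a (some k) = -q k := by simp only [hq]; linarith
    rw [h'] at this
    nlinarith
  have p0 : 0 ≤ p := Finset.sum_nonneg fun a _ => sq_nonneg _
  have p1 : 0 ≤ 1 - p := cp ▸ Finset.sum_nonneg fun a _ => sq_nonneg _
  have w0 : ∀ k, 0 ≤ w k := fun k => Finset.sum_nonneg fun a _ => sq_nonneg _
  have w1 : ∀ k, 0 ≤ 1 - w k := fun k => cw k ▸ Finset.sum_nonneg fun a _ => sq_nonneg _
  rw [e1, add_sub_assoc, ← Finset.sum_sub_distrib]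
  by_cases hdeg : p = 0 ∨ p = 1
  · have hq0 : ∀ k, q k = 0 := by
      intro k
      rcases hdeg with h | h
      · have := c1 k; rw [h] at this; nlinarith [sq_nonneg (q k)]
      · have := c2 k; rw [h] at this; nlinarith [sq_nonneg (q k)]
    have : ∑ k, (2 * v k * q k + s k * w k - max (s k) 0) ≤ 0 := by
      refine Finset.sum_nonpos fun k _ => ?_
      rw [hq0]
      rcases le_total (s k) 0 with h | h
      · rw [max_eq_right h]; nlinarith [w0 k]
      · rw [max_eq_left h]; nlinarith [w1 k]
    nlinarith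
  · push Not at hdeg
    have p0' : 0 < p := lt_of_le_of_ne p0 (Ne.symm hdeg.1)
    have p1' : 0 < 1 - p := lt_of_le_of_ne p1 (fun h => hdeg.2 (by linarith))
    have key : ∀ k, 2 * v k * q k + s k * w k - max (s k) 0 ≤
        (1 - p) * (if 0 < s k then v k ^ 2 / (s k + t / 2 + F) else 0) +
        p * (if s k ≤ 0 then v k ^ 2 / (σ - s k) else 0) +
        ((t / 2 + F) / (1 - p) + σ / p) * q k ^ 2 := by
      intro k
      have g1 : 0 ≤ (t / 2 + F) / (1 - p) * q k ^ 2 := by positivity
      have g2 : 0 ≤ σ / p * q k ^ 2 := by positivity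
      by_cases h : 0 < s k
      · rw [if_pos h, if_neg (not_le.mpr h), max_eq_left h.le]
        have hD : 0 < s k + t / 2 + F := by positivity
        have am : 2 * v k * q k ≤ (1 - p) * (v k ^ 2 / (s k + t / 2 + F)) +
            (s k + t / 2 + F) / (1 - p) * q k ^ 2 := by
          have : (1 - p) * (v k ^ 2 / (s k + t / 2 + F)) +
              (s k + t / 2 + F) / (1 - p) * q k ^ 2 - 2 * v k * q k =
              ((1 - p) * v k - (s k + t / 2 + F) * q k) ^ 2 / ((1 - p) * (s k + t / 2 + F)) := by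
            field_simp; ring
          have h0 : 0 ≤ ((1 - p) * v k - (s k + t / 2 + F) * q k) ^ 2 /
              ((1 - p) * (s k + t / 2 + F)) := by positivity
          linarith
        have b : s k / (1 - p) * q k ^ 2 ≤ s k * (1 - w k) := by
          rw [div_mul_eq_mul_div, div_le_iff₀ p1']
          nlinarith [c2 k]
        have sp : (s k + t / 2 + F) / (1 - p) * q k ^ 2 =
            s k / (1 - p) * q k ^ 2 + (t / 2 + F) / (1 - p) * q k ^ 2 := by ring
        nlinarith
      · have h' : s k ≤ 0 := not_lt.mp h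
        rw [if_neg h, if_pos h', max_eq_right h']
        have hD : 0 < σ - s k := by linarith
        have am : 2 * v k * q k ≤ p * (v k ^ 2 / (σ - s k)) + (σ - s k) / p * q k ^ 2 := by
          have : p * (v k ^ 2 / (σ - s k)) + (σ - s k) / p * q k ^ 2 - 2 * v k * q k =
              (p * v k - (σ - s k) * q k) ^ 2 / (p * (σ - s k)) := by
            field_simp; ring
          have h0 : 0 ≤ (p * v k - (σ - s k) * q k) ^ 2 / (p * (σ - s k)) := by positivity
          linarith
        have b : (-s k) / p * q k ^ 2 ≤ (-s k) * w k := by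
          rw [div_mul_eq_mul_div, div_le_iff₀ p0']
          nlinarith [c1 k]
        have sp : (σ - s k) / p * q k ^ 2 = σ / p * q k ^ 2 + (-s k) / p * q k ^ 2 := by ring
        nlinarith
    have hs := Finset.sum_le_sum fun k (_ : k ∈ Finset.univ) => key k
    rw [Finset.sum_add_distrib, Finset.sum_add_distrib, ← Finset.mul_sum, ← Finset.mul_sum,
      ← Finset.mul_sum, ← Finset.sum_filter, ← Finset.sum_filter] at hs
    have e3 : ∑ k, q k ^ 2 = p * (1 - p) := by linarith
    rw [e3] at hs
    have e4 : ((t / 2 + F) / (1 - p) + σ / p) * (p * (1 - p)) =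
        (t / 2 + F) * p + σ * (1 - p) := by field_simp
    rw [e4] at hs
    have b1 := mul_le_mul_of_nonneg_left a1 p1
    have b2 := mul_le_mul_of_nonneg_left a2 p0
    nlinarith

end

end Vale.Agent.P078
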