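import Vale.Agent.P078.FDefs

/-! Rational functions with negative imaginary part in the upper half plane. -/

set_option linter.unusedSectionVars false

namespace Vale.Agent.P078

open Finset Polynomial MeasureTheory Complex Filter Topology
open scoped ComplexConjugate Matrix

variable {V : Type} [Fintype V] [DecidableEq V] {r : ℕ}

namespace HLAux

theorem factor {K : Type*} [Field K] {f : K[X]} (hf : f ≠ 0) (a : K) :
    ∃ (m : ℕ) (g : K[X]), f = (X - C a) ^ m * g ∧ g.eval a ≠ 0 := by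
  obtain ⟨g, h1, h2⟩ := exists_eq_pow_rootMultiplicity_mul_and_not_dvd f hf a
  exact ⟨_, g, h1, fun h => h2 (dvd_iff_isRoot.2 h)⟩

theorem aeval_real (p : ℝ[X]) (x : ℝ) : aeval (x : ℂ) p = ((p.eval x : ℝ) : ℂ) :=
  aeval_algebraMap_apply_eq_algebraMap_eval x p

theorem real_root {f : ℝ[X]} (hf : f.natDegree ≠ 0) (h0 : ∀ z : ℂ, 0 < z.im → aeval z f ≠ 0) :
    ∃ a : ℝ, f.eval a = 0 := by
  obtain ⟨z, hz⟩ := IsAlgClosed.exists_aeval_eq_zero ℂ f fun h =>
    hf (natDegree_eq_of_degree_eq_some h)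
  have h1 : ¬0 < z.im := fun h => h0 z h hz
  have h2 : ¬0 < (conj z).im := fun h => h0 _ h (by rw [aeval_conj, hz, map_zero])
  have h3 : z.im = 0 := by simp only [conj_im] at h2; linarith [not_lt.1 h1, not_lt.1 h2]
  refine ⟨z.re, ?_⟩
  have h4 : (z.re : ℂ) = z := Complex.ext rfl (by simp [h3])
  rw [← h4, aeval_real] at hz
  exact_mod_cast hz

theorem ne_zero {f : ℝ[X]} (h0 : ∀ z : ℂ, 0 < z.im → aeval z f ≠ 0) : f ≠ 0 := by
  rintro rfl
  exact h0 I (by simp) (by simp)

theorem cofactor {f g : ℝ[X]} {a : ℝ} {n : ℕ} (h : f = (X - C a) * g) (hf : f.natDegree = n + 1)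
    (h0 : ∀ z : ℂ, 0 < z.im → aeval z f ≠ 0) :
    g.natDegree = n ∧ g.leadingCoeff = f.leadingCoeff ∧ ∀ z : ℂ, 0 < z.im → aeval z g ≠ 0 := by
  have hg : g ≠ 0 := by
    rintro rfl
    exact ne_zero h0 (by simp [h])
  refine ⟨?_, ?_, fun z hz e => h0 z hz (by rw [h, map_mul, e, mul_zero])⟩
  · rw [h, natDegree_mul (X_sub_C_ne_zero a) hg, natDegree_X_sub_C] at hf
    omega
  · rw [h, leadingCoeff_mul, leadingCoeff_X_sub_C, one_mul]

theorem splits (n : ℕ) : ∀ {f : ℝ[X]}, f.natDegree = n → (∀ z : ℂ, 0 < z.im → aeval z f ≠ 0) →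
    ∃ l : Fin n → ℝ, f = C f.leadingCoeff * ∏ k, (X - C (l k)) := by
  induction n with
  | zero =>
    intro f hf _
    refine ⟨Fin.elim0, ?_⟩
    rw [eq_C_of_natDegree_eq_zero hf]
    simp
  | succ n ih =>
    intro f hf h0
    obtain ⟨a, ha⟩ := real_root (by omega) h0
    obtain ⟨g, hg⟩ := dvd_iff_isRoot.2 ha
    obtain ⟨h1, h2, h3⟩ := cofactor hg hf h0
    obtain ⟨l, hl⟩ := ih h1 h3
    refine ⟨Fin.cons a l, ?_⟩
    rw [Fin.prod_univ_succ, ← h2]
    simp only [Fin.cons_zero, Fin.cons_succ]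
    rw [hg, mul_left_comm, ← hl]

theorem dir {N g : ℝ[X]} {a : ℝ} {m : ℕ} (hg : g.eval a ≠ 0)
    (h1 : ∀ z : ℂ, 0 < z.im → (aeval z N / aeval z ((X - C a) ^ m * g)).im ≤ 0) {e : ℂ}
    (he : 0 < e.im) : (((N.eval a / g.eval a : ℝ) : ℂ) / e ^ m).im ≤ 0 := by
  have he0 : e ≠ 0 := by rintro rfl; simp at he
  have hc : ContinuousAt (fun ε : ℝ =>
      (aeval (a + ε * e : ℂ) N / aeval (a + ε * e : ℂ) g / e ^ m).im) 0 := by
    have h2 : Continuous fun ε : ℝ => (a + ε * e : ℂ) := by fun_prop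
    refine continuous_im.continuousAt.comp (ContinuousAt.div_const (ContinuousAt.div
      (N.continuous_aeval.comp h2).continuousAt (g.continuous_aeval.comp h2).continuousAt ?_) _)
    simpa [aeval_real] using hg
  have h3 := (hc.tendsto.mono_left (nhdsWithin_le_nhds (s := Set.Ioi 0)))
  simp only [ofReal_zero, zero_mul, add_zero, aeval_real, ← ofReal_div] at h3
  refine le_of_tendsto h3 ?_
  filter_upwards [self_mem_nhdsWithin] with ε hε
  have hε : 0 < ε := hε
  have h4 := h1 (a + ε * e) (by simpa using mul_pos hε he)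
  have e1 : aeval (a + ε * e : ℂ) N / aeval (a + ε * e : ℂ) g / e ^ m
      = (ε ^ m : ℝ) * (aeval (a + ε * e : ℂ) N / aeval (a + ε * e : ℂ) ((X - C a) ^ m * g)) := by
    have hε' : (ε : ℂ) ≠ 0 := by exact_mod_cast hε.ne'
    simp only [map_mul, map_pow, map_sub, aeval_X, aeval_C, coe_algebraMap, add_sub_cancel_left,
      mul_pow, ofReal_pow]
    field_simp
  rw [e1, im_ofReal_mul]
  exact mul_nonpos_of_nonneg_of_nonpos (pow_pos hε m).le h4

theorem simple {N g : ℝ[X]} {a : ℝ} {m : ℕ} (hg : g.eval a ≠ 0) (hN : N.eval a ≠ 0)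
    (h1 : ∀ z : ℂ, 0 < z.im → (aeval z N / aeval z ((X - C a) ^ (m + 1) * g)).im ≤ 0) :
    m = 0 ∧ 0 ≤ N.eval a / g.eval a := by
  have hm : (0 : ℝ) < m + 1 := by positivity
  have key : ∀ θ : ℝ, 0 < θ → θ < (m + 1) * Real.pi →
      0 ≤ N.eval a / g.eval a * Real.sin θ := by
    intro θ h0 hθ
    have h2 := dir hg h1 (e := exp ((θ / (m + 1) : ℝ) * I)) (by
      rw [exp_ofReal_mul_I_im]
      exact Real.sin_pos_of_pos_of_lt_pi (by positivity) (by rw [div_lt_iff₀ hm]; linarith))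
    have e1 : exp ((θ / (m + 1) : ℝ) * I) ^ (m + 1) = exp (θ * I) := by
      rw [← Complex.exp_nat_mul]
      congr 1
      have : ((m : ℂ) + 1) ≠ 0 := by exact_mod_cast hm.ne'
      push_cast
      field_simp
    rw [e1, div_eq_mul_inv, ← Complex.exp_neg, im_ofReal_mul, ← neg_mul, ← ofReal_neg,
      exp_ofReal_mul_I_im, Real.sin_neg] at h2
    linarith
  have hp := Real.pi_pos
  have h2 := key (Real.pi / 2) (by positivity) (by nlinarith [(Nat.cast_nonneg m : (0 : ℝ) ≤ m)])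
  rw [Real.sin_pi_div_two, mul_one] at h2
  refine ⟨?_, h2⟩
  by_contra h
  have hm1 : (1 : ℝ) ≤ m := by exact_mod_cast Nat.one_le_iff_ne_zero.2 h
  have h3 := key (Real.pi / 2 + Real.pi) (by positivity) (by nlinarith)
  rw [Real.sin_add_pi, Real.sin_pi_div_two] at h3
  exact div_ne_zero hN hg (by linarith)

theorem coprime_case {N f : ℝ[X]} {n : ℕ} (hf : f.natDegree = n) (hN : N.natDegree ≤ n)
    (h0 : ∀ z : ℂ, 0 < z.im → aeval z f ≠ 0)
    (h1 : ∀ z : ℂ, 0 < z.im → (aeval z N / aeval z f).im ≤ 0)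
    (hc : ∀ a : ℝ, f.eval a = 0 → N.eval a ≠ 0) :
    ∃ (l b : Fin n → ℝ) (β : ℝ), (∀ k, 0 ≤ b k) ∧
      f = C f.leadingCoeff * ∏ k, (X - C (l k)) ∧
      N = C f.leadingCoeff * (C β * ∏ k, (X - C (l k)) +
        ∑ k, C (b k) * ∏ j ∈ univ.erase k, (X - C (l j))) := by
  obtain ⟨l, hl⟩ := splits n hf h0
  have hf0 := ne_zero h0
  have hlc : f.leadingCoeff ≠ 0 := leadingCoeff_ne_zero.2 hf0
  obtain ⟨G, hG⟩ : ∃ G : Fin n → ℝ[X],
      G = fun k => C f.leadingCoeff * ∏ j ∈ univ.erase k, (X - C (l j)) := ⟨_, rfl⟩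
  have e1 : ∀ k, f = (X - C (l k)) * G k := by
    intro k
    rw [hG, mul_left_comm, Finset.mul_prod_erase univ (fun j => X - C (l j)) (mem_univ k)]
    exact hl
  have e2 : ∀ k, (G k).eval (l k) ≠ 0 ∧ 0 ≤ N.eval (l k) / (G k).eval (l k) := by
    intro k
    have hG0 : G k ≠ 0 := fun h => hf0 (by rw [e1 k, h, mul_zero])
    obtain ⟨m, g, hg, hg0⟩ := factor hG0 (l k)
    have e3 : f = (X - C (l k)) ^ (m + 1) * g := by rw [e1 k, hg]; ring
    obtain ⟨rfl, h2⟩ := simple hg0 (hc _ (by rw [e1 k]; simp)) (m := m) (e3 ▸ h1)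
    rw [hg]
    simpa using ⟨hg0, h2⟩
  have inj : Function.Injective l := by
    intro k j h
    by_contra hne
    refine (e2 k).1 ?_
    rw [hG]
    simp only [eval_mul, eval_prod]
    rw [Finset.prod_eq_zero (mem_erase.2 ⟨Ne.symm hne, mem_univ j⟩) (by simp [h]), mul_zero]
  refine ⟨l, fun k => N.eval (l k) / (G k).eval (l k), N.coeff n / f.leadingCoeff,
    fun k => (e2 k).2, hl, ?_⟩
  have e4 : C f.leadingCoeff * (C (N.coeff n / f.leadingCoeff) * ∏ k, (X - C (l k)) +
      ∑ k, C (N.eval (l k) / (G k).eval (l k)) * ∏ j ∈ univ.erase k, (X - C (l j)))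
      = C (N.coeff n / f.leadingCoeff) * f + ∑ k, C (N.eval (l k) / (G k).eval (l k)) * G k := by
    rw [mul_add, mul_left_comm, ← hl, Finset.mul_sum]
    congr 1
    refine Finset.sum_congr rfl fun k _ => ?_
    rw [mul_left_comm, hG]
  rw [e4]
  refine eq_of_degree_sub_lt_of_eval_index_eq univ inj.injOn ?_ fun k _ => ?_
  · rw [card_univ, Fintype.card_fin, degree_lt_iff_coeff_zero]
    intro m hm
    have c1 : ∀ k, (G k).coeff m = 0 := by
      intro k
      refine coeff_eq_zero_of_natDegree_lt ?_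
      have hn : f.natDegree = (n - 1) + 1 := by have := k.pos; omega
      have := (cofactor (e1 k) hn h0).1
      have := k.pos
      omega
    simp only [coeff_sub, coeff_add, coeff_C_mul, finsetSum_coeff, c1, mul_zero, sum_const_zero,
      add_zero]
    rcases hm.eq_or_lt with rfl | hm
    · rw [show f.coeff n = f.leadingCoeff by rw [← hf]; rfl, div_mul_cancel₀ _ hlc, sub_self]
    · rw [coeff_eq_zero_of_natDegree_lt (hN.trans_lt hm),
        coeff_eq_zero_of_natDegree_lt (hf.trans_lt hm), mul_zero, sub_zero]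
  · have c2 : f.eval (l k) = 0 := by rw [e1 k]; simp
    simp only [eval_add, eval_mul, eval_C, eval_finsetSum, c2, mul_zero, zero_add]
    rw [Finset.sum_eq_single k, div_mul_cancel₀ _ (e2 k).1]
    · intro j _ hj
      have : (G j).eval (l k) = 0 := by
        rw [hG]
        simp only [eval_mul, eval_prod]
        rw [Finset.prod_eq_zero (mem_erase.2 ⟨Ne.symm hj, mem_univ k⟩) (by simp), mul_zero]
      rw [this, mul_zero]
    · simp

theorem prod_erase_succ {M : Type*} [CommMonoid M] {n : ℕ} (F : Fin (n + 1) → M) (k : Fin n) :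
    ∏ j ∈ univ.erase k.succ, F j = F 0 * ∏ j ∈ univ.erase k, F j.succ := by
  rw [← Finset.filter_ne', ← Finset.filter_ne', prod_filter, prod_filter, Fin.prod_univ_succ]
  simp [(Fin.succ_ne_zero k).symm]

end HLAux

open HLAux

theorem ne_zero_of_deriv {f : ℂ[X]} (hf : f ≠ 0)
    (h : ∀ z : ℂ, 0 < z.im → (f.derivative.eval z * conj (f.eval z)).im ≤ 0) {z : ℂ}
    (hz : 0 < z.im) : f.eval z ≠ 0 := by
  intro h0
  obtain ⟨m, g, hg, hg0⟩ := factor hf z
  cases m with
  | zero => exact hg0 (by simpa [hg] using h0)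
  | succ m =>
    have h2 : Continuous fun ε : ℝ => z - ε * I := by fun_prop
    have h3 : Continuous fun ε : ℝ => (m + 1 : ℝ) * normSq (g.eval (z - ε * I))
        + ε * (g.derivative.eval (z - ε * I) * conj (g.eval (z - ε * I))).im := by
      have h4 := g.continuous.comp h2
      have h5 := g.derivative.continuous.comp h2
      exact (continuous_const.mul (continuous_normSq.comp h4)).add
        (continuous_id.mul (continuous_im.comp (h5.mul (continuous_conj.comp h4))))
    have h6 : ∀ᶠ ε : ℝ in 𝓝 0, 0 < (m + 1 : ℝ) * normSq (g.eval (z - ε * I))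
        + ε * (g.derivative.eval (z - ε * I) * conj (g.eval (z - ε * I))).im := by
      refine h3.continuousAt.eventually (lt_mem_nhds ?_)
      have := normSq_pos.2 hg0
      simp only [ofReal_zero, zero_mul, sub_zero, add_zero]
      positivity
    have h7 : ∀ᶠ ε : ℝ in 𝓝[>] 0, _ :=
      ((h6.and (gt_mem_nhds hz)).filter_mono nhdsWithin_le_nhds).and self_mem_nhdsWithin
    obtain ⟨ε, ⟨h8, h9⟩, hε⟩ := h7.exists
    have hε : 0 < ε := hε
    have h10 := h (z - ε * I) (by simpa using h9)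
    have e1 : f.derivative.eval (z - ε * I) * conj (f.eval (z - ε * I))
        = (ε ^ (2 * m + 1) : ℝ) * (((m + 1 : ℝ) * normSq (g.eval (z - ε * I)) : ℝ) * I
          + ε * (g.derivative.eval (z - ε * I) * conj (g.eval (z - ε * I)))) := by
      have e2 : (-(ε * I) : ℂ) ^ m * (ε * I) ^ m = ε ^ (2 * m) := by
        rw [← mul_pow, pow_mul]
        congr 1
        linear_combination (-(ε : ℂ) ^ 2) * I_sq
      rw [hg]
      simp only [derivative_mul, derivative_X_sub_C_pow, eval_add, eval_mul, eval_pow, eval_sub,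
        eval_X, eval_C, sub_sub_cancel_left, map_mul, map_pow, map_neg, conj_ofReal, conj_I,
        Nat.add_sub_cancel, mul_neg, neg_neg]
      push_cast
      rw [← mul_conj, pow_succ (ε : ℂ) (2 * m), ← e2]
      linear_combination (-((-(ε * I) : ℂ) ^ m * (ε * I) ^ m * ε ^ 2
        * g.derivative.eval (z - ε * I) * conj (g.eval (z - ε * I)))) * I_sq
    rw [e1, im_ofReal_mul, add_im, im_ofReal_mul, im_ofReal_mul, I_im, mul_one] at h10
    exact absurd h10 (not_le.2 (mul_pos (pow_pos hε _) h8))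

theorem hl {N f : ℝ[X]} {n : ℕ} (hf : f.natDegree = n) (hN : N.natDegree ≤ n)
    (h0 : ∀ z : ℂ, 0 < z.im → aeval z f ≠ 0)
    (h1 : ∀ z : ℂ, 0 < z.im → (aeval z N / aeval z f).im ≤ 0) :
    ∃ (l b : Fin n → ℝ) (β : ℝ), (∀ k, 0 ≤ b k) ∧
      f = C f.leadingCoeff * ∏ k, (X - C (l k)) ∧
      N = C f.leadingCoeff * (C β * ∏ k, (X - C (l k)) +
        ∑ k, C (b k) * ∏ j ∈ univ.erase k, (X - C (l j))) := by
  induction n generalizing N f with
  | zero =>
    refine coprime_case hf hN h0 h1 fun a ha => ?_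
    rw [eq_C_of_natDegree_eq_zero hf, eval_C] at ha
    exact absurd (by rw [eq_C_of_natDegree_eq_zero hf, ha, map_zero]) (ne_zero h0)
  | succ n ih =>
    by_cases hc : ∀ a : ℝ, f.eval a = 0 → N.eval a ≠ 0
    · exact coprime_case hf hN h0 h1 hc
    push Not at hc
    obtain ⟨a, ha, ha'⟩ := hc
    obtain ⟨g, hg⟩ := dvd_iff_isRoot.2 ha
    obtain ⟨M, hM⟩ := dvd_iff_isRoot.2 ha'
    obtain ⟨h2, h3, h4⟩ := cofactor hg hf h0
    have h5 : M.natDegree ≤ n := by
      by_cases hM0 : M = 0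
      · simp [hM0]
      · rw [hM, natDegree_mul (X_sub_C_ne_zero a) hM0, natDegree_X_sub_C] at hN
        omega
    obtain ⟨l, b, β, hb, e1, e2⟩ := ih h2 h5 h4 fun z hz => by
      have h6 : aeval z (X - C a) ≠ 0 := by
        intro h
        exact h0 z hz (by rw [hg, map_mul, h, zero_mul])
      have := h1 z hz
      rwa [hg, hM, map_mul, map_mul, mul_div_mul_left _ _ h6] at this
    refine ⟨Fin.cons a l, Fin.cons 0 b, β, fun k => Fin.cases le_rfl hb k, ?_, ?_⟩
    · rw [Fin.prod_univ_succ, ← h3]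
      simp only [Fin.cons_zero, Fin.cons_succ]
      rw [hg, mul_left_comm, ← e1]
    · rw [Fin.prod_univ_succ, Fin.sum_univ_succ, ← h3]
      simp only [prod_erase_succ, Fin.cons_zero, Fin.cons_succ, map_zero, zero_mul, zero_add]
      have e3 : ∑ k, C (b k) * ((X - C a) * ∏ j ∈ univ.erase k, (X - C (l j)))
          = (X - C a) * ∑ k, C (b k) * ∏ j ∈ univ.erase k, (X - C (l j)) := by
        rw [Finset.mul_sum]
        exact Finset.sum_congr rfl fun k _ => mul_left_comm _ _ _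
      rw [e3]
      linear_combination hM + (X - C a) * e2

end Vale.Agent.P078
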