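import Vale.Agent.P078.Slice
import Vale.Agent.P078.HL

/-! The barrier argument. -/

set_option linter.unusedSectionVars false

namespace Vale.Agent.P078

open Finset Polynomial MeasureTheory Complex Filter Topology
open scoped ComplexConjugate Matrix

variable {V : Type} [Fintype V] [DecidableEq V] {r : ℕ}

theorem bar_two_le {n : ℕ} (hn : 4 ≤ n) : 2 ≤ √(n : ℝ) :=
  Real.le_sqrt_of_sq_le (by exact_mod_cast hn)

theorem bar_c_pos {Ω : ℝ} (h : 2 ≤ Ω) : 0 < Ω - 1 / (Ω - 1) := by
  have : 1 / (Ω - 1) ≤ 1 := (div_le_one (by linarith)).2 (by linarith)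
  linarith

theorem barrier_step {n : ℕ} (hn : 4 ≤ n) {l b : Fin n → ℝ} {β u : ℝ} (hb : ∀ k, 0 ≤ b k)
    (hl : ∀ k, l k < √n) (h1 : (√n - 1 / (√n - 1)) * ∑ k, 1 / (√n - l k) ≤ n)
    (hu : 4 / √n ≤ u) : 0 < n * u - ∑ k, l k ∧
      β * (n * u - ∑ k, l k) + ∑ k, b k ≤ (β + ∑ k, b k / (√n - l k)) * (n * u - ∑ k, l k) := by
  have h2 := bar_two_le hn
  have h3 : √(n : ℝ) * √n = n := Real.mul_self_sqrt (Nat.cast_nonneg n)
  have hc := bar_c_pos h2
  generalize √(n : ℝ) = Ω at *
  have ha : ∀ k, 0 < Ω - l k := fun k => sub_pos.2 (hl k)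
  have h4 : (n - 4) * Ω ≤ (Ω - 1 / (Ω - 1)) * (n - 2) := by
    have h5 : 1 / (Ω - 1) * (n - 2) ≤ 2 * Ω := by
      rw [one_div_mul_eq_div, div_le_iff₀ (by linarith)]
      nlinarith [sq_nonneg (Ω - 1)]
    linarith
  generalize Ω - 1 / (Ω - 1) = c at *
  have h5 : 4 * Ω ≤ n * u := by
    rw [div_le_iff₀ (by linarith)] at hu
    nlinarith
  have key : ∀ k, Ω - l k ≤ n * u - ∑ k, l k := fun k => by
    have h6 : ∑ j ∈ univ.erase k, (2 * c - c * (c * (1 / (Ω - l j))))
        ≤ ∑ j ∈ univ.erase k, (Ω - l j) := sum_le_sum fun j _ => by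
      have h7 := ha j
      rw [mul_one_div, ← mul_div_assoc, sub_le_comm, le_div_iff₀ h7]
      nlinarith [sq_nonneg (c - (Ω - l j))]
    have h7 : ∑ j ∈ univ.erase k, 1 / (Ω - l j) ≤ ∑ j, 1 / (Ω - l j) :=
      sum_le_sum_of_subset_of_nonneg (subset_univ _) fun j _ _ => (one_div_pos.2 (ha j)).le
    have h8 : ((univ.erase k).card : ℝ) = n - 1 := by
      rw [card_erase_of_mem (mem_univ k), card_univ, Fintype.card_fin, Nat.cast_pred (by omega)]
    rw [sum_sub_distrib, sum_sub_distrib, sum_const, sum_const, nsmul_eq_mul, nsmul_eq_mul, h8,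
      ← mul_sum, ← mul_sum, sum_erase_eq_sub (mem_univ k) (f := l)] at h6
    have h9 : c * (c * ∑ j ∈ univ.erase k, 1 / (Ω - l j)) ≤ c * n :=
      mul_le_mul_of_nonneg_left ((mul_le_mul_of_nonneg_left h7 hc.le).trans h1) hc.le
    linarith
  refine ⟨(ha ⟨0, by omega⟩).trans_le (key _), ?_⟩
  rw [add_mul, sum_mul]
  refine add_le_add le_rfl (sum_le_sum fun k _ => ?_)
  rw [div_mul_eq_mul_div, le_div_iff₀ (ha k)]
  exact mul_le_mul_of_nonneg_left (key k) (hb k)

theorem bar_poly {n : ℕ} (hn : 4 ≤ n) {f N : ℝ[X]} (hf : f.natDegree ≤ n) (hN : N.natDegree ≤ n)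
    (hc : 0 < f.coeff n)
    (h1 : ∀ w : ℂ, 0 < w.im → (aeval w f.derivative * conj (aeval w f)).im ≤ 0)
    (h2 : ∀ w : ℂ, 0 < w.im → (aeval w N * conj (aeval w f)).im ≤ 0)
    (hpos : ∀ u : ℝ, √n ≤ u → 0 < f.eval u)
    (h3 : (√n - 1 / (√n - 1)) * f.derivative.eval √n ≤ n * f.eval √n) {K : ℝ}
    (h4 : (√n - 1 / (√n - 1)) * N.eval √n ≤ K * f.eval √n) {u : ℝ} (hu : 4 / √n ≤ u) :
    0 < n * f.coeff n * u + f.coeff (n - 1) ∧
      (√n - 1 / (√n - 1)) * (n * N.coeff n * u + N.coeff (n - 1))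
        ≤ K * (n * f.coeff n * u + f.coeff (n - 1)) := by
  have hd : f.natDegree = n := le_antisymm hf (le_natDegree_of_ne_zero hc.ne')
  have hlc : f.leadingCoeff = f.coeff n := by rw [leadingCoeff, hd]
  have hf0 : f ≠ 0 := fun h => by simp [h] at hc
  have h0 : ∀ w : ℂ, 0 < w.im → aeval w f ≠ 0 := fun w hw => by
    have := ne_zero_of_deriv (f := f.map (algebraMap ℝ ℂ)) (map_ne_zero hf0)
      (fun z hz => by simpa only [derivative_map, eval_map_algebraMap] using h1 z hz) hw
    rwa [eval_map_algebraMap] at this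
  obtain ⟨l, b, β, hb, e1, e2⟩ := hl hd hN h0 fun w hw => by
    rw [Complex.div_im, ← sub_div]
    refine div_nonpos_of_nonpos_of_nonneg ?_ (normSq_nonneg _)
    have := h2 w hw
    rw [mul_im, conj_re, conj_im] at this
    linarith
  rw [hlc] at e1 e2
  generalize f.coeff n = a at hc e1 e2 hlc ⊢
  have hl' : ∀ k, l k < √n := fun k => by
    by_contra h
    have := hpos (l k) (not_lt.1 h)
    rw [e1, eval_mul, eval_prod, prod_eq_zero (mem_univ k) (by simp), mul_zero] at this
    exact lt_irrefl _ this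
  have ha : ∀ k, 0 < √n - l k := fun k => sub_pos.2 (hl' k)
  have hQ : 0 < ∏ k, (√n - l k) := prod_pos fun k _ => ha k
  have hq : ∀ k, ∏ j ∈ univ.erase k, (√n - l j) = (∏ k, (√n - l k)) * (1 / (√n - l k)) :=
    fun k => by
      rw [← prod_erase_mul _ _ (mem_univ k), mul_assoc, mul_one_div_cancel (ha k).ne', mul_one]
  have v1 : f.eval √n = a * ∏ k, (√n - l k) := by
    rw [e1]
    simp [eval_prod]
  have v2 : f.derivative.eval √n = a * ((∏ k, (√n - l k)) * ∑ k, 1 / (√n - l k)) := by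
    rw [e1, derivative_C_mul, derivative_prod_finset, mul_sum (f := fun k => 1 / (√n - l k))]
    simp only [← hq]
    simp [eval_prod, eval_finsetSum]
  have v3 : N.eval √n = a * ((∏ k, (√n - l k)) * (β + ∑ k, b k / (√n - l k))) := by
    rw [e2, mul_add (∏ k, (√n - l k)), mul_sum (f := fun k => b k / (√n - l k))]
    simp only [eval_mul, eval_C, eval_add, eval_finsetSum, eval_prod, eval_sub, eval_X, hq]
    congr 2
    · ring
    · exact sum_congr rfl fun k _ => by ring
  have c1 : (∏ k, (X - C (l k)) : ℝ[X]).coeff n = 1 := by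
    have := (monic_prod_X_sub_C l univ).coeff_natDegree
    rwa [natDegree_finsetProd_X_sub_C_eq_card, card_univ, Fintype.card_fin] at this
  have c2 : (∏ k, (X - C (l k)) : ℝ[X]).coeff (n - 1) = -∑ k, l k := by
    have := prod_X_sub_C_coeff_card_pred univ l (by simp; omega)
    rwa [card_univ, Fintype.card_fin] at this
  have c0 : ∀ k, (∏ j ∈ univ.erase k, (X - C (l j)) : ℝ[X]).natDegree = n - 1 := fun k => by
    rw [natDegree_finsetProd_X_sub_C_eq_card, card_erase_of_mem (mem_univ k), card_univ,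
      Fintype.card_fin]
  have c3 : ∀ k, (∏ j ∈ univ.erase k, (X - C (l j)) : ℝ[X]).coeff n = 0 := fun k =>
    coeff_eq_zero_of_natDegree_lt (by rw [c0]; omega)
  have c4 : ∀ k, (∏ j ∈ univ.erase k, (X - C (l j)) : ℝ[X]).coeff (n - 1) = 1 := fun k => by
    rw [← c0 k]
    exact (monic_prod_X_sub_C l _).coeff_natDegree
  have w1 : f.coeff (n - 1) = a * -∑ k, l k := by rw [e1, coeff_C_mul, c2]
  have w2 : N.coeff n = a * β := by
    rw [e2]
    simp only [coeff_C_mul, coeff_add, finsetSum_coeff, c1, c3]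
    simp
  have w3 : N.coeff (n - 1) = a * (β * -∑ k, l k + ∑ k, b k) := by
    rw [e2]
    simp only [coeff_C_mul, coeff_add, finsetSum_coeff, c2, c4, mul_one]
  have hcp := bar_c_pos (bar_two_le hn)
  have haQ := mul_pos hc hQ
  obtain ⟨s1, s2⟩ := barrier_step hn (β := β) hb hl' (le_of_mul_le_mul_left (by
    rw [v1, v2] at h3; linarith) haQ) hu
  have s3 : (√n - 1 / (√n - 1)) * (β + ∑ k, b k / (√n - l k)) ≤ K :=
    le_of_mul_le_mul_left (by rw [v1, v3] at h4; linarith) haQ
  rw [w1, w2, w3]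
  have s4 := mul_pos hc s1
  have s5 := mul_le_mul_of_nonneg_left (mul_le_mul_of_nonneg_left s2 hc.le) hcp.le
  have s6 := mul_le_mul_of_nonneg_right s3 s4.le
  constructor <;> linarith

theorem bar_ratio {X : Matrix V V ℂ} (hX : Adm X) {k : V → ℕ} (hk : ∀ v, k v ≤ r) {y : V} {j : ℕ}
    (hy : k y = j + 1) {z : V → ℂ} (hz : ∀ v, 0 ≤ (z v).im) :
    (GG r X (Function.update k y j) z * conj (GG r X k z)).im ≤ 0 := by
  have h1 : Continuous fun ε : ℝ => fun v => z v + ε * I := by fun_prop
  have h2 : Continuous fun ε : ℝ => (GG r X (Function.update k y j) (fun v => z v + ε * I) *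
      conj (GG r X k fun v => z v + ε * I)).im :=
    continuous_im.comp (((continuous_GG X _).comp h1).mul
      (continuous_conj.comp ((continuous_GG X _).comp h1)))
  have h3 := (h2.tendsto 0).mono_left (nhdsWithin_le_nhds (s := Set.Ioi 0))
  simp only [ofReal_zero, zero_mul, add_zero] at h3
  refine le_of_tendsto h3 (eventually_nhdsWithin_of_forall fun ε hε => GG_ratio hX hk hy fun v => ?_)
  have := hz v
  have : 0 < ε := hε
  simp only [add_im, mul_im, ofReal_re, I_im, ofReal_im, I_re]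
  linarith

theorem bar_base {X : Matrix V V ℂ} (hX : Adm X) (hr : 4 ≤ r) (T : Finset V) (z : V → ℝ)
    (hz : ∀ v ∈ T, √r ≤ z v) :
    0 < (GG r X (fun v => if v ∈ T then r else 0) fun v => (z v : ℂ)).re ∧ ∀ y ∈ T,
      (√r - 1 / (√r - 1)) * (GG r X (Function.update (fun v => if v ∈ T then r else 0) y (r - 1))
        fun v => (z v : ℂ)).re ≤
        r * (GG r X (fun v => if v ∈ T then r else 0) fun v => (z v : ℂ)).re := by
  obtain ⟨h1, h2⟩ := hX.pm_ratio (bar_two_le hr) hz
  have hH : (Matrix.diagonal (fun v => (z v : ℂ)) - X).IsHermitian :=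
    (Matrix.isHermitian_diagonal_iff.2 fun v => by simp [IsSelfAdjoint]).sub hX.herm
  have hre : ∀ S, pm (Matrix.diagonal (fun v => (z v : ℂ)) - X) S =
      ((pm (Matrix.diagonal (fun v => (z v : ℂ)) - X) S).re : ℂ) := fun S =>
    Complex.ext rfl (pm_im hH S)
  obtain ⟨m, rfl⟩ : ∃ m, r = m + 1 := ⟨r - 1, by omega⟩
  rw [GG_full, hre T, ← ofReal_pow, ofReal_re]
  refine ⟨pow_pos h1 _, fun y hy => ?_⟩
  rw [Nat.add_sub_cancel, GG_full_erase X hy, hre T, hre (T.erase y)]
  have h3 := mul_le_mul_of_nonneg_left (h2 y hy)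
    (show 0 ≤ ((m : ℝ) + 1) * (pm (Matrix.diagonal (fun v => (z v : ℂ)) - X) T).re ^ m by
      positivity)
  generalize (pm (Matrix.diagonal (fun v => (z v : ℂ)) - X) T).re = a at *
  generalize (pm (Matrix.diagonal (fun v => (z v : ℂ)) - X) (T.erase y)).re = b at *
  norm_cast
  push_cast at h3 ⊢
  rw [pow_succ]
  linarith

theorem bar_upd (z : V → ℝ) (x : V) (u : ℝ) :
    (fun v => ((Function.update z x u v : ℝ) : ℂ)) = Function.update (fun v => (z v : ℂ)) x u :=
  Function.comp_update (fun t : ℝ => (t : ℂ)) z x u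

theorem bar_aeval (u : ℝ) (f : ℝ[X]) : (aeval (u : ℂ) f).re = f.eval u := by
  rw [← coe_aeval_eq_eval, ← coe_algebraMap, aeval_algebraMap_apply, coe_algebraMap, ofReal_re]

theorem barrier_inv {X : Matrix V V ℂ} (hX : Adm X) (hr : 4 ≤ r) (k : V → ℕ)
    (hk : ∀ v, k v = 0 ∨ k v = 1 ∨ k v = r) (z : V → ℝ)
    (hz : ∀ v, (k v = 1 → 4 / √r ≤ z v) ∧ (k v = r → √r ≤ z v)) :
    0 < (GG r X k fun v => (z v : ℂ)).re ∧ ∀ y, k y = r →
      (√r - 1 / (√r - 1)) * (GG r X (Function.update k y (r - 1)) fun v => (z v : ℂ)).re ≤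
        r * (GG r X k fun v => (z v : ℂ)).re := by
  induction hm : (univ.filter fun v => k v = 1).card using Nat.strong_induction_on
    generalizing k z with
  | _ m ih =>
  by_cases h0 : ∃ x, k x = 1
  swap
  · have e : k = fun v => if v ∈ univ.filter fun v => k v = r then r else 0 := funext fun v => by
      rcases hk v with h | h | h
      · rw [if_neg (by simp; omega), h]
      · exact absurd ⟨v, h⟩ h0
      · rw [if_pos (by simpa using h), h]
    obtain ⟨h1, h2⟩ := bar_base hX hr (univ.filter fun v => k v = r) z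
      fun v hv => (hz v).2 (mem_filter.1 hv).2
    rw [← e] at h1 h2
    exact ⟨h1, fun y hy => h2 y (by simpa using hy)⟩
  obtain ⟨x, hx⟩ := h0
  have IH := fun (j : ℕ) (hj : j = 0 ∨ j = r) (u : ℝ) (hu : √r ≤ u) =>
    ih (univ.filter fun v => Function.update k x j v = 1).card (by
      rw [← hm]
      refine card_lt_card ⟨fun v hv => ?_, fun h => ?_⟩
      · by_cases hv' : v = x
        · simpa [hv'] using hx
        · simpa [hv'] using hv
      · have := h (mem_filter.2 ⟨mem_univ x, hx⟩)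
        simp at this
        omega) (Function.update k x j) (fun v => by
      by_cases hv : v = x
      · simp only [hv, Function.update_self]
        omega
      · simpa [hv] using hk v) (Function.update z x u) (fun v => by
      by_cases hv : v = x
      · simp only [hv, Function.update_self]
        exact ⟨fun _ => by omega, fun _ => hu⟩
      · simpa [hv] using hz v) rfl
  simp only [bar_upd] at IH
  have hr0 : 0 < r := by omega
  obtain ⟨f, hf, e⟩ := GG_slice hr0 hX.herm k x z
  have hkr : ∀ v, Function.update k x r v ≤ r := fun v => by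
    by_cases hv : v = x
    · simp [hv]
    · rw [Function.update_of_ne hv]
      rcases hk v with h | h | h <;> omega
  have him : ∀ w : ℂ, 0 < w.im → ∀ v, 0 ≤ (Function.update (fun v => (z v : ℂ)) x w v).im :=
    fun w hw v => by
      by_cases hv : v = x
      · simpa [hv] using hw.le
      · simp [hv]
  have hval : ∀ (k' : V → ℕ) (g : ℝ[X]), k' x = 1 →
      GG r X (Function.update k' x 1) (Function.update (fun v => (z v : ℂ)) x (z x)) =
        r * g.coeff r * (z x : ℂ) + g.coeff (r - 1) →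
      (GG r X k' fun v => (z v : ℂ)).re = r * g.coeff r * z x + g.coeff (r - 1) :=
    fun k' g h1 h2 => by
      rw [← h1, Function.update_eq_self, Function.update_eq_self x fun v => (z v : ℂ)] at h2
      rw [h2, h1]
      norm_cast
  have key := fun (N : ℝ[X]) (hN : N.natDegree ≤ r) h2 (K : ℝ) h4 =>
    bar_poly hr hf hN (by simpa [(e _).2.2.2] using (IH 0 (Or.inl rfl) _ le_rfl).1)
      (fun w hw => by
        have := bar_ratio hX hkr (y := x) (j := r - 1) (by simp; omega) (him w hw)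
        rwa [Function.update_idem, (e w).1, (e w).2.1] at this) h2
      (fun u hu => by simpa only [(e _).1, bar_aeval] using (IH r (Or.inr rfl) u hu).1)
      (by simpa only [Function.update_idem, (e _).1, (e _).2.1, bar_aeval] using
        (IH r (Or.inr rfl) _ le_rfl).2 x (Function.update_self ..)) (K := K) h4 ((hz x).1 hx)
  rw [hval k f hx (e _).2.2.1]
  refine ⟨(key f hf (fun w _ => by simp [mul_conj]) _ le_rfl).1, fun y hy => ?_⟩
  have hyx : y ≠ x := fun h => by
    rw [h] at hy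
    omega
  obtain ⟨N, hN, e'⟩ := GG_slice hr0 hX.herm (Function.update k y (r - 1)) x z
  have hy' : Function.update k x r y = r := by rw [Function.update_of_ne hyx, hy]
  rw [hval _ N (by rw [Function.update_of_ne hyx.symm, hx]) (e' _).2.2.1]
  refine (key N hN (fun w hw => ?_) r ?_).2
  · have := bar_ratio hX hkr (y := y) (j := r - 1) (by omega) (him w hw)
    rwa [← Function.update_comm hyx, (e w).1, (e' w).1] at this
  · have := (IH r (Or.inr rfl) _ le_rfl).2 y hy'
    rwa [← Function.update_comm hyx, (e _).1, (e' _).1, bar_aeval, bar_aeval] at this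

theorem barrier {X : Matrix V V ℂ} (hX : Adm X) (hr : 4 ≤ r) (T : Finset V) (z : V → ℝ)
    (hz : ∀ v ∈ T, 4 / √r ≤ z v) :
    NC (cf X fun _ => (none : Option (Fin r))) T (fun v => ((z v : ℂ))⁻¹) ≠ 0 := by
  have h2 := bar_two_le hr
  have h1 := NC_cf (r := r) (by omega) hX.herm (fun _ => none) T (z := fun v => (z v : ℂ))
    fun v hv => ofReal_ne_zero.2 (lt_of_lt_of_le (by positivity) (hz v hv)).ne'
  have h3 := (barrier_inv hX hr (fun v => if v ∈ T then 1 else 0)
    (fun v => by split_ifs <;> simp) z fun v => by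
      split_ifs with hv
      · exact ⟨fun _ => hz v hv, fun _ => by omega⟩
      · exact ⟨fun h => h.elim, fun _ => by omega⟩).1
  intro h
  rw [h, mul_zero] at h1
  have h4 : (GG r X (fun v => if v ∈ T then 1 else 0) fun v => (z v : ℂ)) = 0 := h1.symm
  simp [h4] at h3

end Vale.Agent.P078
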