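import Vale.Agent.P078.PM

/-! Expected minors. -/

set_option linter.unusedSectionVars false

namespace Vale.Agent.P078

open Finset Polynomial MeasureTheory Complex Filter Topology
open scoped ComplexConjugate Matrix

variable {V : Type} [Fintype V] [DecidableEq V] {r : ℕ}

variable {X X' : Matrix V V ℂ} {s s' : V → Option (Fin r)}

theorem card_allow_pos (hr : 0 < r) (o : Option (Fin r)) : 0 < (allow o).card := by
  cases o <;> simp [allow, hr]

theorem cf_den_pos (hr : 0 < r) (s : V → Option (Fin r)) : 0 < ∏ v, ((allow (s v)).card : ℝ) :=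
  prod_pos fun v _ => Nat.cast_pos.2 (card_allow_pos hr _)

theorem cf_card (s : V → Option (Fin r)) :
    ((Fintype.piFinset fun v => allow (s v)).card : ℝ) = ∏ v, ((allow (s v)).card : ℝ) := by
  rw [Fintype.card_piFinset, Nat.cast_prod]

theorem neg_mask_herm {C : Type} [DecidableEq C] (hX : X.IsHermitian) (c : V → C) :
    (-mask X c).IsHermitian := by
  refine (Matrix.IsHermitian.ext fun a b => ?_).neg
  by_cases h : c a = c b
  · simp [mask, h, ← hX.apply a b]
  · simp [mask, h, Ne.symm h]

theorem pm_mask_congr {C : Type} [DecidableEq C] (X : Matrix V V ℂ) {c c' : V → C} {S : Finset V}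
    (h : ∀ a ∈ S, c a = c' a) : pm (-mask X c) S = pm (-mask X c') S :=
  pm_congr fun a ha b hb => by simp [mask, h a ha, h b hb]

theorem sum_pi_swap {K : Type} {C C' : V → Finset K} {S : Finset V} (h : ∀ a ∈ S, C a = C' a)
    (F : (V → K) → (V → K) → ℝ) :
    ∑ c ∈ Fintype.piFinset C, ∑ c' ∈ Fintype.piFinset C', F c c' =
      ∑ c ∈ Fintype.piFinset C, ∑ c' ∈ Fintype.piFinset C',
        F (S.piecewise c' c) (S.piecewise c c') := by
  have hm : ∀ p ∈ Fintype.piFinset C ×ˢ Fintype.piFinset C',
      (S.piecewise p.2 p.1, S.piecewise p.1 p.2) ∈ Fintype.piFinset C ×ˢ Fintype.piFinset C' := by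
    intro p hp
    simp only [mem_product, Fintype.mem_piFinset] at hp ⊢
    refine ⟨fun a => ?_, fun a => ?_⟩ <;> by_cases ha : a ∈ S
    · rw [piecewise_eq_of_mem _ _ _ ha, h a ha]
      exact hp.2 a
    · rw [piecewise_eq_of_notMem _ _ _ ha]
      exact hp.1 a
    · rw [piecewise_eq_of_mem _ _ _ ha, ← h a ha]
      exact hp.1 a
    · rw [piecewise_eq_of_notMem _ _ _ ha]
      exact hp.2 a
  have hi : ∀ c c' : V → K, S.piecewise (S.piecewise c c') (S.piecewise c' c) = c := fun c c' => by
    ext a
    by_cases ha : a ∈ S <;> simp [ha]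
  rw [← sum_product', ← sum_product']
  exact sum_nbij' (fun p => (S.piecewise p.2 p.1, S.piecewise p.1 p.2))
    (fun p => (S.piecewise p.2 p.1, S.piecewise p.1 p.2)) hm hm (fun p _ => by simp [hi])
    (fun p _ => by simp [hi]) fun p _ => by simp [hi]

theorem cf_coe (hX : X.IsHermitian) (s : V → Option (Fin r)) (S : Finset V) :
    (cf X s S : ℂ) = (∑ c ∈ Fintype.piFinset fun v => allow (s v), pm (-mask X c) S) /
      ∏ v, ((allow (s v)).card : ℂ) := by
  unfold cf
  push_cast
  congr 1
  exact sum_congr rfl fun c _ => Complex.ext rfl (pm_im (neg_mask_herm hX c) S).symm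

theorem cf_empty (hr : 0 < r) (X : Matrix V V ℂ) (s : V → Option (Fin r)) : cf X s ∅ = 1 := by
  simp only [cf, pm_empty, Complex.one_re, sum_const, nsmul_eq_mul, mul_one, cf_card]
  exact div_self (cf_den_pos hr s).ne'

theorem cf_single (hX : Adm X) (s : V → Option (Fin r)) (v : V) : cf X s {v} = 0 := by
  simp [cf, pm_single, mask, hX.diag]

theorem cf_pair (hr : 0 < r) (hX : Adm X) (s : V → Option (Fin r)) {x v : V} (h : x ≠ v) :
    -‖X x v‖ ^ 2 ≤ cf X s {x, v} ∧ cf X s {x, v} ≤ 0 := by
  have h1 : ∀ c : V → Fin r, -‖X x v‖ ^ 2 ≤ (pm (-mask X c) {x, v}).re ∧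
      (pm (-mask X c) {x, v}).re ≤ 0 := fun c => by
    rw [pm_pair _ h]
    by_cases hc : c x = c v
    · simp [mask, hc, hX.diag, ← hX.herm.apply v x, Complex.mul_conj', ← Complex.ofReal_pow]
    · simp [mask, hc, hX.diag]
  have hp := cf_den_pos hr s
  unfold cf
  refine ⟨?_, div_nonpos_of_nonpos_of_nonneg (sum_nonpos fun c _ => (h1 c).2) hp.le⟩
  rw [le_div_iff₀ hp, ← cf_card, mul_comm, ← nsmul_eq_mul]
  exact card_nsmul_le_sum _ _ _ fun c _ => (h1 c).1

theorem cf_union (hr : 0 < r) (hX : X.IsHermitian) (s : V → Option (Fin r)) {S T : Finset V}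
    (hd : Disjoint S T) (h : ∀ a ∈ S, ∀ b ∈ T, X a b = 0) :
    cf X s (S ∪ T) = cf X s S * cf X s T := by
  have hp := cf_den_pos hr s
  have h1 := sum_pi_swap (C := fun v => allow (s v)) (S := S) (fun _ _ => rfl)
    fun c c' => (pm (-mask X c) T).re * (pm (-mask X c') S).re
  have h2 : ∀ c c' : V → Fin r, (pm (-mask X (S.piecewise c' c)) T).re *
      (pm (-mask X (S.piecewise c c')) S).re = (pm (-mask X c) (S ∪ T)).re := fun c c' => by
    rw [pm_mask_congr X fun a ha => piecewise_eq_of_notMem S c' c (disjoint_right.1 hd ha),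
      pm_mask_congr X fun a ha => piecewise_eq_of_mem S c c' ha,
      pm_union hd fun a ha b hb => by simp [mask, h a ha b hb], Complex.mul_re,
      pm_im (neg_mask_herm hX c)]
    ring
  simp only [h2, sum_const, nsmul_eq_mul, cf_card, ← mul_sum, ← sum_mul] at h1
  unfold cf
  field_simp
  linarith

theorem cf_avg {x : V} (hx : s x = none) (X : Matrix V V ℂ) (S : Finset V) :
    cf X s S = (∑ i, cf X (Function.update s x (some i)) S) / r := by
  have h1 : ∀ i, (Fintype.piFinset fun v => allow (Function.update s x (some i) v)) =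
      (Fintype.piFinset fun v => allow (s v)).filter fun c => c x = i := fun i => by
    ext c
    simp only [mem_filter, Fintype.mem_piFinset]
    refine ⟨fun h => ⟨fun a => ?_, by simpa [allow] using h x⟩, fun h a => ?_⟩ <;>
      by_cases ha : a = x
    · simp [ha, hx, allow]
    · simpa [ha] using h a
    · simp [ha, h.2, allow]
    · simpa [ha] using h.1 a
  have h2 : ∀ i, ∏ v, ((allow (Function.update s x (some i) v)).card : ℝ) =
      ∏ v ∈ univ.erase x, ((allow (s v)).card : ℝ) := fun i => by
    rw [← mul_prod_erase _ _ (mem_univ x), prod_congr rfl fun v hv => by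
      rw [Function.update_of_ne (ne_of_mem_erase hv)]]
    simp [allow]
  unfold cf
  simp only [h1, h2]
  rw [← sum_div, sum_fiberwise, div_div, ← mul_prod_erase _ _ (mem_univ x), hx, mul_comm]
  simp [allow]

theorem cf_congr (hr : 0 < r) {S : Finset V} {g : V → ℂ} (hg : ∀ a, ‖g a‖ = 1)
    (h : ∀ a ∈ S, ∀ b ∈ S, X a b = conj (g a) * X' a b * g b) (hs : ∀ a ∈ S, s a = s' a) :
    cf X s S = cf X' s' S := by
  have h1 := sum_pi_swap (C := fun v => allow (s v)) (C' := fun v => allow (s' v)) (S := S)
    (fun a ha => by rw [hs a ha]) fun _ c' => (pm (-mask X' c') S).re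
  have h2 : ∀ c c' : V → Fin r, pm (-mask X' (S.piecewise c c')) S = pm (-mask X c) S :=
    fun c c' => by
      rw [pm_mask_congr X' fun a ha => piecewise_eq_of_mem S c c' ha]
      refine (pm_gauge hg fun a ha b hb => ?_).symm
      by_cases hc : c a = c b <;> simp [mask, hc, h a ha b hb]
  simp only [h2, sum_const, nsmul_eq_mul, cf_card, ← mul_sum] at h1
  unfold cf
  rw [div_eq_div_iff (cf_den_pos hr s).ne' (cf_den_pos hr s').ne']
  linarith

theorem cf_some (X : Matrix V V ℂ) (c : V → Fin r) (S : Finset V) :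
    cf X (fun v => some (c v)) S = (pm (-mask X c) S).re := by
  simp [cf, allow, Fintype.piFinset_singleton]

theorem continuous_cf (s : V → Option (Fin r)) (S : Finset V) :
    Continuous fun X : Matrix V V ℂ => cf X s S := by
  refine (continuous_finsetSum _ fun c _ => Complex.continuous_re.comp
    ((continuous_pm S).comp (Continuous.neg (continuous_matrix fun a b => ?_)))).div_const _
  by_cases h : c a = c b
  · simpa [mask, h] using continuous_id.matrix_elem a b
  · simpa [mask, h] using continuous_const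

theorem ms_cf_le (hr : 0 < r) (hX : Adm X) (s : V → Option (Fin r)) (T : Finset V) (x : V)
    {w : V → ℝ} {L : ℝ} (hL : 0 ≤ L) (hw : ∀ v, X x v ≠ 0 → w v ≤ L) : ms (cf X s) T x w ≤ L := by
  have h1 : ms (cf X s) T x w ≤ ∑ v ∈ T.erase x, ‖X x v‖ ^ 2 * L := sum_le_sum fun v hv => by
    obtain ⟨h2, h3⟩ := cf_pair hr hX s (ne_of_mem_erase hv).symm
    by_cases h0 : X x v = 0
    · have : cf X s {x, v} = 0 := le_antisymm h3 (by simpa [h0] using h2)
      simp [this, h0]
    · exact (mul_le_mul_of_nonneg_left (hw v h0) (by linarith)).trans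
        (mul_le_mul_of_nonneg_right (by linarith) hL)
  refine h1.trans ((sum_le_sum_of_subset_of_nonneg (subset_univ _)
    fun _ _ _ => by positivity).trans ?_)
  rw [← sum_mul]
  exact mul_le_of_le_one_left hL (hX.row x)

theorem sum_pi_single (C : V → Finset (Fin r)) (T : Finset V) (G : (V → Finset (Fin r)) → ℂ) :
    ∑ c ∈ Fintype.piFinset C, G (fun v => if v ∈ T then {c v} else ∅) =
      (∏ v ∈ Tᶜ, ((C v).card : ℂ)) *
        ∑ K ∈ Fintype.piFinset fun v => (C v).powersetCard (if v ∈ T then 1 else 0), G K := by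
  rw [← sum_fiberwise_of_maps_to (t := Fintype.piFinset fun v =>
    (C v).powersetCard (if v ∈ T then 1 else 0))
    (g := fun c v => if v ∈ T then ({c v} : Finset (Fin r)) else ∅), mul_sum]
  · refine sum_congr rfl fun K hK => ?_
    simp only [Fintype.mem_piFinset, mem_powersetCard] at hK
    have h1 : ((Fintype.piFinset C).filter fun c => (fun v => if v ∈ T then {c v} else ∅) = K) =
        Fintype.piFinset fun v => if v ∈ T then K v else C v := by
      ext c
      simp only [mem_filter, Fintype.mem_piFinset, funext_iff]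
      refine ⟨fun h v => ?_, fun h => ⟨fun v => ?_, fun v => ?_⟩⟩ <;> by_cases hv : v ∈ T
      · simp [hv, ← h.2 v]
      · simp [hv, h.1 v]
      · exact (hK v).1 (by simpa [hv] using h v)
      · simpa [hv] using h v
      · obtain ⟨a, ha⟩ := card_eq_one.1 ((hK v).2.trans (if_pos hv))
        simpa [hv, ha] using h v
      · simpa [hv, eq_comm] using (hK v).2
    rw [sum_congr rfl fun c hc => congrArg G (mem_filter.1 hc).2, sum_const, h1,
      Fintype.card_piFinset, nsmul_eq_mul, Nat.cast_prod, ← prod_mul_prod_compl T,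
      prod_eq_one fun v hv => by simp [hv, (hK v).2], one_mul,
      prod_congr rfl fun v hv => by rw [if_neg (mem_compl.1 hv)]]
  · intro c hc
    simp only [Fintype.mem_piFinset, mem_powersetCard] at hc ⊢
    intro v
    by_cases hv : v ∈ T <;> simp [hv, hc v]

/-- The generating polynomial is a positive multiple of a member of the stable family. -/
theorem NC_cf (hr : 0 < r) (hX : X.IsHermitian) (s : V → Option (Fin r)) (T : Finset V)
    {z : V → ℂ} (hz : ∀ v ∈ T, z v ≠ 0) :
    (∏ v ∈ T, ((allow (s v)).card : ℂ) * z v) * NC (cf X s) T (fun v => (z v)⁻¹) =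
      PP X (fun v => allow (s v)) (fun v => if v ∈ T then 1 else 0) fun v _ => z v := by
  have h0 : ∀ U : Finset V, ∏ v ∈ U, ((allow (s v)).card : ℂ) ≠ 0 := fun U =>
    prod_ne_zero_iff.2 fun v _ => Nat.cast_ne_zero.2 (card_allow_pos hr _).ne'
  have h1 : (∏ v ∈ T, z v) * NC (cf X s) T (fun v => (z v)⁻¹) =
      (∑ c ∈ Fintype.piFinset fun v => allow (s v), pm (Matrix.diagonal z - mask X c) T) /
        ∏ v, ((allow (s v)).card : ℂ) := by
    simp only [NC, NN, cf_coe hX, sub_eq_add_neg, pm_expand]
    rw [sum_comm, sum_div, mul_sum]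
    refine sum_congr rfl fun S hS => ?_
    have h2 : ∏ v ∈ S, z v ≠ 0 := prod_ne_zero_iff.2 fun v hv => hz v (mem_powerset.1 hS hv)
    rw [← prod_sdiff (mem_powerset.1 hS), prod_inv_distrib, ← sum_mul]
    field_simp
  have h2 := sum_pi_single (fun v => allow (s v)) T
    fun K => ∏ c, pm (Matrix.diagonal z - X) (univ.filter fun v => c ∈ K v)
  have h3 : ∀ c : V → Fin r, ∏ i, pm (Matrix.diagonal z - X)
      (univ.filter fun v => i ∈ if v ∈ T then ({c v} : Finset (Fin r)) else ∅) =
      pm (Matrix.diagonal z - mask X c) T := fun c => by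
    rw [pm_mask]
    refine prod_congr rfl fun i _ => ?_
    congr 1
    ext v
    by_cases hv : v ∈ T <;> simp [hv, eq_comm]
  simp only [h3] at h2
  rw [prod_mul_distrib, mul_assoc, h1, h2, ← prod_mul_prod_compl T, PP]
  have := h0 T
  have := h0 Tᶜ
  field_simp

end Vale.Agent.P078
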