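import Vale.Agent.P078.MDefs

/-! The density theorem for self-adjoint contractions. -/

set_option linter.unusedSectionVars false

namespace Vale.Agent.P078

open Filter Topology Finset Vale.Agent.P104 Vale.Agent.P082
open scoped InnerProductSpace ComplexOrder ComplexConjugate

universe u v

variable {G : Type v} [NormedAddCommGroup G] [InnerProductSpace ℂ G] [CompleteSpace G]
  {M : Type u} [CStarAlgebra M] {ρ : M →⋆ₐ[ℂ] (G →L[ℂ] G)}

theorem mem_closure_of_re_orth (V : Submodule ℝ G) {x : G}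
    (h : ∀ y : G, (∀ v ∈ V, (⟪y, v⟫_ℂ).re = 0) → (⟪y, x⟫_ℂ).re = 0) : x ∈ closure (V : Set G) := by
  let _ := InnerProductSpace.rclikeToReal ℂ G
  have h1 : x ∈ Vᗮᗮ := by
    rw [Submodule.mem_orthogonal]
    intro y hy
    rw [Submodule.mem_orthogonal'] at hy
    exact h y hy
  rw [Submodule.orthogonal_orthogonal_eq_closure] at h1
  exact h1

theorem kp_star (a : G →L[ℂ] G) (x y : G) : ⟪star a x, y⟫_ℂ = ⟪x, a y⟫_ℂ := by
  rw [ContinuousLinearMap.star_eq_adjoint, ContinuousLinearMap.adjoint_inner_left]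

theorem kp_mul (a b : G →L[ℂ] G) (x : G) : (a * b) x = a (b x) := rfl

theorem kp_comm (K : Submodule ℂ G) {a a' : G →L[ℂ] G} (hadj : ∀ x y, ⟪a x, y⟫_ℂ = ⟪x, a' y⟫_ℂ)
    (ha : ∀ x ∈ K, a x ∈ K) (ha' : ∀ x ∈ K, a' x ∈ K) (x : G) :
    K.topologicalClosure.starProjection (a x) = a (K.topologicalClosure.starProjection x) := by
  refine Submodule.eq_starProjection_of_mem_of_inner_eq_zero
    (map_mem_closure a.continuous (K.topologicalClosure.starProjection_apply_mem x) ha)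
    fun w hw => ?_
  rw [← map_sub, hadj]
  exact Submodule.starProjection_inner_eq_zero x _ (map_mem_closure a'.continuous hw ha')

section amp

variable {J : Type} [Fintype J]

/-- The diagonal amplification. -/
noncomputable def kp_amp (J : Type) [Fintype J] (a : G →L[ℂ] G) :
    PiLp 2 (fun _ : J => G) →L[ℂ] PiLp 2 (fun _ : J => G) :=
  (PiLp.continuousLinearEquiv 2 ℂ (fun _ : J => G)).symm.toContinuousLinearMap ∘L
    ContinuousLinearMap.pi fun j => a ∘L PiLp.proj 2 (fun _ : J => G) j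

theorem kp_amp_apply (a : G →L[ℂ] G) (x : PiLp 2 (fun _ : J => G)) (j : J) :
    kp_amp J a x j = a (x j) := rfl

/-- The inclusion of a summand. -/
noncomputable def kp_inc [DecidableEq J] (j : J) : G →L[ℂ] PiLp 2 (fun _ : J => G) :=
  (PiLp.continuousLinearEquiv 2 ℂ (fun _ : J => G)).symm.toContinuousLinearMap ∘L
    ContinuousLinearMap.single ℂ (fun _ : J => G) j

theorem kp_inc_apply [DecidableEq J] (j : J) (x : G) (i : J) :
    kp_inc j x i = (Pi.single j x : J → G) i := rfl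

theorem kp_sum_inc [DecidableEq J] (x : PiLp 2 (fun _ : J => G)) : ∑ j, kp_inc j (x j) = x := by
  ext i
  simp [kp_inc_apply, Pi.single_apply]

theorem kp_amp_inc [DecidableEq J] (a : G →L[ℂ] G) (j : J) (x : G) :
    kp_amp J a (kp_inc j x) = kp_inc j (a x) := by
  ext i
  rw [kp_amp_apply, kp_inc_apply, kp_inc_apply, Pi.single_apply, Pi.single_apply]
  split_ifs
  · rfl
  · exact map_zero a

theorem kp_amp_adj (a : G →L[ℂ] G) (x y : PiLp 2 (fun _ : J => G)) :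
    ⟪kp_amp J a x, y⟫_ℂ = ⟪x, kp_amp J (star a) y⟫_ℂ := by
  simp only [PiLp.inner_apply, kp_amp_apply]
  exact sum_congr rfl fun j _ => by rw [← kp_star, star_star]

/-- The orbit of a vector. -/
def kp_orb (B : StarSubalgebra ℂ (G →L[ℂ] G)) (x : PiLp 2 (fun _ : J => G)) :
    Submodule ℂ (PiLp 2 (fun _ : J => G)) where
  carrier := {v | ∃ b ∈ B, v = kp_amp J b x}
  zero_mem' := ⟨0, zero_mem B, rfl⟩
  add_mem' := by
    rintro _ _ ⟨a, ha, rfl⟩ ⟨b, hb, rfl⟩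
    exact ⟨a + b, add_mem ha hb, rfl⟩
  smul_mem' := by
    rintro c _ ⟨a, ha, rfl⟩
    exact ⟨c • a, B.smul_mem ha c, rfl⟩

/-- The self-adjoint part of the orbit of a vector. -/
def kp_orbR (B : StarSubalgebra ℂ (G →L[ℂ] G)) (x : PiLp 2 (fun _ : J => G)) :
    Submodule ℝ (PiLp 2 (fun _ : J => G)) where
  carrier := {v | ∃ b ∈ B, star b = b ∧ v = kp_amp J b x}
  zero_mem' := ⟨0, zero_mem B, star_zero _, rfl⟩
  add_mem' := by
    rintro _ _ ⟨a, ha, ha', rfl⟩ ⟨b, hb, hb', rfl⟩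
    exact ⟨a + b, add_mem ha hb, by rw [star_add, ha', hb'], rfl⟩
  smul_mem' := by
    rintro c _ ⟨a, ha, ha', rfl⟩
    exact ⟨(c : ℂ) • a, B.smul_mem ha c, by rw [star_smul, ha', Complex.star_def,
      Complex.conj_ofReal], rfl⟩

end amp

theorem kp_bic (B : StarSubalgebra ℂ (G →L[ℂ] G)) {P T : G →L[ℂ] G} (hP : IsStarProjection P)
    (hPB : ∀ b ∈ B, b * P = P * b)
    (hc : ∀ S, (∀ b ∈ B, b * S = S * b) → P * S * P = S → T * S = S * T) {J : Type} [Fintype J]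
    {η : J → G} (hη : ∀ j, P (η j) = η j) {δ : ℝ} (hδ : 0 < δ) :
    ∃ y ∈ B, ∀ j, ‖y (η j) - T (η j)‖ ≤ δ := by
  classical
  have hPP : P * P = P := hP.isIdempotentElem.eq
  have hTP : T * P = P * T := hc P hPB (by rw [hPP, hPP])
  obtain ⟨x, hx⟩ : ∃ x : PiLp 2 (fun _ : J => G), ∀ j, x j = η j := ⟨WithLp.toLp 2 η, fun _ => rfl⟩
  obtain ⟨Q, hQ⟩ : ∃ Q, Q = (kp_orb B x).topologicalClosure.starProjection := ⟨_, rfl⟩
  have hinv : ∀ b ∈ B, ∀ v ∈ kp_orb B x, kp_amp J b v ∈ kp_orb B x := by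
    rintro b hb _ ⟨a, ha, rfl⟩
    exact ⟨b * a, mul_mem hb ha, rfl⟩
  have hQB : ∀ b ∈ B, ∀ v, Q (kp_amp J b v) = kp_amp J b (Q v) := fun b hb v => by
    rw [hQ]
    exact kp_comm _ (kp_amp_adj b) (hinv b hb) (hinv _ (star_mem hb)) v
  have hQx : Q x = x := by
    rw [hQ, Submodule.starProjection_eq_self_iff]
    exact subset_closure ⟨1, one_mem B, rfl⟩
  have hPQ : ∀ v, kp_amp J P (Q v) = Q v := fun v => by
    have h1 : Q v ∈ closure (kp_orb B x : Set (PiLp 2 (fun _ : J => G))) := by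
      rw [hQ]
      exact (kp_orb B x).topologicalClosure.starProjection_apply_mem v
    refine (isClosed_eq (kp_amp J P).continuous continuous_id).closure_subset_iff.2 ?_ h1
    rintro _ ⟨a, ha, rfl⟩
    ext j
    show P (a (x j)) = a (x j)
    rw [← kp_mul, ← hPB a ha, kp_mul, hx, hη]
  have hS : ∀ i j, T * (P * (PiLp.proj 2 (fun _ : J => G) i ∘L Q ∘L kp_inc j) * P) =
      P * (PiLp.proj 2 (fun _ : J => G) i ∘L Q ∘L kp_inc j) * P * T := fun i j => by
    refine hc _ (fun b hb => ?_) (by simp only [← mul_assoc, hPP]; simp only [mul_assoc, hPP])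
    have e : b * (PiLp.proj 2 (fun _ : J => G) i ∘L Q ∘L kp_inc j) =
        (PiLp.proj 2 (fun _ : J => G) i ∘L Q ∘L kp_inc j) * b := by
      ext w
      show b (Q (kp_inc j w) i) = Q (kp_inc j (b w)) i
      rw [← kp_amp_inc, hQB b hb, kp_amp_apply]
    rw [← mul_assoc, ← mul_assoc, hPB b hb, mul_assoc P b, e, mul_assoc, mul_assoc, hPB b hb]
    simp only [mul_assoc]
  have key : kp_amp J T x = Q (kp_amp J T x) := by
    ext i
    have e1 : ∀ v : PiLp 2 (fun _ : J => G), Q v i = ∑ j, P (Q (kp_inc j (v j)) i) := fun v => by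
      conv_lhs => rw [← hPQ v, kp_amp_apply, ← kp_sum_inc v]
      simp only [map_sum, WithLp.ofLp_sum, Finset.sum_apply]
    rw [e1, kp_amp_apply]
    conv_lhs => rw [← hQx, e1, map_sum]
    refine sum_congr rfl fun j _ => ?_
    have e2 : T (P (Q (kp_inc j (P (x j))) i)) = P (Q (kp_inc j (P (T (x j)))) i) :=
      congrArg (fun A : G →L[ℂ] G => A (x j)) (hS i j)
    have e3 : P (T (x j)) = T (x j) := by rw [← kp_mul, ← hTP, kp_mul, hx, hη]
    rw [e3, hx, hη] at e2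
    rw [kp_amp_apply, hx, e2]
  have hm : kp_amp J T x ∈ closure (kp_orb B x : Set (PiLp 2 (fun _ : J => G))) := by
    rw [key, hQ]
    exact (kp_orb B x).topologicalClosure.starProjection_apply_mem _
  obtain ⟨_, ⟨b, hb, rfl⟩, hd⟩ := Metric.mem_closure_iff.1 hm δ hδ
  refine ⟨b, hb, fun j => ?_⟩
  rw [dist_comm, dist_eq_norm] at hd
  rw [← hx]
  exact (PiLp.norm_apply_le (kp_amp J b x - kp_amp J T x) j).trans hd.le

theorem kap_sa (B : StarSubalgebra ℂ (G →L[ℂ] G)) {P T : G →L[ℂ] G} (hP : IsStarProjection P)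
    (hPB : ∀ b ∈ B, b * P = P * b) (hT : star T = T)
    (hc : ∀ S, (∀ b ∈ B, b * S = S * b) → P * S * P = S → T * S = S * T) {J : Type} [Fintype J]
    {η : J → G} (hη : ∀ j, P (η j) = η j) {δ : ℝ} (hδ : 0 < δ) :
    ∃ y ∈ B, star y = y ∧ ∀ j, ‖y (η j) - T (η j)‖ ≤ δ := by
  have hPP : P * P = P := hP.isIdempotentElem.eq
  have hTP : T * P = P * T := hc P hPB (by rw [hPP, hPP])
  obtain ⟨x, hx⟩ : ∃ x : PiLp 2 (fun _ : J => G), ∀ j, x j = η j := ⟨WithLp.toLp 2 η, fun _ => rfl⟩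
  have hm : kp_amp J T x ∈ closure (kp_orbR B x : Set (PiLp 2 (fun _ : J => G))) := by
    refine mem_closure_of_re_orth _ fun z hz => ?_
    have e1 : ∀ m : G →L[ℂ] G, m * P = P * m →
        ⟪z, kp_amp J m x⟫_ℂ = ∑ j, ⟪P (z j), m (η j)⟫_ℂ := fun m hm => by
      rw [PiLp.inner_apply]
      refine sum_congr rfl fun j _ => ?_
      conv_rhs => rw [← hP.isSelfAdjoint.star_eq, kp_star, ← kp_mul, ← hm, kp_mul, hη]
      rw [kp_amp_apply, hx]
    have e2 : ∀ (m : G →L[ℂ] G) j, (⟪P (z j), (m + star m) (η j)⟫_ℂ).re =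
        (⟪P (z j), m (η j)⟫_ℂ).re + (⟪η j, m (P (z j))⟫_ℂ).re := fun m j => by
      rw [add_apply, inner_add_right, Complex.add_re, ← kp_star m (η j),
        ← inner_conj_symm (star m (η j)), Complex.conj_re]
    have e3 : ∀ b ∈ B, ∑ j, ((⟪P (z j), b (η j)⟫_ℂ).re + (⟪η j, b (P (z j))⟫_ℂ).re) = 0 :=
      fun b hb => by
        have hb' := add_mem hb (star_mem hb)
        have := hz _ ⟨b + star b, hb', by rw [star_add, star_star, add_comm], rfl⟩
        rw [e1 _ (hPB _ hb'), Complex.re_sum] at this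
        simpa only [e2] using this
    have e4 : ∑ j, ((⟪P (z j), T (η j)⟫_ℂ).re + (⟪η j, T (P (z j))⟫_ℂ).re) =
        2 * (⟪z, kp_amp J T x⟫_ℂ).re := by
      rw [e1 T hTP, Complex.re_sum, mul_sum]
      refine sum_congr rfl fun j _ => ?_
      rw [← e2, hT, add_apply, inner_add_right, Complex.add_re, two_mul]
    have e5 : ∀ ε : ℝ, 0 < ε → |2 * (⟪z, kp_amp J T x⟫_ℂ).re| ≤
        ε * ∑ j, (‖P (z j)‖ + ‖η j‖) := fun ε hε => by
      obtain ⟨b, hb, h⟩ := kp_bic B hP hPB hc (η := Sum.elim η fun j => P (z j))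
        (by
          rintro (j | j)
          · exact hη j
          · show P (P (z j)) = P (z j)
            rw [← kp_mul, hPP]) hε
      rw [← abs_neg, ← zero_sub, ← e3 b hb, ← e4, ← sum_sub_distrib, mul_sum]
      refine (abs_sum_le_sum_abs _ _).trans (sum_le_sum fun j _ => ?_)
      have a1 := (Complex.abs_re_le_norm _).trans
        ((norm_inner_le_norm (𝕜 := ℂ) (P (z j)) (b (η j) - T (η j))).trans
          (mul_le_mul_of_nonneg_left (h (.inl j)) (norm_nonneg _)))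
      have a2 := (Complex.abs_re_le_norm _).trans
        ((norm_inner_le_norm (𝕜 := ℂ) (η j) (b (P (z j)) - T (P (z j)))).trans
          (mul_le_mul_of_nonneg_left (h (.inr j)) (norm_nonneg _)))
      rw [inner_sub_right, Complex.sub_re, abs_le] at a1 a2
      rw [abs_le]
      constructor <;> nlinarith [a1.1, a1.2, a2.1, a2.2]
    have e6 : |2 * (⟪z, kp_amp J T x⟫_ℂ).re| ≤ 0 := by
      refine le_of_forall_pos_le_add fun ε hε => ?_
      have hs : 0 ≤ ∑ j, (‖P (z j)‖ + ‖η j‖) := sum_nonneg fun j _ => by positivity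
      refine (e5 (ε / (∑ j, (‖P (z j)‖ + ‖η j‖) + 1)) (by positivity)).trans ?_
      rw [zero_add, div_mul_eq_mul_div, div_le_iff₀ (by positivity)]
      nlinarith
    have := abs_nonpos_iff.1 e6
    linarith
  obtain ⟨_, ⟨b, hb, hb', rfl⟩, hd⟩ := Metric.mem_closure_iff.1 hm δ hδ
  refine ⟨b, hb, hb', fun j => ?_⟩
  rw [dist_comm, dist_eq_norm] at hd
  rw [← hx]
  exact (PiLp.norm_apply_le (kp_amp J b x - kp_amp J T x) j).trans hd.le

/-- The function with values in the unit interval. -/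
noncomputable def kp_f (s : ℝ) : ℝ := (1 + s ^ 2)⁻¹ * (s + s)

/-- Its inverse on the unit interval. -/
noncomputable def kp_g (s : ℝ) : ℝ := s / (1 + √(1 - s ^ 2))

theorem kp_r_cont : Continuous fun s : ℝ => (1 + s ^ 2)⁻¹ :=
  Continuous.inv₀ (by fun_prop) fun s => by positivity

theorem kp_f_cont : Continuous kp_f := kp_r_cont.mul (continuous_id.add continuous_id)

theorem kp_g_cont : Continuous kp_g :=
  Continuous.div continuous_id (by fun_prop) fun s => by positivity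

theorem kp_f_le (s : ℝ) : |kp_f s| ≤ 1 := by
  have h : 0 < 1 + s ^ 2 := by positivity
  rw [kp_f, inv_mul_eq_div, abs_div, abs_of_pos h, div_le_one h, abs_le]
  constructor <;> nlinarith [sq_nonneg (s - 1), sq_nonneg (s + 1)]

theorem kp_f_g {s : ℝ} (hs : |s| ≤ 1) : kp_f (kp_g s) = s := by
  have h1 : 0 ≤ 1 - s ^ 2 := by
    rw [← sq_abs]
    nlinarith [abs_nonneg s]
  have h2 := Real.sq_sqrt h1
  have h3 := Real.sqrt_nonneg (1 - s ^ 2)
  rw [kp_f, kp_g]
  generalize √(1 - s ^ 2) = r at h2 h3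
  have h4 : 1 + (s / (1 + r)) ^ 2 = 2 / (1 + r) := by
    field_simp
    nlinarith
  rw [h4]
  field_simp
  ring

theorem kp_res {a : G →L[ℂ] G} (ha : IsSelfAdjoint a) : ∃ R : G →L[ℂ] G, R * (1 + a * a) = 1 ∧
    (1 + a * a) * R = 1 ∧ ‖R‖ ≤ 1 ∧ cfc kp_f a = R * (a + a) ∧ cfc kp_f a = (a + a) * R ∧
    ∀ S, Commute a S → Commute R S := by
  have e1 : cfc (fun s : ℝ => 1 + s ^ 2) a = 1 + a * a := by
    rw [cfc_const_add 1 (fun s : ℝ => s ^ 2) a, cfc_pow_id a 2, map_one, sq]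
  have e2 : cfc (fun s : ℝ => s + s) a = a + a := by
    rw [cfc_add a (fun s : ℝ => s) fun s : ℝ => s, cfc_id' ℝ a]
  have c1 := kp_r_cont.continuousOn (s := spectrum ℝ a)
  refine ⟨cfc (fun s : ℝ => (1 + s ^ 2)⁻¹) a, ?_, ?_, ?_, ?_, ?_, fun S hS => hS.cfc_real _⟩
  · rw [← e1, ← cfc_mul _ _ a c1, ← cfc_const_one ℝ a]
    exact cfc_congr fun s _ => inv_mul_cancel₀ (by positivity)
  · rw [← e1, ← cfc_mul _ _ a (by fun_prop) c1, ← cfc_const_one ℝ a]
    exact cfc_congr fun s _ => mul_inv_cancel₀ (by positivity)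
  · refine norm_cfc_le zero_le_one fun s _ => ?_
    rw [Real.norm_of_nonneg (by positivity)]
    exact inv_le_one_of_one_le₀ (le_add_of_nonneg_right (sq_nonneg s))
  · rw [← e2, ← cfc_mul _ _ a c1]
    rfl
  · rw [← e2, ← cfc_mul _ _ a (by fun_prop) c1]
    exact cfc_congr fun s _ => mul_comm _ _

theorem kp_aeval (B : StarSubalgebra ℂ (G →L[ℂ] G)) {a : G →L[ℂ] G} (ha : a ∈ B)
    (p : Polynomial ℝ) : Polynomial.aeval a p ∈ B := by
  rw [Polynomial.aeval_eq_sum_range]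
  exact sum_mem fun i _ => B.smul_mem (pow_mem ha i) (p.coeff i : ℂ)

theorem kapl (B : StarSubalgebra ℂ (G →L[ℂ] G)) {P T : G →L[ℂ] G} (hP : IsStarProjection P)
    (hPB : ∀ b ∈ B, b * P = P * b) (hT : star T = T) (hn : ‖T‖ ≤ 1)
    (hc : ∀ S, (∀ b ∈ B, b * S = S * b) → P * S * P = S → T * S = S * T) {J : Type} [Fintype J]
    {η : J → G} (hη : ∀ j, P (η j) = η j) {δ : ℝ} (hδ : 0 < δ) :
    ∃ y ∈ B, star y = y ∧ ‖y‖ ≤ 1 ∧ ∀ j, ‖y (η j) - T (η j)‖ ≤ δ := by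
  have hT' : IsSelfAdjoint T := hT
  have hPP : P * P = P := hP.isIdempotentElem.eq
  obtain ⟨b, hb⟩ : ∃ b, b = cfc kp_g T := ⟨_, rfl⟩
  have hbs : IsSelfAdjoint b := hb ▸ IsSelfAdjoint.cfc
  have hfb : cfc kp_f b = T := by
    rw [hb, ← cfc_comp' kp_f kp_g T kp_f_cont.continuousOn kp_g_cont.continuousOn]
    conv_rhs => rw [← cfc_id' ℝ T]
    refine cfc_congr fun s hs => kp_f_g ?_
    have h2 : ‖(1 : G →L[ℂ] G)‖ ≤ 1 := ContinuousLinearMap.norm_id_le
    exact (spectrum.norm_le_norm_mul_of_mem hs).trans (mul_le_one₀ hn (norm_nonneg _) h2)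
  have hcb : ∀ S, (∀ b ∈ B, b * S = S * b) → P * S * P = S → b * S = S * b := fun S h1 h2 => by
    rw [hb]
    exact Commute.cfc_real (hc S h1 h2) _
  have hbP : Commute b P := hcb P hPB (by rw [hPP, hPP])
  obtain ⟨Rb, -, b2, -, -, b5, b6⟩ := kp_res hbs
  have hRP := b6 P hbP
  obtain ⟨a, ha, has, h⟩ := kap_sa B hP hPB hbs.star_eq hcb
    (η := Sum.elim (fun j => Rb (η j)) fun j => (b * Rb) (η j))
    (by
      rintro (j | j)
      · show P (Rb (η j)) = Rb (η j)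
        rw [← kp_mul, ← hRP.eq, kp_mul, hη]
      · show P ((b * Rb) (η j)) = (b * Rb) (η j)
        rw [← kp_mul, ← (hbP.mul_left hRP).eq, kp_mul, hη]) (half_pos (div_pos hδ three_pos))
  obtain ⟨Ra, a1, -, a3, a4, -, -⟩ := kp_res (a := a) has
  have hfa : ‖cfc kp_f a‖ ≤ 1 := norm_cfc_le zero_le_one fun s _ => kp_f_le s
  have hid : cfc kp_f a - T =
      Ra * (a - b) * Rb + Ra * (a - b) * Rb - cfc kp_f a * (a - b) * (b * Rb) := by
    have e1 : cfc kp_f a = Ra * (a + a) * ((1 + b * b) * Rb) := by rw [b2, mul_one, a4]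
    have e2 : T = Ra * (1 + a * a) * ((b + b) * Rb) := by rw [a1, one_mul, ← b5, hfb]
    conv_lhs => rw [e1, e2]
    rw [a4]
    noncomm_ring
  have h1 : ∀ j, ‖cfc kp_f a (η j) - T (η j)‖ ≤ δ / 2 := fun j => by
    have k1 : ‖Ra ((a - b) (Rb (η j)))‖ ≤ 1 * (δ / 3 / 2) :=
      Ra.le_of_opNorm_le_of_le a3 (h (.inl j))
    have k2 : ‖cfc kp_f a ((a - b) ((b * Rb) (η j)))‖ ≤ 1 * (δ / 3 / 2) :=
      (cfc kp_f a).le_of_opNorm_le_of_le hfa (h (.inr j))
    rw [← sub_apply, hid]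
    show ‖Ra ((a - b) (Rb (η j))) + Ra ((a - b) (Rb (η j))) -
      cfc kp_f a ((a - b) ((b * Rb) (η j)))‖ ≤ δ / 2
    refine (norm_sub_le _ _).trans ((add_le_add (norm_add_le _ _) le_rfl).trans ?_)
    linarith
  have hs : 0 ≤ ∑ j, ‖η j‖ := sum_nonneg fun j _ => norm_nonneg _
  obtain ⟨ε, hε, hεδ⟩ : ∃ ε : ℝ, 0 < ε ∧ 2 * ε * ∑ j, ‖η j‖ ≤ δ / 2 := by
    refine ⟨δ / 4 / (∑ j, ‖η j‖ + 1), by positivity, ?_⟩
    rw [mul_assoc, div_mul_eq_mul_div, ← mul_div_assoc, div_le_iff₀ (by positivity)]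
    nlinarith
  obtain ⟨p, hp⟩ := exists_polynomial_near_of_continuousOn (-‖a‖) ‖a‖ kp_f
    kp_f_cont.continuousOn ε hε
  have h2 := Clo.norm_cfc_sub_aeval (x := a) has le_rfl hε.le kp_f_cont fun t ht => (hp t ht).le
  have hq : IsSelfAdjoint (Polynomial.aeval a p) := by
    rw [← cfc_polynomial p a (show IsSelfAdjoint a from has)]
    exact IsSelfAdjoint.cfc
  have hqB := kp_aeval B ha p
  generalize Polynomial.aeval a p = q at h2 hq hqB
  have h3 : ‖q‖ ≤ 1 + ε := by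
    have := norm_add_le (q - cfc kp_f a) (cfc kp_f a)
    rw [sub_add_cancel] at this
    linarith
  have h1ε : 0 < 1 + ε := by positivity
  have h4 : ‖(((1 + ε)⁻¹ : ℝ) : ℂ) • q‖ ≤ 1 := by
    rw [norm_smul, Complex.norm_real, Real.norm_of_nonneg (by positivity), inv_mul_le_iff₀ h1ε]
    linarith
  have h5 : ‖(((1 + ε)⁻¹ : ℝ) : ℂ) • q - q‖ ≤ ε := by
    have e : (((1 + ε)⁻¹ : ℝ) : ℂ) • q - q = ((-ε : ℝ) : ℂ) • (((1 + ε)⁻¹ : ℝ) : ℂ) • q := by
      have e' : (1 + ε)⁻¹ - 1 = -ε * (1 + ε)⁻¹ := by field_simp; ring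
      rw [smul_smul, ← Complex.ofReal_mul, ← e', Complex.ofReal_sub, sub_smul, Complex.ofReal_one,
        one_smul]
    rw [e, norm_smul, Complex.norm_real, Real.norm_eq_abs, abs_neg, abs_of_pos hε]
    exact mul_le_of_le_one_right hε.le h4
  refine ⟨(((1 + ε)⁻¹ : ℝ) : ℂ) • q, B.smul_mem hqB _,
    by rw [star_smul, hq.star_eq, Complex.star_def, Complex.conj_ofReal], h4, fun j => ?_⟩
  generalize (((1 + ε)⁻¹ : ℝ) : ℂ) • q = y at h5
  have k0 : ‖η j‖ ≤ ∑ j, ‖η j‖ := single_le_sum (fun j _ => norm_nonneg (η j)) (mem_univ j)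
  have k1 := (y - q).le_of_opNorm_le_of_le h5 k0
  have k2 := (q - cfc kp_f a).le_of_opNorm_le_of_le h2 k0
  have k3 := h1 j
  rw [sub_apply, ← dist_eq_norm] at k1 k2
  rw [← dist_eq_norm] at k3 ⊢
  have := dist_triangle4 (y (η j)) (q (η j)) (cfc kp_f a (η j)) (T (η j))
  linarith

/-- The orbit of a vector under the commutant. -/
def kp_com (ρ : M →⋆ₐ[ℂ] (G →L[ℂ] G)) (ξ : G) : Submodule ℂ G where
  carrier := {v | ∃ T, Com ρ T ∧ v = T ξ}
  zero_mem' := ⟨0, fun m => by rw [mul_zero, zero_mul], rfl⟩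
  add_mem' := by
    rintro _ _ ⟨a, ha, rfl⟩ ⟨b, hb, rfl⟩
    exact ⟨a + b, fun m => by rw [mul_add, add_mul, ha m, hb m], rfl⟩
  smul_mem' := by
    rintro c _ ⟨a, ha, rfl⟩
    exact ⟨c • a, fun m => by rw [mul_smul_comm, smul_mul_assoc, ha m], rfl⟩

theorem dense_com (hρ : IsVN ρ) {ξ : G} (hs : ∀ m, ρ m ξ = 0 → m = 0) (η : G) {δ : ℝ}
    (hδ : 0 < δ) : ∃ T, Com ρ T ∧ ‖η - T ξ‖ ≤ δ := by
  obtain ⟨Q, hQ⟩ : ∃ Q, Q = (kp_com ρ ξ).topologicalClosure.starProjection := ⟨_, rfl⟩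
  have hQp : IsStarProjection (1 - Q) := by
    rw [hQ]; exact isStarProjection_starProjection.one_sub
  have hinv : ∀ S, Com ρ S → ∀ v ∈ kp_com ρ ξ, S v ∈ kp_com ρ ξ := by
    rintro S hS _ ⟨a, ha, rfl⟩
    exact ⟨S * a, fun m => by rw [← mul_assoc, hS m, mul_assoc, ha m, mul_assoc], rfl⟩
  have hst : ∀ S, Com ρ S → Com ρ (star S) := fun S hS m => by
    have := congrArg star (hS (star m))
    rw [star_mul, star_mul, ← map_star, star_star] at this
    exact this.symm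
  have hc : ∀ S, (∀ b ∈ ρ.range, b * S = S * b) → 1 * S * 1 = S → (1 - Q) * S = S * (1 - Q) := by
    intro S hS _
    have h1 : Com ρ S := fun m => hS _ ⟨m, rfl⟩
    have h2 : Q * S = S * Q := by
      ext x
      rw [hQ]
      exact kp_comm _ (fun x y => by rw [← kp_star, star_star]) (hinv S h1) (hinv _ (hst S h1)) x
    rw [sub_mul, mul_sub, h2, one_mul, mul_one]
  have hξ : (1 - Q) ξ = 0 := by
    have : Q ξ = ξ := by
      rw [hQ, Submodule.starProjection_eq_self_iff]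
      exact subset_closure ⟨1, fun m => by rw [mul_one, one_mul], rfl⟩
    rw [sub_apply, this]
    exact sub_self _
  obtain ⟨η0, hη0⟩ : ∃ η0, η0 = (1 - Q) η := ⟨_, rfl⟩
  have hη1 : (1 - Q) η0 = η0 := by rw [hη0, ← kp_mul, hQp.isIdempotentElem.eq]
  have key : ∀ n : ℕ, ∃ m : M, ‖m‖ ≤ 1 ∧ ‖ρ m ξ‖ ≤ 1 / ((n : ℝ) + 1) ∧
      ‖ρ m η0 - η0‖ ≤ 1 / ((n : ℝ) + 1) := fun n => by
    obtain ⟨_, ⟨m, rfl⟩, -, h1, h2⟩ := kapl ρ.range (IsStarProjection.one _)
      (fun b _ => by rw [mul_one, one_mul]) hQp.isSelfAdjoint.star_eq hQp.norm_le hc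
      (η := fun t : Bool => cond t ξ η0) (fun _ => rfl) (Nat.one_div_pos_of_nat (n := n))
    refine ⟨m, (hρ.norm_eq m).symm.trans_le h1, ?_, ?_⟩
    · have := h2 true
      rwa [cond_true, hξ, sub_zero] at this
    · have := h2 false
      rwa [cond_false, hη1] at this
  choose m h1 h2 h3 using key
  obtain ⟨x, hx⟩ := hρ.exists_lim (hyperfilter ℕ) (a := m) (Eventually.of_forall h1)
  have hU : (hyperfilter ℕ : Filter ℕ) ≤ atTop := Nat.hyperfilter_le_atTop
  have t1 : Tendsto (fun n => ρ (m n) ξ) atTop (𝓝 0) :=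
    squeeze_zero_norm h2 tendsto_one_div_add_atTop_nhds_zero_nat
  have t2 : Tendsto (fun n => ρ (m n) η0) atTop (𝓝 η0) :=
    tendsto_sub_nhds_zero_iff.1 (squeeze_zero_norm h3 tendsto_one_div_add_atTop_nhds_zero_nat)
  have hx0 : x = 0 := hs x (ext_inner_left ℂ fun ζ =>
    tendsto_nhds_unique (hx ζ ξ) (tendsto_const_nhds.inner (t1.mono_left hU)))
  have hη2 : η0 = 0 := by
    have := tendsto_nhds_unique (hx η0 η0) (tendsto_const_nhds.inner (t2.mono_left hU))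
    rw [hx0, map_zero, zero_apply, inner_zero_right] at this
    exact inner_self_eq_zero.1 this.symm
  have hm : η ∈ closure (kp_com ρ ξ : Set G) := by
    have e : η = Q η := by
      rw [hη2, sub_apply] at hη0
      exact sub_eq_zero.1 hη0.symm
    rw [e, hQ]
    exact (kp_com ρ ξ).topologicalClosure.starProjection_apply_mem η
  obtain ⟨_, ⟨T, hT, rfl⟩, hd⟩ := Metric.mem_closure_iff.1 hm δ hδ
  exact ⟨T, hT, by rw [← dist_eq_norm]; exact hd.le⟩

end Vale.Agent.P078
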