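import Vale.Agent.P078.Ind
import Vale.Agent.P078.Kap

/-! A central cyclic and separating vector. -/

set_option linter.unusedSectionVars false

namespace Vale.Agent.P078

open Filter Topology Finset Vale.Agent.P104 Vale.Agent.P082
open scoped InnerProductSpace ComplexOrder ComplexConjugate

universe u v

variable {G : Type u} [NormedAddCommGroup G] [InnerProductSpace ℂ G] [CompleteSpace G]
  {M : Type u} [CStarAlgebra M] {ρ : M →⋆ₐ[ℂ] (G →L[ℂ] G)}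
  {Ω : Type u} [TopologicalSpace Ω] [CompactSpace Ω] [T2Space Ω] [TotallyDisconnectedSpace Ω]
  {ι : C(Ω, ℂ) →⋆ₐ[ℂ] M} {E : M →ₗ[ℂ] C(Ω, ℂ)} {ξ : G}

variable {J J₀ : Type} [Fintype J] [Fintype J₀] {π : Ω → J} {π₀ : Ω → J₀}

theorem cen_fi (a : M) : fi ρ ξ a = ⟪ξ, ρ a ξ⟫_ℂ := rfl

theorem fi_star_mul (a b : M) : fi ρ ξ (star a * b) = ⟪ρ a ξ, ρ b ξ⟫_ℂ := by
  rw [ws_inner, ← ws_mul_apply, cen_fi]

theorem fi_star_self (a : M) : fi ρ ξ (star a * a) = (‖ρ a ξ‖ ^ 2 : ℝ) := by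
  rw [fi_star_mul, inner_self_eq_norm_sq_to_K, Complex.ofReal_pow]
  rfl

theorem fi_star (a : M) : fi ρ ξ (star a) = conj (fi ρ ξ a) := by
  rw [cen_fi, cen_fi, ← ws_inner, inner_conj_symm]

theorem fi_tendsto {κ : Type*} {l : Filter κ} {a : κ → M} {x : M} (h : WL ρ l a x) (b c : M) :
    Tendsto (fun i => fi ρ ξ (b * a i * c)) l (𝓝 (fi ρ ξ (b * x * c))) :=
  ((h.const_mul b).mul_const c) ξ ξ

theorem Cen.fi_one {A : StarSubalgebra ℂ M} (hc : Cen ρ A ξ) : fi ρ ξ 1 = 1 := by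
  have := fi_star_self (ρ := ρ) (ξ := ξ) 1
  simpa [hc.norm_one] using this

theorem cen_le {x y : G} (h : ((‖x‖ ^ 2 : ℝ) : ℂ) = ⟪y, x⟫_ℂ) : ‖x‖ ≤ ‖y‖ := by
  have h1 := norm_inner_le_norm (𝕜 := ℂ) y x
  rw [← h, Complex.norm_real, Real.norm_of_nonneg (sq_nonneg _), sq] at h1
  rcases (norm_nonneg x).eq_or_lt with h0 | h0
  · rw [← h0]; exact norm_nonneg y
  · exact le_of_mul_le_mul_right h1 h0

theorem Cen.eq_zero {A : StarSubalgebra ℂ M} (hc : Cen ρ A ξ) {m : M}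
    (h : (fi ρ ξ (star m * m)).re ≤ 0) : m = 0 := by
  rw [fi_star_self, Complex.ofReal_re] at h
  exact hc.sep m (norm_eq_zero.1 (pow_eq_zero_iff two_ne_zero |>.1 (h.antisymm (sq_nonneg _))))

theorem Cen.fi_pin (hc : Cen ρ ι.range ξ) (hπ : IsLocallyConstant π) (m : M) :
    fi ρ ξ (pin ι π m) = fi ρ ξ m := by
  have hp := ee_part ι hπ
  rw [pin, map_sum, Finset.sum_congr rfl fun j _ => by
    rw [← hc.cen (ee ι π j) (pr_mem ι _), ← mul_assoc, hp.idem], ← map_sum, ← Finset.sum_mul,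
    hp.sum, one_mul]

theorem Cen.fi_pin_mul (hc : Cen ρ ι.range ξ) (π : Ω → J) (a b : M) :
    fi ρ ξ (pin ι π a * b) = fi ρ ξ (a * pin ι π b) := by
  simp only [pin, Finset.sum_mul, Finset.mul_sum, map_sum]
  refine Finset.sum_congr rfl fun j _ => ?_
  have := hc.cen (ee ι π j) (pr_mem ι _) (a * ee ι π j * b)
  simpa only [mul_assoc] using this

theorem Sys.fi_E (h : Sys ι ρ E) (hc : Cen ρ ι.range ξ) (m : M) : fi ρ ξ (ι (E m)) = fi ρ ξ m :=
  tendsto_nhds_unique (h.lim m ξ ξ)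
    (tendsto_const_nhds.congr fun P => (hc.fi_pin P.lc m).symm)

theorem Sys.eq_zero_of_fi (h : Sys ι ρ E) (hc : Cen ρ ι.range ξ) {g : C(Ω, ℂ)}
    (hg : ∀ f, fi ρ ξ (ι (f * g)) = 0) : g = 0 := by
  refine h.inj ((hc.eq_zero ?_).trans (map_zero ι).symm)
  rw [← map_star, ← map_mul, hg, Complex.zero_re]

theorem Sys.cen_re_nonneg (h : Sys ι ρ E) (hc : Cen ρ ι.range ξ) {g : C(Ω, ℂ)}
    (hg : ∀ f, 0 ≤ fi ρ ξ (ι (star f * f * g))) {c : ℂ} (hcr : 0 ≤ c.re) (ω : Ω) :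
    0 ≤ (c * g ω).re := by
  let p : C(Ω, ℂ) := ⟨fun ω => ((max (-(c * g ω).re) 0 : ℝ) : ℂ), by fun_prop⟩
  have hp : ∀ ω, p ω = ((max (-(c * g ω).re) 0 : ℝ) : ℂ) := fun _ => rfl
  obtain ⟨f, h1, h2, -⟩ := exists_sqrt (f := p) fun ω => by
    rw [hp]; exact_mod_cast le_max_right _ _
  have hz := hg f
  rw [h1, h2, Complex.nonneg_iff] at hz
  have e : c • (p * g) + star (c • (p * g)) = (-2 : ℂ) • (star p * p) := by
    ext ω
    have k : max (-(c * g ω).re) 0 * (c * g ω).re = -(max (-(c * g ω).re) 0) ^ 2 := by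
      rcases le_total (-(c * g ω).re) 0 with h0 | h0
      · rw [max_eq_right h0]; ring
      · rw [max_eq_left h0]; ring
    change c * (p ω * g ω) + conj (c * (p ω * g ω)) = -2 * (conj (p ω) * p ω)
    rw [Complex.add_conj, mul_left_comm, hp, Complex.re_ofReal_mul, k, Complex.conj_ofReal]
    push_cast
    ring
  have e2 := congrArg (fun x => (fi ρ ξ (ι x)).re) e
  simp only [map_add, map_star, fi_star, map_smul, smul_eq_mul, Complex.add_re, Complex.conj_re,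
    Complex.mul_re c, ← hz.2, map_mul ι (star p) p] at e2
  have e3 : ι p = 0 := hc.eq_zero (by
    have := mul_nonneg hcr hz.1
    simp [-map_mul] at e2
    linarith)
  have e4 := DFunLike.congr_fun (h.inj (e3.trans (map_zero ι).symm)) ω
  rw [hp, ContinuousMap.zero_apply, Complex.ofReal_eq_zero] at e4
  linarith [le_max_left (-(c * g ω).re) 0]

theorem Sys.nonneg_of_fi (h : Sys ι ρ E) (hc : Cen ρ ι.range ξ) {g : C(Ω, ℂ)}
    (hg : ∀ f, 0 ≤ fi ρ ξ (ι (star f * f * g))) (ω : Ω) : 0 ≤ g ω := by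
  have h1 := h.cen_re_nonneg hc hg (c := 1) (by simp) ω
  have h2 := h.cen_re_nonneg hc hg (c := Complex.I) (by simp) ω
  have h3 := h.cen_re_nonneg hc hg (c := -Complex.I) (by simp) ω
  simp at h1 h2 h3
  exact Complex.nonneg_iff.2 ⟨h1, le_antisymm h3 h2⟩

theorem fi_ι_mono {f g : C(Ω, ℂ)} (h : ∀ ω, f ω ≤ g ω) : fi ρ ξ (ι f) ≤ fi ρ ξ (ι g) := by
  obtain ⟨k, h1, h2, -⟩ := exists_sqrt (f := g - f) fun ω => sub_nonneg.2 (h ω)
  have := fi_star_self (ρ := ρ) (ξ := ξ) (ι k)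
  rw [← map_star, ← map_mul, h1, h2, map_sub, map_sub] at this
  rw [← sub_nonneg, this]
  exact Complex.zero_le_real.2 (sq_nonneg _)

theorem Sys.fi_pr_pos (h : Sys ι ρ E) (hc : Cen ρ ι.range ξ) {U : Set Ω} (hU : IsClopen U)
    (hne : U.Nonempty) : 0 < (fi ρ ξ (pr ι U)).re := by
  refine lt_of_not_ge fun h0 => ?_
  have hp := pr_proj ι U
  have h1 : pr ι U = 0 := hc.eq_zero (by
    rwa [hp.isSelfAdjoint.star_eq, hp.isIdempotentElem.eq])
  obtain ⟨ω, hω⟩ := hne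
  have h2 := DFunLike.congr_fun (h.inj (h1.trans (map_zero ι).symm)) ω
  rw [ind_of_mem hU hω] at h2
  exact one_ne_zero h2

theorem Sys.eq_zero_of_E (h : Sys ι ρ E) (hc : Cen ρ ι.range ξ) {m : M} (hm : E (star m * m) = 0) :
    m = 0 := by
  refine hc.eq_zero ?_
  rw [← h.fi_E hc, hm, map_zero, map_zero, Complex.zero_re]

theorem Cen.sq_mul (hc : Cen ρ ι.range ξ) (m : M) (f : C(Ω, ℂ)) :
    ((‖ρ (m * ι f) ξ‖ ^ 2 : ℝ) : ℂ) = fi ρ ξ (star m * m * ι (f * star f)) := by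
  rw [← fi_star_self, star_mul, ← map_star, mul_assoc, hc.cen (ι (star f)) ⟨star f, rfl⟩,
    map_mul ι]
  simp only [mul_assoc]

theorem Cen.norm_mul_le (hc : Cen ρ ι.range ξ) (m : M) (f : C(Ω, ℂ)) :
    ‖ρ (m * ι f) ξ‖ ≤ ‖f‖ * ‖ρ m ξ‖ := by
  obtain ⟨k, h1, h2, -⟩ := exists_sqrt (f := ((‖f‖ ^ 2 : ℝ) : ℂ) • 1 - f * star f) fun ω => by
    change 0 ≤ ((‖f‖ ^ 2 : ℝ) : ℂ) * 1 - f ω * conj (f ω)
    rw [Complex.mul_conj, mul_one, Complex.normSq_eq_norm_sq, ← Complex.ofReal_sub]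
    exact_mod_cast sub_nonneg.2 (pow_le_pow_left₀ (norm_nonneg _) (f.norm_coe_le_norm ω) 2)
  have h3 := hc.sq_mul m k
  rw [h1, h2, map_sub, mul_sub, map_sub, ← hc.sq_mul, map_smul, map_one, mul_smul_comm, mul_one,
    map_smul, fi_star_self, smul_eq_mul] at h3
  have h4 : ‖ρ (m * ι k) ξ‖ ^ 2 = ‖f‖ ^ 2 * ‖ρ m ξ‖ ^ 2 - ‖ρ (m * ι f) ξ‖ ^ 2 := by
    exact_mod_cast h3
  refine (sq_le_sq₀ (norm_nonneg _) (by positivity)).1 ?_
  rw [mul_pow]
  linarith [sq_nonneg ‖ρ (m * ι k) ξ‖]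

theorem Cen.sq_pin (hc : Cen ρ ι.range ξ) (hπ : IsLocallyConstant π) (m : M) :
    ((‖ρ (pin ι π m) ξ‖ ^ 2 : ℝ) : ℂ) = ⟪ρ m ξ, ρ (pin ι π m) ξ⟫_ℂ := by
  rw [← fi_star_self, pin_star, hc.fi_pin_mul, pin_pin hπ hπ fun _ _ h => h, fi_star_mul]

theorem Cen.norm_pin_le (hc : Cen ρ ι.range ξ) (hπ : IsLocallyConstant π) (m : M) :
    ‖ρ (pin ι π m) ξ‖ ≤ ‖ρ m ξ‖ := cen_le (hc.sq_pin hπ m)

theorem Sys.norm_E_le (h : Sys ι ρ E) (hc : Cen ρ ι.range ξ) (m : M) :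
    ‖ρ (ι (E m)) ξ‖ ≤ ‖ρ m ξ‖ := by
  refine cen_le ?_
  rw [← fi_star_self, ← fi_star_mul, ← h.fi_E hc (star m * _), h.right, h.E_star, map_mul ι,
    map_star ι]

theorem Sys.pin_conv (h : Sys ι ρ E) (hc : Cen ρ ι.range ξ) {K : Type} [Fintype K] (m : K → M)
    {δ : ℝ} (hδ : 0 < δ) : ∃ P : Pt Ω, ∀ (J : Type) [Fintype J] (π : Ω → J),
      IsLocallyConstant π → Rf π P.π → ∀ k, ‖ρ (pin ι π (m k) - ι (E (m k))) ξ‖ ≤ δ := by
  have h1 : ∀ k, ∀ᶠ P : Pt Ω in (UU Ω : Filter (Pt Ω)),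
      ‖ρ (pin ι P.π (m k - ι (E (m k)))) ξ‖ ≤ δ := fun k => by
    have h2 := h.lim (m k - ι (E (m k))) (ρ (m k - ι (E (m k))) ξ) ξ
    rw [map_sub E, h.fix, sub_self, map_zero, map_zero, zero_apply,
      inner_zero_right] at h2
    have h3 := (Complex.continuous_re.tendsto _).comp h2
    filter_upwards [h3.eventually (gt_mem_nhds (show (0 : ℂ).re < δ ^ 2 from sq_pos_of_pos hδ))]
      with P hP
    rw [Function.comp, ← hc.sq_pin P.lc, Complex.ofReal_re] at hP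
    exact (sq_le_sq₀ (norm_nonneg _) hδ.le).1 hP.le
  obtain ⟨P, hP⟩ := (eventually_all.2 h1).exists
  refine ⟨P, fun J _ π hπ hr k => ?_⟩
  rw [← pin_ι hπ (E (m k)), ← pin_sub, ← pin_pin hπ P.lc hr]
  exact (hc.norm_pin_le hπ _).trans (hP k)

theorem exists_right_op (hd : DenseRange fun m => ρ m ξ) {a : M} {C : ℝ} (hC : 0 ≤ C)
    (h : ∀ m, ‖ρ (m * a) ξ‖ ≤ C * ‖ρ m ξ‖) :
    ∃ T, Com ρ T ∧ ‖T‖ ≤ C ∧ ∀ m, T (ρ m ξ) = ρ (m * a) ξ := by
  obtain ⟨S, h1, h2⟩ := Clo.exists_intertwiner ρ ξ hd (ρ : M →ₐ[ℂ] (G →L[ℂ] G)) (ρ a ξ) (C ^ 2)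
    fun x => by
      rw [← mul_pow]
      exact pow_le_pow_left₀ (norm_nonneg _) ((congrArg norm (ws_mul_apply x a ξ)).ge.trans (h x)) 2
  have h3 : ∀ m, S (ρ m ξ) = ρ (m * a) ξ := fun m => by
    rw [h2, h1, ws_mul_apply]
    rfl
  refine ⟨S, fun m => ContinuousLinearMap.ext fun η => (h2 m η).symm,
    S.opNorm_le_bound hC fun η => ?_, h3⟩
  refine hd.induction_on (p := fun η => ‖S η‖ ≤ C * ‖η‖) η ?_ fun m => ?_
  · apply isClosed_le <;> fun_prop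
  · rw [h3]
    exact h m

theorem Cen.exists_right (hc : Cen ρ ι.range ξ) : ∃ Rr, Right ι ρ ξ Rr := by
  choose T h1 _ h3 using fun f : C(Ω, ℂ) =>
    exists_right_op hc.cyc (norm_nonneg f) fun m => hc.norm_mul_le m f
  have ex : ∀ {A B : G →L[ℂ] G}, (∀ m, A (ρ m ξ) = B (ρ m ξ)) → A = B := fun {A B} h =>
    ContinuousLinearMap.ext fun η => hc.cyc.induction_on (p := fun η => A η = B η) η
      (isClosed_eq A.continuous B.continuous) h
  refine ⟨⟨⟨⟨⟨⟨T, ex fun m => ?_⟩, fun f g => ex fun m => ?_⟩, ex fun m => ?_,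
    fun f g => ex fun m => ?_⟩, fun c => ex fun m => ?_⟩, fun f => ?_⟩, h1, h3⟩
  · simp [h3]
  · simp only [mul_apply_eq_comp, h3, mul_assoc, ← map_mul, mul_comm f g]
  · simp [h3]
  · simp [h3, mul_add]
  · simp [h3, Algebra.algebraMap_eq_smul_one]
  · change T (star f) = star (T f)
    rw [ContinuousLinearMap.star_eq_adjoint, ContinuousLinearMap.eq_adjoint_iff]
    intro x y
    refine hc.cyc.induction_on₂ (p := fun x y => ⟪T (star f) x, y⟫_ℂ = ⟪x, T f y⟫_ℂ) ?_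
      (fun a b => ?_) x y
    · apply isClosed_eq <;> fun_prop
    · rw [h3, h3, ← fi_star_mul, ← fi_star_mul, star_mul, ← map_star, star_star, mul_assoc,
        hc.cen (ι f) ⟨f, rfl⟩, mul_assoc]

theorem Cen.exists_measure [MeasurableSpace Ω] [BorelSpace Ω] (hc : Cen ρ ι.range ξ) :
    ∃ μ : MeasureTheory.Measure Ω, MeasureTheory.IsProbabilityMeasure μ ∧
      ∀ f : C(Ω, ℂ), ∫ ω, f ω ∂μ = fi ρ ξ (ι f) := by
  let cx : CompactlySupportedContinuousMap Ω ℝ → C(Ω, ℂ) :=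
    fun f => ⟨fun ω => (f ω : ℂ), by fun_prop⟩
  have hx : ∀ f ω, cx f ω = (f ω : ℂ) := fun _ _ => rfl
  let Λ : CompactlySupportedContinuousMap Ω ℝ →ₚ[ℝ] ℝ :=
    { toFun := fun f => (fi ρ ξ (ι (cx f))).re
      map_add' := fun f g => by
        rw [show cx (f + g) = cx f + cx g by ext; simp [hx], map_add, map_add, Complex.add_re]
      map_smul' := fun c f => by
        rw [show cx (c • f) = (c : ℂ) • cx f by ext; simp [hx], map_smul, map_smul, smul_eq_mul,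
          Complex.re_ofReal_mul]
        rfl
      monotone' := fun f g hfg => (fi_ι_mono fun ω => by
        rw [hx, hx]; exact_mod_cast hfg ω).1 }
  have hi : ∀ f, ((∫ ω, f ω ∂(RealRMK.rieszMeasure Λ) : ℝ) : ℂ) = fi ρ ξ (ι (cx f)) := fun f => by
    rw [RealRMK.integral_rieszMeasure]
    refine Complex.conj_eq_iff_re.1 ?_
    rw [← fi_star, ← map_star, show star (cx f) = cx f by ext; simp [hx]]
  have key : ∀ f : C(Ω, ℂ), ∫ ω, f ω ∂(RealRMK.rieszMeasure Λ) = fi ρ ξ (ι f) := fun f => by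
    let a : CompactlySupportedContinuousMap Ω ℝ :=
      ⟨⟨fun ω => (f ω).re, by fun_prop⟩, HasCompactSupport.of_compactSpace _⟩
    let b : CompactlySupportedContinuousMap Ω ℝ :=
      ⟨⟨fun ω => (f ω).im, by fun_prop⟩, HasCompactSupport.of_compactSpace _⟩
    have e : f = cx a + Complex.I • cx b := by
      ext ω
      change f ω = (f ω).re + Complex.I * (f ω).im
      rw [mul_comm, Complex.re_add_im]
    rw [← integral_re_add_im (f.continuous.integrable_of_hasCompactSupport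
      (HasCompactSupport.of_compactSpace _))]
    conv_rhs => rw [e, map_add, map_add, map_smul, map_smul, ← hi, ← hi, smul_eq_mul, mul_comm]
    rfl
  refine ⟨_, MeasureTheory.isProbabilityMeasure_iff_real.2 ?_, key⟩
  have := key 1
  rw [map_one, hc.fi_one] at this
  simpa using this

end Vale.Agent.P078
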