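import Vale.Agent.P078.Sing

/-! Corners and the cyclic representation of a faithful normal state. -/

set_option linter.unusedSectionVars false

namespace Vale.Agent.P078

open Filter Topology Finset Vale.Agent.P104 Vale.Agent.P082
open scoped InnerProductSpace ComplexOrder ComplexConjugate

universe u v

variable {G : Type v} [NormedAddCommGroup G] [InnerProductSpace ℂ G] [CompleteSpace G]
  {M : Type u} [CStarAlgebra M] {ρ : M →⋆ₐ[ℂ] (G →L[ℂ] G)}

namespace CornerAux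

/-- The range of a projection as a Hilbert space. -/
theorem exists_range {z : M} (hz : IsStarProjection z) :
    ∃ (K : Type v) (_ : NormedAddCommGroup K) (_ : InnerProductSpace ℂ K) (_ : CompleteSpace K)
      (j : K →L[ℂ] G) (a : G →L[ℂ] K), (∀ ξ η, ⟪j ξ, η⟫_ℂ = ⟪ξ, a η⟫_ℂ) ∧ (∀ ξ, a (j ξ) = ξ) ∧
      ∀ η, j (a η) = ρ z η := by
  let K := (ρ z).eqLocus (1 : G →L[ℂ] G)
  have hm : ∀ η, ρ z η ∈ K := fun η => by
    change ρ z (ρ z η) = ρ z η
    rw [← ws_mul_apply, hz.isIdempotentElem.eq]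
  refine ⟨K, inferInstance, inferInstance, inferInstance, K.subtypeL, (ρ z).codRestrict K hm,
    fun ξ η => ?_, fun ξ => Subtype.ext ξ.2, fun _ => rfl⟩
  have h1 : ρ z ξ = ξ := ξ.2
  change ⟪(ξ : G), η⟫_ℂ = ⟪(ξ : G), ρ z η⟫_ℂ
  rw [← hz.isSelfAdjoint.star_eq, ← ws_inner, h1]

variable {K : Type v} [NormedAddCommGroup K] [InnerProductSpace ℂ K] [CompleteSpace K]
  {j : K →L[ℂ] G} {a : G →L[ℂ] K} {z : M}

variable (ρ) in
/-- The compressed algebra. -/
def corner (h1 : ∀ ξ η, ⟪j ξ, η⟫_ℂ = ⟪ξ, a η⟫_ℂ) (h2 : ∀ ξ, a (j ξ) = ξ)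
    (h3 : ∀ η, j (a η) = ρ z η) : StarSubalgebra ℂ (K →L[ℂ] K) where
  carrier := {T | ∃ m, ∀ η, ρ m η = j (T (a η))}
  mul_mem' := fun ⟨m, hm⟩ ⟨m', hm'⟩ => ⟨m * m', fun η => by
    rw [ws_mul_apply, hm, hm', h2]; rfl⟩
  add_mem' := fun ⟨m, hm⟩ ⟨m', hm'⟩ => ⟨m + m', fun η => by
    rw [map_add, add_apply, hm, hm', add_apply, map_add]⟩
  algebraMap_mem' := fun r => ⟨r • z, fun η => by
    rw [map_smul, smul_apply, ← h3, ← map_smul]; rfl⟩
  star_mem' := fun {T} ⟨m, hm⟩ => ⟨star m, fun η => ext_inner_left ℂ fun ξ => by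
    rw [← ws_inner, hm, h1, ← inner_conj_symm ξ, h1, inner_conj_symm,
      ContinuousLinearMap.star_eq_adjoint, ContinuousLinearMap.adjoint_inner_right]⟩

theorem isClosed_corner (hρ : IsVN ρ) (h1 : ∀ ξ η, ⟪j ξ, η⟫_ℂ = ⟪ξ, a η⟫_ℂ)
    (h2 : ∀ ξ, a (j ξ) = ξ) (h3 : ∀ η, j (a η) = ρ z η) :
    IsClosed (corner ρ h1 h2 h3 : Set (K →L[ℂ] K)) := by
  have hc : IsClosed (Set.range ρ) :=
    (NonUnitalStarAlgHom.isometry ρ hρ.inj).isClosedEmbedding.isClosed_range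
  have hf : Continuous fun T : K →L[ℂ] K => j ∘L T ∘L a := by fun_prop
  have e : (corner ρ h1 h2 h3 : Set (K →L[ℂ] K)) =
      (fun T : K →L[ℂ] K => j ∘L T ∘L a) ⁻¹' Set.range ρ := by
    ext T
    exact ⟨fun ⟨m, hm⟩ => ⟨m, ContinuousLinearMap.ext hm⟩,
      fun ⟨m, hm⟩ => ⟨m, fun η => by rw [hm]; rfl⟩⟩
  rw [e]
  exact hc.preimage hf

theorem eq_of_star_mul {χ χ' : M →ₗ[ℂ] ℂ} (h : ∀ m, χ (star m * m) = χ' (star m * m)) (m : M) :
    χ m = χ' m := by
  have k : ∀ m, χ m + χ (star m) = χ' m + χ' (star m) := fun m => by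
    have e1 := h 1
    have e2 := h m
    have e3 := h (1 + m)
    simp only [star_add, star_one, add_mul, mul_add, one_mul, mul_one, map_add] at e1 e3
    linear_combination e3 - e1 - e2
  have e1 := k m
  have e2 := k (Complex.I • m)
  simp only [star_smul, map_smul, smul_eq_mul, Complex.star_def, Complex.conj_I] at e2
  linear_combination (1 / 2 : ℂ) * e1 - (Complex.I / 2) * e2 +
    ((χ m - χ' m - χ (star m) + χ' (star m)) / 2) * Complex.I_sq

theorem eq_re {w : ℂ} (h : 0 ≤ w) : w = (w.re : ℂ) := Complex.ext rfl h.2.symm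

end CornerAux

open CornerAux

theorem exists_corner (hρ : IsVN ρ) {z : M} (hz : IsStarProjection z) :
    ∃ (N : Type v) (_ : CStarAlgebra N) (K : Type v) (_ : NormedAddCommGroup K)
      (_ : InnerProductSpace ℂ K) (_ : CompleteSpace K) (σ : N →⋆ₐ[ℂ] (K →L[ℂ] K))
      (θ : N →⋆ₙₐ[ℂ] M), IsVN σ ∧ Function.Injective θ ∧ θ 1 = z ∧
      (∀ m, ∃ n, θ n = z * m * z) ∧
      ∀ (U : Ultrafilter N) (x : N), WL σ (U : Filter N) id x → WL ρ (U : Filter N) θ (θ x) := by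
  obtain ⟨K, _, _, _, j, a, h1, h2, h3⟩ := exists_range (ρ := ρ) hz
  have := isClosed_corner hρ h1 h2 h3
  have h1' : ∀ η ξ, ⟪η, j ξ⟫_ℂ = ⟪a η, ξ⟫_ℂ := fun η ξ => by
    rw [← inner_conj_symm, h1, inner_conj_symm]
  choose f hf using fun n : corner ρ h1 h2 h3 =>
    (n.2 : ∃ m, ∀ η, ρ m η = j ((n : K →L[ℂ] K) (a η)))
  have ext : ∀ {m m' : M}, (∀ η, ρ m η = ρ m' η) → m = m' := fun h =>
    hρ.inj (ContinuousLinearMap.ext h)
  let θ : corner ρ h1 h2 h3 →⋆ₙₐ[ℂ] M :=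
    { toFun := f
      map_smul' := fun c n => ext fun η => by
        rw [hf, MonoidHom.id_apply, map_smul, smul_apply, hf, ← map_smul]; rfl
      map_zero' := ext fun η => by
        rw [hf, map_zero, zero_apply, ← map_zero j]; rfl
      map_add' := fun n n' => ext fun η => by
        rw [hf, map_add, add_apply, hf, hf, ← map_add]; rfl
      map_mul' := fun n n' => ext fun η => by
        rw [hf, ws_mul_apply, hf, hf, h2]; rfl
      map_star' := fun n => ext fun η => ext_inner_left ℂ fun ξ => by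
        rw [← ws_inner (f n), hf, hf, h1, h1']
        exact ContinuousLinearMap.adjoint_inner_right (n : K →L[ℂ] K) _ _ }
  have hθ : ∀ n η, ρ (θ n) η = j ((n : K →L[ℂ] K) (a η)) := hf
  have hmem : ∀ m, a ∘L ρ m ∘L j ∈ corner ρ h1 h2 h3 := fun m => ⟨z * m * z, fun η => by
    rw [ws_mul_apply, ws_mul_apply, ← h3, ← h3]; rfl⟩
  refine ⟨corner ρ h1 h2 h3, inferInstance, K, inferInstance, inferInstance, inferInstance,
    (corner ρ h1 h2 h3).subtype, θ, ⟨Subtype.val_injective, fun U R hR => ?_⟩,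
    fun n n' h => Subtype.ext (ContinuousLinearMap.ext fun ξ => ?_), ext fun η => ?_,
    fun m => ⟨⟨_, hmem m⟩, ext fun η => ?_⟩, fun U x hx ξ η => ?_⟩
  · obtain ⟨x, hx⟩ := hρ.exists_lim U (a := θ) (R := R)
      (hR.mono fun n hn => (NonUnitalStarAlgHom.norm_apply_le θ n).trans hn)
    refine ⟨⟨_, hmem x⟩, fun ξ η => ?_⟩
    have h4 := hx (j ξ) (j η)
    simp only [hθ, h1, h2] at h4
    exact h4
  · have h4 := congrArg a (hθ n (j ξ))
    rw [h, hθ, h2, h2, h2] at h4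
    exact h4.symm
  · rw [hθ, ← h3]; rfl
  · rw [hθ, ws_mul_apply, ws_mul_apply, ← h3, ← h3]; rfl
  · simp only [hθ, h1']
    exact hx (a ξ) (a η)

theorem exists_gns_vn (hρ : IsVN ρ) {χ : M →ₗ[ℂ] ℂ} (h1 : Nml ρ χ) (h2 : PosF χ)
    (h3 : ∀ m, χ (star m * m) = 0 → m = 0) (h4 : χ 1 = 1) :
    ∃ (K : Type u) (_ : NormedAddCommGroup K) (_ : InnerProductSpace ℂ K) (_ : CompleteSpace K)
      (σ : M →⋆ₐ[ℂ] (K →L[ℂ] K)) (ξ : K), IsVN σ ∧ ‖ξ‖ = 1 ∧ (DenseRange fun m => σ m ξ) ∧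
      (∀ m, σ m ξ = 0 → m = 0) ∧ ∀ m, fi σ ξ m = χ m := by
  obtain ⟨K, _, _, _, σ, ξ, hd, hn⟩ := Clo.exists_gns χ h2
  have hfi : ∀ m, fi σ ξ m = χ m := eq_of_star_mul fun m => by
    rw [eq_re (h2 m), ← hn]
    change ⟪ξ, σ (star m * m) ξ⟫_ℂ = _
    rw [ws_mul_apply, ← ws_inner, inner_self_eq_norm_sq_to_K]
    simp
  have hsep : ∀ m, σ m ξ = 0 → m = 0 := fun m hm => h3 m (by
    rw [eq_re (h2 m), ← hn, hm]; simp)
  have hin : ∀ a y b, ⟪σ a ξ, σ y (σ b ξ)⟫_ℂ = χ (star a * y * b) := fun a y b => by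
    rw [← hfi, ws_inner, ← ws_mul_apply, ← ws_mul_apply]; rfl
  refine ⟨K, inferInstance, inferInstance, inferInstance, σ, ξ, ⟨fun m m' h => ?_, fun U R hR => ?_⟩,
    ?_, hd, hsep, hfi⟩
  · exact sub_eq_zero.1 (hsep _ (by rw [map_sub, h, sub_self]; rfl))
  · obtain ⟨x, hx⟩ := hρ.lim U R hR
    obtain ⟨T, hT⟩ := lim_exists_op U (u := fun y => σ y) (R := R)
      (hR.mono fun y hy => (NonUnitalStarAlgHom.norm_apply_le σ y).trans hy)
    have e : ∀ b, T (σ b ξ) = σ x (σ b ξ) := fun b => hd.eq_of_inner_right ℂ fun a => by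
      refine tendsto_nhds_unique (hT _ _) ?_
      simp only [hin]
      refine h1.tendsto U (R := ‖star a‖ * R * ‖b‖) (hR.mono fun y hy => ?_)
        ((hx.const_mul (star a)).mul_const b)
      refine (norm_mul_le _ _).trans (mul_le_mul_of_nonneg_right ?_ (norm_nonneg _))
      exact (norm_mul_le _ _).trans (mul_le_mul_of_nonneg_left hy (norm_nonneg _))
    have e' : ∀ η, T η = σ x η := fun η =>
      congrFun (hd.equalizer T.continuous (σ x).continuous (funext e)) η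
    exact ⟨x, fun ζ η => e' η ▸ hT ζ η⟩
  · have h5 := hn 1
    rw [star_one, mul_one, h4, map_one, Complex.one_re] at h5
    exact (pow_eq_one_iff_of_nonneg (norm_nonneg _) two_ne_zero).1 h5

theorem abs_cont (hρ : IsVN ρ) {χ : M →ₗ[ℂ] ℂ} (h1 : Nml ρ χ) {z : M} (hz : IsStarProjection z)
    (h3 : ∀ m, χ (star m * m) = 0 → m * z = 0) (h2 : PosF χ) {J : Type} [Fintype J] (η : J → G)
    {δ : ℝ} (hδ : 0 < δ) : ∃ δ' : ℝ, 0 < δ' ∧ ∀ e, IsStarProjection e → z * e = e →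
      (χ e).re ≤ δ' → vfs ρ η e ≤ δ := by
  let _ := CStarAlgebra.spectralOrder M
  have _ := CStarAlgebra.spectralOrderedRing M
  by_contra hcon
  push Not at hcon
  choose e he1 he2 he3 he4 using fun n : ℕ => hcon (1 / ((n : ℝ) + 1)) (by positivity)
  have hs : ∀ n, star (e n) * e n = e n := fun n => by
    rw [(he1 n).isSelfAdjoint.star_eq, (he1 n).isIdempotentElem.eq]
  let U : Ultrafilter ℕ := Ultrafilter.of atTop
  have hU : (U : Filter ℕ) ≤ atTop := Ultrafilter.of_le _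
  have hR : ∀ᶠ n in (U : Filter ℕ), ‖e n‖ ≤ 1 := .of_forall fun n => (he1 n).norm_le
  obtain ⟨x, hx⟩ := hρ.exists_lim U hR
  have hsa : star x = x := hx.star.unique hρ hx (.of_forall fun n => (he1 n).isSelfAdjoint.star_eq)
  have hzx : z * x = x := (hx.const_mul z).unique hρ hx (.of_forall he2)
  have h0 : 0 ≤ x := hρ.nonneg_of hsa fun ξ => ge_of_tendsto' (hx.vf ξ) fun n => by
    rw [← hs, vf_star_mul]; positivity
  obtain ⟨c, hc⟩ := CStarAlgebra.nonneg_iff_eq_star_mul_self.1 h0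
  have hre : (χ x).re ≤ 0 :=
    le_of_tendsto_of_tendsto' ((Complex.continuous_re.tendsto _).comp (h1.tendsto U hR hx))
      (tendsto_one_div_add_atTop_nhds_zero_nat.mono_left hU) he3
  have hχ : χ (star c * c) = 0 := by
    have h5 := h2 c
    exact Complex.ext (le_antisymm (hc ▸ hre) h5.1) h5.2.symm
  have hx0 : x = 0 := by
    have h5 := congrArg star hzx
    rw [star_mul, hsa, hz.isSelfAdjoint.star_eq] at h5
    rw [← h5, hc, mul_assoc, h3 c hχ, mul_zero]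
  have hl : Tendsto (fun n => vfs ρ η (e n)) (U : Filter ℕ) (𝓝 (vfs ρ η x)) := by
    simp only [vfs, LinearMap.sum_apply]
    exact tendsto_finsetSum _ fun j _ => hx.vf (η j)
  have h6 := ge_of_tendsto' hl fun n => (he4 n).le
  rw [hx0, map_zero] at h6
  exact absurd h6 hδ.not_ge

end Vale.Agent.P078
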