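import Vale.Agent.P078.Nrm

/-! The component along the normalizer. -/

set_option linter.unusedSectionVars false

namespace Vale.Agent.P078

open Filter Topology Finset Vale.Agent.P104 Vale.Agent.P082
open scoped InnerProductSpace ComplexOrder ComplexConjugate

universe u v

variable {G : Type u} [NormedAddCommGroup G] [InnerProductSpace ℂ G] [CompleteSpace G]
  {M : Type u} [CStarAlgebra M] {ρ : M →⋆ₐ[ℂ] (G →L[ℂ] G)}
  {Ω : Type u} [TopologicalSpace Ω] [CompactSpace Ω] [T2Space Ω] [TotallyDisconnectedSpace Ω]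
  {ι : C(Ω, ℂ) →⋆ₐ[ℂ] M} {E : M →ₗ[ℂ] C(Ω, ℂ)} {ξ : G}

/-- The right module generated by a finite set. -/
noncomputable def decW (ι : C(Ω, ℂ) →⋆ₐ[ℂ] M) (F : Finset M) : Submodule ℂ M :=
  Submodule.span ℂ {y | ∃ v ∈ F, ∃ f, y = v * ι f}

theorem dec_swap {v : M} (hv : v ∈ GS ι ρ ξ) (f : C(Ω, ℂ)) : ∃ g, ι f * v = v * ι g := by
  obtain ⟨L, hL⟩ := hv
  obtain ⟨g, hg⟩ := hL.nz.l f
  exact ⟨g, (GS_comm ⟨L, hL⟩ f).trans (congrArg _ hg.symm)⟩

theorem dec_pi {v : M} (hv : v ∈ GS ι ρ ξ) : v * (star v * v) = v := hv.elim fun _ h => h.pi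

theorem dec_star (h : Sys ι ρ E) (hc : Cen ρ ι.range ξ) {v r : M} (hv : v ∈ GS ι ρ ξ)
    (h0 : E (star v * r) = 0) : E (star (star v) * star r) = 0 := by
  obtain ⟨U, -, hU⟩ := GS_dom h (GS_star hv)
  have h1 := h.E_conj hc (GS_star hv) (star v * r)
  have h2 : star v * ι (ind U) = star v := by
    have := dec_pi (GS_star hv)
    rwa [hU] at this
  rw [h0, map_zero, mul_zero, zero_mul, ← mul_assoc, hU, pr, mul_assoc, h.left, mul_comm,
    ← h.right, mul_assoc, h2, map_eq_zero_iff _ h.inj] at h1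
  rw [← star_mul, h.E_star, h1, star_zero]

theorem dec_step (h : Sys ι ρ E) {v w r : M} (hv : v ∈ GS ι ρ ξ) (hw : w ∈ GS ι ρ ξ)
    (h0 : E (star v * r) = 0) : E (star v * w) * E (star w * r) = 0 := by
  obtain ⟨U, -, h1, -⟩ := h.diag_part (GS_mul h (GS_star hv) hw)
  obtain ⟨L, hL⟩ := hw
  obtain ⟨g, hg⟩ := hL.nz.r (ind U)
  obtain ⟨k, hk⟩ := dec_swap hv (star g)
  have h2 : star v * ι g = ι (star k) * star v := by
    simpa only [star_mul, map_star, star_star] using congrArg star hk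
  have h3 : ι (E (star v * w)) * (star w * r) = ι (star k) * (star v * r) := by
    have hg' : ι g = w * ι (ind U) * star w := hg
    rw [← h1, ← mul_assoc (ι (star k)), ← h2, hg', pr]
    simp only [mul_assoc]
  rw [← h.left, h3, h.left, h0, mul_zero]

theorem dec_exists (h : Sys ι ρ E) (x : M) (F : Finset M) (hF : ∀ v ∈ F, v ∈ GS ι ρ ξ) :
    ∃ n ∈ decW ι F, ∀ v ∈ F, E (star v * (x - n)) = 0 := by
  classical
  induction F using Finset.induction_on with
  | empty => exact ⟨0, Submodule.zero_mem _, by simp⟩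
  | insert w F _ ih =>
    obtain ⟨n, hn, h0⟩ := ih fun v hv => hF v (mem_insert_of_mem hv)
    have hw := hF w (mem_insert_self _ _)
    refine ⟨n + w * ι (E (star w * (x - n))), Submodule.add_mem _ (Submodule.span_mono ?_ hn)
      (Submodule.subset_span ⟨w, mem_insert_self _ _, _, rfl⟩), fun v hv => ?_⟩
    · rintro _ ⟨v, hv, f, rfl⟩
      exact ⟨v, mem_insert_of_mem hv, f, rfl⟩
    rw [← sub_sub, mul_sub, map_sub, ← mul_assoc, h.right, sub_eq_zero]
    rcases mem_insert.1 hv with rfl | hv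
    · obtain ⟨U, -, hU⟩ := GS_dom h hw
      have h1 : star v * v * star v = star v := by
        simpa only [star_mul, star_star] using congrArg star (dec_pi hw)
      rw [← h.left, h.ι_E (hU ▸ pr_mem ι U), ← mul_assoc, h1]
    · rw [dec_step h (hF v (mem_insert_of_mem hv)) hw (h0 v hv), h0 v hv]

theorem decW_orth (h : Sys ι ρ E) (hc : Cen ρ ι.range ξ) {F : Finset M} {r y : M}
    (h0 : ∀ v ∈ F, E (star v * r) = 0) (hy : y ∈ decW ι F) : fi ρ ξ (star y * r) = 0 := by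
  induction hy using Submodule.span_induction with
  | mem y hy =>
    obtain ⟨v, hv, f, rfl⟩ := hy
    rw [← h.fi_E hc, star_mul, ← map_star, mul_assoc, h.left, h0 v hv, mul_zero, map_zero, map_zero]
  | zero => simp
  | add a b _ _ ha hb => rw [star_add, add_mul, map_add, ha, hb, add_zero]
  | smul c a _ ha => rw [star_smul, smul_mul_assoc, map_smul, ha, smul_zero]

theorem decW_star {F : Finset M} (hF : ∀ v ∈ F, v ∈ GS ι ρ ξ) (hs : ∀ v ∈ F, star v ∈ F) {y : M}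
    (hy : y ∈ decW ι F) : star y ∈ decW ι F := by
  induction hy using Submodule.span_induction with
  | mem y hy =>
    obtain ⟨v, hv, f, rfl⟩ := hy
    obtain ⟨g, hg⟩ := dec_swap (GS_star (hF v hv)) (star f)
    exact Submodule.subset_span ⟨_, hs v hv, g, by rw [star_mul, ← map_star, hg]⟩
  | zero => simp
  | add a b _ _ ha hb => exact star_add a b ▸ Submodule.add_mem _ ha hb
  | smul c a _ ha => exact star_smul c a ▸ Submodule.smul_mem _ _ ha

theorem Sys.fourier (h : Sys ι ρ E) (hc : Cen ρ ι.range ξ) (x : M) {n : M} (hn : n ∈ NA ι ρ ξ) :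
    ∃ n' ∈ NA ι ρ ξ, fi ρ ξ (star n * (x - n')) = 0 ∧ fi ρ ξ (star n' * (x - n')) = 0 ∧
      fi ρ ξ (star n * (star x - star n')) = 0 ∧ fi ρ ξ (n' * (star x - star n')) = 0 := by
  classical
  obtain ⟨T, hT, hn'⟩ := Submodule.mem_span_finite_of_mem_span hn
  have hF : ∀ v ∈ T ∪ T.image star, v ∈ GS ι ρ ξ := fun v hv => by
    rcases mem_union.1 hv with hv | hv
    · exact hT hv
    · obtain ⟨w, hw, rfl⟩ := mem_image.1 hv
      exact GS_star (hT hw)
  have hs : ∀ v ∈ T ∪ T.image star, star v ∈ T ∪ T.image star := fun v hv => by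
    rcases mem_union.1 hv with hv | hv
    · exact mem_union_right _ (mem_image_of_mem _ hv)
    · obtain ⟨w, hw, rfl⟩ := mem_image.1 hv
      exact mem_union_left _ (by rwa [star_star])
  obtain ⟨m, hm, h0⟩ := dec_exists h x _ hF
  have h1 : ∀ v ∈ T ∪ T.image star, E (star v * (star x - star m)) = 0 := fun v hv => by
    have := dec_star h hc (hF _ (hs v hv)) (h0 _ (hs v hv))
    rwa [star_star v, star_sub] at this
  have h2 : n ∈ decW ι (T ∪ T.image star) := by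
    refine Submodule.span_mono (fun v hv => ?_) hn'
    exact ⟨v, mem_union_left _ hv, 1, by rw [map_one, mul_one]⟩
  refine ⟨m, Submodule.span_le.2 ?_ hm, decW_orth h hc h0 h2, decW_orth h hc h0 hm,
    decW_orth h hc h1 h2, ?_⟩
  · rintro _ ⟨v, hv, f, rfl⟩
    exact NA_mul h (Submodule.subset_span (hF v hv)) (ι_mem_NA f)
  · have := decW_orth h hc h1 (decW_star hF hs hm)
    rwa [star_star] at this

theorem dec_comm (K : Submodule ℂ G) [K.HasOrthogonalProjection] {b : G →L[ℂ] G}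
    (h1 : ∀ η ∈ K, b η ∈ K) (h2 : ∀ η ∈ K, star b η ∈ K) :
    b * K.starProjection = K.starProjection * b := by
  have e : ∀ c : G →L[ℂ] G, (∀ η ∈ K, c η ∈ K) →
      K.starProjection * (c * K.starProjection) = c * K.starProjection := fun c hc =>
    ContinuousLinearMap.ext fun η =>
      Submodule.starProjection_eq_self_iff.2 (hc _ (K.starProjection_apply_mem η))
  have h3 := congrArg star (e _ h2)
  simp only [star_mul, star_star, isStarProjection_starProjection.isSelfAdjoint.star_eq] at h3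
  rw [← h3, mul_assoc, e b h1]

theorem dec_pyth (K : Submodule ℂ G) [K.HasOrthogonalProjection] {a b X : G} (ha : a ∈ K)
    (hb : b ∈ K) (h1 : ⟪a, X - b⟫_ℂ = 0) (h2 : ⟪b, X - b⟫_ℂ = 0) :
    ‖b - K.starProjection X‖ ≤ ‖a - K.starProjection X‖ := by
  have h3 : ⟪a - b, X - K.starProjection X⟫_ℂ = 0 :=
    Submodule.inner_right_of_mem_orthogonal (K.sub_mem ha hb) (K.sub_starProjection_mem_orthogonal X)
  have h4 : ⟪a - b, b - K.starProjection X⟫_ℂ = 0 := by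
    rw [← sub_sub_sub_cancel_left (K.starProjection X) b X, inner_sub_right, h3,
      inner_sub_left, h1, h2]
    simp
  have h5 := norm_add_sq_eq_norm_sq_add_norm_sq_of_inner_eq_zero _ _ h4
  rw [sub_add_sub_cancel] at h5
  exact abs_le_of_sq_le_sq' (by nlinarith [norm_nonneg (a - b)]) (norm_nonneg _) |>.2

/-- The closure of the vectors of the normalizer algebra. -/
noncomputable def decK (ι : C(Ω, ℂ) →⋆ₐ[ℂ] M) (ρ : M →⋆ₐ[ℂ] (G →L[ℂ] G)) (ξ : G) :
    Submodule ℂ G :=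
  ((NA ι ρ ξ).map ((ContinuousLinearMap.apply ℂ G ξ).toLinearMap ∘ₗ
    ρ.toAlgHom.toLinearMap)).topologicalClosure

instance decK_complete : CompleteSpace (decK ι ρ ξ) :=
  (Submodule.isClosed_topologicalClosure _).completeSpace_coe

theorem decK_mem {n : M} (hn : n ∈ NA ι ρ ξ) : ρ n ξ ∈ decK ι ρ ξ := subset_closure ⟨n, hn, rfl⟩

theorem decK_ind {S : Set G} (hS : IsClosed S) (h : ∀ n ∈ NA ι ρ ξ, ρ n ξ ∈ S) {η : G}
    (hη : η ∈ decK ι ρ ξ) : η ∈ S :=
  closure_minimal (by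
    rintro _ ⟨n, hn, rfl⟩
    exact h n hn) hS hη

theorem decK_inv {b : G →L[ℂ] G} (h : ∀ n ∈ NA ι ρ ξ, b (ρ n ξ) ∈ decK ι ρ ξ) :
    ∀ η ∈ decK ι ρ ξ, b η ∈ decK ι ρ ξ := fun _ hη =>
  decK_ind ((Submodule.isClosed_topologicalClosure _).preimage b.continuous) h hη

theorem dec_right (h : Sys ι ρ E) (hc : Cen ρ ι.range ξ) {m : M} (hm : m ∈ NA ι ρ ξ) :
    ∃ R : G →L[ℂ] G, (∀ a, R (ρ a ξ) = ρ (a * m) ξ) ∧
      R * (decK ι ρ ξ).starProjection = (decK ι ρ ξ).starProjection * R := by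
  obtain ⟨C, hC, hb⟩ := h.right_bdd hc hm
  obtain ⟨R, -, -, hR⟩ := exists_right_op hc.cyc hC hb
  obtain ⟨m', hm', e⟩ := h.right_adj hc hm
  refine ⟨R, hR, dec_comm _ (decK_inv fun n hn => ?_) (decK_inv fun n hn => ?_)⟩
  · rw [hR]
    exact decK_mem (NA_mul h hn hm)
  · have : star R (ρ n ξ) = ρ (n * m') ξ := by
      refine hc.cyc.eq_of_inner_right ℂ fun a => ?_
      rw [ContinuousLinearMap.star_eq_adjoint, ContinuousLinearMap.adjoint_inner_right, hR,
        ← fi_star_mul, ← fi_star_mul, star_mul, mul_assoc, e, mul_assoc]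
    rw [this]
    exact decK_mem (NA_mul h hn hm')

theorem dec_seq (h : Sys ι ρ E) (hc : Cen ρ ι.range ξ) {x : M} (hx : star x = x) :
    ∃ n : ℕ → M, (∀ k, n k ∈ NA ι ρ ξ) ∧
      Tendsto (fun k => ρ (n k) ξ) atTop (𝓝 ((decK ι ρ ξ).starProjection (ρ x ξ))) ∧
      Tendsto (fun k => ρ (star (n k)) ξ) atTop (𝓝 ((decK ι ρ ξ).starProjection (ρ x ξ))) := by
  obtain ⟨a, ha, hl⟩ := mem_closure_iff_seq_limit.1 ((decK ι ρ ξ).starProjection_apply_mem (ρ x ξ))
  choose b hb hb0 using ha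
  have hb' : ∀ k, ρ (b k) ξ = a k := hb0
  choose n hn h1 h2 h3 h4 using fun k => h.fourier hc x (hb k)
  rw [tendsto_iff_norm_sub_tendsto_zero] at hl
  refine ⟨n, hn, tendsto_iff_norm_sub_tendsto_zero.2 (squeeze_zero (fun _ => norm_nonneg _)
    (fun k => ?_) hl), tendsto_iff_norm_sub_tendsto_zero.2 (squeeze_zero (fun _ => norm_nonneg _)
    (fun k => ?_) hl)⟩
  · rw [← hb' k]
    refine dec_pyth _ (decK_mem (hb k)) (decK_mem (hn k)) ?_ ?_
    · simpa only [fi_star_mul, map_sub, sub_apply] using h1 k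
    · simpa only [fi_star_mul, map_sub, sub_apply] using h2 k
  · rw [← hb' k]
    refine dec_pyth _ (decK_mem (hb k)) (decK_mem (NA_star (hn k))) ?_ ?_
    · simpa only [fi_star_mul, hx, map_sub, sub_apply] using h3 k
    · have := h4 k
      rw [← star_star (n k), fi_star_mul, star_star, hx, map_sub] at this
      exact this

theorem dec_bicom (h : Sys ι ρ E) (hc : Cen ρ ι.range ξ) {x : M} (hx : star x = x)
    {P S : G →L[ℂ] G} (hP : P = (decK ι ρ ξ).starProjection)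
    (hS : ∀ n ∈ NA ι ρ ξ, ρ n * S = S * ρ n) (hPS : P * S * P = S) :
    P * ρ x * P * S = S * (P * ρ x * P) := by
  have hp : IsStarProjection P := hP ▸ isStarProjection_starProjection
  have hpp : P * P = P := hp.isIdempotentElem
  have h1 : P * S = S := by rw [← hPS, ← mul_assoc, ← mul_assoc, hpp]
  have h2 : S * P = S := by rw [← hPS, mul_assoc, hpp]
  obtain ⟨n, hn, l1, l2⟩ := dec_seq h hc hx
  rw [← hP] at l1 l2
  have hT : ∀ m ∈ NA ι ρ ξ, ∃ R : G →L[ℂ] G, (∀ a, R (ρ a ξ) = ρ a (ρ m ξ)) ∧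
      (P * ρ x * P) (ρ m ξ) = R (P (ρ x ξ)) := by
    intro m hm
    obtain ⟨R, r1, r2⟩ := dec_right h hc hm
    have r3 : ∀ a, R (ρ a ξ) = ρ a (ρ m ξ) := fun a => by rw [r1, map_mul]; rfl
    refine ⟨R, r3, ?_⟩
    have r4 : P (ρ m ξ) = ρ m ξ := hP ▸ Submodule.starProjection_eq_self_iff.2 (decK_mem hm)
    show P (ρ x (P (ρ m ξ))) = (R * P) (ρ x ξ)
    rw [r4, ← r3, hP, r2]
    rfl
  have hsa : IsSelfAdjoint (P * ρ x * P) := by
    rw [IsSelfAdjoint, star_mul, star_mul, hp.isSelfAdjoint.star_eq, ← map_star, hx, mul_assoc]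
  have key : ∀ m ∈ NA ι ρ ξ, ∀ m' ∈ NA ι ρ ξ,
      ⟪ρ m' ξ, (P * ρ x * P * S - S * (P * ρ x * P)) (ρ m ξ)⟫_ℂ = 0 := by
    intro m hm m' hm'
    obtain ⟨R, r1, r2⟩ := hT m hm
    obtain ⟨R', r1', r2'⟩ := hT m' hm'
    have t1 := (((R'.continuous.tendsto _).comp l1).inner (𝕜 := ℂ)
      (tendsto_const_nhds (x := S (ρ m ξ))))
    have t2 := (tendsto_const_nhds (x := ρ m' ξ)).inner (𝕜 := ℂ)
      (((S * R).continuous.tendsto _).comp l2)
    have t3 := tendsto_nhds_unique t1 (t2.congr fun k => by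
      show ⟪ρ m' ξ, S (R (ρ (star (n k)) ξ))⟫_ℂ = ⟪R' (ρ (n k) ξ), S (ρ m ξ)⟫_ℂ
      rw [r1, r1', ws_inner (n k)]
      exact congrArg (fun T : G →L[ℂ] G => ⟪ρ m' ξ, T (ρ m ξ)⟫_ℂ) (hS _ (NA_star (hn k))).symm)
    rw [sub_apply, inner_sub_right, sub_eq_zero]
    show ⟪ρ m' ξ, (P * ρ x * P) (S (ρ m ξ))⟫_ℂ = ⟪ρ m' ξ, S ((P * ρ x * P) (ρ m ξ))⟫_ℂ
    rw [← hsa.isSymmetric.apply_clm, r2, r2']
    exact t3
  set D := P * ρ x * P * S - S * (P * ρ x * P) with hD
  have d1 : P * D = D := by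
    rw [hD, mul_sub, ← mul_assoc P S, h1]
    simp only [← mul_assoc, hpp]
  have d2 : D * P = D := by
    rw [hD, sub_mul, mul_assoc _ S P, h2]
    simp only [mul_assoc, hpp]
  have d3 : ∀ m ∈ NA ι ρ ξ, D (ρ m ξ) = 0 := by
    intro m hm
    have a1 : D (ρ m ξ) ∈ decK ι ρ ξ := by
      rw [← d1, hP]
      exact (decK ι ρ ξ).starProjection_apply_mem _
    exact inner_self_eq_zero.1 (decK_ind (S := {η | ⟪η, D (ρ m ξ)⟫_ℂ = 0})
      (isClosed_eq (continuous_id.inner continuous_const) continuous_const) (key m hm) a1)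
  rw [← sub_eq_zero, ← hD, ← d2]
  refine ContinuousLinearMap.ext fun η => ?_
  exact decK_ind (S := {η | D η = 0}) (isClosed_eq D.continuous continuous_const) d3
    (hP ▸ (decK ι ρ ξ).starProjection_apply_mem η)

theorem dec_approx (h : Sys ι ρ E) (hc : Cen ρ ι.range ξ) {x : M} (hx : star x = x)
    (hn : ‖x‖ ≤ 1) {δ : ℝ} (hδ : 0 < δ) : ∃ n ∈ NA ι ρ ξ, star n = n ∧ ‖n‖ ≤ 1 ∧
      ‖ρ n ξ - (decK ι ρ ξ).starProjection (ρ x ξ)‖ ≤ δ := by
  have h1 : (1 : M) ∈ NA ι ρ ξ := map_one ι ▸ ι_mem_NA 1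
  let A : StarSubalgebra ℂ M :=
    { (NA ι ρ ξ).toSubalgebra h1 fun _ _ => NA_mul h with star_mem' := NA_star }
  set P := (decK ι ρ ξ).starProjection with hP
  have hp : IsStarProjection P := isStarProjection_starProjection
  have hi : ∀ n ∈ NA ι ρ ξ, ∀ η ∈ decK ι ρ ξ, ρ n η ∈ decK ι ρ ξ := fun n hn =>
    decK_inv fun m hm => by
      have := decK_mem (NA_mul h hn hm)
      rwa [map_mul] at this
  have hξ : P ξ = ξ := by
    have := decK_mem h1
    rw [map_one] at this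
    exact Submodule.starProjection_eq_self_iff.2 this
  obtain ⟨_, ⟨n, hn', rfl⟩, y1, y2, y3⟩ := kapl (A.map ρ) (T := P * ρ x * P) hp
    (by
      rintro _ ⟨n, hn, rfl⟩
      exact dec_comm _ (hi n hn) (map_star ρ n ▸ hi _ (NA_star hn)))
    (by rw [star_mul, star_mul, hp.isSelfAdjoint.star_eq, ← map_star, hx, mul_assoc])
    ((norm_mul₃_le).trans (mul_le_one₀ (mul_le_one₀ hp.norm_le (norm_nonneg _)
      ((h.vn.norm_eq x).trans_le hn)) (norm_nonneg _) hp.norm_le))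
    (fun S hS hPS => dec_bicom h hc hx hP (fun n hn => hS _ ⟨n, hn, rfl⟩) hPS)
    (η := fun _ : Unit => ξ) (fun _ => hξ) hδ
  refine ⟨n, hn', h.vn.inj ((map_star ρ n).trans y1), (h.vn.norm_eq n).symm.trans_le y2, ?_⟩
  have y4 : ‖ρ n ξ - P (ρ x (P ξ))‖ ≤ δ := y3 ()
  rwa [hξ] at y4

theorem Sys.decomp (h : Sys ι ρ E) (hc : Cen ρ ι.range ξ) {x : M} (hx : star x = x)
    (hn : ‖x‖ ≤ 1) : ∃ x₀ : M, star x₀ = x₀ ∧ ‖x₀‖ ≤ 1 ∧
      (∀ n ∈ NA ι ρ ξ, fi ρ ξ (star n * (x - x₀)) = 0) ∧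
      ∀ δ : ℝ, 0 < δ → ∃ n ∈ NA ι ρ ξ, star n = n ∧ ‖n‖ ≤ 1 ∧ ‖ρ (x₀ - n) ξ‖ ≤ δ := by
  choose n h1 h2 h3 h4 using fun k : ℕ => dec_approx h hc hx hn (Nat.one_div_pos_of_nat (n := k))
  obtain ⟨x₀, hl⟩ := h.vn.exists_lim (Ultrafilter.of atTop) (.of_forall h3)
  have h5 : Tendsto (fun k => ρ (n k) ξ) atTop (𝓝 ((decK ι ρ ξ).starProjection (ρ x ξ))) :=
    tendsto_iff_norm_sub_tendsto_zero.2 (squeeze_zero (fun _ => norm_nonneg _) h4
      tendsto_one_div_add_atTop_nhds_zero_nat)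
  have h6 : ρ x₀ ξ = (decK ι ρ ξ).starProjection (ρ x ξ) := ext_inner_left ℂ fun η =>
    tendsto_nhds_unique (hl η ξ) (tendsto_const_nhds.inner (h5.mono_left (Ultrafilter.of_le _)))
  refine ⟨x₀, hl.star.unique h.vn hl (.of_forall h2), hl.norm_le h.vn (.of_forall h3),
    fun m hm => ?_, fun δ hδ => ?_⟩
  · rw [fi_star_mul, map_sub, sub_apply, h6]
    exact Submodule.inner_right_of_mem_orthogonal (decK_mem hm)
      ((decK ι ρ ξ).sub_starProjection_mem_orthogonal _)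
  · obtain ⟨m, a1, a2, a3, a4⟩ := dec_approx h hc hx hn hδ
    refine ⟨m, a1, a2, a3, ?_⟩
    rwa [map_sub, sub_apply, h6, norm_sub_rev]

end Vale.Agent.P078
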