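import Vale.Agent.P078.LM

/-! Removing one site: the polynomial functional against the logarithm. -/

set_option linter.unusedSectionVars false

namespace Vale.Agent.P078

open Finset Polynomial MeasureTheory Complex Filter Topology
open scoped ComplexConjugate Matrix

variable {V : Type} [Fintype V] [DecidableEq V] {r : ℕ}

theorem df_split {R : Type} [CommRing R] (c : Finset V → R) {T : Finset V} {x : V} (hx : x ∈ T)
    (β : V → R) :
    NN c T β = NN c (T.erase x) β + β x * NN (fun S => c (insert x S)) (T.erase x) β := by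
  unfold NN
  conv_lhs => rw [← insert_erase hx]
  rw [sum_powerset_insert (notMem_erase x T), mul_sum]
  congr 1
  refine sum_congr rfl fun S hS => ?_
  rw [prod_insert (fun h => notMem_erase x T (mem_powerset.1 hS h))]
  ring

theorem df_congr {R : Type} [CommRing R] (c : Finset V → R) {T : Finset V} {β β' : V → R}
    (h : ∀ v ∈ T, β v = β' v) : NN c T β = NN c T β' :=
  sum_congr rfl fun S hS => by rw [prod_congr rfl fun v hv => h v (mem_powerset.1 hS hv)]

/-- The Euler operator on power series. -/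
noncomputable def dfE (φ : PowerSeries ℝ) : PowerSeries ℝ :=
  PowerSeries.X * PowerSeries.derivative ℝ φ

theorem df_coeff (φ : PowerSeries ℝ) (k : ℕ) :
    PowerSeries.coeff k (dfE φ) = k * PowerSeries.coeff k φ := by
  unfold dfE
  cases k with
  | zero => simp
  | succ k => rw [PowerSeries.coeff_succ_X_mul, PowerSeries.coeff_derivative]; push_cast; ring

theorem df_mul (φ ψ : PowerSeries ℝ) : dfE (φ * (1 - ψ)) = (1 - ψ) * dfE φ - φ * dfE ψ := by
  unfold dfE
  rw [Derivation.leibniz, map_sub, PowerSeries.derivative_one]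
  simp only [smul_eq_mul]
  ring

theorem df_pow (φ : PowerSeries ℝ) (j : ℕ) :
    dfE (φ ^ (j + 1)) = PowerSeries.C ((j : ℝ) + 1) * (dfE φ * φ ^ j) := by
  unfold dfE
  rw [PowerSeries.derivative_pow]
  simp only [map_add, map_natCast, map_one, Nat.add_sub_cancel]
  push_cast
  ring

theorem df_euler (c : Finset V → ℝ) (T : Finset V) (α : V → ℝ) :
    ∑ y ∈ T, NP c (T.erase y) α + dfE (NP c T α) = (T.card : PowerSeries ℝ) * NP c T α := by
  have h1 : ∀ y, NP c (T.erase y) α = ∑ S ∈ T.powerset, if y ∉ S then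
      PowerSeries.C (c S) * ∏ v ∈ S, PowerSeries.C (α v) * PowerSeries.X else 0 := by
    intro y
    rw [← sum_filter]
    unfold NP NN
    refine sum_congr ?_ fun _ _ => rfl
    ext S
    simp [subset_erase]
  have h2 : dfE (NP c T α) = ∑ S ∈ T.powerset, (S.card : PowerSeries ℝ) *
      (PowerSeries.C (c S) * ∏ v ∈ S, PowerSeries.C (α v) * PowerSeries.X) := by
    ext k
    unfold NP NN
    rw [df_coeff, map_sum, map_sum, mul_sum]
    refine sum_congr rfl fun S _ => ?_
    rw [prod_mul_distrib, prod_const, ← map_prod, ← map_natCast PowerSeries.C]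
    simp only [PowerSeries.coeff_C_mul, PowerSeries.coeff_X_pow]
    split_ifs with h <;> simp [h]
  rw [sum_congr rfl fun y _ => h1 y, sum_comm, h2, ← sum_add_distrib]
  unfold NP NN
  rw [mul_sum]
  refine sum_congr rfl fun S hS => ?_
  rw [← sum_filter, sum_const, nsmul_eq_mul, ← add_mul, ← Nat.cast_add, ← sdiff_eq_filter,
    card_sdiff_add_card_eq_card (mem_powerset.1 hS)]

theorem df_sum {c : Finset V → ℝ} (h0 : c ∅ = 1) (T : Finset V) (α : V → ℝ) :
    ∑ y ∈ T, ratio c T y α = (T.card : PowerSeries ℝ) - dfE (NP c T α) * (NP c T α)⁻¹ := by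
  unfold ratio
  have h1 := PowerSeries.mul_inv_cancel (NP c T α) (by rw [constantCoeff_NP h0]; exact one_ne_zero)
  rw [← sum_mul]
  linear_combination (NP c T α)⁻¹ * df_euler c T α + (T.card : PowerSeries ℝ) * h1

theorem df_geom {ρ : PowerSeries ℝ} (hρ : PowerSeries.constantCoeff ρ = 0) (K : ℕ) :
    (1 - ρ)⁻¹ = ∑ j ∈ range K, ρ ^ j + ρ ^ K * (1 - ρ)⁻¹ := by
  have h := PowerSeries.mul_inv_cancel (1 - ρ) (by simp [hρ])
  linear_combination (∑ j ∈ range K, ρ ^ j) * h - (1 - ρ)⁻¹ * mul_neg_geom_sum ρ K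

theorem df_high {ρ : PowerSeries ℝ} (hρ : PowerSeries.constantCoeff ρ = 0) {k K : ℕ} (hk : k < K)
    (ψ : PowerSeries ℝ) : PowerSeries.coeff k (ρ ^ K * ψ) = 0 :=
  PowerSeries.X_pow_dvd_iff.1
    ((pow_dvd_pow_of_dvd (PowerSeries.X_dvd_iff.2 hρ) K).mul_right ψ) k hk

theorem df_pair {P : ℝ[X]} {n : ℕ} (hn : P.natDegree < n) (φ : PowerSeries ℝ) :
    pair P φ = ∑ k ∈ range n, P.coeff k * PowerSeries.coeff k φ :=
  P.sum_over_range' (f := fun k a => a * PowerSeries.coeff k φ) (fun _ => zero_mul _) n hn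

theorem df_coeffQ (P : ℝ[X]) (k : ℕ) : (X * P.derivative).coeff k = P.coeff k * k := by
  cases k with
  | zero => simp
  | succ k => rw [coeff_X_mul, coeff_derivative]; push_cast; ring

theorem df_one {P : ℝ[X]} (h0 : P.coeff 0 = 0) {n : ℕ} (hn : P.natDegree < n)
    (hn' : (X * P.derivative).natDegree < n) {ρ : PowerSeries ℝ}
    (hρ : PowerSeries.constantCoeff ρ = 0) :
    pair P (1 + dfE ρ * (1 - ρ)⁻¹) =
      ∑ j ∈ range n, pair (X * P.derivative) (ρ ^ (j + 1)) / (j + 1) := by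
  simp only [df_pair hn', df_coeffQ, sum_div]
  rw [df_pair hn, sum_comm]
  refine sum_congr rfl fun k hk => ?_
  have h1 : P.coeff k * PowerSeries.coeff k (1 : PowerSeries ℝ) = 0 := by
    rw [PowerSeries.coeff_one]
    split_ifs with h <;> simp [h, h0]
  rw [df_geom hρ n, mul_add (dfE ρ), mul_left_comm (dfE ρ), map_add, map_add,
    df_high hρ (mem_range.1 hk), add_zero, mul_add, h1, zero_add, mul_sum, map_sum, mul_sum]
  refine sum_congr rfl fun j _ => ?_
  have h2 := congrArg (PowerSeries.coeff k) (df_pow ρ j)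
  rw [df_coeff, PowerSeries.coeff_C_mul] at h2
  rw [mul_assoc, h2]
  field_simp

theorem df_two {P : ℝ[X]} {n : ℕ} (hn' : (X * P.derivative).natDegree < n) {ρ : PowerSeries ℝ}
    (hρ : PowerSeries.constantCoeff ρ = 0) (ε : ℝ) :
    pair (X * P.derivative) (1 - PowerSeries.C ε * ρ)⁻¹ =
      ∑ j ∈ range n, ε ^ (j + 1) * pair (X * P.derivative) (ρ ^ (j + 1)) := by
  have hρ' : PowerSeries.constantCoeff (PowerSeries.C ε * ρ) = 0 := by simp [hρ]
  simp only [df_pair hn', df_coeffQ, mul_sum]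
  rw [sum_comm]
  refine sum_congr rfl fun k hk => ?_
  have h1 : (k : ℝ) * PowerSeries.coeff k (1 : PowerSeries ℝ) = 0 := by
    rw [PowerSeries.coeff_one]
    split_ifs with h <;> simp [h]
  rw [df_geom hρ' (n + 1), map_add, df_high hρ' (by have := mem_range.1 hk; omega), add_zero,
    sum_range_succ', map_add, pow_zero, mul_add, mul_assoc _ _ (PowerSeries.coeff k 1), h1,
    mul_zero, add_zero, map_sum, mul_sum]
  refine sum_congr rfl fun j _ => ?_
  rw [mul_pow, ← map_pow, PowerSeries.coeff_C_mul]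
  ring

theorem df_im {ζ : ℂ} (hζ : ‖ζ‖ = 1) (hi : 0 < ζ.im) (s : ℝ) :
    (ζ - ζ / (1 - s * conj ζ)).im = s ^ 2 * ζ.im / ‖ζ - s‖ ^ 2 := by
  have h1 : ζ * conj ζ = 1 := by rw [Complex.mul_conj, Complex.normSq_eq_norm_sq, hζ]; simp
  have h2 : ζ - s ≠ 0 := fun h => by
    have := congrArg Complex.im h
    simp at this
    linarith
  have h3 : 1 - s * conj ζ ≠ 0 := fun h => h2 (by linear_combination ζ * h + s * h1)
  have h4 : ζ - ζ / (1 - s * conj ζ) = -(s * ζ) / (ζ - s) := by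
    field_simp
    linear_combination (-ζ * s) * h1
  have h5 : ζ.re ^ 2 + ζ.im ^ 2 = 1 := by
    have := congrArg Complex.re h1
    simp at this
    linarith
  have h6 : normSq (ζ - s) ≠ 0 := fun h => h2 (normSq_eq_zero.1 h)
  rw [h4, Complex.div_im, ← Complex.normSq_eq_norm_sq]
  field_simp
  simp
  ring

theorem df_series {c : Finset V → ℝ} (h0 : c ∅ = 1) {T : Finset V} {x : V} (hx : x ∈ T)
    (α : V → ℝ) : ∃ ρ : PowerSeries ℝ, PowerSeries.constantCoeff ρ = 0 ∧
      ∑ y ∈ T, ratio c T y α - ∑ y ∈ T.erase x, ratio c (T.erase x) y α =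
        1 + dfE ρ * (1 - ρ)⁻¹ ∧
      ∀ ε : ℝ, ratio c T x (Function.update α x (ε * α x)) = (1 - PowerSeries.C ε * ρ)⁻¹ := by
  have hw := PowerSeries.mul_inv_cancel (NP c (T.erase x) α)
    (by rw [constantCoeff_NP h0]; exact one_ne_zero)
  obtain ⟨ρ, hρ⟩ : ∃ ρ, ρ = -(PowerSeries.C (α x) * PowerSeries.X *
      NN (fun S => PowerSeries.C (c (insert x S))) (T.erase x)
        (fun v => PowerSeries.C (α v) * PowerSeries.X) * (NP c (T.erase x) α)⁻¹) := ⟨_, rfl⟩
  have hρ0 : PowerSeries.constantCoeff ρ = 0 := by simp [hρ]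
  have e1 : ∀ (ε : ℝ) (d : Finset V → PowerSeries ℝ), NN d (T.erase x)
      (fun v => PowerSeries.C (Function.update α x (ε * α x) v) * PowerSeries.X) =
      NN d (T.erase x) fun v => PowerSeries.C (α v) * PowerSeries.X := fun ε d =>
    df_congr d fun v hv => by rw [Function.update_of_ne (ne_of_mem_erase hv)]
  have e2 : ∀ ε : ℝ, NP c T (Function.update α x (ε * α x)) =
      NP c (T.erase x) α * (1 - PowerSeries.C ε * ρ) := by
    intro ε
    conv_lhs => unfold NP
    rw [df_split _ hx, e1, e1, Function.update_self, map_mul, hρ]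
    change NP c (T.erase x) α + _ = _
    linear_combination (-(PowerSeries.C ε * PowerSeries.C (α x) * PowerSeries.X *
      NN (fun S => PowerSeries.C (c (insert x S))) (T.erase x)
        (fun v => PowerSeries.C (α v) * PowerSeries.X))) * hw
  refine ⟨ρ, hρ0, ?_, fun ε => ?_⟩
  · have e3 := e2 1
    rw [one_mul, Function.update_eq_self, map_one, one_mul] at e3
    have hu := PowerSeries.mul_inv_cancel (1 - ρ) (by simp [hρ0])
    rw [df_sum h0, df_sum h0, e3, df_mul, PowerSeries.mul_inv_rev, ← card_erase_add_one hx]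
    push_cast
    linear_combination (dfE ρ * (1 - ρ)⁻¹) * hw -
      (dfE (NP c (T.erase x) α) * (NP c (T.erase x) α)⁻¹) * hu
  · unfold ratio
    rw [e2, PowerSeries.mul_inv_rev]
    have e4 : NP c (T.erase x) (Function.update α x (ε * α x)) = NP c (T.erase x) α := e1 ε _
    rw [e4]
    linear_combination (1 - PowerSeries.C ε * ρ)⁻¹ * hw

theorem Stab.deform {c : Finset V → ℝ} (hc : Stab c) {t γ : ℝ} {ζ : ℂ} {P : ℝ[X]}
    (hP : GoodP t γ ζ P) (ht : 0 < t) {T : Finset V} {x : V} (hx : x ∈ T) {α : V → ℝ}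
    (hα : ∀ v ∈ T, 0 < α v ∧ α v ≤ 1 / t) :
    |∑ y ∈ T, pair P (ratio c T y α) - ∑ y ∈ T.erase x, pair P (ratio c (T.erase x) y α) -
      (ζ * Complex.log (1 - α x * conj ζ * Sf c T x fun v => α v * conj ζ)).im| ≤
      γ * (α x * ms c T x α) := by
  obtain ⟨ρ, hρ, s1, s2⟩ := df_series hc.c0 hx α
  obtain ⟨n, hn, hn'⟩ : ∃ n, P.natDegree < n ∧ (X * P.derivative).natDegree < n :=
    ⟨max P.natDegree (X * P.derivative).natDegree + 1, by omega, by omega⟩
  have hP0 : P.coeff 0 = 0 := X_dvd_iff.1 ((dvd_pow_self X two_ne_zero).trans hP.dvd)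
  obtain ⟨Λ, hΛ⟩ : ∃ Λ : PowerSeries ℝ →ₗ[ℝ] ℝ, ∀ φ, pair P φ = Λ φ :=
    ⟨∑ k ∈ range n, P.coeff k • PowerSeries.coeff k, fun φ => by simp [df_pair hn]⟩
  have hAB : ∑ y ∈ T, pair P (ratio c T y α) - ∑ y ∈ T.erase x, pair P (ratio c (T.erase x) y α) =
      ∑ j ∈ range n, pair (X * P.derivative) (ρ ^ (j + 1)) / (j + 1) := by
    rw [← df_one hP0 hn hn' hρ, ← s1]
    simp only [hΛ, map_sub, map_sum]
  have hinv : ∀ a : ℝ, (ζ / a)⁻¹ = a * conj ζ := fun a => by
    rw [inv_div, div_eq_mul_inv, Complex.inv_eq_conj hP.norm]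
  have him : ∀ a : ℝ, 0 < a → 0 < (ζ / a).im := fun a ha => by
    rw [Complex.div_ofReal_im]
    exact div_pos hP.im ha
  have hS : (Sf c T x fun v => α v * conj ζ).im ≤ 0 := by
    have := hc.Sf_im hx (z := fun v => ζ / α v) fun v hv => him _ (hα v (mem_of_mem_erase hv)).1
    simpa only [hinv] using this
  have hN : NC c (T.erase x) (fun v => α v * conj ζ) ≠ 0 := by
    have := hc.up (T.erase x) (fun v => ζ / α v) fun v hv => him _ (hα v (mem_of_mem_erase hv)).1
    simpa only [hinv] using this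
  obtain ⟨ρ₀, hρ₀⟩ : ∃ ρ₀, ρ₀ = α x * conj ζ * Sf c T x fun v => α v * conj ζ := ⟨_, rfl⟩
  have hsl : ∀ ε : ℝ, 0 ≤ ε → 1 - ε * ρ₀ ∈ slitPlane := by
    intro ε hε
    have := sub_div_mem_slitPlane (S := ε * Sf c T x fun v => α v * conj ζ) (him _ (hα x hx).1)
      (by rw [Complex.im_ofReal_mul]; exact mul_nonpos_of_nonneg_of_nonpos hε hS)
    rw [hinv] at this
    convert this using 2
    rw [hρ₀]
    ring
  have hd : ∀ ε : ℝ, 0 ≤ ε → HasDerivAt (fun ε : ℝ =>
      ∑ j ∈ range n, ε ^ (j + 1) * (pair (X * P.derivative) (ρ ^ (j + 1)) / (j + 1)) -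
        (ζ * Complex.log (1 - ε * ρ₀)).im)
      (∑ j ∈ range n, ε ^ j * pair (X * P.derivative) (ρ ^ (j + 1)) -
        (ζ * (-ρ₀ / (1 - ε * ρ₀))).im) ε := by
    intro ε hε
    refine HasDerivAt.sub (HasDerivAt.fun_sum fun j _ => ?_) ?_
    · refine ((hasDerivAt_pow (j + 1) ε).mul_const
        (pair (X * P.derivative) (ρ ^ (j + 1)) / (j + 1))).congr_deriv ?_
      push_cast
      field_simp
    · have h1 : HasDerivAt (fun ε : ℝ => 1 - ε * ρ₀) (-ρ₀) ε := by
        simpa using ((Complex.ofRealCLM.hasDerivAt (x := ε)).mul_const ρ₀).const_sub 1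
      exact Complex.imCLM.hasFDerivAt.comp_hasDerivAt ε ((h1.clog_real (hsl ε hε)).const_mul ζ)
  obtain ⟨ε, ⟨hε0, hε1⟩, hε⟩ := exists_hasDerivAt_eq_slope _ _ one_pos
    (fun ε hε => (hd ε hε.1).continuousAt.continuousWithinAt) (fun ε hε => hd ε hε.1.le)
  simp only [one_pow, one_mul, ofReal_one, ofReal_zero, zero_mul, sub_zero, Complex.log_one,
    mul_zero, zero_im, div_one, pow_succ (0 : ℝ), sum_const_zero] at hε
  rw [hAB, ← hρ₀, ← hε]
  obtain ⟨m, s, β, b0, b1, -, b2, b3⟩ := hc.lm (α := Function.update α x (ε * α x)) hx ht (by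
    intro v hv
    rcases eq_or_ne v x with rfl | h
    · rw [Function.update_self]
      exact ⟨mul_pos hε0 (hα v hv).1,
        (mul_le_of_le_one_left (hα v hv).1.le hε1.le).trans (hα v hv).2⟩
    · rw [Function.update_of_ne h]
      exact hα v hv)
  have c0 : ∑ j, β j = 1 := by simpa [hc.coeff_zero] using (b2 0).symm
  have c2 : ∑ j, β j * s j ^ 2 = ε * (α x * ms c T x α) := by
    rw [← b2, hc.coeff_two hx, Function.update_self, mul_assoc]
    congr 2
    exact sum_congr rfl fun v hv => by rw [Function.update_of_ne (ne_of_mem_erase hv)]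
  have hup : ∀ v ∈ T.erase x, ((Function.update α x (ε * α x) v : ℝ) : ℂ) * conj ζ =
      α v * conj ζ := fun v hv => by rw [Function.update_of_ne (ne_of_mem_erase hv)]
  have hNe : NC c (T.erase x) (fun v => (Function.update α x (ε * α x) v : ℝ) * conj ζ) =
      NC c (T.erase x) fun v => α v * conj ζ := df_congr _ hup
  have c3 := b3 (conj ζ) (by simpa using hP.im)
  rw [NC_eq hx (hNe ▸ hN), hNe, Sf_congr hup, Function.update_self, div_mul_cancel_left₀ hN] at c3
  have c4 : (1 - ε * ρ₀)⁻¹ = ∑ j, (β j : ℂ) / (1 - s j * conj ζ) := by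
    rw [← c3, hρ₀]
    push_cast
    ring_nf
  have c5 : ε * (ζ * (-ρ₀ / (1 - ε * ρ₀))).im = ∑ j, β j * (s j ^ 2 * ζ.im / ‖ζ - s j‖ ^ 2) := by
    have h1 : (ε : ℂ) * (ζ * (-ρ₀ / (1 - ε * ρ₀))) =
        ∑ j, (β j : ℂ) * (ζ - ζ / (1 - s j * conj ζ)) := by
      have h2 := slitPlane_ne_zero (hsl ε hε0.le)
      have h3 : ∑ j, (β j : ℂ) = 1 := by exact_mod_cast c0
      have h4 : ∑ j, (β j : ℂ) * (ζ - ζ / (1 - s j * conj ζ)) =
          ζ * ∑ j, (β j : ℂ) - ζ * ∑ j, (β j : ℂ) / (1 - s j * conj ζ) := by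
        rw [mul_sum, mul_sum, ← sum_sub_distrib]
        exact sum_congr rfl fun j _ => by ring
      rw [h4, h3, ← c4]
      field_simp
      ring
    rw [← Complex.im_ofReal_mul, h1, Complex.im_sum]
    exact sum_congr rfl fun j _ => by rw [Complex.im_ofReal_mul, df_im hP.norm hP.im]
  have c6 : ε * ∑ j ∈ range n, ε ^ j * pair (X * P.derivative) (ρ ^ (j + 1)) =
      ∑ j, β j * (s j * P.derivative.eval (s j)) := by
    have h1 := pair_eq b2 (X * P.derivative)
    rw [s2, df_two hn' hρ] at h1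
    simp only [eval_mul, eval_X] at h1
    rw [← h1, mul_sum]
    exact sum_congr rfl fun j _ => by ring
  refine le_of_mul_le_mul_left ?_ hε0
  rw [← abs_of_pos hε0, ← abs_mul, abs_of_pos hε0, mul_sub, c5, c6, ← sum_sub_distrib,
    mul_left_comm, ← c2, mul_sum]
  refine (abs_sum_le_sum_abs _ _).trans (sum_le_sum fun j _ => ?_)
  rw [← mul_sub, abs_mul, abs_of_nonneg (b0 j), mul_left_comm]
  exact mul_le_mul_of_nonneg_left (hP.der _ (b1 j)) (b0 j)

end Vale.Agent.P078
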