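import Mathlib

/-! Definitions for the finite dimensional part: minors, expected minors, local potentials. -/

set_option linter.unusedSectionVars false

namespace Vale.Agent.P078

open Finset Polynomial MeasureTheory Complex
open scoped ComplexConjugate Matrix

section Fin

variable {V : Type} [Fintype V] [DecidableEq V] {r : ℕ}

/-- The principal minor on `T`: rows off `T` are replaced by rows of the identity. -/
noncomputable def pm {R : Type} [CommRing R] (A : Matrix V V R) (T : Finset V) : R :=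
  (Matrix.of fun a b => if a ∈ T then A a b else if a = b then 1 else 0).det

/-- The pinching of a matrix along a colouring. -/
def mask {C : Type} [DecidableEq C] (X : Matrix V V ℂ) (c : V → C) : Matrix V V ℂ :=
  Matrix.of fun a b => if c a = c b then X a b else 0

/-- The quadratic form of a matrix. -/
noncomputable def qf (X : Matrix V V ℂ) (v : V → ℂ) : ℝ := (star v ⬝ᵥ X *ᵥ v).re

/-- The squared norm of a vector. -/
noncomputable def nsq (v : V → ℂ) : ℝ := ∑ a, ‖v a‖ ^ 2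

/-- Hermitian contractions with zero diagonal. -/
structure Adm (X : Matrix V V ℂ) : Prop where
  herm : X.IsHermitian
  diag : ∀ a, X a a = 0
  contr : ∀ v, |qf X v| ≤ nsq v

/-- The colours allowed by the state of a site. -/
def allow (s : Option (Fin r)) : Finset (Fin r) := s.elim univ fun i => {i}

/-- The expected principal minor of the negative of the pinched matrix. -/
noncomputable def cf (X : Matrix V V ℂ) (s : V → Option (Fin r)) (S : Finset V) : ℝ :=
  (∑ c ∈ Fintype.piFinset fun v => allow (s v), (pm (-mask X c) S).re) /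
    ∏ v, ((allow (s v)).card : ℝ)

/-- The multi-affine generating polynomial of a set function. -/
def NN {R : Type} [CommRing R] (c : Finset V → R) (T : Finset V) (β : V → R) : R :=
  ∑ S ∈ T.powerset, c S * ∏ v ∈ S, β v

/-- Complex evaluation. -/
noncomputable def NC (c : Finset V → ℝ) (T : Finset V) (β : V → ℂ) : ℂ :=
  NN (fun S => (c S : ℂ)) T β

/-- Evaluation along a ray, as a power series. -/
noncomputable def NP (c : Finset V → ℝ) (T : Finset V) (α : V → ℝ) : PowerSeries ℝ :=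
  NN (fun S => PowerSeries.C (c S)) T fun v => PowerSeries.C (α v) * PowerSeries.X

/-- The moment series of the local measure at `y`. -/
noncomputable def ratio (c : Finset V → ℝ) (T : Finset V) (y : V) (α : V → ℝ) : PowerSeries ℝ :=
  NP c (T.erase y) α * (NP c T α)⁻¹

/-- Integration of a polynomial against a moment series. -/
noncomputable def pair (P : ℝ[X]) (φ : PowerSeries ℝ) : ℝ :=
  P.sum fun k a => a * PowerSeries.coeff k φ

/-- The self-energy at `x`. -/
noncomputable def Sf (c : Finset V → ℝ) (T : Finset V) (x : V) (β : V → ℂ) : ℂ :=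
  -(∑ S ∈ (T.erase x).powerset, (c (insert x S) : ℂ) * ∏ v ∈ S, β v) / NC c (T.erase x) β

/-- The weighted second order mass at `x`. -/
noncomputable def ms (c : Finset V → ℝ) (T : Finset V) (x : V) (w : V → ℝ) : ℝ :=
  ∑ v ∈ T.erase x, -c {x, v} * w v

/-- Stable set functions. -/
structure Stab (c : Finset V → ℝ) : Prop where
  c0 : c ∅ = 1
  c1 : ∀ v, c {v} = 0
  c2 : ∀ x v, x ≠ v → c {x, v} ≤ 0
  up : ∀ (T : Finset V) (z : V → ℂ), (∀ v ∈ T, 0 < (z v).im) → NC c T (fun v => (z v)⁻¹) ≠ 0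
  big : ∀ (T : Finset V) (z : V → ℝ), ((∀ v ∈ T, 1 < z v) ∨ ∀ v ∈ T, z v < -1) →
    NC c T (fun v => ((z v : ℂ))⁻¹) ≠ 0

/-- The boost of a processed site. -/
def kap (s : Option (Fin r)) : ℝ := s.elim 1 fun _ => 32

/-- The inverse levels. -/
noncomputable def al (t : ℝ) (s : V → Option (Fin r)) (W : V → ℝ) (σ : ℝ) (v : V) : ℝ :=
  (kap (s v) * (t + σ / W v))⁻¹

/-- The local potential. -/
noncomputable def FF (t : ℝ) (P : ℝ[X]) (X : Matrix V V ℂ) (s : V → Option (Fin r)) (W : V → ℝ)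
    (y : V) : ℝ :=
  ∫ σ in Set.Ioi (0 : ℝ), pair P (ratio (cf X s) univ y (al t s W σ))

/-- The family of stable polynomials. -/
noncomputable def PP (X : Matrix V V ℂ) (C : V → Finset (Fin r)) (k : V → ℕ)
    (z : V → Fin r → ℂ) : ℂ :=
  ∑ K ∈ Fintype.piFinset fun v => (C v).powersetCard (k v),
    ∏ c, pm (Matrix.diagonal (fun v => z v c) - X) (univ.filter fun v => c ∈ K v)

/-- The diagonal version with all colours allowed. -/
noncomputable def GG (r : ℕ) (X : Matrix V V ℂ) (k : V → ℕ) (z : V → ℂ) : ℂ :=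
  PP (r := r) X (fun _ => univ) k fun v _ => z v

end Fin

/-- Polynomial approximations of a smoothed step function. -/
structure GoodP (t γ : ℝ) (ζ : ℂ) (P : ℝ[X]) : Prop where
  norm : ‖ζ‖ = 1
  re : 9 / 10 ≤ ζ.re
  im : 0 < ζ.im
  im' : ζ.im ≤ γ
  dvd : X ^ 2 ∣ P
  der : ∀ s : ℝ, |s| ≤ 1 / t →
    |s * P.derivative.eval s - s ^ 2 * ζ.im / ‖ζ - s‖ ^ 2| ≤ γ * s ^ 2
  nonneg : ∀ s : ℝ, |s| ≤ 1 / t → 0 ≤ P.eval s
  big : ∀ s : ℝ, 3 / 2 ≤ s → s ≤ 1 / t → 2 / 5 ≤ P.eval s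
  small : ∀ s : ℝ, |s| ≤ 1 / t → s ≤ 1 / 2 → P.eval s ≤ γ * s ^ 2

/-- Real rational functions without poles in the upper half plane. -/
def RatOn (S : ℂ → ℂ) : Prop :=
  ∃ N f : ℝ[X], (∀ z : ℂ, 0 < z.im → aeval z f ≠ 0) ∧
    ∀ z : ℂ, 0 < z.im → S z = aeval z N / aeval z f

/-- Cauchy transforms of finite atomic measures, on the imaginary axis. -/
def Atomic (S : ℝ → ℂ) : Prop :=
  ∃ (n : ℕ) (s ω : Fin n → ℝ), (∀ j, 0 ≤ ω j) ∧
    ∀ y : ℝ, 0 < y → S y = ∑ j, (ω j : ℂ) / (y * I - s j)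

/-- The logarithmic integral along the imaginary axis. -/
noncomputable def II (l : ℂ) (S : ℝ → ℂ) : ℝ :=
  ∫ y in Set.Ioi (0 : ℝ), Real.log ‖1 - S y / (l + y * I)‖

/-- Functions which behave like Cauchy transforms of mass at most `m`. -/
structure Tame (m : ℝ) (S : ℝ → ℂ) : Prop where
  cont : ContinuousOn S (Set.Ioi 0)
  im : ∀ y : ℝ, 0 < y → (S y).im ≤ 0
  bd : ∀ y : ℝ, 0 < y → y * ‖S y‖ ≤ m

/-- Refinement of the partitions defined by two functions. -/
def Rf {Ω J J₀ : Type*} (π : Ω → J) (π₀ : Ω → J₀) : Prop :=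
  ∀ ω ω', π ω = π ω' → π₀ ω = π₀ ω'

/-- A system of finite weighted matrices, one for each point, which agree on overlaps. -/
structure LocSys (Ω : Type*) [TopologicalSpace Ω] [MeasurableSpace Ω] (μ : Measure Ω) (I : Type)
    [Fintype I] [DecidableEq I] (R N : ℕ) (L : ℝ) where
  cell : Ω → I
  d : Ω → I → ℕ
  pt : Ω → I → Ω
  X : Ω → Matrix I I ℂ
  W : Ω → I → ℝ
  cell_lc : IsLocallyConstant cell
  d_lc : IsLocallyConstant d
  pt_cont : ∀ a, Continuous fun ω => pt ω a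
  X_cont : Continuous X
  W_cont : Continuous W
  adm : ∀ ω, Adm (X ω)
  d_zero : ∀ ω a, d ω a = 0 ↔ a = cell ω
  pt_self : ∀ ω, pt ω (cell ω) = ω
  W_self : ∀ ω, W ω (cell ω) = 1
  W_pos : ∀ ω a, 0 < W ω a
  W_le : ∀ ω a, d ω a ≤ R → W ω a ≤ L ^ d ω a
  W_ge : ∀ ω a, d ω a ≤ R → 1 ≤ L ^ d ω a * W ω a
  lip : ∀ ω a b, X ω a b ≠ 0 → d ω b ≤ d ω a + 1
  cell_pt : ∀ ω a, d ω a ≤ R → cell (pt ω a) = a
  card : ∀ ω k, k ≤ R → (univ.filter fun a => d ω a ≤ k).card ≤ N ^ k
  tri : ∀ ω a b, d ω a + d (pt ω a) b ≤ R →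
    d ω b ≤ d ω a + d (pt ω a) b ∧ pt ω b = pt (pt ω a) b ∧ W ω b = W ω a * W (pt ω a) b
  symm : ∀ ω a, d ω a ≤ R → d (pt ω a) (cell ω) ≤ d ω a
  gauge : ∀ ω a, ∃ g : I → ℂ, (∀ b, ‖g b‖ = 1) ∧ ∀ b b', d ω a + d (pt ω a) b ≤ R →
    d ω a + d (pt ω a) b' ≤ R → X ω b b' = conj (g b) * X (pt ω a) b b' * g b'
  mt : ∀ (a i : I) (k : ℕ) (f : Ω → ℝ), 2 * k ≤ R → Continuous f →
    ∫ ω, (if cell ω = i ∧ d ω a ≤ k then W ω a * f (pt ω a) else 0) ∂μ =
      ∫ y, (if cell y = a ∧ d y i ≤ k then f y else 0) ∂μ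

end Vale.Agent.P078
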