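import Vale.Agent.P078.FDefs

/-! Existence of the polynomials. -/

set_option linter.unusedSectionVars false

namespace Vale.Agent.P078

open Finset Polynomial MeasureTheory Complex Filter Topology
open scoped ComplexConjugate Matrix

variable {V : Type} [Fintype V] [DecidableEq V] {r : ℕ}

theorem gp_anti (Q : ℝ[X]) : ∃ R : ℝ[X], derivative (X ^ 2 * R) = X * Q := by
  induction Q using Polynomial.induction_on' with
  | add p q hp hq =>
    obtain ⟨R, hR⟩ := hp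
    obtain ⟨S, hS⟩ := hq
    exact ⟨R + S, by rw [mul_add, derivative_add, hR, hS, mul_add]⟩
  | monomial n c =>
    refine ⟨monomial n (c / (n + 2)), ?_⟩
    have h : (n : ℝ) + 2 ≠ 0 := by positivity
    rw [X_pow_mul_monomial, X_mul_monomial, derivative_monomial]
    congr 1
    push_cast
    field_simp

theorem gp_mvt {f f' : ℝ → ℝ} (h : ∀ x, HasDerivAt f (f' x) x) {u v m : ℝ} (huv : u ≤ v)
    (hm : ∀ x, u ≤ x → x ≤ v → m ≤ f' x) : f u + m * (v - u) ≤ f v := by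
  rcases huv.eq_or_lt with e | e
  · rw [e]; simp
  · obtain ⟨c, hc, h1⟩ := exists_hasDerivAt_eq_slope f f' e
      (fun x _ => (h x).continuousAt.continuousWithinAt) fun x _ => h x
    have h2 := hm c hc.1.le hc.2.le
    rw [h1, le_div_iff₀ (by linarith)] at h2
    linarith

theorem gp_sign {f w : ℝ → ℝ} (h : ∀ x, HasDerivAt f (x * w x) x) (h0 : f 0 = 0) {s : ℝ}
    (hw : ∀ x, |x| ≤ |s| → x ≤ max s 0 → 0 ≤ w x) : 0 ≤ f s := by
  rcases le_total 0 s with hs | hs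
  · have := gp_mvt h hs (m := 0) fun x h1 h2 => mul_nonneg h1
      (hw x (by rwa [abs_of_nonneg h1, abs_of_nonneg hs]) (le_max_of_le_left h2))
    linarith
  · have := gp_mvt (fun x => (h x).neg) hs (m := 0) fun x h1 h2 => by
      have := hw x (by rw [abs_of_nonpos h2, abs_of_nonpos hs]; linarith) (le_max_of_le_right h2)
      nlinarith
    simp only [Pi.neg_apply] at this
    linarith

theorem exists_goodP {t γ : ℝ} (ht : 0 < t) (hγ : 0 < γ) : ∃ ζ P, GoodP t γ ζ P := by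
  have _ := ht
  obtain ⟨b, hb, hb1, hb2⟩ : ∃ b : ℝ, 0 < b ∧ b ≤ γ / 10 ∧ b ≤ 1 / 10 :=
    ⟨min (γ / 10) (1 / 10), by positivity, min_le_left _ _, min_le_right _ _⟩
  obtain ⟨a, ha, ha1, hab⟩ : ∃ a : ℝ, 99 / 100 ≤ a ∧ a ≤ 1 ∧ a ^ 2 + b ^ 2 = 1 := by
    refine ⟨√(1 - b ^ 2), Real.le_sqrt_of_sq_le (by nlinarith), Real.sqrt_le_one.2 (by nlinarith),
      ?_⟩
    rw [Real.sq_sqrt (by nlinarith)]
    ring
  have hd : ∀ s : ℝ, 0 < (a - s) ^ 2 + b ^ 2 := fun s => by positivity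
  obtain ⟨Q, hQ⟩ := exists_polynomial_near_of_continuousOn (-(1 / t)) (1 / t)
    (fun s => b / ((a - s) ^ 2 + b ^ 2) + γ / 10)
    (Continuous.continuousOn (Continuous.add (Continuous.div continuous_const (by fun_prop)
      fun s => (hd s).ne') continuous_const)) (γ / 10) (by positivity)
  have hQ1 : ∀ s : ℝ, |s| ≤ 1 / t → b / ((a - s) ^ 2 + b ^ 2) ≤ Q.eval s := fun s hs => by
    linarith [(abs_lt.1 (hQ s (abs_le.1 hs))).1]
  have hQ2 : ∀ s : ℝ, |s| ≤ 1 / t → Q.eval s ≤ b / ((a - s) ^ 2 + b ^ 2) + γ / 5 :=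
    fun s hs => by linarith [(abs_lt.1 (hQ s (abs_le.1 hs))).2]
  have hQ0 : ∀ s : ℝ, |s| ≤ 1 / t → 0 ≤ Q.eval s := fun s hs =>
    (div_pos hb (hd s)).le.trans (hQ1 s hs)
  obtain ⟨R, hR⟩ := gp_anti Q
  have hP : ∀ x : ℝ, HasDerivAt (fun x => (X ^ 2 * R).eval x) (x * Q.eval x) x := fun x => by
    have := (X ^ 2 * R).hasDerivAt x
    rwa [hR, eval_mul, eval_X] at this
  have hP0 : (X ^ 2 * R).eval 0 = 0 := by simp
  have hnn : ∀ s : ℝ, |s| ≤ 1 / t → 0 ≤ (X ^ 2 * R).eval s := fun s hs =>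
    gp_sign hP hP0 fun x hx _ => hQ0 x (hx.trans hs)
  refine ⟨⟨a, b⟩, X ^ 2 * R, ?_, by simp only; linarith, hb, by simp only; linarith,
    dvd_mul_right _ _, fun s hs => ?_, hnn, fun s h1 h2 => ?_, fun s h1 h2 => ?_⟩
  · rw [← sq_eq_sq₀ (norm_nonneg _) zero_le_one, Complex.sq_norm, normSq_mk, one_pow, ← hab]
    ring
  · have e : ‖(⟨a, b⟩ : ℂ) - s‖ ^ 2 = (a - s) ^ 2 + b ^ 2 := by
      rw [Complex.sq_norm, normSq_apply]
      simp only [sub_re, ofReal_re, sub_im, ofReal_im]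
      ring
    rw [e, hR, eval_mul, eval_X, ← mul_assoc, ← sq, mul_div_assoc, ← mul_sub, abs_mul,
      abs_of_nonneg (sq_nonneg s), mul_comm]
    refine mul_le_mul_of_nonneg_right (abs_le.2 ⟨?_, ?_⟩) (sq_nonneg s)
    · linarith [hQ1 s hs]
    · linarith [hQ2 s hs]
  · have h3 := gp_mvt hP (u := a + b) (v := s) (m := 0) (by linarith) fun x h4 h5 =>
      mul_nonneg (by linarith) (hQ0 x (by rw [abs_of_nonneg (by linarith)]; linarith))
    have h4 := gp_mvt hP (u := a) (v := a + b) (m := a / (2 * b)) (by linarith) fun x h4 h5 => by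
      have h6 := hQ1 x (by rw [abs_of_nonneg (by linarith)]; linarith)
      have h7 : 1 / (2 * b) ≤ b / ((a - x) ^ 2 + b ^ 2) := by
        rw [div_le_div_iff₀ (by positivity) (hd x)]
        nlinarith
      rw [div_eq_mul_one_div]
      exact mul_le_mul h4 (h7.trans h6) (by positivity) (by linarith)
    have h5 := hnn a (by rw [abs_of_nonneg (by linarith)]; linarith)
    have e : a / (2 * b) * (a + b - a) = a / 2 := by field_simp; ring
    linarith
  · have h3 : ∀ x : ℝ, HasDerivAt (fun x => γ * x ^ 2 - (X ^ 2 * R).eval x)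
        (x * (2 * γ - Q.eval x)) x := fun x => by
      refine (((hasDerivAt_pow 2 x).const_mul γ).sub (hP x)).congr_deriv ?_
      push_cast
      ring
    have h4 := gp_sign h3 (by simp) (s := s) fun x h4 h5 => by
      have h6 := hQ2 x (h4.trans h1)
      have h7 : x ≤ 1 / 2 := h5.trans (max_le h2 (by norm_num))
      have h8 : b / ((a - x) ^ 2 + b ^ 2) ≤ γ := by
        rw [div_le_iff₀ (hd x)]
        have h9 : 1 / 10 ≤ (a - x) ^ 2 + b ^ 2 := by nlinarith
        nlinarith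
      linarith
    linarith

theorem exists_bound_sq {P : ℝ[X]} (hP : X ^ 2 ∣ P) (a : ℝ) :
    ∃ B : ℝ, 0 ≤ B ∧ ∀ s : ℝ, |s| ≤ a → |P.eval s| ≤ B * s ^ 2 := by
  obtain ⟨R, rfl⟩ := hP
  obtain ⟨B, hB⟩ := (isCompact_Icc (a := -a) (b := a)).exists_bound_of_continuousOn
    R.continuous.continuousOn
  refine ⟨max B 0, le_max_right _ _, fun s hs => ?_⟩
  rw [eval_mul, eval_pow, eval_X, abs_mul, abs_of_nonneg (sq_nonneg s), mul_comm]
  exact mul_le_mul_of_nonneg_right ((hB s (abs_le.1 hs)).trans (le_max_left _ _)) (sq_nonneg s)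

theorem exists_cut_poly {ε η : ℝ} (hε : 0 ≤ ε) (hη : 0 < η) (hη1 : η ≤ 1) :
    ∃ G : ℝ[X], (∀ s : ℝ, |s| ≤ ε → G.eval s ≤ η) ∧ (∀ s : ℝ, |s| ≤ 1 → G.eval s ≤ 2) ∧
      ∀ s : ℝ, |s| ≤ 1 → max (|s| - ε) 0 ≤ G.eval s := by
  obtain ⟨G, hG⟩ := exists_polynomial_near_of_continuousOn (-(1 + ε)) (1 + ε)
    (fun s => max (|s| - ε) 0 + η / 2) (Continuous.continuousOn (by fun_prop)) (η / 2)
    (half_pos hη)
  refine ⟨G, fun s hs => ?_, fun s hs => ?_, fun s hs => ?_⟩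
  · have := (abs_lt.1 (hG s (abs_le.1 (by linarith)))).2
    rw [max_eq_right (by linarith)] at this
    linarith
  · have := (abs_lt.1 (hG s (abs_le.1 (by linarith)))).2
    have h : max (|s| - ε) 0 ≤ 1 := max_le (by linarith) zero_le_one
    linarith
  · linarith [(abs_lt.1 (hG s (abs_le.1 (by linarith)))).1]

end Vale.Agent.P078
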