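import Vale.Agent.P078.PM

/-! Stability of the family of expected products of minors. -/

set_option linter.unusedSectionVars false

namespace Vale.Agent.P078

open Finset Polynomial MeasureTheory Complex Filter Topology
open scoped ComplexConjugate Matrix

variable {V : Type} [Fintype V] [DecidableEq V] {r : ℕ}

variable {X : Matrix V V ℂ}

/-- One term of the family. -/
noncomputable def PPt (X : Matrix V V ℂ) (z : V → Fin r → ℂ) (K : V → Finset (Fin r)) : ℂ :=
  ∏ c, pm (Matrix.diagonal (fun v => z v c) - X) (univ.filter fun v => c ∈ K v)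

theorem PP_eq (X : Matrix V V ℂ) (C : V → Finset (Fin r)) (k : V → ℕ) (z : V → Fin r → ℂ) :
    PP X C k z = ∑ K ∈ Fintype.piFinset fun v => (C v).powersetCard (k v), PPt X z K := rfl

theorem PPt_congr (X : Matrix V V ℂ) {z z' : V → Fin r → ℂ} {K : V → Finset (Fin r)}
    (h : ∀ v, ∀ c ∈ K v, z v c = z' v c) : PPt X z K = PPt X z' K :=
  prod_congr rfl fun c _ => pm_congr fun a ha b _ => by
    simp [Matrix.diagonal_apply, h a c (mem_filter.1 ha).2]

theorem PPt_update (X : Matrix V V ℂ) (z : V → Fin r → ℂ) {K : V → Finset (Fin r)} {v : V}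
    {c : Fin r} (hc : c ∈ K v) (u : ℂ) :
    PPt X (Function.update z v (Function.update (z v) c u)) K =
      u * PPt X z (Function.update K v ((K v).erase c)) +
        PPt X (Function.update z v (Function.update (z v) c 0)) K := by
  have h1 : ∀ u, (fun a => Function.update z v (Function.update (z v) c u) a c) =
      Function.update (fun a => z a c) v u := fun u => by
    ext a
    by_cases ha : a = v
    · subst ha
      simp
    · simp [ha]
  have h2 : ∀ u, ∀ c' ∈ univ.erase c,
      (fun a => Function.update z v (Function.update (z v) c u) a c') = fun a => z a c' := by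
    intro u c' hc'
    ext a
    by_cases ha : a = v
    · subst ha
      simp [ne_of_mem_erase hc']
    · simp [ha]
  have h3 : (univ.filter fun a => c ∈ Function.update K v ((K v).erase c) a) =
      (univ.filter fun a => c ∈ K a).erase v := by
    ext a
    by_cases ha : a = v
    · subst ha
      simp
    · simp [ha]
  have h4 : ∀ c' ∈ univ.erase c, (univ.filter fun a => c' ∈ Function.update K v ((K v).erase c) a) =
      univ.filter fun a => c' ∈ K a := fun c' hc' => by
    ext a
    by_cases ha : a = v
    · subst ha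
      simp [ne_of_mem_erase hc']
    · simp [ha]
  have h5 := fun u => prod_congr (s₁ := univ.erase c) rfl fun c' hc' => congrArg
    (fun w => pm (Matrix.diagonal w - X) (univ.filter fun a => c' ∈ K a)) (h2 u c' hc')
  have h6 := prod_congr (s₁ := univ.erase c) rfl fun c' hc' => congrArg
    (pm (Matrix.diagonal (fun a => z a c') - X)) (h4 c' hc')
  unfold PPt
  simp only [← mul_prod_erase univ _ (mem_univ c), h1, h3]
  rw [h5, h5, h6]
  simp only [sub_eq_add_neg]
  rw [pm_update _ _ (by simpa using hc)]
  ring

theorem PP_update (X : Matrix V V ℂ) {C : V → Finset (Fin r)} {k : V → ℕ} (z : V → Fin r → ℂ)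
    {v : V} {c : Fin r} {j : ℕ} (hc : c ∈ C v) (hk : k v = j + 1) (u : ℂ) :
    PP X C k (Function.update z v (Function.update (z v) c u)) =
      u * PP X (Function.update C v ((C v).erase c)) (Function.update k v j) z +
        PP X C k (Function.update z v (Function.update (z v) c 0)) := by
  have h1 : ∀ K : V → Finset (Fin r), PPt X (Function.update z v (Function.update (z v) c u)) K =
      u * (if c ∈ K v then PPt X z (Function.update K v ((K v).erase c)) else 0) +
        PPt X (Function.update z v (Function.update (z v) c 0)) K := fun K => by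
    split_ifs with h
    · exact PPt_update X z h u
    · rw [mul_zero, zero_add]
      refine PPt_congr X fun a c' hc' => ?_
      by_cases ha : a = v
      · subst ha
        simp [show c' ≠ c from fun e => h (e ▸ hc')]
      · simp [ha]
  simp only [PP_eq, h1, sum_add_distrib, ← mul_sum, ← sum_filter]
  congr 2
  refine sum_nbij' (fun K => Function.update K v ((K v).erase c))
    (fun K => Function.update K v (insert c (K v))) (fun K hK => ?_) (fun K hK => ?_)
    (fun K hK => ?_) (fun K hK => ?_) fun _ _ => rfl <;>
    simp only [mem_filter, Fintype.mem_piFinset, mem_powersetCard] at hK ⊢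
  · intro a
    by_cases ha : a = v
    · subst ha
      simp [erase_subset_erase c (hK.1 a).1, card_erase_of_mem hK.2, (hK.1 a).2, hk]
    · simpa [ha] using hK.1 a
  · refine ⟨fun a => ?_, by simp⟩
    by_cases ha : a = v
    · subst ha
      have h2 := hK a
      simp only [Function.update_self, subset_erase] at h2 ⊢
      exact ⟨insert_subset hc h2.1.1, by rw [card_insert_of_notMem h2.1.2, h2.2, hk]⟩
    · simpa [ha] using hK a
  · simp [insert_erase hK.2]
  · have h2 := hK v
    simp only [Function.update_self, subset_erase] at h2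
    simp [erase_insert h2.1.2]

theorem PP_sum (X : Matrix V V ℂ) (C : V → Finset (Fin r)) (k : V → ℕ) (z : V → Fin r → ℂ)
    (v : V) : ∑ c ∈ C v, PP X (Function.update C v ((C v).erase c)) k z =
      (((C v).card - k v : ℕ) : ℂ) * PP X C k z := by
  have h1 : ∀ c, (Fintype.piFinset fun a =>
      (Function.update C v ((C v).erase c) a).powersetCard (k a)) =
      (Fintype.piFinset fun a => (C a).powersetCard (k a)).filter fun K => c ∉ K v := fun c => by
    ext K
    simp only [mem_filter, Fintype.mem_piFinset, mem_powersetCard]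
    have h2 := fun h : ∀ a, K a ⊆ Function.update C v ((C v).erase c) a ∧ (K a).card = k a => h v
    simp only [Function.update_self, subset_erase] at h2
    refine ⟨fun h => ⟨fun a => ?_, (h2 h).1.2⟩, fun h a => ?_⟩ <;> by_cases ha : a = v
    · exact ha ▸ ⟨(h2 h).1.1, (h2 h).2⟩
    · simpa [ha] using h a
    · subst ha
      simp [subset_erase, h.1 a, h.2]
    · simpa [ha] using h.1 a
  simp only [PP_eq, h1, sum_filter]
  rw [sum_comm, mul_sum]
  refine sum_congr rfl fun K hK => ?_
  have h2 := mem_powersetCard.1 (Fintype.mem_piFinset.1 hK v)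
  rw [← sum_filter, sum_const, ← sdiff_eq_filter, card_sdiff_of_subset h2.1, h2.2, nsmul_eq_mul]

theorem PP_lin {α a b u : ℂ} {t : ℝ} (ha : a ≠ 0) (hG : ∀ u, t < (conj α * u).re → u * a + b ≠ 0)
    (hu : t < (conj α * u).re) : 0 < (α * a * conj (u * a + b)).re := by
  obtain ⟨ρ, rfl⟩ : ∃ ρ, b = -ρ * a := ⟨-b / a, by field_simp⟩
  have h1 : (conj α * ρ).re ≤ t := not_lt.1 fun h => hG ρ h (by ring)
  have h2 : α * a * conj (u * a + -ρ * a) = (‖a‖ ^ 2 : ℝ) * conj (conj α * u - conj α * ρ) := by
    rw [Complex.ofReal_pow, ← Complex.mul_conj']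
    simp only [map_add, map_mul, map_neg, map_sub, Complex.conj_conj]
    ring
  rw [h2, Complex.re_ofReal_mul, Complex.conj_re, Complex.sub_re]
  exact mul_pos (pow_pos (norm_pos_iff.2 ha) 2) (by linarith)

theorem PP_pos {α : ℂ} {t : ℝ} {C : V → Finset (Fin r)} {k : V → ℕ} {v : V} {j : ℕ}
    (hk : k v = j + 1) (hj : j < (C v).card) {z : V → Fin r → ℂ}
    (hz : ∀ v c, t < (conj α * z v c).re)
    (h1 : ∀ z : V → Fin r → ℂ, (∀ v c, t < (conj α * z v c).re) → PP X C k z ≠ 0)
    (h2 : ∀ c ∈ C v, PP X (Function.update C v ((C v).erase c)) (Function.update k v j) z ≠ 0) :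
    0 < (α * PP X C (Function.update k v j) z * conj (PP X C k z)).re := by
  have h3 : ∀ c ∈ C v, 0 < (α * PP X (Function.update C v ((C v).erase c))
      (Function.update k v j) z * conj (PP X C k z)).re := fun c hc => by
    have h4 := PP_update X z hc hk (z v c)
    rw [Function.update_eq_self, Function.update_eq_self] at h4
    rw [h4]
    refine PP_lin (h2 c hc) (fun u hu => ?_) (hz v c)
    rw [← PP_update X z hc hk]
    refine h1 _ fun a c' => ?_
    by_cases ha : a = v
    · subst ha
      by_cases hc' : c' = c
      · simpa [hc'] using hu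
      · simpa [hc'] using hz a c'
    · simpa [ha] using hz a c'
  have h4 := sum_pos h3 (card_pos.1 (by omega))
  rw [← Complex.re_sum, ← sum_mul, ← mul_sum, PP_sum, mul_left_comm, mul_assoc,
    ← Complex.ofReal_natCast, Complex.re_ofReal_mul] at h4
  exact (pos_iff_pos_of_mul_pos h4).1 (Nat.cast_pos.2 (by simp; omega))

theorem PP_ne_zero (hX : Adm X) {α : ℂ} {C : V → Finset (Fin r)} {k : V → ℕ}
    (hk : ∀ v, k v ≤ (C v).card) {z : V → Fin r → ℂ}
    (hz : ∀ v c, |α.re| < (conj α * z v c).re) : PP X C k z ≠ 0 := by
  induction hn : ∑ v, ((C v).card - k v) using Nat.strong_induction_on generalizing C k z with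
  | _ n ih =>
    by_cases h0 : ∀ v, k v = (C v).card
    · simp only [PP_eq, h0, powersetCard_self, Fintype.piFinset_singleton, sum_singleton]
      exact prod_ne_zero_iff.2 fun c _ => hX.pm_ne_zero fun v _ => hz v c
    obtain ⟨v, hv⟩ := not_forall.1 h0
    have hv' : k v < (C v).card := lt_of_le_of_ne (hk v) hv
    have key : ∀ (C' : V → Finset (Fin r)) (k' : V → ℕ), (∀ a ≠ v, C' a = C a ∧ k' a = k a) →
        k' v ≤ (C' v).card → (C' v).card - k' v < (C v).card - k v → ∀ z : V → Fin r → ℂ,
        (∀ v c, |α.re| < (conj α * z v c).re) → PP X C' k' z ≠ 0 := by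
      intro C' k' h1 h2 h3 z hz
      refine ih _ (hn ▸ sum_lt_sum (fun a _ => ?_) ⟨v, mem_univ _, h3⟩) (fun a => ?_) hz rfl <;>
        by_cases ha : a = v
      · exact ha ▸ h2
      · rw [(h1 a ha).1, (h1 a ha).2]
        exact hk a
      · exact ha ▸ h3.le
      · rw [(h1 a ha).1, (h1 a ha).2]
    have h1 := PP_pos (X := X) (k := Function.update k v (k v + 1)) (Function.update_self ..) hv' hz
      (key _ _ (fun a ha => by simp [ha]) (by simpa using hv') (by simp; omega))
      fun c hc => key _ _ (fun a ha => by simp [ha]) (by simp [card_erase_of_mem hc]; omega)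
        (by simp [card_erase_of_mem hc]; omega) z hz
    rw [Function.update_idem, Function.update_eq_self] at h1
    intro h
    simp [h] at h1

theorem GG_ratio (hX : Adm X) {k : V → ℕ} (hk : ∀ v, k v ≤ r) {y : V} {j : ℕ} (hy : k y = j + 1)
    {z : V → ℂ} (hz : ∀ v, 0 < (z v).im) :
    (GG r X (Function.update k y j) z * conj (GG r X k z)).im ≤ 0 := by
  have hj := hk y
  have hz' : ∀ (v : V) (_ : Fin r), |I.re| < (conj I * z v).re := fun v _ => by simpa using hz v
  have h1 := PP_pos (X := X) (C := fun _ => univ) hy (by simp; omega) hz'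
    (fun z hz => PP_ne_zero hX (by simpa using hk) hz) fun c hc => PP_ne_zero hX (fun a => by
      by_cases ha : a = y
      · subst ha
        simp
        omega
      · simpa [ha] using hk a) hz'
  rw [mul_assoc, Complex.I_mul_re] at h1
  exact (neg_pos.1 h1).le

theorem PP_congr (X : Matrix V V ℂ) (C : V → Finset (Fin r)) {k : V → ℕ} {z z' : V → Fin r → ℂ}
    (h : ∀ v, k v ≠ 0 → z v = z' v) : PP X C k z = PP X C k z' :=
  sum_congr rfl fun K hK => PPt_congr X fun v c hc => by
    rw [h v ((mem_powersetCard.1 (Fintype.mem_piFinset.1 hK v)).2 ▸ card_ne_zero_of_mem hc)]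

theorem continuous_GG (X : Matrix V V ℂ) (k : V → ℕ) : Continuous fun z => GG r X k z :=
  continuous_finsetSum _ fun _ _ => continuous_finsetProd _ fun _ _ =>
    (continuous_pm _).comp (continuous_id.matrix_diagonal.sub continuous_const)

end Vale.Agent.P078
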