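import Vale.Agent.P078.CF
import Vale.Agent.P078.PPs

/-! Stability of the expected minors, and the slices used by the barrier argument. -/

set_option linter.unusedSectionVars false

namespace Vale.Agent.P078

open Finset Polynomial MeasureTheory Complex Filter Topology
open scoped ComplexConjugate Matrix

variable {V : Type} [Fintype V] [DecidableEq V] {r : ℕ}

variable {X : Matrix V V ℂ}

namespace SliceAux

theorem nc_ne (hX : Adm X) (hr : 0 < r) (s : V → Option (Fin r)) {α : ℂ}
    (hα : |α.re| < (conj α * (2 * α)).re) (T : Finset V) (z : V → ℂ)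
    (hz : ∀ v ∈ T, |α.re| < (conj α * z v).re) : NC (cf X s) T (fun v => (z v)⁻¹) ≠ 0 := by
  intro h
  have h1 := NC_cf hr hX.herm s T (z := z) fun v hv e => by
    have := hz v hv
    rw [e, mul_zero, zero_re] at this
    exact absurd this (not_lt.2 (abs_nonneg _))
  rw [h, mul_zero, PP_congr X _ (z' := fun v _ => if v ∈ T then z v else 2 * α)
    fun v hv => by
      have : v ∈ T := by by_contra h'; simp [h'] at hv
      simp [this]] at h1
  refine PP_ne_zero hX (α := α) (fun v => ?_) (fun v c => ?_) h1.symm
  · have := card_allow_pos hr (s v)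
    split_ifs <;> omega
  · split_ifs with hv
    exacts [hz v hv, hα]

theorem sum_split {D M : Type} [DecidableEq D] [AddCommMonoid M] (t : V → Finset D) (x : V)
    (A : Finset D) (d : D) (F : (V → D) → M) :
    ∑ K ∈ Fintype.piFinset (Function.update t x A), F K =
      ∑ K ∈ Fintype.piFinset (Function.update t x {d}), ∑ J ∈ A, F (Function.update K x J) := by
  rw [← Finset.sum_product']
  refine Finset.sum_nbij' (fun K => (Function.update K x d, K x))
    (fun p => Function.update p.1 x p.2) ?_ ?_ ?_ ?_ ?_
  · intro K hK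
    simp only [mem_product, Fintype.mem_piFinset] at hK ⊢
    refine ⟨fun v => ?_, by simpa using hK x⟩
    by_cases hv : v = x
    · subst hv; simp
    · simpa [hv] using hK v
  · intro p hp
    simp only [mem_product, Fintype.mem_piFinset] at hp ⊢
    intro v
    by_cases hv : v = x
    · subst hv; simpa using hp.2
    · simpa [hv] using hp.1 v
  · intro K _
    simp
  · intro p hp
    simp only [mem_product, Fintype.mem_piFinset] at hp
    have : p.1 x = d := by simpa using hp.1 x
    simp [← this]
  · intro K _
    simp

theorem GG_split (X : Matrix V V ℂ) (k : V → ℕ) (x : V) (j : ℕ) (z : V → ℂ) :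
    GG r X (Function.update k x j) z =
      ∑ K ∈ Fintype.piFinset
        (Function.update (fun v => (univ : Finset (Fin r)).powersetCard (k v)) x {∅}),
        ∑ J ∈ (univ : Finset (Fin r)).powersetCard j, ∏ c,
          if c ∈ J then pm (Matrix.diagonal z - X) (insert x (univ.filter fun v => c ∈ K v))
          else pm (Matrix.diagonal z - X) (univ.filter fun v => c ∈ K v) := by
  unfold GG PP
  have e : (fun v => (univ : Finset (Fin r)).powersetCard (Function.update k x j v))
      = Function.update (fun v => (univ : Finset (Fin r)).powersetCard (k v)) x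
        (univ.powersetCard j) := by
    funext v
    by_cases hv : v = x
    · subst hv; simp
    · simp [hv]
  rw [e, sum_split _ x _ ∅]
  refine sum_congr rfl fun K hK => sum_congr rfl fun J _ => prod_congr rfl fun c _ => ?_
  have hx : K x = ∅ := by simpa using Fintype.mem_piFinset.1 hK x
  split_ifs with hc
  · congr 1
    ext v
    by_cases hv : v = x
    · subst hv; simp [hc]
    · simp [hv]
  · congr 1
    ext v
    by_cases hv : v = x
    · subst hv; simp [hc, hx]
    · simp [hv]

theorem sum_full {M : Type} [AddCommMonoid M] (G : Finset (Fin r) → M) :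
    ∑ J ∈ (univ : Finset (Fin r)).powersetCard r, G J = G univ := by
  have := powersetCard_self (univ : Finset (Fin r))
  rw [card_univ, Fintype.card_fin] at this
  rw [this, sum_singleton]

theorem sum_one {M : Type} [AddCommMonoid M] (G : Finset (Fin r) → M) :
    ∑ J ∈ (univ : Finset (Fin r)).powersetCard 1, G J = ∑ c, G {c} := by
  rw [powersetCard_one, sum_map]
  rfl

theorem sum_pred {M : Type} [AddCommMonoid M] (hr : 0 < r) (G : Finset (Fin r) → M) :
    ∑ J ∈ (univ : Finset (Fin r)).powersetCard (r - 1), G J = ∑ c, G (univ.erase c) := by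
  have h := sum_one fun J => G Jᶜ
  simp only [compl_singleton] at h
  rw [← h]
  refine Finset.sum_nbij' compl compl ?_ ?_ ?_ ?_ ?_
  · intro J hJ
    simp only [mem_powersetCard, subset_univ, true_and, card_compl, Fintype.card_fin] at hJ ⊢
    omega
  · intro J hJ
    simp only [mem_powersetCard, subset_univ, true_and, card_compl, Fintype.card_fin] at hJ ⊢
    omega
  all_goals simp

theorem prod_ite_erase {M : Type} [CommMonoid M] (a b : Fin r → M) (c : Fin r) :
    (∏ i, if i ∈ univ.erase c then a i else b i) = b c * ∏ i ∈ univ.erase c, a i := by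
  rw [← mul_prod_erase univ _ (mem_univ c), if_neg (notMem_erase c _)]
  congr 1
  exact prod_congr rfl fun i hi => if_pos hi

theorem prod_ite_single {M : Type} [CommMonoid M] (a b : Fin r → M) (c : Fin r) :
    (∏ i, if i ∈ ({c} : Finset (Fin r)) then a i else b i) = a c * ∏ i ∈ univ.erase c, b i := by
  rw [← mul_prod_erase univ _ (mem_univ c), if_pos (mem_singleton_self c)]
  congr 1
  exact prod_congr rfl fun i hi => if_neg (by simpa using hi)

/-- A product of linear factors. -/
noncomputable def lp (a b : Fin r → ℝ) : ℝ[X] := ∏ c, (C (a c) * Polynomial.X + C (b c))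

theorem lp_coeff (a b : Fin r → ℝ) (n : ℕ) : (lp a b).coeff n =
    ∑ J ∈ (univ : Finset (Fin r)).powersetCard n, ∏ c, if c ∈ J then a c else b c := by
  unfold lp
  rw [prod_add, finsetSum_coeff, powersetCard_eq_filter, sum_filter]
  refine sum_congr rfl fun J _ => ?_
  rw [prod_mul_distrib, prod_const, ← map_prod, ← map_prod, mul_right_comm, ← map_mul,
    coeff_C_mul_X_pow, prod_ite]
  simp only [filter_mem_eq_inter, univ_inter, filter_notMem_eq_sdiff, eq_comm]

theorem lp_deg (a b : Fin r → ℝ) : (lp a b).natDegree ≤ r := by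
  refine (natDegree_prod_le _ _).trans ?_
  refine (sum_le_sum fun c _ => natDegree_linear_le).trans ?_
  simp

theorem lp_all (hr : 0 < r) (a b : Fin r → ℝ) (u : ℂ) :
    (∑ J ∈ (univ : Finset (Fin r)).powersetCard r,
      ∏ c, if c ∈ J then u * a c + b c else (a c : ℂ)) = aeval u (lp a b) ∧
    (∑ J ∈ (univ : Finset (Fin r)).powersetCard (r - 1),
      ∏ c, if c ∈ J then u * a c + b c else (a c : ℂ)) = aeval u (lp a b).derivative ∧
    (∑ J ∈ (univ : Finset (Fin r)).powersetCard 1,
      ∏ c, if c ∈ J then u * a c + b c else (a c : ℂ))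
        = r * (lp a b).coeff r * u + (lp a b).coeff (r - 1) ∧
    (∑ J ∈ (univ : Finset (Fin r)).powersetCard 0,
      ∏ c, if c ∈ J then u * a c + b c else (a c : ℂ)) = (lp a b).coeff r := by
  have c1 : (lp a b).coeff r = ∏ c, a c := by rw [lp_coeff, sum_full]; simp
  have c2 : (lp a b).coeff (r - 1) = ∑ c, b c * ∏ i ∈ univ.erase c, a i := by
    rw [lp_coeff, sum_pred hr]; simp only [prod_ite_erase]
  refine ⟨?_, ?_, ?_, ?_⟩
  · rw [sum_full]
    simp only [lp, map_prod, map_add, map_mul, aeval_C, aeval_X, coe_algebraMap, mem_univ, if_true]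
    exact prod_congr rfl fun c _ => by ring
  · rw [sum_pred hr]
    simp only [prod_ite_erase, lp, derivative_prod_finset]
    simp only [map_sum, map_prod, map_add, map_mul, aeval_C, aeval_X, coe_algebraMap,
      derivative_mul, derivative_C, derivative_X, zero_mul, mul_one, zero_add, add_zero]
    refine sum_congr rfl fun c _ => ?_
    rw [mul_comm]
    congr 1
    exact prod_congr rfl fun c _ => by ring
  · rw [sum_one, c1, c2]
    simp only [prod_ite_single, add_mul, sum_add_distrib, mul_assoc]
    push_cast
    congr 1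
    rw [sum_congr rfl fun c _ => by rw [mul_prod_erase univ (fun i => (a i : ℂ)) (mem_univ c)]]
    simp [mul_comm]
  · rw [c1]
    simp

theorem herm_diag (hX : X.IsHermitian) (z : V → ℝ) :
    (Matrix.diagonal (fun v => (z v : ℂ)) - X).IsHermitian := by
  refine Matrix.IsHermitian.sub ?_ hX
  rw [Matrix.isHermitian_diagonal_iff]
  intro v
  exact conj_ofReal _

theorem pm_real (hX : X.IsHermitian) (z : V → ℝ) (T : Finset V) :
    ((pm (Matrix.diagonal (fun v => (z v : ℂ)) - X) T).re : ℂ)
      = pm (Matrix.diagonal (fun v => (z v : ℂ)) - X) T :=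
  Complex.ext rfl (by simp [pm_im (herm_diag hX z) T])

theorem pm_off (X : Matrix V V ℂ) (z : V → ℂ) {x : V} {T : Finset V} (hx : x ∉ T) (u : ℂ) :
    pm (Matrix.diagonal (Function.update z x u) - X) T = pm (Matrix.diagonal z - X) T := by
  refine pm_congr fun a ha b _ => ?_
  have : a ≠ x := fun h => hx (h ▸ ha)
  simp [Matrix.diagonal_apply, this]

theorem pm_on (X : Matrix V V ℂ) (z : V → ℂ) {x : V} {T : Finset V} (hx : x ∉ T) (u : ℂ) :
    pm (Matrix.diagonal (Function.update z x u) - X) (insert x T)
      = u * pm (Matrix.diagonal z - X) T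
        + pm (Matrix.diagonal (Function.update z x 0) - X) (insert x T) := by
  simp only [sub_eq_add_neg]
  rw [pm_update _ z (mem_insert_self x T), erase_insert hx]

end SliceAux

open SliceAux

theorem Adm.stab (hX : Adm X) (hr : 0 < r) (s : V → Option (Fin r)) : Stab (cf X s) where
  c0 := cf_empty hr X s
  c1 := cf_single hX s
  c2 := fun _ _ h => (cf_pair hr hX s h).2
  up := fun T z hz => nc_ne hX hr s (α := I) (by simp) T z fun v hv => by simpa using hz v hv
  big := fun T z hz => by
    rcases hz with hz | hz
    · exact nc_ne hX hr s (α := 1) (by simp) T _ fun v hv => by simpa using hz v hv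
    · exact nc_ne hX hr s (α := -1) (by simp) T _ fun v hv => by
        have := hz v hv
        simp
        linarith

theorem GG_slice (hr : 0 < r) (hX : X.IsHermitian) (k : V → ℕ) (x : V) (z : V → ℝ) :
    ∃ f : ℝ[X], f.natDegree ≤ r ∧ ∀ u : ℂ,
      GG r X (Function.update k x r) (Function.update (fun v => (z v : ℂ)) x u) = aeval u f ∧
      GG r X (Function.update k x (r - 1)) (Function.update (fun v => (z v : ℂ)) x u) =
        aeval u f.derivative ∧
      GG r X (Function.update k x 1) (Function.update (fun v => (z v : ℂ)) x u) =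
        r * f.coeff r * u + f.coeff (r - 1) ∧
      GG r X (Function.update k x 0) (Function.update (fun v => (z v : ℂ)) x u) = f.coeff r := by
  obtain ⟨a, ha⟩ : ∃ a : (V → Finset (Fin r)) → Fin r → ℝ, a = fun K c =>
    (pm (Matrix.diagonal (fun v => (z v : ℂ)) - X) (univ.filter fun v => c ∈ K v)).re := ⟨_, rfl⟩
  obtain ⟨b, hb⟩ : ∃ b : (V → Finset (Fin r)) → Fin r → ℝ, b = fun K c =>
    (pm (Matrix.diagonal (fun v => ((Function.update z x 0 v : ℝ) : ℂ)) - X)
      (insert x (univ.filter fun v => c ∈ K v))).re := ⟨_, rfl⟩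
  obtain ⟨E, hE⟩ : ∃ E, E = Fintype.piFinset
    (Function.update (fun v => (univ : Finset (Fin r)).powersetCard (k v)) x {∅}) := ⟨_, rfl⟩
  have key : ∀ (j : ℕ) (u : ℂ),
      GG r X (Function.update k x j) (Function.update (fun v => (z v : ℂ)) x u)
        = ∑ K ∈ E, ∑ J ∈ (univ : Finset (Fin r)).powersetCard j,
          ∏ c, if c ∈ J then u * a K c + b K c else (a K c : ℂ) := by
    intro j u
    rw [GG_split, hE]
    refine sum_congr rfl fun K hK => sum_congr rfl fun J _ => prod_congr rfl fun c _ => ?_
    have hx : K x = ∅ := by simpa using Fintype.mem_piFinset.1 hK x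
    have hx' : x ∉ univ.filter fun v => c ∈ K v := by simp [hx]
    have e : (fun v => ((Function.update z x 0 v : ℝ) : ℂ))
        = Function.update (fun v => (z v : ℂ)) x 0 := by
      funext v
      by_cases hv : v = x
      · subst hv; simp
      · simp [hv]
    rw [pm_on X _ hx', pm_off X _ hx', ha, hb]
    simp only [pm_real hX]
    rw [e]
  refine ⟨∑ K ∈ E, lp (a K) (b K), natDegree_sum_le_of_forall_le _ _ fun K _ => lp_deg _ _,
    fun u => ⟨?_, ?_, ?_, ?_⟩⟩
  · rw [key, map_sum]
    exact sum_congr rfl fun K _ => (lp_all hr _ _ u).1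
  · rw [key, derivative_sum, map_sum]
    exact sum_congr rfl fun K _ => (lp_all hr _ _ u).2.1
  · rw [key, finsetSum_coeff, finsetSum_coeff]
    push_cast
    rw [mul_sum, sum_mul, ← sum_add_distrib]
    exact sum_congr rfl fun K _ => (lp_all hr _ _ u).2.2.1
  · rw [key, finsetSum_coeff]
    push_cast
    exact sum_congr rfl fun K _ => (lp_all hr _ _ u).2.2.2

theorem GG_full (X : Matrix V V ℂ) (T : Finset V) (z : V → ℂ) :
    GG r X (fun v => if v ∈ T then r else 0) z = pm (Matrix.diagonal z - X) T ^ r := by
  unfold GG PP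
  have e : (fun v => (univ : Finset (Fin r)).powersetCard (if v ∈ T then r else 0))
      = fun v => {if v ∈ T then univ else ∅} := by
    funext v
    split_ifs
    · simpa using powersetCard_self (univ : Finset (Fin r))
    · simp
  rw [e, Fintype.piFinset_singleton, sum_singleton]
  have e2 : ∀ c : Fin r, (univ.filter fun v => c ∈ if v ∈ T then (univ : Finset (Fin r)) else ∅)
      = T := by
    intro c
    ext v
    by_cases hv : v ∈ T <;> simp [hv]
  simp only [e2, prod_const, card_univ, Fintype.card_fin]

theorem GG_full_erase (X : Matrix V V ℂ) {T : Finset V} {y : V} (hy : y ∈ T) (z : V → ℂ) :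
    GG (r + 1) X (Function.update (fun v => if v ∈ T then r + 1 else 0) y r) z =
      (r + 1) * pm (Matrix.diagonal z - X) (T.erase y) * pm (Matrix.diagonal z - X) T ^ r := by
  rw [GG_split]
  have e : Function.update
      (fun v => (univ : Finset (Fin (r + 1))).powersetCard (if v ∈ T then r + 1 else 0)) y {∅}
      = fun v => {if v ∈ T.erase y then univ else ∅} := by
    funext v
    by_cases hv : v = y
    · subst hv; simp
    · by_cases hT : v ∈ T
      · simpa [hv, hT] using powersetCard_self (univ : Finset (Fin (r + 1)))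
      · simp [hv, hT]
  rw [e, Fintype.piFinset_singleton, sum_singleton]
  have e2 : ∀ c : Fin (r + 1), (univ.filter fun v =>
      c ∈ if v ∈ T.erase y then (univ : Finset (Fin (r + 1))) else ∅) = T.erase y := by
    intro c
    ext v
    rw [mem_filter]
    split_ifs with hv <;> simp only [mem_univ, hv, and_self, notMem_empty, and_false]
  have h := sum_pred (Nat.succ_pos r) fun J : Finset (Fin (r + 1)) => ∏ c,
    if c ∈ J then pm (Matrix.diagonal z - X) T else pm (Matrix.diagonal z - X) (T.erase y)
  simp only [e2, insert_erase hy]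
  refine h.trans ?_
  simp only [prod_ite_erase, prod_const, card_erase_of_mem (mem_univ _), card_univ,
    Fintype.card_fin, sum_const, nsmul_eq_mul, Nat.add_sub_cancel]
  push_cast
  ring

end Vale.Agent.P078
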