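import Vale.Agent.P078.LM
import Vale.Agent.P078.Slice
import Vale.Agent.P078.GoodP

/-! Basic properties of the local potential. -/

set_option linter.unusedSectionVars false

namespace Vale.Agent.P078

open Finset Polynomial MeasureTheory Complex Filter Topology
open scoped ComplexConjugate Matrix

variable {V : Type} [Fintype V] [DecidableEq V] {r : ℕ}

variable {X X' : Matrix V V ℂ} {s s' : V → Option (Fin r)} {W W' : V → ℝ} {t : ℝ} {P : ℝ[X]}

theorem one_le_kap (o : Option (Fin r)) : 1 ≤ kap o := by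
  cases o <;> simp [kap]

theorem ffa_den_pos (ht : 0 < t) (o : Option (Fin r)) {w σ : ℝ} (hw : 0 < w) (hσ : 0 < σ) :
    0 < kap o * (t + σ / w) :=
  mul_pos (zero_lt_one.trans_le (one_le_kap o)) (by positivity)

theorem al_bounds (ht : 0 < t) (s : V → Option (Fin r)) (hW : ∀ v, 0 < W v) {σ : ℝ} (hσ : 0 < σ)
    (v : V) : 0 < al t s W σ v ∧ al t s W σ v ≤ 1 / t := by
  have h := hW v
  refine ⟨inv_pos.2 (ffa_den_pos ht _ h hσ), ?_⟩
  rw [al, one_div]
  refine inv_anti₀ ht (le_trans ?_ (le_mul_of_one_le_left (by positivity) (one_le_kap _)))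
  exact le_add_of_nonneg_right (by positivity)

theorem ffa_al_le (ht : 0 < t) (s : V → Option (Fin r)) (hW : ∀ v, 0 < W v) {σ : ℝ} (hσ : 0 < σ)
    {v : V} {L : ℝ} (hL : 1 ≤ L) (h : W v ≤ L) : al t s W σ v ≤ L / (t + σ) := by
  have h0 := hW v
  rw [al, ← inv_div (t + σ)]
  refine inv_anti₀ (by positivity) (le_trans ?_ (le_mul_of_one_le_left (by positivity)
    (one_le_kap _)))
  rw [add_div]
  exact add_le_add (div_le_self ht.le hL) (div_le_div_of_nonneg_left hσ.le h0 h)

theorem ffa_mass (hr : 0 < r) (hX : Adm X) (ht : 0 < t) (s : V → Option (Fin r))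
    (hW : ∀ v, 0 < W v) (T : Finset V) {y : V} {L L' : ℝ} (hL : 1 ≤ L) (hL' : 1 ≤ L')
    (hy : W y ≤ L') (hn : ∀ v, X y v ≠ 0 → W v ≤ L) {σ : ℝ} (hσ : 0 < σ) :
    al t s W σ y * ms (cf X s) T y (al t s W σ) ≤ L' * L * (1 / (t + σ) ^ 2) := by
  have h1 := ms_cf_le hr hX s T y (w := al t s W σ) (L := L / (t + σ)) (by positivity)
    fun v hv => ffa_al_le ht s hW hσ hL (hn v hv)
  refine (mul_le_mul_of_nonneg_left h1 (al_bounds ht s hW hσ y).1.le).trans
    ((mul_le_mul_of_nonneg_right (ffa_al_le ht s hW hσ hL' hy) (by positivity)).trans_eq ?_)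
  rw [div_mul_div_comm, ← sq, mul_one_div]

theorem al_mass (hr : 0 < r) (hX : Adm X) (ht : 0 < t) (s : V → Option (Fin r))
    (hW : ∀ v, 0 < W v) (T : Finset V) {y : V} {L : ℝ} (hL : 1 ≤ L) (hy : W y = 1)
    (hn : ∀ v, X y v ≠ 0 → W v ≤ L) {σ : ℝ} (hσ : 0 < σ) :
    al t s W σ y * ms (cf X s) T y (al t s W σ) ≤ L / (t + σ) ^ 2 := by
  have := ffa_mass hr hX ht s hW T hL le_rfl hy.le hn hσ
  rwa [one_mul, mul_one_div] at this

theorem integral_inv_sq (ht : 0 < t) : IntegrableOn (fun σ : ℝ => 1 / (t + σ) ^ 2) (Set.Ioi 0) ∧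
    ∫ σ in Set.Ioi (0 : ℝ), 1 / (t + σ) ^ 2 = 1 / t := by
  have h1 : ∀ σ ∈ Set.Ici (0 : ℝ), HasDerivAt (fun σ : ℝ => -(t + σ)⁻¹) (1 / (t + σ) ^ 2) σ :=
    fun σ hσ => by
    have h2 : t + σ ≠ 0 := (add_pos_of_pos_of_nonneg ht hσ).ne'
    have := (((hasDerivAt_id σ).const_add t).fun_inv h2).fun_neg
    refine this.congr_deriv ?_
    rw [neg_div, neg_neg]
    rfl
  have h3 : Tendsto (fun σ : ℝ => -(t + σ)⁻¹) atTop (𝓝 0) := by
    have := (tendsto_inv_atTop_zero.comp (tendsto_atTop_add_const_left atTop t tendsto_id)).neg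
    rwa [neg_zero] at this
  refine ⟨integrableOn_Ioi_deriv_of_nonneg' h1 (fun _ _ => by positivity) h3, ?_⟩
  rw [integral_Ioi_of_hasDerivAt_of_nonneg' h1 (fun _ _ => by positivity) h3]
  simp

section CC

variable {Z : Type*} [TopologicalSpace Z]

/-- Families of power series with continuous coefficients. -/
def FfaCC (φ : Z → PowerSeries ℝ) : Prop := ∀ k, Continuous fun z => PowerSeries.coeff k (φ z)

theorem FfaCC.const (φ : PowerSeries ℝ) : FfaCC fun _ : Z => φ := fun _ => continuous_const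

theorem FfaCC.C {f : Z → ℝ} (hf : Continuous f) : FfaCC fun z => PowerSeries.C (f z) := fun k => by
  simp only [PowerSeries.coeff_C]
  split_ifs
  exacts [hf, continuous_const]

theorem FfaCC.mul {φ ψ : Z → PowerSeries ℝ} (h : FfaCC φ) (h' : FfaCC ψ) :
    FfaCC fun z => φ z * ψ z := fun k => by
  simp only [PowerSeries.coeff_mul]
  exact continuous_finsetSum _ fun p _ => (h _).mul (h' _)

theorem FfaCC.sum {ι : Type*} (A : Finset ι) {φ : ι → Z → PowerSeries ℝ}
    (h : ∀ i, FfaCC (φ i)) : FfaCC fun z => ∑ i ∈ A, φ i z := fun k => by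
  simp only [map_sum]
  exact continuous_finsetSum _ fun i _ => h i k

theorem FfaCC.prod {ι : Type*} (A : Finset ι) {φ : ι → Z → PowerSeries ℝ}
    (h : ∀ i, FfaCC (φ i)) : FfaCC fun z => ∏ i ∈ A, φ i z := by
  classical
  induction A using Finset.induction_on with
  | empty => simpa using FfaCC.const 1
  | insert a A ha ih => simpa only [prod_insert ha] using (h a).mul ih

theorem FfaCC.inv {φ : Z → PowerSeries ℝ} (h : FfaCC φ)
    (h0 : ∀ z, PowerSeries.constantCoeff (φ z) = 1) : FfaCC fun z => (φ z)⁻¹ := fun k => by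
  induction k using Nat.strong_induction_on with
  | _ k ih =>
    simp only [PowerSeries.coeff_inv k, h0]
    split_ifs
    · exact continuous_const
    · refine continuous_const.mul (continuous_finsetSum _ fun p _ => ?_)
      split_ifs with hp
      exacts [(h _).mul (ih _ hp), continuous_const]

theorem ffa_NP {c : Z → Finset V → ℝ} {α : Z → V → ℝ} (hc : ∀ S, Continuous fun z => c z S)
    (hα : ∀ v, Continuous fun z => α z v) (T : Finset V) : FfaCC fun z => NP (c z) T (α z) :=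
  FfaCC.sum _ fun S => (FfaCC.C (hc S)).mul
    (FfaCC.prod _ fun v => (FfaCC.C (hα v)).mul (FfaCC.const _))

theorem ffa_pair {c : Z → Finset V → ℝ} {α : Z → V → ℝ} (hc : ∀ S, Continuous fun z => c z S)
    (hα : ∀ v, Continuous fun z => α z v) (h0 : ∀ z, c z ∅ = 1) (P : ℝ[X]) (T : Finset V) (y : V) :
    Continuous fun z => pair P (ratio (c z) T y (α z)) :=
  continuous_finsetSum _ fun k _ => continuous_const.mul
    ((ffa_NP hc hα _).mul ((ffa_NP hc hα T).inv fun z => constantCoeff_NP (h0 z) T _) k)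

end CC

theorem ffa_meas (hr : 0 < r) (X : Matrix V V ℂ) (ht : 0 < t) (P : ℝ[X]) (s : V → Option (Fin r))
    (hW : ∀ v, 0 < W v) (T : Finset V) (y : V) :
    AEStronglyMeasurable (fun σ => pair P (ratio (cf X s) T y (al t s W σ)))
      (volume.restrict (Set.Ioi 0)) := by
  refine ContinuousOn.aestronglyMeasurable ?_ measurableSet_Ioi
  rw [continuousOn_iff_continuous_domRestrict]
  refine ffa_pair (c := fun _ => cf X s) (α := fun σ : Set.Ioi (0 : ℝ) => al t s W σ)
    (fun _ => continuous_const) (fun v => ?_) (fun _ => cf_empty hr X s) P T y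
  exact Continuous.inv₀ (by fun_prop) fun σ => (ffa_den_pos ht _ (hW v) σ.2).ne'

theorem ffa_bound (hr : 0 < r) (hX : Adm X) (ht : 0 < t) {B : ℝ} (hB0 : 0 ≤ B)
    (hB : ∀ s : ℝ, |s| ≤ 1 / t → |P.eval s| ≤ B * s ^ 2) (s : V → Option (Fin r))
    (hW : ∀ v, 0 < W v) {T : Finset V} {y : V} (hy : y ∈ T) {L : ℝ} (hL : 1 ≤ L)
    (hWL : ∀ v, W v ≤ L) : ∀ᵐ σ ∂(volume.restrict (Set.Ioi (0 : ℝ))),
      ‖pair P (ratio (cf X s) T y (al t s W σ))‖ ≤ B * (L * L * (1 / (t + σ) ^ 2)) :=
  (ae_restrict_iff' measurableSet_Ioi).2 (Eventually.of_forall fun _ hσ =>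
    ((hX.stab hr s).pair_le hy ht (fun v _ => al_bounds ht s hW hσ v) hB).trans
      (mul_le_mul_of_nonneg_left (ffa_mass hr hX ht s hW T hL hL (hWL y) (fun v _ => hWL v) hσ) hB0))

theorem ffa_le_sum (hW : ∀ v, 0 < W v) (v : V) : W v ≤ ∑ u, W u :=
  single_le_sum (fun u _ => (hW u).le) (mem_univ v)

theorem FF_integrable (hr : 0 < r) (hX : Adm X) (ht : 0 < t) (hP : Polynomial.X ^ 2 ∣ P)
    (s : V → Option (Fin r)) (hW : ∀ v, 0 < W v) {T : Finset V} {y : V} (hy : y ∈ T) :
    IntegrableOn (fun σ => pair P (ratio (cf X s) T y (al t s W σ))) (Set.Ioi 0) := by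
  obtain ⟨B, hB0, hB⟩ := exists_bound_sq hP (1 / t)
  have h0 : 0 ≤ ∑ u, W u := sum_nonneg fun u _ => (hW u).le
  exact Integrable.mono' (((integral_inv_sq ht).1.const_mul _).const_mul B)
    (ffa_meas hr X ht P s hW T y) (ffa_bound hr hX ht hB0 hB s hW hy (L := ∑ u, W u + 1)
      (by linarith) fun v => by linarith [ffa_le_sum hW v])

theorem ffa_cont {Z : Type*} [TopologicalSpace Z] [FirstCountableTopology Z] (hr : 0 < r)
    (ht : 0 < t) (hP : Polynomial.X ^ 2 ∣ P) {X : Z → Matrix V V ℂ} {W : Z → V → ℝ}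
    (hX : Continuous X) (hW : Continuous W) (ha : ∀ ω, Adm (X ω)) (hp : ∀ ω v, 0 < W ω v)
    (s : V → Option (Fin r)) (y : V) : Continuous fun ω => FF t P (X ω) s (W ω) y := by
  obtain ⟨B, hB0, hB⟩ := exists_bound_sq hP (1 / t)
  refine continuous_iff_continuousAt.2 fun q0 => ?_
  have h0 : 0 ≤ ∑ u, W q0 u := sum_nonneg fun u _ => (hp q0 u).le
  have hv : ∀ v, Continuous fun q => W q v := fun v => (continuous_apply v).comp hW
  refine continuousAt_of_dominated
    (bound := fun σ => B * ((∑ u, W q0 u + 1) * (∑ u, W q0 u + 1) * (1 / (t + σ) ^ 2)))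
    (Eventually.of_forall fun q => ffa_meas hr _ ht P s (hp q) _ y) ?_
    (((integral_inv_sq ht).1.const_mul _).const_mul B) ?_
  · have h1 : Continuous fun q => ∑ u, W q u := continuous_finsetSum _ fun v _ => hv v
    filter_upwards [h1.continuousAt.eventually (gt_mem_nhds (lt_add_one (∑ u, W q0 u)))]
      with q hq
    exact ffa_bound hr (ha q) ht hB0 hB s (hp q) (mem_univ y) (by linarith)
      fun v => (ffa_le_sum (hp q) v).trans hq.le
  · refine (ae_restrict_iff' measurableSet_Ioi).2 (Eventually.of_forall fun σ hσ => ?_)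
    refine (ffa_pair (c := fun q => cf (X q) s) (α := fun q => al t s (W q) σ)
      (fun S => (continuous_cf s S).comp hX) (fun v => ?_)
      (fun q => cf_empty hr _ s) P univ y).continuousAt
    exact Continuous.inv₀ (continuous_const.mul (continuous_const.add
      (continuous_const.div (hv v) fun q => (hp q v).ne')))
      fun q => (ffa_den_pos ht _ (hp q v) hσ).ne'

theorem FF_cont {Ω : Type*} [TopologicalSpace Ω] (hr : 0 < r) (ht : 0 < t)
    (hP : Polynomial.X ^ 2 ∣ P) {X : Ω → Matrix V V ℂ} {W : Ω → V → ℝ} (hX : Continuous X)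
    (hW : Continuous W) (ha : ∀ ω, Adm (X ω)) (hp : ∀ ω v, 0 < W ω v) (s : V → Option (Fin r))
    (y : V) : Continuous fun ω => FF t P (X ω) s (W ω) y := by
  have : FirstCountableTopology (Matrix V V ℂ) :=
    inferInstanceAs (FirstCountableTopology (V → V → ℂ))
  have key : ∀ A : Set (Matrix V V ℂ × (V → ℝ)), (∀ q ∈ A, Adm q.1 ∧ ∀ v, 0 < q.2 v) →
      Continuous fun q : A => FF t P q.1.1 s q.1.2 y := fun A hA =>
    ffa_cont (Z := A) (X := fun q => q.1.1) (W := fun q => q.1.2) hr ht hP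
      (continuous_fst.comp continuous_subtype_val) (continuous_snd.comp continuous_subtype_val)
      (fun q => (hA _ q.2).1) (fun q => (hA _ q.2).2) s y
  have h2 := (key (Set.range fun ω => (X ω, W ω)) (by
    rintro _ ⟨ω, rfl⟩
    exact ⟨ha ω, hp ω⟩)).comp (hX.prodMk hW).rangeFactorization
  exact h2

end Vale.Agent.P078
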