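import Vale.Agent.P078.FFa
import Vale.Agent.P078.Barrier

/-! Positivity, scaling, locality and the initial value of the local potential. -/

set_option linter.unusedSectionVars false

namespace Vale.Agent.P078

open Finset Polynomial MeasureTheory Complex Filter Topology
open scoped ComplexConjugate Matrix

variable {V : Type} [Fintype V] [DecidableEq V] {r : ℕ}

variable {X X' : Matrix V V ℂ} {s s' : V → Option (Fin r)} {W W' : V → ℝ} {t γ : ℝ} {ζ : ℂ}
  {P : ℝ[X]}

theorem FF_nonneg (hr : 0 < r) (hX : Adm X) (ht : 0 < t) (hP : GoodP t γ ζ P)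
    (s : V → Option (Fin r)) (hW : ∀ v, 0 < W v) (y : V) : 0 ≤ FF t P X s W y := by
  refine setIntegral_nonneg measurableSet_Ioi fun σ hσ => ?_
  obtain ⟨n, u, β, h1, h2, -, h4, -⟩ := (hX.stab hr s).lm (mem_univ y) ht
    fun v _ => al_bounds ht s hW hσ v
  rw [pair_eq h4]
  exact sum_nonneg fun j _ => mul_nonneg (h1 j) (hP.nonneg _ (h2 j))

theorem FF_scale (t : ℝ) (P : ℝ[X]) (X : Matrix V V ℂ) (s : V → Option (Fin r)) (W : V → ℝ)
    (y : V) {l : ℝ} (hl : 0 < l) : FF t P X s (fun v => l * W v) y = l * FF t P X s W y := by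
  have e : ∀ σ : ℝ, al t s (fun v => l * W v) σ = al t s W (l⁻¹ * σ) := fun σ => by
    funext v
    rw [al, al, inv_mul_eq_div, div_div]
  have h := integral_comp_mul_left_Ioi
    (fun σ => pair P (ratio (cf X s) univ y (al t s W σ))) 0 (inv_pos.2 hl)
  rw [inv_inv, mul_zero, smul_eq_mul] at h
  simp only [FF, e]
  exact h

theorem FF_init (hr : 4 ≤ r) (hX : Adm X) (ht : 8 / √r ≤ t) (hP : GoodP t γ ζ P)
    (hW : ∀ v, 0 < W v) {y : V} {L : ℝ} (hL : 1 ≤ L) (hy : W y = 1)
    (hn : ∀ v, X y v ≠ 0 → W v ≤ L) :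
    FF t P X (fun _ => (none : Option (Fin r))) W y ≤ γ * L / t := by
  have hr0 : 0 < r := by omega
  have hs : 0 < √(r : ℝ) := Real.sqrt_pos.2 (by exact_mod_cast hr0)
  have ht0 : 0 < t := lt_of_lt_of_le (by positivity) ht
  have hγ : 0 ≤ γ := hP.im.le.trans hP.im'
  obtain ⟨i1, i2⟩ := integral_inv_sq ht0
  have key : FF t P X (fun _ => (none : Option (Fin r))) W y
      ≤ ∫ σ in Set.Ioi (0 : ℝ), γ * L * (1 / (t + σ) ^ 2) := by
    refine setIntegral_mono_on (FF_integrable hr0 hX ht0 hP.dvd _ hW (mem_univ y))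
      (i1.const_mul _) measurableSet_Ioi fun σ hσ => ?_
    have hb := al_bounds ht0 (fun _ => (none : Option (Fin r))) hW hσ
    have hc := hX.stab hr0 fun _ => (none : Option (Fin r))
    obtain ⟨n, u, β, h1, h2, h3, h4, -⟩ := hc.lm (mem_univ y) ht0 fun v _ => hb v
    have h5 : ∀ j, u j ≤ 1 / 2 := fun j => by
      by_contra hj
      have hj := not_le.1 hj
      refine barrier hX hr univ (fun v => u j / al t (fun _ => (none : Option (Fin r))) W σ v)
        (fun v _ => ?_) (h3 j (by linarith))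
      rw [le_div_iff₀ (hb v).1]
      have a1 : 4 / √(r : ℝ) ≤ t / 2 := by
        rw [show 4 / √(r : ℝ) = 8 / √(r : ℝ) / 2 by ring]
        linarith
      have a2 : t / 2 * (1 / t) = 1 / 2 := by field_simp
      calc _ ≤ t / 2 * (1 / t) := mul_le_mul a1 (hb v).2 (hb v).1.le (by positivity)
        _ ≤ _ := by linarith
    have h6 := al_mass hr0 hX ht0 (fun _ => (none : Option (Fin r))) hW univ hL hy hn hσ
    rw [← hc.coeff_two (mem_univ y), h4] at h6
    rw [pair_eq h4, mul_assoc, mul_one_div]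
    refine le_trans ?_ (mul_le_mul_of_nonneg_left h6 hγ)
    rw [mul_sum]
    refine sum_le_sum fun j _ => ?_
    rw [mul_left_comm]
    exact mul_le_mul_of_nonneg_left (hP.small _ (h2 j) (h5 j)) (h1 j)
  rwa [integral_const_mul, i2, mul_one_div] at key

theorem FF_local (hr : 0 < r) (hX : X.IsHermitian) (hX' : X'.IsHermitian) (t : ℝ) (d : V → ℕ)
    (hd : ∀ a b, X a b ≠ 0 → d b ≤ d a + 1) (hd' : ∀ a b, X' a b ≠ 0 → d b ≤ d a + 1) {y : V}
    (hy : d y = 0) {K : ℕ} (hK : P.natDegree ≤ K) {g : V → ℂ} (hg : ∀ a, ‖g a‖ = 1)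
    (h1 : ∀ a b, d a ≤ K → d b ≤ K → X a b = conj (g a) * X' a b * g b)
    (h2 : ∀ a, d a ≤ K → s a = s' a ∧ W a = W' a) : FF t P X s W y = FF t P X' s' W' y := by
  have hm : ∀ {X : Matrix V V ℂ} (s : V → Option (Fin r)), X.IsHermitian →
      (∀ a b, X a b ≠ 0 → d b ≤ d a + 1) → ∀ (S₁ S₂ : Finset V) (j : ℕ), (∀ a ∈ S₁, d a < j) →
      (∀ b ∈ S₂, j < d b) → cf X s (S₁ ∪ S₂) = cf X s S₁ * cf X s S₂ := by
    intro X s hX hd S₁ S₂ j a1 a2
    refine cf_union hr hX s (disjoint_left.2 fun a b1 b2 => ?_) fun a b1 b b2 => ?_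
    · exact absurd ((a1 a b1).trans (a2 a b2)) (lt_irrefl _)
    · by_contra h
      have := hd a b h
      have := a1 a b1
      have := a2 b b2
      omega
  refine setIntegral_congr_fun measurableSet_Ioi fun σ _ => ?_
  rw [pair, pair, Polynomial.sum_def, Polynomial.sum_def]
  refine sum_congr rfl fun k hk => ?_
  have hk' : k ≤ K := (le_natDegree_of_mem_supp k hk).trans hK
  rw [ratio_local (cf_empty hr X s) d (hm s hX hd) hy univ _ hk',
    ratio_local (cf_empty hr X' s') d (hm s' hX' hd') hy univ _ hk',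
    ratio_congr (c' := cf X' s') (α' := al t s' W' σ) y (fun S hS => ?_) fun v hv => ?_]
  · exact cf_congr hr hg (fun a ha b hb => h1 a b (mem_filter.1 (hS ha)).2 (mem_filter.1 (hS hb)).2)
      fun a ha => (h2 a (mem_filter.1 (hS ha)).2).1
  · obtain ⟨e1, e2⟩ := h2 v (mem_filter.1 hv).2
    rw [al, al, e1, e2]

end Vale.Agent.P078
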