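import Vale.Agent.P078.Leg

/-! Paving in the absence of normal central functionals. -/

set_option linter.unusedSectionVars false

namespace Vale.Agent.P078

open Filter Topology Finset Vale.Agent.P104 Vale.Agent.P082
open scoped InnerProductSpace ComplexOrder ComplexConjugate

universe u v

variable {G : Type v} [NormedAddCommGroup G] [InnerProductSpace ℂ G] [CompleteSpace G]
  {M : Type u} [CStarAlgebra M] {ρ : M →⋆ₐ[ℂ] (G →L[ℂ] G)}
  {Ω : Type u} [TopologicalSpace Ω] [CompactSpace Ω] [T2Space Ω] [TotallyDisconnectedSpace Ω]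
  {ι : C(Ω, ℂ) →⋆ₐ[ℂ] M} {E : M →ₗ[ℂ] C(Ω, ℂ)} {ξ : G}

theorem ps_comm {a b : M} (ha : a ∈ ι.range) (hb : b ∈ ι.range) : a * b = b * a := by
  obtain ⟨f, rfl⟩ := ha
  obtain ⟨g, rfl⟩ := hb
  exact ι_comm ι f g

theorem ps_smul {a : M} (ha : a ∈ ι.range) (r : ℝ) : r • a ∈ ι.range := by
  rw [← Complex.coe_smul]
  exact SMulMemClass.smul_mem _ ha

theorem ps_E (h : Sys ι ρ E) {a b y : M} (ha : a ∈ ι.range) (hb : b ∈ ι.range) (hy : E y = 0) :
    E (a * y * b) = 0 := by
  obtain ⟨f, rfl⟩ := ha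
  obtain ⟨g, rfl⟩ := hb
  exact (h.right g _).trans (by rw [show E (ι.toAlgHom.toRingHom f * y) = _ from h.left f y, hy,
    mul_zero, zero_mul])

/-- The spectral projections of a symmetry. -/
noncomputable def psE (s : M) (b : Bool) : M :=
  cond b ((1 / 2 : ℝ) • (1 + s)) (1 - (1 / 2 : ℝ) • (1 + s))

theorem ps_part {A : StarSubalgebra ℂ M} {s : M} (hs : Sy A s) : IsPart (psE s) := by
  refine part_bool (isStarProjection_iff'.2 ⟨?_, by simp [hs.sa]⟩)
  simp only [smul_mul_assoc, mul_smul_comm, mul_add, add_mul, hs.sq, one_mul, mul_one]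
  module

theorem ps_mem {s : M} (hs : Sy ι.range s) (b : Bool) : psE s b ∈ ι.range := by
  have := ps_smul (add_mem (one_mem _) hs.mem) (1 / 2)
  cases b
  exacts [sub_mem (one_mem _) this, this]

theorem ps_sum (s y : M) : ∑ b, psE s b * y * psE s b = (1 / 2 : ℝ) • (y + s * y * s) := by
  simp only [Fintype.sum_bool, psE, cond_true, cond_false, smul_mul_assoc, mul_smul_comm, mul_add,
    add_mul, sub_mul, mul_sub, one_mul, mul_one]
  module

theorem ps_ref {K K' : Type} [Fintype K] [Fintype K'] {f : K → M} {e : K' → M} (hf : IsPart f)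
    (he : IsPart e) (hc : ∀ k l, f k * e l = e l * f k) :
    IsPart fun x : K × K' => f x.1 * e x.2 := by
  refine ⟨fun x => (hf.proj _).mul (he.proj _) (hc _ _), fun x y hxy => ?_, ?_⟩
  · have : f x.1 * e x.2 * (f y.1 * e y.2) = f x.1 * f y.1 * (e x.2 * e y.2) := by
      rw [mul_assoc, ← mul_assoc (e x.2), ← hc]
      simp only [mul_assoc]
    rw [this]
    by_cases h1 : x.1 = y.1
    · rw [he.orth _ _ fun h2 => hxy (Prod.ext h1 h2), mul_zero]
    · rw [hf.orth _ _ h1, zero_mul]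
  · simp only [Fintype.sum_prod_type, ← mul_sum, he.sum, mul_one, hf.sum]

theorem ps_vfs {J : Type} [Fintype J] (η : J → G) (a : M) :
    vfs ρ η a = ∑ j, (⟪η j, ρ a (η j)⟫_ℂ).re := by
  rw [vfs, LinearMap.sum_apply]
  rfl

theorem ps_vfs_star {J : Type} [Fintype J] (η : J → G) (a : M) :
    vfs ρ η (star a) = vfs ρ η a := by
  simp only [ps_vfs]
  refine sum_congr rfl fun j _ => ?_
  rw [← ws_inner, ← inner_conj_symm, Complex.conj_re]

variable [PartialOrder M] [StarOrderedRing M] {J : Type} [Fintype J] {η : J → G}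

theorem ps_le_one {x : M} (hx : star x = x) (hn : ‖x‖ ≤ 1) : x ≤ 1 := by
  refine (IsSelfAdjoint.le_algebraMap_norm_self hx).trans ?_
  rw [Algebra.algebraMap_eq_smul_one]
  exact (smul_le_smul_of_nonneg_right hn zero_le_one).trans_eq (one_smul _ _)

theorem exists_flat_part (h : Sys ι ρ E) (hs : Sing ρ ι.range η) (j : ℕ) {δ : ℝ} (hδ : 0 < δ) :
    ∃ (K : Type) (_ : Fintype K) (f : K → M), Fintype.card K = 2 ^ j ∧ IsPart f ∧
      (∀ k, f k ∈ ι.range) ∧ ∀ k, Nb (vfs ρ η) (f k - (1 / 2 ^ j : ℝ) • (1 : M)) 0 δ := by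
  induction j with
  | zero =>
    refine ⟨Unit, inferInstance, fun _ => 1, rfl,
      ⟨fun _ => IsStarProjection.one M, fun _ _ h => absurd rfl h, by simp⟩, fun _ => one_mem _,
      fun _ => (Nb.of_norm _ (by simp) (by simp)).mono le_rfl hδ.le⟩
  | succ j ih =>
    obtain ⟨K, _, f, h1, h2, h3, h4⟩ := ih
    obtain ⟨s, hs1, hs2, -⟩ := single_leg h hs (K' := Empty) f (fun k => k.elim) (fun k => k.elim)
      (fun k => k.elim) (fun k => k.elim) hδ
    refine ⟨K × Bool, inferInstance, fun x => f x.1 * psE s x.2, by simp [h1, pow_succ],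
      ps_ref h2 (ps_part hs1) fun k l => ps_comm (h3 k) (ps_mem hs1 l),
      fun x => mul_mem (h3 _) (ps_mem hs1 _), fun x => ?_⟩
    obtain ⟨k, b⟩ := x
    have h5 := (h4 k).smul (a := 1 / 2) (by norm_num)
    have h6 := (hs2 k).smul (a := 1 / 4) (by norm_num)
    rw [h2.star_eq, ← ps_comm (h3 k) hs1.mem] at h6
    cases b
    · convert (h5.add h6.neg).mono (c' := 0) (δ' := δ) (by norm_num) (by linarith) using 1
      simp only [psE, cond_false, mul_smul_comm, mul_add, mul_sub, mul_one, pow_succ, one_div,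
        mul_inv, mul_smul]
      module
    · convert (h5.add h6).mono (c' := 0) (δ' := δ) (by norm_num) (by linarith) using 1
      simp only [psE, cond_true, mul_smul_comm, mul_add, mul_one, pow_succ, one_div, mul_inv,
        mul_smul]
      module

theorem ps_step (h : Sys ι ρ E) (hs : Sing ρ ι.range η) {x : M} (hx : star x = x) (hn : ‖x‖ ≤ 1)
    (h0 : E x = 0) {f s w : M} (hf : IsStarProjection f) (hfA : f ∈ ι.range) {c l δ₁ δ' : ℝ}
    (hc : 0 < c) (hl : 0 < l) (hδ : 0 < δ') (hfc : Nb (vfs ρ η) (f - c • (1 : M)) 0 δ₁)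
    (hss : star s = s) (hw : star w = w) : ∃ s' w', Sy ι.range s' ∧ star w' = w' ∧
      vfs ρ η ((w + w') * (w + w')) ≤ vfs ρ η (w * w) + (vfs ρ η 1 + 2 * δ') ∧
      Nb (vfs ρ η) ((s + f * s') * x * (s + f * s') - s * x * s - c • w') 0
        (δ' + ((1 + l) * δ₁ + c / l * vfs ρ η 1)) := by
  obtain ⟨b, hb0, -, hb1, hb2⟩ := hfc
  obtain ⟨g, hg1, hg2⟩ := exists_flat hb0 hc
  have hf1 : star f = f := hf.isSelfAdjoint.star_eq
  have hf2 : f * f = f := hf.isIdempotentElem.eq
  obtain ⟨s', hs1, hs2, hs3⟩ := single_leg h hs (fun _ : Unit => s * x * f)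
    (fun _ : J => f * x * f) (fun _ => ps_E h hfA hfA h0) (fun j => ρ (g * w) (η j))
    (fun j => ρ g (η j)) hδ
  have hcm : f * s' = s' * f := ps_comm hfA hs1.mem
  obtain ⟨d, hd⟩ : ∃ d, d = star (f * s') * x * (f * s') := ⟨_, rfl⟩
  have hd1 : d = s' * (f * x * f) * s' := by
    rw [hd, star_mul, hf1, hs1.sa]; simp only [mul_assoc]
  have hfs : star (f * s') * 1 * (f * s') = f := by
    rw [star_mul, hf1, hs1.sa, mul_one, mul_assoc, ← mul_assoc f, hf2, hcm, ← mul_assoc, hs1.sq,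
      one_mul]
  have hfb : f ≤ c • (1 : M) + b := by
    rw [zero_smul, zero_add, sub_le_iff_le_add'] at hb1
    exact hb1
  have hd2 : d ≤ c • (1 : M) + b := by
    refine le_trans ?_ hfb
    rw [hd]
    exact (star_left_conjugate_le_conjugate (ps_le_one hx hn) _).trans_eq hfs
  have hd3 : -(c • (1 : M) + b) ≤ d := by
    refine neg_le.mp (le_trans ?_ hfb)
    have := (star_left_conjugate_le_conjugate
      (ps_le_one (x := -x) (by rw [star_neg, hx]) (by rwa [norm_neg])) (f * s')).trans_eq hfs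
    rwa [mul_neg, neg_mul, ← hd] at this
  have hds : star d = d := by rw [hd]; simp only [star_mul, star_star, hx, mul_assoc]
  obtain ⟨hg3, hg4⟩ := hg2 d hd3 hd2
  have hw' : star (g * d * g) = g * d * g := by simp only [star_mul, hg1, hds, mul_assoc]
  refine ⟨s', g * d * g, hs1, hw', ?_, ?_⟩
  · have e1 : vfs ρ η (w * (g * d * g)) ≤ δ' := by
      refine le_trans (le_of_eq ?_) hs3
      rw [ps_vfs]
      refine sum_congr rfl fun j _ => ?_
      rw [ws_inner, ← ws_mul_apply, ← ws_mul_apply, star_mul, hg1, hw, ← hd1]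
      simp only [mul_assoc]
    have e2 : vfs ρ η (g * d * g * w) = vfs ρ η (w * (g * d * g)) := by
      rw [← ps_vfs_star, star_mul, hw, hw']
    have e3 : vfs ρ η (g * d * g * (g * d * g)) ≤ vfs ρ η 1 := by
      have h1 := ps_le_one (x := g * d * g * (g * d * g)) (by rw [star_mul, hw'])
        ((norm_mul_le _ _).trans (mul_le_one₀ hg3 (norm_nonneg _) hg3))
      have h2 := vfs_nonneg (ρ := ρ) η (sub_nonneg.mpr h1)
      rw [map_sub] at h2
      linarith
    rw [add_mul, mul_add, mul_add, map_add, map_add, map_add]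
    linarith
  · have h1 : Nb (vfs ρ η) (d - c • (g * d * g)) 0 ((1 + l) * δ₁ + c / l * vfs ρ η 1) := by
      refine ⟨(1 + l) • b + (c / l) • (1 : M),
        add_nonneg (smul_nonneg (by positivity) hb0) (smul_nonneg (by positivity) zero_le_one),
        by rw [zero_smul, zero_add]; exact (hg4 l hl).1,
        by rw [zero_smul, zero_add]; exact (hg4 l hl).2, ?_⟩
      rw [map_add, map_smul, map_smul, smul_eq_mul, smul_eq_mul]
      exact add_le_add (mul_le_mul_of_nonneg_left hb2 (by positivity)) le_rfl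
    convert (hs2 ()).add h1 using 1
    · have e : s' * star (s * x * f) = f * s' * x * s := by
        simp only [star_mul, hf1, hx, hss, hcm, mul_assoc]
      have e' : d = f * s' * x * (f * s') := by rw [hd, star_mul, hf1, hs1.sa, ← hcm]
      rw [e]
      generalize g * d * g = w'
      rw [e']
      simp only [add_mul, mul_add, mul_assoc]
      abel
    · rw [add_zero]

theorem ps_ind (h : Sys ι ρ E) (hs : Sing ρ ι.range η) {x : M} (hx : star x = x) (hn : ‖x‖ ≤ 1)
    (h0 : E x = 0) {K : Type} [Fintype K] {f : K → M} (hf : IsPart f) (hfA : ∀ k, f k ∈ ι.range)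
    {c l δ₁ δ' : ℝ} (hc : 0 < c) (hl : 0 < l) (hδ : 0 < δ')
    (hfc : ∀ k, Nb (vfs ρ η) (f k - c • (1 : M)) 0 δ₁) (D : Finset K) :
    ∃ s w, s ∈ ι.range ∧ star s = s ∧ s * s = ∑ k ∈ D, f k ∧ (∀ k ∉ D, f k * s = 0) ∧ star w = w ∧
      vfs ρ η (w * w) ≤ D.card * (vfs ρ η 1 + 2 * δ') ∧
      Nb (vfs ρ η) (s * x * s - c • w) 0 (D.card * (δ' + ((1 + l) * δ₁ + c / l * vfs ρ η 1))) := by
  classical
  induction D using Finset.induction_on with
  | empty =>
    exact ⟨0, 0, zero_mem _, star_zero _, by simp, fun _ _ => mul_zero _, star_zero _, by simp,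
      (Nb.of_norm _ (by simp) (by simp)).mono le_rfl (by simp)⟩
  | insert k D hk ih =>
    obtain ⟨s, w, h1, h2, h3, h4, h5, h6, h7⟩ := ih
    obtain ⟨s', w', h8, h9, h10, h11⟩ :=
      ps_step h hs hx hn h0 (hf.proj k) (hfA k) hc hl hδ (hfc k) h2 h5
    have hcm : f k * s' = s' * f k := ps_comm (hfA k) h8.mem
    refine ⟨s + f k * s', w + w', add_mem h1 (mul_mem (hfA k) h8.mem), ?_, ?_, fun i hi => ?_,
      by rw [star_add, h5, h9], ?_, ?_⟩
    · rw [star_add, star_mul, h2, h8.sa, hf.star_eq, hcm]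
    · have e1 : s * (f k * s') = 0 := by
        rw [← mul_assoc, ← ps_comm (hfA k) h1, h4 k hk, zero_mul]
      have e2 : f k * s' * s = 0 := by rw [hcm, mul_assoc, h4 k hk, mul_zero]
      have e3 : f k * s' * (f k * s') = f k := by
        rw [mul_assoc, ← mul_assoc s', ← hcm, mul_assoc, h8.sq, mul_one, hf.idem]
      rw [add_mul, mul_add, mul_add, h3, e1, e2, e3, sum_insert hk]
      abel
    · rw [mem_insert, not_or] at hi
      rw [mul_add, h4 i hi.2, ← mul_assoc, hf.orth i k hi.1, zero_mul, add_zero]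
    · rw [card_insert_of_notMem hk]
      push_cast
      linarith
    · convert h7.add h11 using 1
      · rw [smul_add]; abel
      · rw [add_zero]
      · rw [card_insert_of_notMem hk]
        push_cast
        ring

theorem double_leg (h : Sys ι ρ E) (hs : Sing ρ ι.range η) {x : M} (hx : star x = x)
    (hn : ‖x‖ ≤ 1) (h0 : E x = 0) {δ : ℝ} (hδ : 0 < δ) :
    ∃ s, Sy ι.range s ∧ Nb (vfs ρ η) (s * x * s) 0 δ := by
  have hP : 0 ≤ vfs ρ η (1 : M) := vfs_nonneg η zero_le_one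
  obtain ⟨C, hC⟩ : ∃ C, C = vfs ρ η (1 : M) + 1 := ⟨_, rfl⟩
  have hC0 : 0 < C := by linarith
  obtain ⟨j, hj⟩ := exists_pow_lt_of_lt_one (show 0 < (δ / 2) ^ 2 / C / C by positivity)
    (show (1 / 2 : ℝ) < 1 by norm_num)
  rw [one_div_pow] at hj
  obtain ⟨c, hc⟩ : ∃ c : ℝ, c = 1 / 2 ^ j := ⟨_, rfl⟩
  have hc0 : 0 < c := by rw [hc]; positivity
  obtain ⟨l, hl⟩ : ∃ l, l = 6 * C / δ := ⟨_, rfl⟩
  have hl0 : 0 < l := by rw [hl]; positivity
  obtain ⟨K, _, f, h1, h2, h3, h4⟩ := exists_flat_part h hs j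
    (show 0 < c * δ / (6 * (1 + l)) by positivity)
  rw [← hc] at h4 hj
  have hK : (Fintype.card K : ℝ) * c = 1 := by
    rw [h1, hc]; push_cast; field_simp
  obtain ⟨s, w, h5, h6, h7, -, h8, h9, h10⟩ := ps_ind h hs hx hn h0 h2 h3 hc0 hl0
    (show 0 < min (1 / 2) (c * δ / 6) by positivity) h4 univ
  rw [card_univ] at h9 h10
  have m1 := min_le_left (1 / 2) (c * δ / 6)
  have m2 := min_le_right (1 / 2) (c * δ / 6)
  generalize min (1 / 2) (c * δ / 6) = δ' at h9 h10 m1 m2
  have hK0 : (0 : ℝ) ≤ Fintype.card K := Nat.cast_nonneg _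
  have h11 : Nb (vfs ρ η) (c • w) 0 (δ / 2) := by
    refine Nb.of_sq (c := C) (by rw [star_smul, h8, star_trivial]) (by linarith) (by positivity)
      hC0 ?_
    rw [smul_mul_assoc, mul_smul_comm, map_smul, map_smul, smul_eq_mul, smul_eq_mul]
    calc c * (c * vfs ρ η (w * w)) ≤ c * (c * (Fintype.card K * C)) := by
          gcongr
          exact h9.trans (mul_le_mul_of_nonneg_left (by linarith) hK0)
      _ = c * C * (Fintype.card K * c) := by ring
      _ = c * C := by rw [hK, mul_one]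
      _ ≤ _ := ((lt_div_iff₀ hC0).mp hj).le
  refine ⟨s, ⟨h5, h6, h7.trans h2.sum⟩, ?_⟩
  convert (h10.add h11).mono (c' := 0) (δ' := δ) (by norm_num) ?_ using 1
  · abel
  · have e1 : (1 + l) * (c * δ / (6 * (1 + l))) = c * (δ / 6) := by field_simp
    have e2 : c / l * vfs ρ η (1 : M) ≤ c * (δ / 6) := by
      have : c / l * C = c * (δ / 6) := by rw [hl]; field_simp
      rw [← this]
      exact mul_le_mul_of_nonneg_left (by linarith) (by positivity)
    have e3 : δ' + ((1 + l) * (c * δ / (6 * (1 + l))) + c / l * vfs ρ η (1 : M))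
        ≤ c * (δ / 2) := by linarith
    have e4 := mul_le_mul_of_nonneg_left e3 hK0
    rw [← mul_assoc, hK] at e4
    linarith

theorem ps_pav (h : Sys ι ρ E) (hs : Sing ρ ι.range η) {x : M} (hx : star x = x) (hn : ‖x‖ ≤ 1)
    (h0 : E x = 0) (m : ℕ) {δ : ℝ} (hδ : 0 < δ) :
    ∃ (K : Type) (_ : Fintype K) (p : K → M), Fintype.card K = 2 ^ m ∧ IsPart p ∧
      (∀ k, p k ∈ ι.range) ∧
      Nb (vfs ρ η) (∑ k, p k * x * p k - (1 / 2 ^ m : ℝ) • x) 0 δ := by
  induction m with
  | zero =>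
    refine ⟨Unit, inferInstance, fun _ => 1, rfl,
      ⟨fun _ => IsStarProjection.one M, fun _ _ h => absurd rfl h, by simp⟩, fun _ => one_mem _,
      (Nb.of_norm _ (by simp) (by simp)).mono le_rfl hδ.le⟩
  | succ m ih =>
    obtain ⟨K, _, p, h1, h2, h3, h4⟩ := ih
    obtain ⟨s, hs1, hs2⟩ := double_leg h hs (x := ∑ k, p k * x * p k)
      (by simp only [star_sum, star_mul, h2.star_eq, hx, mul_assoc])
      (norm_sum_le_of_orth h2.proj h2.proj h2.orth h2.orth zero_le_one fun _ => hn)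
      (by rw [map_sum]; exact sum_eq_zero fun k _ => ps_E h (h3 k) (h3 k) h0) hδ
    refine ⟨K × Bool, inferInstance, fun x => p x.1 * psE s x.2, by simp [h1, pow_succ],
      ps_ref h2 (ps_part hs1) fun k l => ps_comm (h3 k) (ps_mem hs1 l),
      fun x => mul_mem (h3 _) (ps_mem hs1 _), ?_⟩
    have e : ∑ y : K × Bool, p y.1 * psE s y.2 * x * (p y.1 * psE s y.2)
        = ∑ b, psE s b * (∑ k, p k * x * p k) * psE s b := by
      rw [Fintype.sum_prod_type_right]
      refine sum_congr rfl fun b _ => ?_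
      rw [mul_sum, sum_mul]
      refine sum_congr rfl fun k _ => ?_
      conv_lhs => rw [ps_comm (h3 k) (ps_mem hs1 b)]
      rw [← ps_comm (h3 k) (ps_mem hs1 b), ps_comm (h3 k) (ps_mem hs1 b)]
      simp only [mul_assoc, ps_comm (h3 k) (ps_mem hs1 b)]
    convert ((h4.add hs2).smul (a := 1 / 2) (by norm_num)).mono (c' := 0) (δ' := δ) (by norm_num)
      (by linarith) using 1
    rw [e, ps_sum]
    simp only [pow_succ, one_div, mul_inv, mul_smul]
    module

theorem pav_sing (h : Sys ι ρ E) (hs : Sing ρ ι.range η) {x : M} (hx : star x = x) (hn : ‖x‖ ≤ 1)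
    (m : ℕ) {δ : ℝ} (hδ : 0 < δ) : Pav ι.range (vfs ρ η) x (2 ^ m) (2 / 2 ^ m) δ := by
  have ha : ι (E x) ∈ ι.range := ⟨E x, rfl⟩
  have ha1 : star (ι (E x)) = ι (E x) := by rw [← map_star, ← h.E_star, hx]
  have ha2 : ‖ι (E x)‖ ≤ 1 := (norm_ι_le ι _).trans ((h.E_norm x).trans hn)
  have ha3 : E (x - ι (E x)) = 0 := by rw [map_sub, h.fix, sub_self]
  generalize ι (E x) = a at ha ha1 ha2 ha3
  have hy1 : star ((1 / 2 : ℝ) • (x - a)) = (1 / 2 : ℝ) • (x - a) := by
    rw [star_smul, star_sub, hx, ha1, star_trivial]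
  have hy2 : ‖(1 / 2 : ℝ) • (x - a)‖ ≤ 1 := by
    rw [norm_smul, Real.norm_of_nonneg (by norm_num)]
    linarith [norm_sub_le x a]
  obtain ⟨K, _, p, h1, h2, h3, h4⟩ := ps_pav h hs hy1 hy2
    (by rw [LinearMap.map_smul_of_tower, ha3, smul_zero]) m (half_pos hδ)
  have h5 : Nb (vfs ρ η) ((1 / 2 ^ m : ℝ) • (1 / 2 : ℝ) • (x - a)) (1 / 2 ^ m * 1) (1 / 2 ^ m * 0) :=
    (Nb.of_norm _ hy1 hy2).smul (by positivity)
  have e := (Fintype.equivFinOfCardEq h1).symm
  refine ⟨fun i => p (e i), ⟨fun i => h2.proj _, fun i j hij => h2.orth _ _ (e.injective.ne hij),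
    (e.sum_comp p).trans h2.sum⟩, fun i => h3 _, a, ha, ha1, ha2, ?_⟩
  have e1 : ∑ k, p k * a * p k = a := by
    simp only [ps_comm (h3 _) ha, mul_assoc, h2.idem, ← mul_sum, h2.sum, mul_one]
  convert ((h4.add h5).smul (a := 2) (by norm_num)).mono (c' := 2 / 2 ^ m) (δ' := δ)
    (le_of_eq (by ring)) (le_of_eq (by ring)) using 1
  rw [e.sum_comp fun k => p k * x * p k, sub_add_cancel]
  simp only [mul_smul_comm, smul_mul_assoc, mul_sub, sub_mul, ← smul_sum, sum_sub_distrib, e1]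
  module

end Vale.Agent.P078
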