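import Vale.Agent.P078.MDefs

/-! Bounds up to a small positive element. -/

set_option linter.unusedSectionVars false

namespace Vale.Agent.P078

open Filter Topology Finset Vale.Agent.P104 Vale.Agent.P082
open scoped InnerProductSpace ComplexOrder ComplexConjugate

universe u v

variable {G : Type v} [NormedAddCommGroup G] [InnerProductSpace ℂ G] [CompleteSpace G]
  {M : Type u} [CStarAlgebra M] {ρ : M →⋆ₐ[ℂ] (G →L[ℂ] G)}

variable [PartialOrder M] [StarOrderedRing M] {φ : M →ₗ[ℝ] ℝ} {y y' : M} {c c' δ δ' : ℝ}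

theorem nb_two (a b : M) {l : ℝ} (hl : 0 < l) :
    star a * b + star b * a ≤ l • (star a * a) + l⁻¹ • (star b * b) := by
  have h := smul_nonneg (inv_pos.2 hl).le (star_mul_self_nonneg (l • a - b))
  have e : l⁻¹ • (star (l • a - b) * (l • a - b)) =
      l • (star a * a) + l⁻¹ • (star b * b) - (star a * b + star b * a) := by
    rw [star_sub, star_smul, star_trivial]
    simp only [sub_mul, mul_sub, smul_mul_assoc, mul_smul_comm, smul_sub, smul_smul,
      inv_mul_cancel₀ hl.ne', one_smul, inv_mul_cancel_left₀ hl.ne']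
    abel
  rwa [e, sub_nonneg] at h

theorem nb_norm_le {r : ℝ} (hr : 0 ≤ r) (h1 : -(r • (1 : M)) ≤ y) (h2 : y ≤ r • (1 : M)) :
    ‖y‖ ≤ r := by
  have hy : IsSelfAdjoint y :=
    IsSelfAdjoint.of_le h2 ((IsSelfAdjoint.all r).smul (IsSelfAdjoint.one M))
  rw [← Algebra.algebraMap_eq_smul_one] at h1 h2
  rw [← map_neg] at h1
  have g1 := (le_algebraMap_iff_spectrum_le hy).1 h2
  have g2 := (algebraMap_le_iff_le_spectrum hy).1 h1
  rw [← cfc_id ℝ y hy]
  exact norm_cfc_le hr fun x hx => abs_le.2 ⟨g2 x hx, g1 x hx⟩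

theorem nb_le_norm (hy : star y = y) (h : ‖y‖ ≤ c) : y ≤ c • (1 : M) := by
  refine (IsSelfAdjoint.le_algebraMap_norm_self hy).trans ?_
  rw [Algebra.algebraMap_eq_smul_one]
  exact smul_le_smul_of_nonneg_right h zero_le_one

theorem nb_pow (hy : IsSelfAdjoint y) {t : ℝ} (ht : 0 < t) {k : ℕ} (hk : 0 < k) :
    y ≤ t • (1 : M) + (t / t ^ (2 * k)) • y ^ (2 * k) := by
  rw [← cfc_pow_id (R := ℝ) y (2 * k) hy, ← cfc_const_mul _ _ y, ← Algebra.algebraMap_eq_smul_one,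
    ← cfc_const_add _ _ y]
  nth_rw 1 [← cfc_id' ℝ y hy]
  refine cfc_mono fun s _ => ?_
  have h0 : 0 ≤ t / t ^ (2 * k) * s ^ (2 * k) :=
    mul_nonneg (by positivity) ((even_two_mul k).pow_nonneg s)
  rcases le_or_gt s t with h | h
  · linarith
  · have h1 : s / t ≤ (s / t) ^ (2 * k) :=
      le_self_pow₀ ((one_le_div ht).2 h.le) (by omega)
    rw [div_pow, div_le_iff₀ ht] at h1
    have e : t / t ^ (2 * k) * s ^ (2 * k) = s ^ (2 * k) / t ^ (2 * k) * t := by ring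
    linarith

theorem nb_sqrt {b : M} (hb : 0 ≤ b) (hc : 0 < c) : ∃ g K : M, IsSelfAdjoint g ∧ IsSelfAdjoint K ∧
    K * g = 1 ∧ g * K = 1 ∧ K * K = c • (1 : M) + b ∧ √c • (1 : M) ≤ K := by
  have hs : ∀ s ∈ spectrum ℝ b, 0 < c + s := fun s hs => by
    linarith [spectrum_nonneg_of_nonneg hb hs]
  have h1 : ContinuousOn (fun s => √(c + s)) (spectrum ℝ b) := by fun_prop
  have h2 : ContinuousOn (fun s => (√(c + s))⁻¹) (spectrum ℝ b) :=
    h1.inv₀ fun s h => (Real.sqrt_pos.2 (hs s h)).ne'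
  have hb' := hb.isSelfAdjoint
  refine ⟨cfc (fun s => (√(c + s))⁻¹) b, cfc (fun s => √(c + s)) b, cfc_predicate _ _,
    cfc_predicate _ _, ?_, ?_, ?_, ?_⟩
  · rw [← cfc_mul _ _ b h1 h2, ← cfc_const_one ℝ b hb']
    exact cfc_congr fun s h => mul_inv_cancel₀ (Real.sqrt_pos.2 (hs s h)).ne'
  · rw [← cfc_mul _ _ b h2 h1, ← cfc_const_one ℝ b hb']
    exact cfc_congr fun s h => inv_mul_cancel₀ (Real.sqrt_pos.2 (hs s h)).ne'
  · rw [← cfc_mul _ _ b h1 h1, ← Algebra.algebraMap_eq_smul_one]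
    nth_rw 2 [← cfc_id' ℝ b hb']
    rw [← cfc_const_add _ _ b]
    exact cfc_congr fun s h => Real.mul_self_sqrt (hs s h).le
  · rw [← Algebra.algebraMap_eq_smul_one]
    exact algebraMap_le_cfc _ _ b fun s h =>
      Real.sqrt_le_sqrt (by linarith [spectrum_nonneg_of_nonneg hb h])

theorem nb_flat {b K w : M} (hc : 0 < c) (hK : IsSelfAdjoint K) (h1 : K * K = c • (1 : M) + b)
    (h2 : √c • (1 : M) ≤ K) (hw : IsSelfAdjoint w) (hn : ‖w‖ ≤ 1) {l : ℝ} (hl : 0 < l) :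
    K * w * K - c • w ≤ (1 + l) • b + (c / l) • (1 : M) := by
  obtain ⟨h, rfl⟩ : ∃ h, K = h + √c • (1 : M) := ⟨K - √c • (1 : M), (sub_add_cancel _ _).symm⟩
  have h0 : 0 ≤ h := by simpa using h2
  have hh := h0.isSelfAdjoint
  have hcc : √c * √c = c := Real.mul_self_sqrt hc.le
  have g1 : h * h ≤ b := by
    have e : b - h * h = (2 * √c) • h := by
      simp only [add_mul, mul_add, smul_mul_assoc, mul_smul_comm, one_mul, mul_one, smul_add,
        smul_smul, hcc] at h1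
      rw [two_mul, add_smul, ← sub_eq_iff_eq_add'.2 h1]
      abel
    rw [← sub_nonneg, e]
    exact smul_nonneg (by positivity) h0
  have g2 : h * w * h ≤ h * h := by
    have := hh.conjugate_le_conjugate (nb_le_norm hw hn)
    rwa [one_smul, mul_one] at this
  have g3 := nb_two h (√c • w) hl
  have g4 : w * w ≤ 1 := by
    have := nb_le_norm (y := w * w) (c := 1) (by rw [star_mul, hw.star_eq])
      ((norm_mul_le _ _).trans (mul_le_one₀ hn (norm_nonneg _) hn))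
    rwa [one_smul] at this
  rw [star_smul, star_trivial √c, hh.star_eq, hw.star_eq, smul_mul_smul_comm, hcc, smul_smul,
    inv_mul_eq_div] at g3
  have e : (h + √c • (1 : M)) * w * (h + √c • (1 : M)) - c • w =
      h * w * h + (h * √c • w + √c • w * h) := by
    simp only [add_mul, mul_add, smul_mul_assoc, mul_smul_comm, one_mul, mul_one, smul_add,
      smul_smul, hcc]
    abel
  rw [e, add_smul, one_smul, add_assoc]
  exact add_le_add (g2.trans g1) (g3.trans (add_le_add (smul_le_smul_of_nonneg_left g1 hl.le)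
    (smul_le_smul_of_nonneg_left g4 (by positivity))))

theorem vfs_nonneg {J : Type} [Fintype J] (η : J → G) {m : M} (hm : 0 ≤ m) : 0 ≤ vfs ρ η m := by
  obtain ⟨x, rfl⟩ := CStarAlgebra.nonneg_iff_eq_star_mul_self.1 hm
  rw [vfs, LinearMap.sum_apply]
  exact sum_nonneg fun j _ => by rw [vf_star_mul]; positivity

theorem vfs_star_mul {J : Type} [Fintype J] (η : J → G) (m : M) :
    vfs ρ η (star m * m) = ∑ j, ‖ρ m (η j)‖ ^ 2 := by
  simp only [vfs, LinearMap.sum_apply, vf_star_mul]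

theorem Nb.add (h : Nb φ y c δ) (h' : Nb φ y' c' δ') : Nb φ (y + y') (c + c') (δ + δ') := by
  obtain ⟨b, h0, h1, h2, h3⟩ := h
  obtain ⟨b', k0, k1, k2, k3⟩ := h'
  have e : (c + c') • (1 : M) + (b + b') = c • (1 : M) + b + (c' • (1 : M) + b') := by
    rw [add_smul]
    abel
  refine ⟨b + b', add_nonneg h0 k0, ?_, ?_, ?_⟩
  · rw [e, neg_add]
    exact add_le_add h1 k1
  · rw [e]
    exact add_le_add h2 k2
  · rw [map_add]
    exact add_le_add h3 k3

theorem Nb.neg (h : Nb φ y c δ) : Nb φ (-y) c δ := by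
  obtain ⟨b, h0, h1, h2, h3⟩ := h
  exact ⟨b, h0, neg_le_neg h2, neg_le.1 h1, h3⟩

theorem Nb.smul (h : Nb φ y c δ) {a : ℝ} (ha : 0 ≤ a) : Nb φ (a • y) (a * c) (a * δ) := by
  obtain ⟨b, h0, h1, h2, h3⟩ := h
  refine ⟨a • b, smul_nonneg ha h0, ?_, ?_, ?_⟩
  · rw [mul_smul, ← smul_add, ← smul_neg]
    exact smul_le_smul_of_nonneg_left h1 ha
  · rw [mul_smul, ← smul_add]
    exact smul_le_smul_of_nonneg_left h2 ha
  · rw [map_smul, smul_eq_mul]
    exact mul_le_mul_of_nonneg_left h3 ha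

theorem Nb.mono (h : Nb φ y c δ) (hc : c ≤ c') (hδ : δ ≤ δ') : Nb φ y c' δ' := by
  obtain ⟨b, h0, h1, h2, h3⟩ := h
  have e : c • (1 : M) + b ≤ c' • (1 : M) + b :=
    add_le_add (smul_le_smul_of_nonneg_right hc zero_le_one) le_rfl
  exact ⟨b, h0, (neg_le_neg e).trans h1, h2.trans e, h3.trans hδ⟩

theorem Nb.sum {κ : Type*} (s : Finset κ) {y : κ → M} {c δ : κ → ℝ}
    (h : ∀ i ∈ s, Nb φ (y i) (c i) (δ i)) :
    Nb φ (∑ i ∈ s, y i) (∑ i ∈ s, c i) (∑ i ∈ s, δ i) := by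
  classical
  induction s using Finset.induction_on with
  | empty => exact ⟨0, le_rfl, by simp, by simp, by simp⟩
  | insert i s hi ih =>
    rw [sum_insert hi, sum_insert hi, sum_insert hi]
    exact (h i (mem_insert_self i s)).add (ih fun j hj => h j (mem_insert_of_mem hj))

theorem Nb.of_norm (φ : M →ₗ[ℝ] ℝ) (hy : star y = y) (h : ‖y‖ ≤ c) : Nb φ y c 0 := by
  refine ⟨0, le_rfl, ?_, ?_, (map_zero φ).le⟩
  · rw [add_zero, neg_le]
    exact nb_le_norm (by rw [star_neg, hy]) (by rwa [norm_neg])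
  · rw [add_zero]
    exact nb_le_norm hy h

theorem Nb.cross (φ : M →ₗ[ℝ] ℝ) (a b : M) {l : ℝ} (hl : 0 < l) :
    Nb φ (star a * b + star b * a) 0 (l * φ (star a * a) + φ (star b * b) / l) := by
  refine ⟨l • (star a * a) + l⁻¹ • (star b * b), add_nonneg
    (smul_nonneg hl.le (star_mul_self_nonneg a))
    (smul_nonneg (inv_pos.2 hl).le (star_mul_self_nonneg b)), ?_, ?_, ?_⟩
  · have := nb_two a (-b) hl
    rw [star_neg, mul_neg, neg_mul, neg_mul_neg, ← neg_add] at this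
    rw [zero_smul, zero_add, neg_le]
    exact this
  · rw [zero_smul, zero_add]
    exact nb_two a b hl
  · rw [map_add, map_smul, map_smul, smul_eq_mul, smul_eq_mul, inv_mul_eq_div]

theorem Nb.of_sq (hy : star y = y) (h1 : φ 1 ≤ c) (hδ : 0 < δ) (hc : 0 < c)
    (h : φ (y * y) ≤ δ ^ 2 / c) : Nb φ y 0 δ := by
  have h2 := (Nb.cross φ y 1 (div_pos hc hδ)).smul (a := 1 / 2) (by norm_num)
  rw [hy, star_one, mul_one, one_mul, one_mul, mul_zero, ← two_smul ℝ y, smul_smul,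
    one_div_mul_cancel two_ne_zero, one_smul] at h2
  refine h2.mono le_rfl ?_
  have g1 : c / δ * φ (y * y) ≤ δ :=
    (mul_le_mul_of_nonneg_left h (div_pos hc hδ).le).trans_eq (by field_simp)
  have g2 : φ 1 / (c / δ) ≤ δ :=
    (div_le_div_of_nonneg_right h1 (div_pos hc hδ).le).trans_eq (by field_simp)
  linarith

theorem Nb.of_pow (φ : M →ₗ[ℝ] ℝ) (hy : star y = y) {t : ℝ} (ht : 0 < t) {k : ℕ} (hk : 0 < k) :
    ∃ b : M, 0 ≤ b ∧ -(t • (1 : M) + b) ≤ y ∧ y ≤ t • (1 : M) + b ∧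
      φ b = t * (φ (star (y ^ k) * y ^ k) / t ^ (2 * k)) := by
  have hy' : IsSelfAdjoint y := hy
  have e : star (y ^ k) * y ^ k = y ^ (2 * k) := by rw [star_pow, hy, two_mul, pow_add]
  refine ⟨(t / t ^ (2 * k)) • y ^ (2 * k), smul_nonneg (by positivity) ?_, ?_, nb_pow hy' ht hk, ?_⟩
  · rw [← e]
    exact star_mul_self_nonneg _
  · have := nb_pow hy'.neg ht hk
    rw [(even_two_mul k).neg_pow] at this
    exact neg_le.1 this
  · rw [map_smul, smul_eq_mul, e]
    ring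

theorem exists_flat {b : M} (hb : 0 ≤ b) (hc : 0 < c) : ∃ g : M, star g = g ∧
    ∀ d : M, -(c • (1 : M) + b) ≤ d → d ≤ c • (1 : M) + b → ‖g * d * g‖ ≤ 1 ∧
      ∀ l : ℝ, 0 < l → -((1 + l) • b + (c / l) • (1 : M)) ≤ d - c • (g * d * g) ∧
        d - c • (g * d * g) ≤ (1 + l) • b + (c / l) • (1 : M) := by
  obtain ⟨g, K, hg, hK, h1, h2, h3, h4⟩ := nb_sqrt hb hc
  have e1 : g * (c • (1 : M) + b) * g = 1 := by
    rw [← h3, ← mul_assoc, h2, one_mul, h1]
  have e2 : ∀ d : M, K * (g * d * g) * K = d := fun d => by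
    rw [← mul_assoc, ← mul_assoc, h1, one_mul, mul_assoc, h2, mul_one]
  refine ⟨g, hg, fun d hd1 hd2 => ?_⟩
  have g1 := hg.conjugate_le_conjugate hd1
  have g2 := hg.conjugate_le_conjugate hd2
  rw [mul_neg, neg_mul, e1] at g1
  rw [e1] at g2
  have hw : IsSelfAdjoint (g * d * g) := IsSelfAdjoint.of_le g2 (IsSelfAdjoint.one M)
  have hn : ‖g * d * g‖ ≤ 1 := nb_norm_le zero_le_one (by rwa [one_smul]) (by rwa [one_smul])
  refine ⟨hn, fun l hl => ⟨?_, ?_⟩⟩
  · have := nb_flat hc hK h3 h4 hw.neg (by rwa [norm_neg]) hl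
    rw [mul_neg, neg_mul, e2, smul_neg, ← neg_sub'] at this
    exact neg_le.1 this
  · have := nb_flat hc hK h3 h4 hw hn hl
    rwa [e2] at this

theorem exists_proj_of_le (hρ : IsVN ρ) {b : M} (hb : 0 ≤ b) {γ : ℝ} (hγ : 0 < γ) :
    ∃ q : M, IsStarProjection q ∧ γ • (1 - q) ≤ b ∧ q * b = b * q ∧
      ∀ (y : M) (c : ℝ), 0 ≤ c → -(c • (1 : M) + b) ≤ y → y ≤ c • (1 : M) + b →
        ‖q * y * q‖ ≤ c + γ := by
  obtain ⟨g, -, hg, h1, -, -, -, -, h2, h3⟩ := hρ.isWRep.rickart.spec hb.isSelfAdjoint hγ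
  have hq := hg.one_sub
  have hc : Commute b (1 - g) := (Commute.one_right b).sub_right (Commute.symm h1)
  refine ⟨1 - g, hq, ?_, hc.symm, fun y c hc0 hy1 hy2 => ?_⟩
  · rw [sub_sub_cancel]
    refine h2.trans ?_
    have := Commute.mul_nonneg hb hq.nonneg hc
    rwa [mul_sub, mul_one, sub_nonneg] at this
  · have e : (1 - g) * (c • (1 : M) + b) * (1 - g) ≤ (c + γ) • (1 : M) := by
      rw [mul_add, add_mul, mul_smul_comm, mul_one, smul_mul_assoc, hq.isIdempotentElem.eq,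
        ← hc.eq, mul_assoc, hq.isIdempotentElem.eq]
      refine (add_le_add le_rfl h3).trans ?_
      rw [← add_smul]
      exact smul_le_smul_of_nonneg_left (sub_le_self _ hg.nonneg) (by positivity)
    refine nb_norm_le (by positivity) ?_ ((hq.isSelfAdjoint.conjugate_le_conjugate hy2).trans e)
    have := hq.isSelfAdjoint.conjugate_le_conjugate hy1
    rw [mul_neg, neg_mul] at this
    exact (neg_le_neg e).trans this

end Vale.Agent.P078
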