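import Vale.Agent.P078.Sing
import Vale.Agent.P078.Nb

/-! Supports of normal central functionals. -/

set_option linter.unusedSectionVars false

namespace Vale.Agent.P078

open Filter Topology Finset Vale.Agent.P104 Vale.Agent.P082
open scoped InnerProductSpace ComplexOrder ComplexConjugate

universe u v

variable {G : Type v} [NormedAddCommGroup G] [InnerProductSpace ℂ G] [CompleteSpace G]
  {M : Type u} [CStarAlgebra M] {ρ : M →⋆ₐ[ℂ] (G →L[ℂ] G)}

variable {A : StarSubalgebra ℂ M}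

theorem supp_lin {a c : ℝ} (h : ∀ t : ℝ, 0 ≤ t * a + c) : a = 0 := by
  by_contra ha
  have := h (-(c + 1) / a)
  rw [div_mul_cancel₀ _ ha] at this
  linarith

theorem supp_lin' {a c : ℂ} (h : ∀ t : ℝ, 0 ≤ t * a + c) : a = 0 := by
  have h0 := (Complex.nonneg_iff.1 (h 0)).2
  have h1 := (Complex.nonneg_iff.1 (h 1)).2
  refine Complex.ext (supp_lin (c := c.re) fun t => ?_) ?_
  · simpa using (Complex.nonneg_iff.1 (h t)).1
  · simp only [Complex.ofReal_zero, zero_mul, zero_add, Complex.ofReal_one, one_mul,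
      Complex.add_im] at h0 h1
    rw [Complex.zero_im]
    linarith

theorem PosF.supp_cs {χ : M →ₗ[ℂ] ℂ} (h : PosF χ) {x : M} (hx : χ (star x * x) = 0) (y : M) :
    χ (star x * y) = 0 ∧ χ (star y * x) = 0 := by
  have key : ∀ t : ℂ, 0 ≤ conj t * χ (star x * y) + t * χ (star y * x) + χ (star y * y) :=
    fun t => by
      have := h (t • x + y)
      simp only [star_add, star_smul, add_mul, mul_add, smul_mul_assoc, mul_smul_comm, map_add,
        map_smul, hx, smul_eq_mul, mul_zero, zero_add, RCLike.star_def] at this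
      refine this.trans (le_of_eq ?_)
      ring
  have h1 : χ (star x * y) + χ (star y * x) = 0 := supp_lin' (c := χ (star y * y)) fun t => by
    refine (key t).trans (le_of_eq ?_)
    rw [Complex.conj_ofReal]
    ring
  have h2 : Complex.I * (χ (star y * x) - χ (star x * y)) = 0 :=
    supp_lin' (c := χ (star y * y)) fun t => by
      refine (key (t * Complex.I)).trans (le_of_eq ?_)
      rw [map_mul, Complex.conj_ofReal, Complex.conj_I]
      ring
  rw [mul_eq_zero, or_iff_right Complex.I_ne_zero] at h2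
  constructor
  · linear_combination (h1 - h2) / 2
  · linear_combination (h1 + h2) / 2

theorem PosF.supp_left {χ : M →ₗ[ℂ] ℂ} (h : PosF χ) {x : M} (hx : χ (star x * x) = 0) (a : M) :
    χ (star (a * x) * (a * x)) = 0 := by
  rw [star_mul, mul_assoc]
  exact (h.supp_cs hx _).1

theorem PosF.supp_bdd {χ : M →ₗ[ℂ] ℂ} (h : PosF χ) : ∃ C : ℝ, 0 ≤ C ∧ ∀ m, ‖χ m‖ ≤ C * ‖m‖ := by
  let _ := CStarAlgebra.spectralOrder M
  have _ := CStarAlgebra.spectralOrderedRing M
  obtain ⟨C, hC⟩ := (PositiveLinearMap.mk₀ χ fun x hx => by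
    obtain ⟨b, rfl⟩ := CStarAlgebra.nonneg_iff_eq_star_mul_self.1 hx
    exact h b).exists_norm_apply_le
  exact ⟨C, C.2, hC⟩

theorem exists_supp (hρ : IsVN ρ) (hA : Masa A) {χ : M →ₗ[ℂ] ℂ} (h1 : Nml ρ χ) (h2 : PosF χ)
    (h3 : CenF A χ) : ∃ z ∈ A, IsStarProjection z ∧ ∀ m, χ (star m * m) = 0 ↔ m * z = 0 := by
  obtain ⟨q, ⟨hp, h0⟩, -, hmax⟩ := hρ.isWRep.zorn (κ := Unit)
    (fun v => IsStarProjection (v ()) ∧ χ (v ()) = 0) ⟨IsStarProjection.zero M, map_zero χ⟩
    fun ι l _ a x ha hx => by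
      refine ⟨isStarProjection_iff'.2 ⟨((hx ()).mul (hx ())).eq hρ.isWRep (hx ())
        (.of_forall fun i => (ha i).1.isIdempotentElem.eq), (hx ()).star.eq hρ.isWRep (hx ())
        (.of_forall fun i => (ha i).1.isSelfAdjoint.star_eq)⟩, ?_⟩
      have := h1.tendsto (Ultrafilter.of l) (R := 1) (.of_forall fun i => (ha i).1.norm_le)
        ((BS.wl (hx ())).mono (Ultrafilter.of_le l))
      exact tendsto_nhds_unique this (tendsto_const_nhds.congr fun i => (ha i).2.symm)
  set p := q ()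
  have ps := hp.isSelfAdjoint.star_eq
  have pp := hp.isIdempotentElem.eq
  have hpL : χ (star p * p) = 0 := by rw [ps, pp, h0]
  have key : ∀ m, χ (star m * m) = 0 ↔ m * (1 - p) = 0 := fun m => by
    constructor
    · intro hm
      by_contra hne
      obtain ⟨t, ht, t0, -, ⟨c, hc⟩⟩ := hρ.isWRep.rickart.exists_PI hne
      have e1 : χ (star (m * (1 - p)) * (m * (1 - p))) = 0 := by
        have a1 := (h2.supp_cs hm (m * (1 - p))).2
        have a2 := (h2.supp_cs (h2.supp_left hpL m) (m * (1 - p))).2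
        have a3 : ∀ y, y * (m * (1 - p)) = y * m - y * (m * p) := fun y => by
          rw [mul_sub m, mul_one, mul_sub]
        rw [a3, map_sub, a1, a2, sub_zero]
      have e2 : χ (star t * t) = 0 := by rw [hc]; exact h2.supp_left e1 c
      have e3 : t * p = 0 := by
        rw [hc, mul_assoc, mul_assoc, sub_mul, one_mul, pp, sub_self, mul_zero, mul_zero]
      have e4 : star t * t * p = 0 := by rw [mul_assoc, e3, mul_zero]
      have e5 : p * (star t * t) = 0 := by
        simpa only [star_mul, star_star, ps, star_zero] using congrArg star e4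
      have := congrFun (hmax (fun _ => star t * t) ⟨hp.add ht.proj e5, by
        rw [Pi.add_apply, map_add, h0, e2, add_zero]⟩ (fun _ => PI.ofProj ht.proj)
        fun _ => ⟨by rw [ps, e5], by rw [ps, e4]⟩) ()
      exact t0 ((CStarRing.star_mul_self_eq_zero_iff t).1 this)
    · intro hm
      rw [mul_sub, mul_one, sub_eq_zero] at hm
      rw [hm]
      exact h2.supp_left hpL m
  have hc : ∀ a ∈ A, a * (1 - p) = (1 - p) * a * (1 - p) := fun a ha => by
    have e : χ (star (p * a) * (p * a)) = 0 := by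
      rw [star_mul, mul_assoc, h3 _ (star_mem ha), mul_assoc]
      exact (h2.supp_cs hpL _).1
    rw [sub_mul, one_mul, sub_mul, (key _).1 e, sub_zero]
  refine ⟨1 - p, (hA _).2 fun a ha => ?_, hp.one_sub, key⟩
  have := congrArg star (hc _ (star_mem ha))
  simp only [star_mul, star_star, hp.one_sub.isSelfAdjoint.star_eq, ← mul_assoc] at this
  rw [this, ← hc a ha]

theorem supp_series {χ : ℕ → M →ₗ[ℂ] ℂ} (h1 : ∀ n, Nml ρ (χ n)) (h2 : ∀ n, PosF (χ n))
    (h3 : ∀ n, CenF A (χ n)) : ∃ ψ : M →ₗ[ℂ] ℂ, Nml ρ ψ ∧ PosF ψ ∧ CenF A ψ ∧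
      ∀ m, ψ (star m * m) = 0 → ∀ n, χ n (star m * m) = 0 := by
  choose C hC0 hC using fun n => (h2 n).supp_bdd
  let c : ℕ → ℝ := fun n => (1 / 2) ^ n / (C n + 1)
  have hc : ∀ n, 0 < c n := fun n => div_pos (by positivity) (by linarith [hC0 n])
  have hb : ∀ m n, ‖(c n : ℂ) * χ n m‖ ≤ (1 / 2) ^ n * ‖m‖ := fun m n => by
    rw [norm_mul, Complex.norm_real, Real.norm_of_nonneg (hc n).le]
    refine (mul_le_mul_of_nonneg_left (hC n m) (hc n).le).trans ?_
    rw [← mul_assoc]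
    refine mul_le_mul_of_nonneg_right ?_ (norm_nonneg _)
    rw [div_mul_eq_mul_div, div_le_iff₀ (by linarith [hC0 n])]
    exact mul_le_mul_of_nonneg_left (by linarith) (by positivity)
  have hs : ∀ m, Summable fun n => (c n : ℂ) * χ n m := fun m =>
    Summable.of_norm_bounded (summable_geometric_two.mul_right ‖m‖) (hb m)
  have hpos : ∀ m n, 0 ≤ (c n : ℂ) * χ n (star m * m) := fun m n =>
    mul_nonneg (Complex.zero_le_real.2 (hc n).le) (h2 n m)
  refine ⟨⟨⟨fun m => ∑' n, (c n : ℂ) * χ n m, fun a b => ?_⟩, fun r a => ?_⟩, fun U R x hR hx => ?_,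
    fun m => tsum_nonneg (hpos m), fun a ha m => tsum_congr fun n => by rw [h3 n a ha], fun m hm n => ?_⟩
  · simp only [map_add, mul_add]
    exact (hs a).tsum_add (hs b)
  · simp only [map_smul, smul_eq_mul, RingHom.id_apply, ← tsum_mul_left]
    exact tsum_congr fun n => by ring
  · refine tendsto_tsum_of_dominated_convergence (f := fun a n => (c n : ℂ) * χ n a)
      (summable_geometric_two.mul_right R) (fun n => (h1 n U R x hR hx).const_mul _) ?_
    filter_upwards [hR] with a ha n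
    exact (hb a n).trans (mul_le_mul_of_nonneg_left ha (by positivity))
  · have h4 : (c n : ℂ) * χ n (star m * m) ≤ 0 :=
      ((hs (star m * m)).le_tsum n fun j _ => hpos m j).trans (le_of_eq hm)
    exact (mul_eq_zero.1 (le_antisymm h4 (hpos m n))).resolve_left
      (Complex.ofReal_ne_zero.2 (hc n).ne')

theorem supp_vfs {J : Type} [Fintype J] (η : J → G) (m : M) :
    vfs ρ η (star m * m) = ∑ j, ‖ρ m (η j)‖ ^ 2 := by
  simp only [vfs, LinearMap.sum_apply, vf_star_mul]

theorem supp_diff {z w : M} (hz : IsStarProjection z) (hw : IsStarProjection w)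
    (h : (1 - w) * z = 0) : star (w * (1 - z)) * (w * (1 - z)) = w - z := by
  rw [sub_mul, one_mul, sub_eq_zero] at h
  have h' : z = z * w := by
    simpa only [star_mul, hz.isSelfAdjoint.star_eq, hw.isSelfAdjoint.star_eq] using congrArg star h
  rw [mul_sub, mul_one, ← h, star_sub, hz.isSelfAdjoint.star_eq, hw.isSelfAdjoint.star_eq, sub_mul,
    mul_sub, mul_sub, ← h, ← h', hz.isIdempotentElem.eq, hw.isIdempotentElem.eq, sub_self, sub_zero]

theorem supp_mono {J : Type} [Fintype J] (η : J → G) {z w : M} (hz : IsStarProjection z)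
    (hw : IsStarProjection w) (h : (1 - w) * z = 0) : vfs ρ η z ≤ vfs ρ η w := by
  rw [← sub_nonneg, ← map_sub, ← supp_diff hz hw h, supp_vfs]
  positivity

theorem exists_max (hρ : IsVN ρ) (hA : Masa A) {J : Type} [Fintype J] (η : J → G) :
    ∃ (χ : M →ₗ[ℂ] ℂ) (z : M), Nml ρ χ ∧ PosF χ ∧ CenF A χ ∧ z ∈ A ∧ IsStarProjection z ∧
      (∀ m, χ (star m * m) = 0 ↔ m * z = 0) ∧ Sing ρ A fun j => ρ (1 - z) (η j) := by
  let T := {χ : M →ₗ[ℂ] ℂ // Nml ρ χ ∧ PosF χ ∧ CenF A χ}
  have _ : Nonempty T := ⟨⟨0, fun _ _ _ _ _ => tendsto_const_nhds, fun _ => le_rfl,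
    fun _ _ _ => rfl⟩⟩
  choose z hzA hz hs using fun χ : T => exists_supp hρ hA χ.2.1 χ.2.2.1 χ.2.2.2
  have hb : BddAbove (Set.range fun χ : T => vfs ρ η (z χ)) := ⟨vfs ρ η 1, by
    rintro _ ⟨χ, rfl⟩
    exact supp_mono η (hz χ) (IsStarProjection.one M) (by rw [sub_self, zero_mul])⟩
  choose χ hχ using fun n : ℕ => exists_lt_of_lt_ciSup
    (show (⨆ χ : T, vfs ρ η (z χ)) - 1 / ((n : ℝ) + 1) < ⨆ χ : T, vfs ρ η (z χ) from
      sub_lt_self _ (by positivity))
  obtain ⟨ψ, k1, k2, k3, k4⟩ := supp_series (fun n => (χ n).2.1) (fun n => (χ n).2.2.1)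
    fun n => (χ n).2.2.2
  have hcomp : ∀ χ : T, χ.1 (star (1 - z χ) * (1 - z χ)) = 0 := fun χ =>
    (hs χ _).2 (by rw [sub_mul, one_mul, (hz χ).isIdempotentElem.eq, sub_self])
  let Ψ : T := ⟨ψ, k1, k2, k3⟩
  have hmax : ∀ χ : T, vfs ρ η (z χ) ≤ vfs ρ η (z Ψ) := fun χ' => by
    refine (le_ciSup hb χ').trans ?_
    have := (tendsto_const_nhds (x := ⨆ χ : T, vfs ρ η (z χ))).sub
      (tendsto_one_div_add_atTop_nhds_zero_nat (𝕜 := ℝ))
    rw [sub_zero] at this
    refine le_of_tendsto' this fun n => (hχ n).le.trans ?_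
    exact supp_mono η (hz _) (hz _) ((hs _ _).1 (k4 _ (hcomp Ψ) n))
  refine ⟨ψ, z Ψ, k1, k2, k3, hzA Ψ, hz Ψ, hs Ψ, fun χ' j1 j2 j3 hle => ?_⟩
  let W : T := ⟨ψ + χ', fun U R x hR hx => (k1 U R x hR hx).add (j1 U R x hR hx),
    fun m => add_nonneg (k2 m) (j2 m), fun a ha m => by
      rw [LinearMap.add_apply, LinearMap.add_apply, k3 a ha, j3 a ha]⟩
  obtain ⟨a1, a2⟩ := (add_eq_zero_iff_of_nonneg (k2 _) (j2 _)).1 (hcomp W)
  have a3 := (hs Ψ _).1 a1
  have a4 := hle _ (hzA W)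
  have a5 : vfs ρ (fun j => ρ (1 - z Ψ) (η j)) (star (z W) * z W) = vfs ρ η (z W - z Ψ) := by
    rw [← supp_diff (hz Ψ) (hz W) a3, supp_vfs, supp_vfs]
    simp only [ws_mul_apply]
  rw [a5, map_sub] at a4
  have a6 : χ' (star (z W) * z W) = 0 := by
    have := Complex.nonneg_iff.1 (j2 (z W))
    exact Complex.ext (le_antisymm (a4.trans (sub_nonpos.2 (hmax W))) this.1) this.2.symm
  rw [(hz W).isSelfAdjoint.star_eq, (hz W).isIdempotentElem.eq] at a6
  rw [(hz W).one_sub.isSelfAdjoint.star_eq, (hz W).one_sub.isIdempotentElem.eq, map_sub, a6,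
    sub_zero] at a2
  exact a2

end Vale.Agent.P078
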