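import Vale.Agent.P078.PavQ
import Vale.Agent.P078.PavS
import Vale.Agent.P078.Supp

/-! The paving theorem. -/

set_option linter.unusedSectionVars false

namespace Vale.Agent.P078

open Filter Topology Finset Vale.Agent.P104 Vale.Agent.P082
open scoped InnerProductSpace ComplexOrder ComplexConjugate

universe u v

variable {G : Type v} [NormedAddCommGroup G] [InnerProductSpace ℂ G] [CompleteSpace G]
  {M : Type u} [CStarAlgebra M] {ρ : M →⋆ₐ[ℂ] (G →L[ℂ] G)}

variable {A : StarSubalgebra ℂ M}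

theorem mn_vfs (z : M) (hz : star z = z) {J : Type} [Fintype J] (η : J → G) (b : M) :
    vfs ρ η (z * b * z) = vfs ρ (fun j => ρ z (η j)) b := by
  simp only [vfs, LinearMap.sum_apply]
  refine Finset.sum_congr rfl fun j _ => ?_
  show (⟪η j, ρ (z * b * z) (η j)⟫_ℂ).re = (⟪ρ z (η j), ρ b (ρ z (η j))⟫_ℂ).re
  rw [ws_inner, hz, ws_mul_apply, ws_mul_apply]

theorem mn_proj_mul {p q : M} (hp : IsStarProjection p) (hq : IsStarProjection q)
    (h : p * q = q * p) : IsStarProjection (p * q) := hp.mul hq h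

theorem pavQ_sing (hρ : IsVN ρ) (hA : Masa A) {z : M} (hzA : z ∈ A) (hz : IsStarProjection z)
    {J : Type} [Fintype J] {η : J → G} (hs : Sing ρ A fun j => ρ z (η j)) {x : M}
    (hx : star x = x) (hn : ‖x‖ ≤ 1) (m : ℕ) {γ δ : ℝ} (hγ : 0 < γ) (hδ : 0 < δ) :
    PavQ A (vfs ρ η) z x (2 ^ m) (2 / 2 ^ m + γ) δ := by
  let _ := CStarAlgebra.spectralOrder M
  have _ := CStarAlgebra.spectralOrderedRing M
  obtain ⟨Ω, _, _, _, _, ι, E, h, rfl⟩ := exists_sys hρ hA
  obtain ⟨p, hp, hpA, a, haA, ha, ha1, b, hb, l1, l2, hφ⟩ :=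
    pav_sing h hs hx hn m (mul_pos hγ hδ)
  have zs : star z = z := hz.isSelfAdjoint.star_eq
  have zz : z * z = z := hz.isIdempotentElem.eq
  have cm : ∀ c ∈ ι.range, z * c = c * z := fun c hc => (hA c).1 hc z hzA
  have hb' : 0 ≤ z * b * z := by
    have := star_left_conjugate_nonneg hb z
    rwa [zs] at this
  obtain ⟨q, hq, q1, -, q2⟩ := exists_proj_of_le hρ hb' hγ
  have hc : (0 : ℝ) ≤ 2 / 2 ^ m := by positivity
  have e0 : (1 - q) * (1 - z) = 0 := by
    have t := star_left_conjugate_le_conjugate q1 (1 - z)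
    have e1 : star (1 - z) * (z * b * z) * (1 - z) = 0 := by
      rw [mul_assoc, mul_assoc (z * b), mul_sub z, mul_one, zz, sub_self, mul_zero, mul_zero]
    have e2 : star (1 - z) * (γ • (1 - q)) * (1 - z) =
        γ • (star ((1 - q) * (1 - z)) * ((1 - q) * (1 - z))) := by
      rw [star_mul, hq.one_sub.isSelfAdjoint.star_eq, mul_smul_comm, smul_mul_assoc,
        mul_assoc (star (1 - z)) (1 - q) ((1 - q) * (1 - z)), ← mul_assoc (1 - q) (1 - q),
        hq.one_sub.isIdempotentElem.eq, mul_assoc]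
    rw [e1, e2] at t
    have t' : star ((1 - q) * (1 - z)) * ((1 - q) * (1 - z)) ≤ 0 := by
      have := smul_le_smul_of_nonneg_left t (inv_pos.2 hγ).le
      rwa [smul_smul, inv_mul_cancel₀ hγ.ne', one_smul, smul_zero] at this
    exact (CStarRing.star_mul_self_eq_zero_iff _).1 (le_antisymm t' (star_mul_self_nonneg _))
  have e0' : (1 - z) * (1 - q) = 0 := by
    have := congrArg star e0
    rwa [star_mul, hq.one_sub.isSelfAdjoint.star_eq, hz.one_sub.isSelfAdjoint.star_eq,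
      star_zero] at this
  have e3 : z - z * q = 1 - q := by
    have : 1 - q - (z - z * q) = (1 - z) * (1 - q) := by noncomm_ring
    rw [e0'] at this
    exact (sub_eq_zero.1 this).symm
  have zq : z * q = q * z := by
    have : z * q - q * z = (1 - z) * (1 - q) - (1 - q) * (1 - z) := by noncomm_ring
    rw [e0, e0', sub_zero] at this
    exact sub_eq_zero.1 this
  have cz : z * ((2 / 2 ^ m : ℝ) • (1 : M) + b) * z ≤ (2 / 2 ^ m : ℝ) • (1 : M) + z * b * z := by
    rw [mul_add, add_mul, mul_smul_comm, smul_mul_assoc, mul_one, zz]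
    exact add_le_add (smul_le_smul_of_nonneg_left hz.le_one hc) le_rfl
  have m1 := star_left_conjugate_le_conjugate l1 z
  have m2 := star_left_conjugate_le_conjugate l2 z
  rw [zs] at m1 m2
  rw [mul_neg, neg_mul] at m1
  have key := q2 _ _ hc ((neg_le_neg cz).trans m1) (m2.trans cz)
  refine ⟨fun i => z * p i, fun i => ⟨mn_proj_mul hz (hp.proj i) (cm _ (hpA i)),
    mul_mem hzA (hpA i)⟩, fun i j hij => ?_, ?_, z * a, mul_mem hzA haA, ?_, ?_, ?_, z * q,
    mn_proj_mul hz hq zq, ?_, ?_, ?_⟩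
  · show z * p i * (z * p j) = 0
    rw [cm _ (hpA j), ← mul_assoc, mul_assoc z, hp.orth i j hij, mul_zero, zero_mul]
  · rw [← Finset.mul_sum, hp.sum, mul_one]
  · rw [star_mul, ha, zs, cm _ haA]
  · exact (norm_mul_le _ _).trans (mul_le_one₀ hz.norm_le (norm_nonneg _) ha1)
  · rw [← mul_assoc, zz]
  · rw [← mul_assoc, zz]
  · have t := vfs_nonneg (ρ := ρ) η (sub_nonneg.2 q1)
    rw [map_sub, map_smul, mn_vfs z zs, smul_eq_mul] at t
    rw [e3]
    exact le_of_mul_le_mul_left (by linarith) hγ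
  · have e4 : ∑ i, z * p i * x * (z * p i) - z * a = z * (∑ i, p i * x * p i - a) * z := by
      rw [mul_sub, sub_mul, Finset.mul_sum, Finset.sum_mul, mul_assoc z a z, ← cm _ haA,
        ← mul_assoc z z, zz]
      congr 1
      refine Finset.sum_congr rfl fun i _ => ?_
      rw [mul_assoc z, mul_assoc z, mul_assoc z, cm _ (hpA i), mul_assoc (p i * x)]
    have e5 : ∀ y : M, z * q * (z * y * z) * (z * q) = q * (z * y * z) * q := fun y => by
      rw [zq, mul_assoc q z, ← mul_assoc z (z * y), ← mul_assoc z z, zz, ← zq, mul_assoc q,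
        ← mul_assoc (z * y * z), mul_assoc (z * y), zz, ← mul_assoc q]
    show ‖z * q * (∑ i, z * p i * x * (z * p i) - z * a) * (z * q)‖ ≤ _
    rw [e4, e5]
    exact key

theorem mn_block {z u u' : M} (hz : IsStarProjection z) (h : z * u * z = u)
    (h' : (1 - z) * u' * (1 - z) = u') {C : ℝ} (hu : ‖u‖ ≤ C) (hu' : ‖u'‖ ≤ C) : ‖u + u'‖ ≤ C := by
  have o1 : z * (1 - z) = 0 := by rw [mul_sub, mul_one, hz.isIdempotentElem.eq, sub_self]
  have o2 : (1 - z) * z = 0 := by rw [sub_mul, one_mul, hz.isIdempotentElem.eq, sub_self]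
  have he : ∀ j : Bool, IsStarProjection (cond j z (1 - z)) := by
    rintro (_ | _)
    · exact hz.one_sub
    · exact hz
  have he' : ∀ i j : Bool, i ≠ j → cond i z (1 - z) * cond j z (1 - z) = 0 := by
    rintro (_ | _) (_ | _) hij
    · exact absurd rfl hij
    · exact o2
    · exact o1
    · exact absurd rfl hij
  have := norm_sum_le_of_orth (a := fun j : Bool => cond j u u') he he he' he'
    ((norm_nonneg _).trans hu) (by
      rintro (_ | _)
      · exact hu'
      · exact hu)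
  rwa [Fintype.sum_bool, cond_true, cond_true, cond_false, cond_false, h, h'] at this

theorem mn_under {n : ℕ} {p : Fin n → M} {z : M} (h1 : ∀ i, IsStarProjection (p i))
    (h2 : ∀ i j, i ≠ j → p i * p j = 0) (h3 : ∑ i, p i = z) (i : Fin n) :
    z * p i = p i ∧ p i * z = p i := by
  constructor
  · rw [← h3, Finset.sum_mul, Finset.sum_eq_single i (fun j _ hj => h2 j i hj) (by simp),
      (h1 i).isIdempotentElem.eq]
  · rw [← h3, Finset.mul_sum, Finset.sum_eq_single i (fun j _ hj => h2 i j hj.symm) (by simp),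
      (h1 i).isIdempotentElem.eq]

theorem mn_right {z a : M} (hz : IsStarProjection z) (ha : star a = a) (h : z * a = a) :
    a * z = a := by
  have := congrArg star h
  rwa [star_mul, ha, hz.isSelfAdjoint.star_eq] at this

theorem PavQ.join {φ : M →ₗ[ℝ] ℝ} {z x : M} (hz : IsStarProjection z) {n n' : ℕ} {c δ δ' : ℝ}
    (h : PavQ A φ z x n c δ) (h' : PavQ A φ (1 - z) x n' c δ') :
    PavQ A φ 1 x (n + n') c (δ + δ') := by
  obtain ⟨p, p1, p2, p3, a, a1, a2, a3, a4, q, q1, q2, q3, q4⟩ := h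
  obtain ⟨p', p1', p2', p3', a', a1', a2', a3', a4', q', q1', q2', q3', q4'⟩ := h'
  have o1 : z * (1 - z) = 0 := by rw [mul_sub, mul_one, hz.isIdempotentElem.eq, sub_self]
  have o2 : (1 - z) * z = 0 := by rw [sub_mul, one_mul, hz.isIdempotentElem.eq, sub_self]
  have k1 : ∀ u v : M, u * z = u → (1 - z) * v = v → u * v = 0 := fun u v hu hv => by
    rw [← hu, ← hv, mul_assoc, ← mul_assoc z, o1, zero_mul, mul_zero]
  have k2 : ∀ u v : M, u * (1 - z) = u → z * v = v → u * v = 0 := fun u v hu hv => by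
    rw [← hu, ← hv, mul_assoc, ← mul_assoc (1 - z), o2, zero_mul, mul_zero]
  have u := mn_under (fun i => (p1 i).1) p2 p3
  have u' := mn_under (fun i => (p1' i).1) p2' p3'
  have a5 := mn_right hz a2 a4
  have a5' := mn_right hz.one_sub a2' a4'
  have q5 := mn_right hz q1.isSelfAdjoint.star_eq q2
  have q5' := mn_right hz.one_sub q1'.isSelfAdjoint.star_eq q2'
  refine ⟨Fin.append p p', fun i => ?_, fun i j hij => ?_, ?_, a + a', add_mem a1 a1', ?_, ?_,
    one_mul _, q + q', q1.add q1' (k1 _ _ q5 q2'), one_mul _, ?_, ?_⟩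
  · refine Fin.addCases (fun i => ?_) (fun i => ?_) i
    · rw [Fin.append_left]
      exact p1 i
    · rw [Fin.append_right]
      exact p1' i
  · revert hij
    refine Fin.addCases (fun i => ?_) (fun i => ?_) i <;>
      refine Fin.addCases (fun j => ?_) (fun j => ?_) j <;> intro hij <;>
      simp only [Fin.append_left, Fin.append_right]
    · exact p2 i j fun e => hij (by rw [e])
    · exact k1 _ _ (u i).2 (u' j).1
    · exact k2 _ _ (u' i).2 (u j).1
    · exact p2' i j fun e => hij (by rw [e])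
  · rw [Fin.sum_univ_add]
    simp only [Fin.append_left, Fin.append_right]
    rw [p3, p3', add_sub_cancel]
  · rw [star_add, a2, a2']
  · exact mn_block hz (by rw [a4, a5]) (by rw [a4', a5']) a3 a3'
  · have e : 1 - (q + q') = (z - q) + (1 - z - q') := by abel
    rw [e, map_add]
    exact add_le_add q3 q3'
  · rw [Fin.sum_univ_add]
    simp only [Fin.append_left, Fin.append_right]
    obtain ⟨Y, hY⟩ : ∃ Y, Y = ∑ i, p i * x * p i - a := ⟨_, rfl⟩
    obtain ⟨Y', hY'⟩ : ∃ Y, Y = ∑ i, p' i * x * p' i - a' := ⟨_, rfl⟩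
    have y1 : z * Y = Y := by
      rw [hY, mul_sub, a4, Finset.mul_sum]
      simp only [← mul_assoc, fun i => (u i).1]
    have y2 : Y * z = Y := by
      rw [hY, sub_mul, a5, Finset.sum_mul]
      simp only [mul_assoc, fun i => (u i).2]
    have y1' : (1 - z) * Y' = Y' := by
      rw [hY', mul_sub, a4', Finset.mul_sum]
      simp only [← mul_assoc, fun i => (u' i).1]
    have y2' : Y' * (1 - z) = Y' := by
      rw [hY', sub_mul, a5', Finset.sum_mul]
      simp only [mul_assoc, fun i => (u' i).2]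
    have e : ∑ i, p i * x * p i + ∑ i, p' i * x * p' i - (a + a') = Y + Y' := by
      rw [hY, hY']
      abel
    have e' : (q + q') * (Y + Y') * (q + q') = q * Y * q + q' * Y' * q' := by
      rw [add_mul, mul_add q, mul_add q', k1 _ _ q5 y1', k2 _ _ q5' y1, add_zero, zero_add, add_mul,
        mul_add (q * Y), mul_add (q' * Y'), mul_assoc q Y q', k1 _ _ y2 q2', mul_assoc q' Y' q,
        k2 _ _ y2' q2, mul_zero, mul_zero, add_zero, zero_add]
    rw [← hY] at q4
    rw [← hY'] at q4'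
    rw [e, e']
    refine mn_block hz ?_ ?_ q4 q4'
    · rw [← mul_assoc, ← mul_assoc, q2, mul_assoc, q5]
    · rw [← mul_assoc, ← mul_assoc, q2', mul_assoc, q5']

theorem mn_mono {φ : M →ₗ[ℝ] ℝ} {z x : M} {n : ℕ} {c c' δ : ℝ} (h : PavQ A φ z x n c δ)
    (hc : c ≤ c') : PavQ A φ z x n c' δ := by
  obtain ⟨p, p1, p2, p3, a, a1, a2, a3, a4, q, q1, q2, q3, q4⟩ := h
  exact ⟨p, p1, p2, p3, a, a1, a2, a3, a4, q, q1, q2, q3, q4.trans hc⟩

theorem pavQ_main (hρ : IsVN ρ) (hA : Masa A) {ε : ℝ} (h0 : 0 < ε) (h1 : ε < 1) :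
    ∃ r : ℕ, 1 ≤ r ∧ (r : ℝ) ≤ 10 ^ 8 / ε ^ 2 ∧ ∀ (J : Type) [Fintype J] (η : J → G) (x : M),
      star x = x → ‖x‖ ≤ 1 → ∀ δ : ℝ, 0 < δ → PavQ A (vfs ρ η) 1 x r ε δ := by
  obtain ⟨k, k1, k2⟩ : ∃ k : ℕ, (3000 / ε) ^ 2 ≤ k ∧ (k : ℝ) < (3000 / ε) ^ 2 + 1 :=
    ⟨⌈(3000 / ε) ^ 2⌉₊, Nat.le_ceil _, Nat.ceil_lt_add_one (by positivity)⟩
  have i1 : 1 ≤ 1 / ε := by
    rw [le_div_iff₀ h0]
    linarith
  have i4 : (1 : ℝ) ≤ 4 / ε := by
    rw [le_div_iff₀ h0]
    linarith
  obtain ⟨n, n1, n2⟩ := exists_nat_pow_near i4 (one_lt_two (α := ℝ))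
  have k9 : 9 ≤ k := by
    have a : (3 : ℝ) ≤ 3000 / ε := by
      rw [le_div_iff₀ h0]
      linarith
    have : (9 : ℝ) ≤ k := by nlinarith
    exact_mod_cast this
  have c1 : 1500 / √k + ε / 2 ≤ ε := by
    have a : 3000 / ε ≤ √k := Real.le_sqrt_of_sq_le k1
    have b : 0 < √(k : ℝ) := lt_of_lt_of_le (by positivity) a
    rw [div_le_iff₀ h0] at a
    have : 1500 / √k ≤ ε / 2 := by
      rw [div_le_iff₀ b]
      linarith
    linarith
  have c2 : 2 / 2 ^ (n + 1) + ε / 2 ≤ ε := by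
    rw [div_lt_iff₀ h0] at n2
    have : (2 : ℝ) / 2 ^ (n + 1) ≤ ε / 2 := by
      rw [div_le_iff₀ (by positivity)]
      linarith
    linarith
  refine ⟨2 * k + 2 ^ (n + 1), le_add_right (by omega), ?_, fun J _ η x hx hn δ hδ => ?_⟩
  · have e1 : (3000 / ε) ^ 2 = 9000000 * (1 / ε) ^ 2 := by ring
    have e2 : 4 / ε = 4 * (1 / ε) := by ring
    have e3 : 10 ^ 8 / ε ^ 2 = 100000000 * (1 / ε) ^ 2 := by ring
    rw [e1] at k2
    rw [e2] at n1
    rw [e3]
    push_cast
    rw [pow_succ]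
    nlinarith
  obtain ⟨χ, z, x1, x2, x3, hzA, hz, x4, x5⟩ := exists_max hρ hA η
  have a := mn_mono (pavQ_cen hρ hA x1 x2 x3 hzA hz x4 η hx hn k9 (half_pos h0) (half_pos hδ)) c1
  have b := mn_mono (pavQ_sing hρ hA (sub_mem (one_mem A) hzA) hz.one_sub x5 hx hn (n + 1)
    (half_pos h0) (half_pos hδ)) c2
  have := a.join hz b
  rwa [add_halves] at this

end Vale.Agent.P078
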