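import Vale.Agent.P078.Stmt
import Vale.Agent.P078.Main

/-! The concrete form of the paving theorem. -/

namespace Vale.Agent.P078

open Finset Vale.Agent.P104 Vale.Agent.P082

variable {H : Type*} [NormedAddCommGroup H] [InnerProductSpace ℂ H] [CompleteSpace H]

theorem IsMASA.mem {M : VonNeumannAlgebra H} {A : StarSubalgebra ℂ (H →L[ℂ] H)} (hA : IsMASA M A)
    {m : H →L[ℂ] H} (hm : m ∈ M) (h : ∀ a ∈ A, a * m = m * a) : m ∈ A := by
  have key : ∀ k : H →L[ℂ] H, k ∈ M → star k = k → (∀ a ∈ A, a * k = k * a) → k ∈ A := by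
    intro k hk hs hc
    have hcomm : ∀ a ∈ insert k (A : Set (H →L[ℂ] H)), ∀ b ∈ insert k (A : Set (H →L[ℂ] H)),
        a * b = b * a := by
      rintro a (rfl | ha) b (rfl | hb)
      exacts [rfl, (hc b hb).symm, hc a ha, hA.2.1 a ha b hb]
    have hstar : ∀ a ∈ insert k (A : Set (H →L[ℂ] H)), star a ∈ insert k (A : Set (H →L[ℂ] H)) := by
      rintro a (rfl | ha)
      exacts [Or.inl hs, Or.inr (star_mem ha)]
    have h1 := StarAlgebra.isMulCommutative_adjoin ℂ hcomm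
      fun a ha b hb => hcomm a ha _ (hstar b hb)
    have h2 : StarAlgebra.adjoin ℂ (insert k (A : Set (H →L[ℂ] H))) ≤ M.toStarSubalgebra :=
      StarAlgebra.adjoin_le (by
        rintro a (rfl | ha)
        exacts [hk, hA.1 a ha])
    have h3 := hA.2.2 (StarAlgebra.adjoin ℂ (insert k (A : Set (H →L[ℂ] H)))) (fun b hb => h2 hb)
      (fun a ha b hb => congrArg Subtype.val (h1.is_comm.comm ⟨a, ha⟩ ⟨b, hb⟩))
      fun a ha => StarAlgebra.subset_adjoin ℂ _ (Or.inr ha)
    rw [← h3]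
    exact StarAlgebra.subset_adjoin ℂ _ (Or.inl rfl)
  have hs : ∀ a ∈ A, a * star m = star m * a := fun a ha => by
    simpa using (congrArg star (h _ (star_mem ha))).symm
  have h1 := key (m + star m) (add_mem hm (star_mem hm)) (by simp [add_comm]) fun a ha => by
    rw [mul_add, add_mul, h a ha, hs a ha]
  have h2 := key (Complex.I • (m - star m))
    (M.toStarSubalgebra.smul_mem (sub_mem hm (star_mem hm)) _)
    (by simp [smul_sub, neg_add_eq_sub]) fun a ha => by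
      rw [mul_smul_comm, smul_mul_assoc, mul_sub, sub_mul, h a ha, hs a ha]
  have e : m = (2⁻¹ : ℂ) • ((m + star m) - Complex.I • Complex.I • (m - star m)) := by
    rw [smul_smul, Complex.I_mul_I]
    module
  rw [e]
  exact A.smul_mem (sub_mem h1 (A.smul_mem h2 _)) _

theorem so_paving (M : VonNeumannAlgebra H) (A : StarSubalgebra ℂ (H →L[ℂ] H)) (hA : IsMASA M A)
    {ε : ℝ} (h0 : 0 < ε) (h1 : ε < 1) : ∃ r : ℕ, 1 ≤ r ∧ (r : ℝ) ≤ 10 ^ 8 / ε ^ 2 ∧
      ∀ x ∈ M, IsSelfAdjoint x → SoPavable M A x ε r := by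
  have : IsClosed (M.toStarSubalgebra : Set (H →L[ℂ] H)) := by
    rw [M.coe_toStarSubalgebra, ← M.centralizer_centralizer]
    exact Set.isClosed_centralizer _
  have hm : Masa (A.comap M.toStarSubalgebra.subtype) := fun m =>
    ⟨fun h a ha => Subtype.ext (hA.2.1 _ ha _ h), fun h => hA.mem m.2 fun a ha =>
      congrArg Subtype.val (h ⟨a, hA.1 a ha⟩ ha)⟩
  obtain ⟨r, r1, r2, hr⟩ := pavQ_main (isVN_subtype M) hm h0 h1
  refine ⟨r, r1, r2, fun x hx hs F δ hδ => ?_⟩
  set c : ℝ := ‖x‖ with hc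
  let x' : M.toStarSubalgebra := ⟨(c⁻¹ : ℂ) • x, M.toStarSubalgebra.smul_mem hx _⟩
  have hx' : (c : ℂ) • (x' : H →L[ℂ] H) = x := by
    change (c : ℂ) • (c⁻¹ : ℂ) • x = x
    rcases eq_or_ne x 0 with h | h
    · simp [h]
    · rw [smul_smul, mul_inv_cancel₀ (by simpa [hc] using h), one_smul]
  obtain ⟨p, p1, p2, p3, a, a1, a2, a3, -, q, q1, -, q2, q3⟩ := hr (Fin F.card)
    (fun j => (F.equivFin.symm j).1) x'
    (Subtype.ext (by
      change star ((c⁻¹ : ℂ) • x) = (c⁻¹ : ℂ) • x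
      rw [star_smul, hs.star_eq]
      simp))
    (by
      change ‖(c⁻¹ : ℂ) • x‖ ≤ 1
      rw [norm_smul, norm_inv, Complex.norm_real, hc, norm_norm]
      exact inv_mul_le_one) (δ ^ 2 / 2) (by positivity)
  have proj : ∀ y : M.toStarSubalgebra, IsStarProjection y → IsStarProjection (y : H →L[ℂ] H) :=
    fun y hy => isStarProjection_iff'.2 ⟨congrArg Subtype.val hy.isIdempotentElem.eq,
      congrArg Subtype.val hy.isSelfAdjoint.star_eq⟩
  refine ⟨fun i => p i, ⟨fun i => ⟨(p1 i).2, proj _ (p1 i).1⟩,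
    fun i j h => congrArg Subtype.val (p2 i j h), ?_⟩, (c : ℂ) • (a : H →L[ℂ] H),
    A.smul_mem a1 _, ?_, ?_, q, q.2, proj _ q1, fun ξ hξ => ?_, ?_⟩
  · simpa using congrArg Subtype.val p3
  · have : star (a : H →L[ℂ] H) = a := congrArg Subtype.val a2
    rw [IsSelfAdjoint, star_smul, this]
    simp
  · rw [norm_smul, Complex.norm_real, hc, norm_norm]
    exact mul_le_of_le_one_right (norm_nonneg _) a3
  · have e : star (1 - q) * (1 - q) = 1 - q := by
      rw [q1.one_sub.isSelfAdjoint.star_eq, q1.one_sub.isIdempotentElem.eq]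
    rw [← e, vfs, LinearMap.sum_apply] at q2
    simp only [vf_star_mul] at q2
    have h2 := (single_le_sum (f := fun j : Fin F.card =>
      ‖M.toStarSubalgebra.subtype (1 - q) (F.equivFin.symm j).1‖ ^ 2) (fun j _ => sq_nonneg _)
      (mem_univ (F.equivFin ⟨ξ, hξ⟩))).trans q2
    rw [Equiv.symm_apply_apply] at h2
    have h3 : ‖((1 : H →L[ℂ] H) - q) ξ‖ ^ 2 ≤ δ ^ 2 / 2 := h2
    refine lt_of_pow_lt_pow_left₀ 2 hδ.le (h3.trans_lt ?_)
    linarith [pow_pos hδ 2]
  · have e : (q : H →L[ℂ] H) * (∑ i, (p i : H →L[ℂ] H) * x * p i - (c : ℂ) • (a : H →L[ℂ] H)) * q =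
        (c : ℂ) • ((q * (∑ i, p i * x' * p i - a) * q : M.toStarSubalgebra) : H →L[ℂ] H) := by
      conv_lhs => rw [← hx']
      simp [mul_sub, sub_mul, smul_sub, mul_sum, sum_mul, smul_sum]
    rw [e, norm_smul, Complex.norm_real, hc, norm_norm, mul_comm]
    exact mul_le_mul_of_nonneg_right q3 (norm_nonneg _)

end Vale.Agent.P078
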