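import Vale.Agent.P078.FFa

/-! The potential of a completely coloured matrix. -/

set_option linter.unusedSectionVars false

namespace Vale.Agent.P078

open Finset Polynomial MeasureTheory Complex Filter Topology
open scoped ComplexConjugate Matrix

variable {V : Type} [Fintype V] [DecidableEq V] {r : ℕ}

namespace FinalAux

theorem map_NP {X : Matrix V V ℂ} (hX : X.IsHermitian) (c : V → Fin r) (α : V → ℝ) (T : Finset V) :
    PowerSeries.map Complex.ofRealHom (NP (cf X fun v => some (c v)) T α) =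
      pm (Matrix.diagonal (fun _ => (1 : PowerSeries ℂ)) +
        Matrix.diagonal (fun v => PowerSeries.C (α v : ℂ) * PowerSeries.X) *
          (-mask X c).map PowerSeries.C) T := by
  rw [pm_expand, NP, NN, map_sum]
  refine sum_congr rfl fun S _ => ?_
  have e : ((cf X (fun v => some (c v)) S : ℝ) : ℂ) = pm (-mask X c) S := by
    rw [cf_some]
    exact Complex.ext rfl (by rw [ofReal_im, pm_im (neg_mask_herm hX c)])
  rw [pm_scale, pm_map, prod_const_one, mul_one, map_mul, map_prod, PowerSeries.map_C,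
    ofRealHom_eq_coe, e, mul_comm]
  congr 1
  refine prod_congr rfl fun v _ => ?_
  rw [map_mul, PowerSeries.map_C, PowerSeries.map_X, ofRealHom_eq_coe]

theorem geom (Y : Matrix V V ℂ) (α : V → ℂ) :
    (Matrix.diagonal (fun _ => (1 : PowerSeries ℂ)) +
        Matrix.diagonal (fun v => PowerSeries.C (α v) * PowerSeries.X) *
          (-Y).map PowerSeries.C) *
      (Matrix.of fun a b => PowerSeries.mk fun k => ((Matrix.diagonal α * Y) ^ k) a b) = 1 := by
  ext a b k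
  rw [Matrix.add_mul, Matrix.diagonal_one, Matrix.one_mul, Matrix.mul_assoc, Matrix.add_apply,
    Matrix.diagonal_mul, Matrix.mul_apply, map_add, Matrix.of_apply, PowerSeries.coeff_mk,
    mul_assoc, PowerSeries.coeff_C_mul]
  cases k with
  | zero =>
    rw [PowerSeries.coeff_zero_X_mul, mul_zero, add_zero, pow_zero, Matrix.one_apply,
      Matrix.one_apply]
    split_ifs <;> simp
  | succ k =>
    rw [PowerSeries.coeff_succ_X_mul, map_sum, pow_succ', Matrix.mul_assoc, Matrix.diagonal_mul,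
      Matrix.mul_apply, Matrix.one_apply]
    simp only [Matrix.map_apply, Matrix.of_apply, PowerSeries.coeff_C_mul, PowerSeries.coeff_mk,
      Matrix.neg_apply, neg_mul, sum_neg_distrib, mul_neg, add_neg_cancel]
    split_ifs <;> simp [PowerSeries.coeff_one]

theorem nsq_coe (v : V → ℂ) : star v ⬝ᵥ v = (nsq v : ℂ) := by
  simp only [dotProduct, nsq, Pi.star_apply, ofReal_sum, ofReal_pow, RCLike.star_def, conj_mul']

theorem nsq_nonneg (v : V → ℂ) : 0 ≤ nsq v := sum_nonneg fun _ _ => by positivity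

theorem qf_conj (Y A : Matrix V V ℂ) (v : V → ℂ) : qf (Aᴴ * Y * A) v = qf Y (A *ᵥ v) := by
  rw [qf, qf, ← Matrix.mulVec_mulVec, ← Matrix.mulVec_mulVec, Matrix.dotProduct_mulVec,
    Matrix.star_mulVec]

theorem qf_diagonal (l : V → ℝ) (v : V → ℂ) :
    qf (Matrix.diagonal fun j => (l j : ℂ)) v = ∑ j, l j * ‖v j‖ ^ 2 := by
  rw [qf, dotProduct, re_sum]
  refine sum_congr rfl fun j _ => ?_
  rw [Matrix.mulVec_diagonal, Pi.star_apply, mul_left_comm, RCLike.star_def, conj_mul',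
    ← ofReal_pow, ← ofReal_mul, ofReal_re]

/-- The spectral theorem in coordinates. -/
theorem spec {Y : Matrix V V ℂ} (hY : Y.IsHermitian) : ∃ (U : Matrix V V ℂ) (l : V → ℝ),
    (∀ w, qf Y w = ∑ j, l j * ‖(U *ᵥ w) j‖ ^ 2) ∧ (∀ w, nsq (U *ᵥ w) = nsq w) ∧
    (∀ j, ∃ w, nsq w = 1 ∧ qf Y w = l j) ∧
    ∀ (G : ℝ[X]) (y : V), (aeval Y G y y).re = ∑ j, G.eval (l j) * ‖U j y‖ ^ 2 := by
  obtain ⟨U, l, h1, h2, h3⟩ : ∃ (U : Matrix V V ℂ) (l : V → ℝ), U * Uᴴ = 1 ∧ Uᴴ * U = 1 ∧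
      Y = Uᴴ * Matrix.diagonal (fun j => (l j : ℂ)) * U := by
    refine ⟨star (hY.eigenvectorUnitary : Matrix V V ℂ), hY.eigenvalues, ?_, ?_, ?_⟩
    · rw [← Matrix.star_eq_conjTranspose, star_star]
      exact Unitary.coe_star_mul_self _
    · rw [← Matrix.star_eq_conjTranspose, star_star]
      exact Unitary.coe_mul_star_self _
    · rw [← Matrix.star_eq_conjTranspose, star_star]
      exact hY.spectral_theorem
  have a1 : ∀ w, qf Y w = ∑ j, l j * ‖(U *ᵥ w) j‖ ^ 2 := fun w => by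
    rw [h3, qf_conj, qf_diagonal]
  have a2 : ∀ w, nsq (U *ᵥ w) = nsq w := fun w => by
    apply ofReal_injective
    rw [← nsq_coe, ← nsq_coe, Matrix.star_mulVec, ← Matrix.dotProduct_mulVec,
      Matrix.mulVec_mulVec, h2, Matrix.one_mulVec]
  have a3 : ∀ k : ℕ, Y ^ k = Uᴴ * Matrix.diagonal (fun j => ((l j ^ k : ℝ) : ℂ)) * U := by
    intro k
    induction k with
    | zero => simp [h2]
    | succ k ih =>
      rw [pow_succ, ih]
      nth_rewrite 1 [h3]
      simp only [Matrix.mul_assoc]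
      rw [← Matrix.mul_assoc U, h1, Matrix.one_mul, ← Matrix.mul_assoc (Matrix.diagonal _),
        Matrix.diagonal_mul_diagonal]
      simp only [pow_succ, ofReal_mul]
  have a4 : ∀ (m : V → ℝ) (y : V), ((Uᴴ * Matrix.diagonal (fun j => (m j : ℂ)) * U) y y).re
      = ∑ j, m j * ‖U j y‖ ^ 2 := fun m y => by
    rw [Matrix.mul_apply, re_sum]
    refine sum_congr rfl fun j _ => ?_
    rw [Matrix.mul_diagonal, Matrix.conjTranspose_apply, mul_right_comm, RCLike.star_def,
      conj_mul', ← ofReal_pow, ← ofReal_mul, ofReal_re, mul_comm]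
  refine ⟨U, l, a1, a2, fun j => ⟨Uᴴ *ᵥ Pi.single j 1, ?_, ?_⟩, fun G y => ?_⟩
  · rw [← a2, Matrix.mulVec_mulVec, h1, Matrix.one_mulVec, nsq, sum_eq_single j] <;>
      simp +contextual
  · rw [a1, Matrix.mulVec_mulVec, h1, Matrix.one_mulVec, sum_eq_single j] <;> simp +contextual
  · rw [aeval_eq_sum_range, Matrix.sum_apply, re_sum]
    simp only [eval_eq_sum_range, sum_mul]
    rw [sum_comm]
    refine sum_congr rfl fun k _ => ?_
    rw [Matrix.smul_apply, smul_re, a3, a4, smul_eq_mul, mul_sum]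
    exact sum_congr rfl fun j _ => by ring

theorem pair_nonneg (hr : 0 < r) {X : Matrix V V ℂ} (hX : Adm X) {t γ : ℝ} {ζ : ℂ} {P : ℝ[X]}
    (ht : 0 < t) (hP : GoodP t γ ζ P) (s : V → Option (Fin r)) {α : V → ℝ}
    (hα : ∀ v, 0 < α v ∧ α v ≤ 1 / t) (y : V) : 0 ≤ pair P (ratio (cf X s) univ y α) := by
  obtain ⟨n, u, β, h1, h2, -, h4, -⟩ := (hX.stab hr s).lm (mem_univ y) ht fun v _ => hα v
  rw [pair_eq h4]
  exact sum_nonneg fun j _ => mul_nonneg (h1 j) (hP.nonneg _ (h2 j))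

theorem pow_diag (Y : Matrix V V ℂ) {α : V → ℝ} (hα : ∀ v, 0 < α v) (k : ℕ) (y : V) :
    ((Matrix.diagonal (fun v => (α v : ℂ)) * Y) ^ k) y y =
      (((Matrix.diagonal fun v => ((√(α v) : ℝ) : ℂ))ᴴ * Y *
        Matrix.diagonal fun v => ((√(α v) : ℝ) : ℂ)) ^ k) y y := by
  have e0 : (Matrix.diagonal fun v => ((√(α v) : ℝ) : ℂ))ᴴ
      = Matrix.diagonal fun v => ((√(α v) : ℝ) : ℂ) := by
    rw [Matrix.diagonal_conjTranspose]
    congr 1
    funext v
    exact conj_ofReal _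
  rw [e0]
  set D := Matrix.diagonal fun v => ((√(α v) : ℝ) : ℂ) with hD
  have e1 : Matrix.diagonal (fun v => (α v : ℂ)) = D * D := by
    rw [hD, Matrix.diagonal_mul_diagonal]
    congr 1
    funext v
    rw [← ofReal_mul, Real.mul_self_sqrt (hα v).le]
  have e2 : (D * D * Y) ^ k * D = D * (D * Y * D) ^ k := by
    induction k with
    | zero => simp
    | succ k ih =>
      rw [pow_succ', Matrix.mul_assoc, ih, pow_succ']
      simp only [Matrix.mul_assoc]
  have e3 := congrFun (congrFun e2 y) y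
  rw [hD, Matrix.mul_diagonal, Matrix.diagonal_mul, mul_comm, ← hD] at e3
  rw [e1]
  exact mul_left_cancel₀ (ofReal_ne_zero.2 (Real.sqrt_pos.2 (hα y)).ne') e3

theorem pow_local {Y : Matrix V V ℂ} (d : V → ℕ) (hd : ∀ a b, Y a b ≠ 0 → d b ≤ d a + 1) {y : V}
    (hy : d y = 0) {k : ℕ} {Y' : Matrix V V ℂ} (h1 : ∀ a b, d a ≤ k → d b ≤ k → Y' a b = Y a b)
    (h2 : ∀ a b, Y a b = 0 → Y' a b = 0) (j : ℕ) (hj : j ≤ k) (a : V) :
    (Y' ^ j) y a = (Y ^ j) y a ∧ ((Y ^ j) y a ≠ 0 → d a ≤ j) := by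
  induction j generalizing a with
  | zero =>
    refine ⟨by rw [pow_zero, pow_zero], fun h => ?_⟩
    by_cases e : y = a
    · rw [← e, hy]
    · exact (h (by rw [pow_zero, Matrix.one_apply_ne e])).elim
  | succ j ih =>
    have ih := ih (by omega)
    rw [pow_succ, pow_succ, Matrix.mul_apply, Matrix.mul_apply]
    refine ⟨sum_congr rfl fun b _ => ?_, fun h => ?_⟩
    · rw [(ih b).1]
      by_cases e1 : (Y ^ j) y b = 0
      · rw [e1, zero_mul, zero_mul]
      by_cases e2 : Y b a = 0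
      · rw [e2, h2 _ _ e2]
      have := (ih b).2 e1
      have := hd b a e2
      rw [h1 b a (by omega) (by omega)]
    · obtain ⟨b, -, hb⟩ := exists_ne_zero_of_sum_ne_zero h
      have := (ih b).2 (left_ne_zero_of_mul hb)
      have := hd b a (right_ne_zero_of_mul hb)
      omega

end FinalAux

open FinalAux

theorem coeff_ratio_some {X : Matrix V V ℂ} (hX : X.IsHermitian) (c : V → Fin r) (α : V → ℝ)
    (y : V) (k : ℕ) :
    ((PowerSeries.coeff k (ratio (cf X fun v => some (c v)) univ y α) : ℝ) : ℂ) =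
      ((Matrix.diagonal (fun v => (α v : ℂ)) * mask X c) ^ k) y y := by
  have h0 : PowerSeries.constantCoeff (NP (cf X fun v => some (c v)) univ α) ≠ 0 := by
    rw [constantCoeff_NP (cf_empty (c y).pos X _)]
    exact one_ne_zero
  have h1 := PowerSeries.mul_inv_cancel _ h0
  have h2 : ratio (cf X fun v => some (c v)) univ y α * NP (cf X fun v => some (c v)) univ α
      = NP (cf X fun v => some (c v)) (univ.erase y) α := by
    rw [ratio, mul_assoc, mul_comm _⁻¹, h1, mul_one]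
  have h3 := congrArg (PowerSeries.map Complex.ofRealHom) h2
  have h4 := congrArg (PowerSeries.map Complex.ofRealHom) h1
  rw [map_mul, map_NP hX, map_one, pm_univ] at h4
  rw [map_mul, map_NP hX, map_NP hX, pm_univ, ← adjugate_diag] at h3
  have h5 := geom (mask X c) fun v => (α v : ℂ)
  set A := Matrix.diagonal (fun _ => (1 : PowerSeries ℂ)) +
    Matrix.diagonal (fun v => PowerSeries.C (α v : ℂ) * PowerSeries.X) *
      (-mask X c).map PowerSeries.C
  have h6 := congrArg (fun M => (A.adjugate * M) y y) h5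
  simp only [← Matrix.mul_assoc, Matrix.adjugate_mul, Matrix.smul_mul, Matrix.one_mul,
    Matrix.mul_one, Matrix.smul_apply, smul_eq_mul, Matrix.of_apply] at h6
  rw [← h3, mul_comm] at h6
  have h7 := congrArg (PowerSeries.coeff k)
    (mul_right_cancel₀ (left_ne_zero_of_mul_eq_one h4) h6)
  rw [PowerSeries.coeff_mk, PowerSeries.coeff_map] at h7
  exact h7.symm

theorem sum_aeval_diag_ge {Y : Matrix V V ℂ} (hY : Y.IsHermitian) {a b e : ℝ}
    (h : ∀ v, |qf Y v| ≤ a * nsq v) {G : ℝ[X]} (h0 : ∀ s : ℝ, |s| ≤ a → 0 ≤ G.eval s)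
    (h1 : ∀ s : ℝ, |s| ≤ a → b * s + e ≤ G.eval s) {T : Finset V} {w : V → ℂ}
    (hw : ∀ v, v ∉ T → w v = 0) (hn : nsq w = 1) :
    b * qf Y w + e ≤ ∑ y ∈ T, (aeval Y G y y).re := by
  obtain ⟨U, l, a1, a2, a3, a4⟩ := spec hY
  have hl : ∀ j, |l j| ≤ a := fun j => by
    obtain ⟨v, e1, e2⟩ := a3 j
    have := h v
    rwa [e1, e2, mul_one] at this
  have cs : ∀ j, ‖(U *ᵥ w) j‖ ^ 2 ≤ ∑ y ∈ T, ‖U j y‖ ^ 2 := fun j => by
    have b1 : (U *ᵥ w) j = ∑ y ∈ T, U j y * w y :=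
      (sum_subset (subset_univ T) fun y _ hy => by rw [hw y hy, mul_zero]).symm
    have b2 : ‖(U *ᵥ w) j‖ ≤ ∑ y ∈ T, ‖U j y‖ * ‖w y‖ := by
      rw [b1]
      exact (norm_sum_le _ _).trans (sum_le_sum fun y _ => (norm_mul _ _).le)
    have b3 : ∑ y ∈ T, ‖w y‖ ^ 2 ≤ 1 :=
      hn ▸ sum_le_sum_of_subset_of_nonneg (subset_univ T) fun _ _ _ => by positivity
    calc _ ≤ (∑ y ∈ T, ‖U j y‖ * ‖w y‖) ^ 2 := pow_le_pow_left₀ (norm_nonneg _) b2 2
      _ ≤ (∑ y ∈ T, ‖U j y‖ ^ 2) * ∑ y ∈ T, ‖w y‖ ^ 2 := sum_mul_sq_le_sq_mul_sq _ _ _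
      _ ≤ _ := mul_le_of_le_one_right (sum_nonneg fun _ _ => by positivity) b3
  have e1 : b * qf Y w + e = ∑ j, (b * l j + e) * ‖(U *ᵥ w) j‖ ^ 2 := by
    have b4 : ∑ j, ‖(U *ᵥ w) j‖ ^ 2 = 1 := (a2 w).trans hn
    simp only [add_mul, sum_add_distrib, mul_assoc, ← mul_sum]
    rw [b4, mul_one, a1]
  simp only [a4]
  rw [e1, sum_comm]
  refine sum_le_sum fun j _ => ?_
  rw [← mul_sum]
  exact mul_le_mul (h1 _ (hl j)) (cs j) (by positivity) (h0 _ (hl j))

theorem FF_final (hr : 0 < r) {X : Matrix V V ℂ} (hX : Adm X) {t γ : ℝ} {ζ : ℂ} {P : ℝ[X]}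
    (ht : 0 < t) (hP : GoodP t γ ζ P) (c : V → Fin r) {W : V → ℝ} (hW : ∀ v, 0 < W v)
    {T : Finset V} {w₀ : ℝ} (h0 : 0 < w₀) (hw : ∀ v ∈ T, w₀ ≤ W v) {ξ : V → ℂ}
    (hs : ∀ v, v ∉ T → ξ v = 0) (h : 128 * t * nsq ξ < qf (mask X c) ξ) :
    w₀ * t ^ 2 / 5 ≤ ∑ y ∈ T, FF t P X (fun v => some (c v)) W y := by
  have hY := hX.mask c
  have hi : ∀ y ∈ T, IntegrableOn (fun σ => pair P (ratio (cf X fun v => some (c v)) univ y
      (al t (fun v => some (c v)) W σ))) (Set.Ioi 0) :=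
    fun y _ => FF_integrable hr hX ht hP.dvd _ hW (mem_univ y)
  have hI := integrable_finsetSum T hi
  have key : ∀ σ ∈ Set.Ioc 0 (t * w₀), t / 5 ≤ ∑ y ∈ T, pair P (ratio (cf X fun v => some (c v))
      univ y (al t (fun v => some (c v)) W σ)) := by
    intro σ hσ
    have hb := al_bounds ht (fun v => some (c v)) hW hσ.1
    have hb' : ∀ v ∈ T, (al t (fun v => some (c v)) W σ v)⁻¹ ≤ 64 * t := fun v hv => by
      have b1 : σ / W v ≤ t := by
        rw [div_le_iff₀ (hW v)]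
        exact hσ.2.trans (mul_le_mul_of_nonneg_left (hw v hv) ht.le)
      rw [al, inv_inv]
      change 32 * (t + σ / W v) ≤ _
      linarith
    generalize al t (fun v => some (c v)) W σ = α at hb hb'
    set D := Matrix.diagonal fun v => ((√(α v) : ℝ) : ℂ) with hD
    have hT : (Dᴴ * mask X c * D).IsHermitian := Matrix.isHermitian_conjTranspose_mul_mul D hY.herm
    have e1 : ∀ y, pair P (ratio (cf X fun v => some (c v)) univ y α)
        = (aeval (Dᴴ * mask X c * D) P y y).re := fun y => by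
      rw [pair, Polynomial.sum_over_range _ (fun _ => zero_mul _), aeval_eq_sum_range,
        Matrix.sum_apply, re_sum]
      refine sum_congr rfl fun k _ => ?_
      rw [Matrix.smul_apply, smul_re, hD, ← pow_diag _ (fun v => (hb v).1),
        ← coeff_ratio_some hX.herm, ofReal_re, smul_eq_mul]
    have e2 : ∀ v, |qf (Dᴴ * mask X c * D) v| ≤ 1 / t * nsq v := fun v => by
      rw [qf_conj]
      refine (hY.contr _).trans ?_
      rw [nsq, nsq, mul_sum]
      refine sum_le_sum fun a _ => ?_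
      rw [hD, Matrix.mulVec_diagonal, norm_mul, mul_pow, norm_real, Real.norm_eq_abs, sq_abs,
        Real.sq_sqrt (hb a).1.le]
      exact mul_le_mul_of_nonneg_right (hb a).2 (by positivity)
    set m : ℝ := ∑ a, (α a)⁻¹ * ‖ξ a‖ ^ 2 with hm
    have m1 : m ≤ 64 * t * nsq ξ := by
      rw [hm, nsq, mul_sum]
      refine sum_le_sum fun a _ => ?_
      by_cases ha : a ∈ T
      · exact mul_le_mul_of_nonneg_right (hb' a ha) (by positivity)
      · simp [hs a ha]
    have m0 : 0 < m := by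
      have : ξ ≠ 0 := by
        rintro rfl
        simp [qf, nsq] at h
      obtain ⟨a, ha⟩ := Function.ne_iff.1 this
      refine sum_pos' (fun a _ => mul_nonneg (inv_pos.2 (hb a).1).le (by positivity))
        ⟨a, mem_univ a, mul_pos (inv_pos.2 (hb a).1) (pow_pos (norm_pos_iff.2 ha) 2)⟩
    have s0 := Real.sqrt_pos.2 m0
    have e3 : nsq (fun a => (((√m)⁻¹ * (√(α a))⁻¹ : ℝ) : ℂ) * ξ a) = 1 := by
      have : ∀ a, ‖(((√m)⁻¹ * (√(α a))⁻¹ : ℝ) : ℂ) * ξ a‖ ^ 2 = m⁻¹ * ((α a)⁻¹ * ‖ξ a‖ ^ 2) :=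
        fun a => by
          rw [norm_mul, mul_pow, norm_real, Real.norm_eq_abs, sq_abs, mul_pow, inv_pow, inv_pow,
            Real.sq_sqrt m0.le, Real.sq_sqrt (hb a).1.le, mul_assoc]
      simp only [nsq, this, ← mul_sum]
      exact inv_mul_cancel₀ m0.ne'
    have e4 : qf (Dᴴ * mask X c * D) (fun a => (((√m)⁻¹ * (√(α a))⁻¹ : ℝ) : ℂ) * ξ a)
        = m⁻¹ * qf (mask X c) ξ := by
      have b1 : D *ᵥ (fun a => (((√m)⁻¹ * (√(α a))⁻¹ : ℝ) : ℂ) * ξ a)
          = (((√m)⁻¹ : ℝ) : ℂ) • ξ := by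
        funext a
        have := (Real.sqrt_pos.2 (hb a).1).ne'
        rw [hD, Matrix.mulVec_diagonal, Pi.smul_apply, smul_eq_mul, ← mul_assoc, ← ofReal_mul,
          mul_left_comm, mul_inv_cancel₀ this, mul_one]
      rw [qf_conj, b1, qf, qf, star_smul, Matrix.mulVec_smul, smul_dotProduct, dotProduct_smul,
        smul_smul, RCLike.star_def, conj_ofReal, ← ofReal_mul, smul_eq_mul, re_ofReal_mul,
        ← mul_inv, Real.mul_self_sqrt m0.le]
    have e5 : 2 ≤ m⁻¹ * qf (mask X c) ξ := by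
      rw [le_inv_mul_iff₀ m0]
      linarith
    have e6 := sum_aeval_diag_ge hT e2 (b := 2 * t / 5) (e := -(3 * t / 5)) hP.nonneg
      (fun s hs => by
        rcases le_total s (3 / 2) with b | b
        · exact le_trans (by nlinarith) (hP.nonneg s hs)
        · have b1 := (le_abs_self s).trans hs
          have b2 : s * t ≤ 1 := (le_div_iff₀ ht).1 b1
          exact le_trans (by nlinarith) (hP.big s b b1))
      (T := T) (fun v hv => by rw [hs v hv, mul_zero]) e3
    simp only [e1]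
    rw [e4] at e6
    nlinarith
  unfold FF
  rw [← integral_finsetSum T hi]
  refine le_trans ?_ (setIntegral_mono_set (s := Set.Ioc 0 (t * w₀)) hI ?_
    (Set.Ioc_subset_Ioi_self).eventuallyLE)
  · refine le_trans (le_of_eq ?_) (setIntegral_ge_of_const_le_real measurableSet_Ioc
      measure_Ioc_lt_top.ne key (IntegrableOn.mono_set hI Set.Ioc_subset_Ioi_self))
    rw [Real.volume_real_Ioc_of_le (mul_pos ht h0).le]
    ring
  · filter_upwards [ae_restrict_mem measurableSet_Ioi] with σ hσ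
    exact sum_nonneg fun y _ => pair_nonneg hr hX ht hP _ (al_bounds ht _ hW hσ) y

theorem aeval_diag_le {Y : Matrix V V ℂ} (hY : Y.IsHermitian) (d : V → ℕ)
    (hd : ∀ a b, Y a b ≠ 0 → d b ≤ d a + 1) {y : V} (hy : d y = 0) {G : ℝ[X]} {k : ℕ}
    (hk : G.natDegree ≤ k) {ε η : ℝ} (hG : ∀ s : ℝ, |s| ≤ ε → G.eval s ≤ η)
    (h : ∀ v : V → ℂ, (∀ a, k < d a → v a = 0) → |qf Y v| ≤ ε * nsq v) :
    (aeval Y G y y).re ≤ η := by
  set D : Matrix V V ℂ := Matrix.diagonal fun a => if d a ≤ k then 1 else 0 with hD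
  have e0 : ∀ a b, (Dᴴ * Y * D) a b = if d a ≤ k ∧ d b ≤ k then Y a b else 0 := fun a b => by
    rw [hD, Matrix.diagonal_conjTranspose, Matrix.mul_diagonal, Matrix.diagonal_mul, Pi.star_apply]
    by_cases h1 : d a ≤ k <;> by_cases h2 : d b ≤ k <;> simp [h1, h2]
  have e1 : aeval Y G y y = aeval (Dᴴ * Y * D) G y y := by
    rw [aeval_eq_sum_range, aeval_eq_sum_range, Matrix.sum_apply, Matrix.sum_apply]
    refine sum_congr rfl fun j hj => ?_
    rw [Matrix.smul_apply, Matrix.smul_apply, (pow_local d hd hy (k := k) (Y' := Dᴴ * Y * D)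
      (fun a b h1 h2 => by rw [e0, if_pos ⟨h1, h2⟩]) (fun a b h1 => by rw [e0, h1, ite_self]) j
      ((Nat.lt_succ_iff.1 (mem_range.1 hj)).trans hk) y).1]
  have n1 : nsq (Pi.single y (1 : ℂ)) = 1 := by
    rw [nsq, sum_eq_single y] <;> simp +contextual
  have hε : 0 ≤ ε := by
    have := h (Pi.single y 1) fun a ha => Pi.single_eq_of_ne (by rintro rfl; omega) _
    rw [n1, mul_one] at this
    exact (abs_nonneg _).trans this
  obtain ⟨U, l, -, a2, a3, a4⟩ := spec (Matrix.isHermitian_conjTranspose_mul_mul D hY)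
  have hl : ∀ j, |l j| ≤ ε := fun j => by
    obtain ⟨v, b1, b2⟩ := a3 j
    rw [← b2, qf_conj]
    refine (h _ fun a ha => ?_).trans (mul_le_of_le_one_right hε ?_)
    · rw [hD, Matrix.mulVec_diagonal, if_neg (not_le.2 ha), zero_mul]
    · rw [← b1]
      refine sum_le_sum fun a _ => ?_
      rw [hD, Matrix.mulVec_diagonal]
      split_ifs <;> simp
  have n2 : ∑ j, ‖U j y‖ ^ 2 = 1 := by
    have := a2 (Pi.single y 1)
    rwa [n1, Matrix.mulVec_single_one] at this
  rw [e1, a4, ← mul_one η, ← n2, mul_sum]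
  exact sum_le_sum fun j _ => mul_le_mul_of_nonneg_right (hG _ (hl j)) (by positivity)

end Vale.Agent.P078
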