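import Vale.Agent.P078.Ind

/-! The spectrum of a maximal abelian subalgebra and the limit of the pinchings. -/

set_option linter.unusedSectionVars false

namespace Vale.Agent.P078

open Filter Topology Finset Vale.Agent.P104 Vale.Agent.P082
open scoped InnerProductSpace ComplexOrder ComplexConjugate

universe u v

variable {G : Type v} [NormedAddCommGroup G] [InnerProductSpace ℂ G] [CompleteSpace G]
  {M : Type u} [CStarAlgebra M] {ρ : M →⋆ₐ[ℂ] (G →L[ℂ] G)}

theorem Masa.gelf_closed {A : StarSubalgebra ℂ M} (hA : Masa A) : IsClosed (A : Set M) := by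
  have e : (A : Set M) = ⋂ a ∈ A, {m | a * m = m * a} := by
    ext m
    simpa using hA m
  rw [e]
  exact isClosed_biInter fun a _ => isClosed_eq (by fun_prop) (by fun_prop)

theorem Masa.gelf_spec {A : StarSubalgebra ℂ M} (hA : Masa A) :
    ∃ (Ω : Type u) (_ : TopologicalSpace Ω) (_ : CompactSpace Ω) (_ : T2Space Ω)
      (ι : C(Ω, ℂ) →⋆ₐ[ℂ] M), Function.Injective ι ∧ ι.range = A := by
  have hc := hA.gelf_closed
  let _ : CommCStarAlgebra A :=
    { (inferInstance : CStarAlgebra A) with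
      mul_comm := fun a b => Subtype.ext ((hA b).1 b.2 a a.2) }
  refine ⟨WeakDual.characterSpace ℂ A, inferInstance, inferInstance, inferInstance,
    A.subtype.comp (gelfandStarTransform A).symm, ?_, ?_⟩
  · exact Subtype.val_injective.comp (gelfandStarTransform A).symm.injective
  · ext m
    constructor
    · rintro ⟨f, rfl⟩
      exact ((gelfandStarTransform A).symm f).2
    · intro hm
      exact ⟨gelfandStarTransform A ⟨m, hm⟩,
        congrArg Subtype.val ((gelfandStarTransform A).symm_apply_apply ⟨m, hm⟩)⟩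

/-- The left support of an element of a maximal abelian subalgebra lies in it. -/
theorem Masa.gelf_support {A : StarSubalgebra ℂ M} (hA : Masa A) {p r : M} (hp : p ∈ A)
    (hr : IsStarProjection r) (h1 : r * p = p) (h2 : ∀ b, b * p = 0 → b * r = 0) : r ∈ A := by
  have key : ∀ a ∈ A, a * r = r * a * r := fun a ha => by
    have h3 : (a - r * a) * p = 0 := by
      rw [sub_mul, mul_assoc, (hA p).1 hp a ha, ← mul_assoc, h1, sub_self]
    have h4 := h2 _ h3
    rwa [sub_mul, sub_eq_zero] at h4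
  refine (hA r).2 fun a ha => ?_
  have h5 := congrArg star (key (star a) (star_mem ha))
  simp only [star_mul, star_star, hr.isSelfAdjoint.star_eq] at h5
  exact (key a ha).trans ((mul_assoc _ _ _).trans h5.symm)

theorem gelf_td (hR : Rickart M) {A : StarSubalgebra ℂ M} (hA : Masa A) {Ω : Type u}
    [TopologicalSpace Ω] [CompactSpace Ω] [T2Space Ω] {ι : C(Ω, ℂ) →⋆ₐ[ℂ] M}
    (hι : Function.Injective ι) (hr : ι.range = A) : TotallySeparatedSpace Ω := by
  refine totallySeparatedSpace_iff_exists_isClopen.2 fun x y hxy => ?_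
  obtain ⟨U, V, hU, hV, hx, hy, hd⟩ := t2_separation hxy
  obtain ⟨f, f0, f1, -⟩ := exists_continuous_zero_one_of_isClosed hU.isClosed_compl
    (isClosed_singleton (x := x)) (by simpa using hx)
  obtain ⟨g, g0, g1, -⟩ := exists_continuous_zero_one_of_isClosed hV.isClosed_compl
    (isClosed_singleton (x := y)) (by simpa using hy)
  let f' : C(Ω, ℂ) := ⟨fun ω => f ω, by fun_prop⟩
  let g' : C(Ω, ℂ) := ⟨fun ω => g ω, by fun_prop⟩
  have hgf : g' * f' = 0 := by
    ext ω
    by_cases hω : ω ∈ U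
    · have : g ω = 0 := g0 (Set.disjoint_left.1 hd hω)
      simp [g', this]
    · have : f ω = 0 := f0 hω
      simp [f', this]
  obtain ⟨r, hp, h1, h2⟩ := hR (ι f')
  obtain ⟨k, hk⟩ : r ∈ ι.range := hr ▸ hA.gelf_support (hr ▸ ⟨f', rfl⟩) hp h1 h2
  have hk' : ι k = r := hk
  have kk : k * k = k := hι (by rw [map_mul, hk', hp.isIdempotentElem.eq])
  have kf : k * f' = f' := hι (by rw [map_mul, hk', h1])
  have gk : g' * k = 0 := hι (by
    rw [map_mul, hk', map_zero]
    exact h2 _ (by rw [← map_mul, hgf, map_zero]))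
  have kx : k x = 1 := by
    have h3 := DFunLike.congr_fun kf x
    have h4 : f x = 1 := f1 rfl
    simpa [f', h4] using h3
  have ky : k y = 0 := by
    have h3 := DFunLike.congr_fun gk y
    have h4 : g y = 1 := g1 rfl
    simpa [g', h4] using h3
  refine ⟨{ω | k ω = 1}, ⟨isClosed_eq k.continuous continuous_const, ?_⟩, kx, by simp [ky]⟩
  have e : {ω | k ω = 1} = {ω | k ω = 0}ᶜ := by
    ext ω
    have h3 : k ω * k ω = k ω := DFunLike.congr_fun kk ω
    constructor
    · intro (h : k ω = 1) (h' : k ω = 0)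
      exact one_ne_zero (h.symm.trans h')
    · intro (h : ¬ k ω = 0)
      exact mul_left_cancel₀ h (h3.trans (mul_one _).symm)
  rw [e]
  exact (isClosed_eq k.continuous continuous_const).isOpen_compl

theorem exists_spec (hρ : IsVN ρ) {A : StarSubalgebra ℂ M} (hA : Masa A) :
    ∃ (Ω : Type u) (_ : TopologicalSpace Ω) (_ : CompactSpace Ω) (_ : T2Space Ω)
      (_ : TotallyDisconnectedSpace Ω) (ι : C(Ω, ℂ) →⋆ₐ[ℂ] M),
      Function.Injective ι ∧ ι.range = A := by
  obtain ⟨Ω, _, _, _, ι, hι, hr⟩ := hA.gelf_spec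
  have := gelf_td hρ.isWRep.rickart hA hι hr
  exact ⟨Ω, inferInstance, inferInstance, inferInstance, inferInstance, ι, hι, hr⟩

section

variable {Ω : Type u} [TopologicalSpace Ω] [CompactSpace Ω] {ι : C(Ω, ℂ) →⋆ₐ[ℂ] M}

theorem gelf_nonneg [PartialOrder M] [StarOrderedRing M] (hι : Function.Injective ι)
    {f : C(Ω, ℂ)} (h : 0 ≤ ι f) (ω : Ω) : 0 ≤ f ω := by
  have hs : star f = f := hι (by rw [map_star, h.star_eq])
  have him : (f ω).im = 0 := Complex.conj_eq_iff_im.1 (DFunLike.congr_fun hs ω)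
  have h1 : ‖algebraMap ℝ M ‖ι f‖ - ι f‖ ≤ ‖ι f‖ :=
    ((CStarAlgebra.mem_Icc_algebraMap_iff_norm_le (norm_nonneg _)).1
      ⟨sub_nonneg.2 (IsSelfAdjoint.of_nonneg h).le_algebraMap_norm_self, sub_le_self _ h⟩).2
  have e : algebraMap ℝ M ‖ι f‖ - ι f = ι (algebraMap ℂ C(Ω, ℂ) (‖ι f‖ : ℝ) - f) := by
    rw [map_sub, AlgHomClass.commutes]
    rfl
  rw [e, NonUnitalStarAlgHom.norm_map ι hι (_ - _)] at h1
  have h2 := (Complex.re_le_norm _).trans ((ContinuousMap.norm_coe_le_norm _ ω).trans h1)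
  refine Complex.nonneg_iff.2 ⟨?_, him.symm⟩
  simpa using h2

variable [T2Space Ω] [TotallyDisconnectedSpace Ω]

theorem gelf_comm {U : Set Ω} (hU : IsClopen U) (m : M) :
    ∀ᶠ P : Pt Ω in (UU Ω : Filter (Pt Ω)), pr ι U * pin ι P.π m = pin ι P.π m * pr ι U := by
  classical
  filter_upwards [eventually_Rf (LocallyConstant.ofIsClopen hU).isLocallyConstant] with P hP
  have h : ∀ ω ω', P.π ω = P.π ω' → ω ∈ U → ω' ∈ U := fun ω ω' e hω => by
    rw [← LocallyConstant.ofIsClopen_fiber_zero hU] at hω ⊢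
    exact (hP ω ω' e).symm.trans hω
  rw [pin, mul_sum, sum_mul]
  refine sum_congr rfl fun j _ => ?_
  have hc : pr ι U * ee ι P.π j = ee ι P.π j * pr ι U := ι_comm ι _ _
  rw [← mul_assoc, ← mul_assoc, hc, mul_assoc _ (ee ι P.π j) (pr ι U)]
  rcases ee_mul_pr (ι := ι) P.lc hU h j with h1 | h1
  · rw [h1.2]
  · rw [h1.2, zero_mul, zero_mul, mul_zero]

end

theorem exists_sys (hρ : IsVN ρ) {A : StarSubalgebra ℂ M} (hA : Masa A) :
    ∃ (Ω : Type u) (_ : TopologicalSpace Ω) (_ : CompactSpace Ω) (_ : T2Space Ω)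
      (_ : TotallyDisconnectedSpace Ω) (ι : C(Ω, ℂ) →⋆ₐ[ℂ] M) (E : M →ₗ[ℂ] C(Ω, ℂ)),
      Sys ι ρ E ∧ ι.range = A := by
  obtain ⟨Ω, _, _, _, _, ι, hι, hr⟩ := exists_spec hρ hA
  have masa : ∀ m, (∀ U, IsClopen U → pr ι U * m = m * pr ι U) → m ∈ ι.range := fun m h => by
    rw [hr]
    refine (hA m).2 fun a ha => ?_
    rw [← hr] at ha
    obtain ⟨f, rfl⟩ := ha
    exact comm_of_clopen h f
  obtain ⟨S, hS⟩ := hρ.exists_lim_map (UU Ω) (c := 1)
    (T := fun P : Pt Ω => ⟨⟨pin ι P.π, pin_add P.π⟩, pin_smul P.π⟩)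
    (.of_forall fun P a => by rw [one_mul]; exact norm_pin_le P.π P.lc a)
  replace hS : ∀ m, WL ρ (UU Ω : Filter (Pt Ω)) (fun P => pin ι P.π m) (S m) := hS
  choose E hE using fun m => masa (S m) fun U hU =>
    ((hS m).const_mul _).unique hρ ((hS m).mul_const _) (gelf_comm hU m)
  replace hE : ∀ m, ι (E m) = S m := hE
  refine ⟨Ω, inferInstance, inferInstance, inferInstance, inferInstance, ι,
    ⟨⟨E, fun a b => hι ?_⟩, fun c a => hι ?_⟩, ⟨hρ, hι, masa, fun f => hι ?_, fun f m => hι ?_,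
      fun f m => hι ?_, fun m => hι ?_, fun m ω => ?_, fun m => ?_, fun m => ?_⟩, hr⟩
  · rw [map_add, hE, hE, hE, map_add]
  · change ι (E (c • a)) = ι (c • E a)
    rw [map_smul, hE, hE, map_smul]
  · exact (hE _).trans ((hS _).unique hρ (WL.const _) (.of_forall fun P => pin_ι P.lc f))
  · change ι (E (ι f * m)) = ι (f * E m)
    rw [map_mul ι f, hE, hE]
    exact (hS _).unique hρ ((hS m).const_mul _) (.of_forall fun P => pin_left P.π f m)
  · change ι (E (m * ι f)) = ι (E m * f)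
    rw [map_mul ι _ f, hE, hE]
    exact (hS _).unique hρ ((hS m).mul_const _) (.of_forall fun P => pin_right P.π f m)
  · change ι (E (star m)) = ι (star (E m))
    rw [map_star, hE, hE]
    exact (hS _).unique hρ (hS m).star (.of_forall fun P => (pin_star P.π m).symm)
  · let _ := CStarAlgebra.spectralOrder M
    have _ := CStarAlgebra.spectralOrderedRing M
    refine gelf_nonneg hι (f := E (star m * m)) ?_ ω
    rw [hE]
    refine WL.nonneg hρ (.of_forall fun P => sum_nonneg fun j _ => ?_) (hS _)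
    exact (pr_proj ι _).isSelfAdjoint.conjugate_nonneg (star_mul_self_nonneg m)
  · change ‖E m‖ ≤ ‖m‖
    rw [← NonUnitalStarAlgHom.norm_map ι hι, hE]
    exact (hS m).norm_le hρ (.of_forall fun P => norm_pin_le P.π P.lc m)
  · change WL ρ _ _ (ι (E m))
    rw [hE]
    exact hS m

end Vale.Agent.P078
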