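import Vale.Agent.P078.Nrm

/-! Germs of normalizers at a point. -/

set_option linter.unusedSectionVars false

namespace Vale.Agent.P078

open Filter Topology Finset Vale.Agent.P104 Vale.Agent.P082
open scoped InnerProductSpace ComplexOrder ComplexConjugate

universe u v

variable {G : Type u} [NormedAddCommGroup G] [InnerProductSpace ℂ G] [CompleteSpace G]
  {M : Type u} [CStarAlgebra M] {ρ : M →⋆ₐ[ℂ] (G →L[ℂ] G)}
  {Ω : Type u} [TopologicalSpace Ω] [CompactSpace Ω] [T2Space Ω] [TotallyDisconnectedSpace Ω]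
  {ι : C(Ω, ℂ) →⋆ₐ[ℂ] M} {E : M →ₗ[ℂ] C(Ω, ℂ)} {ξ : G}

variable {act : M → Ω → Ω} {DD : M → C(Ω, ℂ)} {u v : M} {ω : Ω}

theorem germ_pt_ext {x y : Ω} (h : ∀ f : C(Ω, ℂ), f x = f y) : x = y :=
  (WeakDual.CharacterSpace.homeoEval Ω ℂ).injective (WeakDual.CharacterSpace.ext h)

theorem germ_exists_map (ψ : C(Ω, ℂ) →⋆ₐ[ℂ] C(Ω, ℂ)) :
    ∃ a : Ω → Ω, Continuous a ∧ ∀ ω (f : C(Ω, ℂ)), f (a ω) = ψ f ω := by
  refine ⟨fun ω => (WeakDual.CharacterSpace.homeoEval Ω ℂ).symm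
    (WeakDual.CharacterSpace.compContinuousMap ψ (WeakDual.CharacterSpace.homeoEval Ω ℂ ω)),
    by fun_prop, fun ω f => ?_⟩
  exact DFunLike.congr_fun ((WeakDual.CharacterSpace.homeoEval Ω ℂ).apply_symm_apply
    (WeakDual.CharacterSpace.compContinuousMap ψ (WeakDual.CharacterSpace.homeoEval Ω ℂ ω))) f

theorem germ_ι_cv (h : Sys ι ρ E) (hv : v ∈ GS ι ρ ξ) (f : C(Ω, ℂ)) :
    ι (E (star v * ι f * v)) = star v * ι f * v := by
  obtain ⟨L, hL⟩ := hv
  exact h.ι_E (hL.nz.l f)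

theorem germ_comm (h : Sys ι ρ E) (hv : v ∈ GS ι ρ ξ) (f : C(Ω, ℂ)) :
    ι f * v = v * ι (E (star v * ι f * v)) := by
  rw [germ_ι_cv h hv, ← GS_comm hv]

theorem germ_comm' (hv : v ∈ GS ι ρ ξ) (f : C(Ω, ℂ)) :
    star v * ι f * v * star v = star v * ι f := by
  have := congrArg star (GS_comm hv (star f))
  simp only [star_mul, star_star, ← map_star] at this
  rw [mul_assoc (star v) (ι f) v]
  exact this.symm

theorem germ_pi (hv : v ∈ GS ι ρ ξ) : PI v := by
  obtain ⟨L, hL⟩ := hv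
  exact hL.pi

theorem germ_pr (U : Set Ω) : pr ι U ∈ GS ι ρ ξ := ⟨1, Gb.pr U⟩

theorem germ_sq_mem (hv : v ∈ GS ι ρ ξ) : star v * v ∈ ι.range := by
  obtain ⟨L, hL⟩ := hv
  simpa using hL.nz.l 1

theorem germ_val_iff (h : Sys ι ρ E) {U : Set Ω} (hU : IsClopen U) (e : star v * v = pr ι U) :
    Val E v ω ↔ ω ∈ U := by
  unfold Val
  rw [e, pr, h.fix]
  exact ⟨fun h1 => by_contra fun h2 => by simp [ind_of_notMem h2] at h1, ind_of_mem hU⟩

theorem germ_exists_act (h : Sys ι ρ E) (hv : v ∈ GS ι ρ ξ) : ∃ a : Ω → Ω, Continuous a ∧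
    ∀ ω, Val E v ω → ∀ f : C(Ω, ℂ), f (a ω) = E (star v * ι f * v) ω := by
  obtain ⟨U, hU, e⟩ := GS_dom h hv
  have h1 : E (star v * v) = ind U := by rw [e, pr, h.fix]
  have hm : ∀ f g, E (star v * ι (f * g) * v) = E (star v * ι f * v) * E (star v * ι g * v) := by
    intro f g
    rw [← h.right, mul_assoc (star v * ι f), ← germ_comm h hv, map_mul ι]
    simp only [mul_assoc]
  have hi : ∀ f, ind U * E (star v * ι f * v) = E (star v * ι f * v) := by
    intro f
    have := hm 1 f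
    rw [one_mul, map_one, mul_one, h1] at this
    exact this.symm
  have hii : ind U * ind U = ind U := by rw [ind_mul hU hU, Set.inter_self]
  let ψ : C(Ω, ℂ) →⋆ₐ[ℂ] C(Ω, ℂ) :=
    { toFun := fun f => E (star v * ι f * v) + (1 - ind U) * f
      map_one' := by rw [map_one, mul_one, h1]; ring
      map_mul' := fun f g => by
        rw [hm]
        linear_combination g * hi f + f * hi g - f * g * hii
      map_zero' := by simp
      map_add' := fun f g => by
        rw [map_add, mul_add, add_mul, map_add]; ring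
      commutes' := fun c => by
        rw [Algebra.algebraMap_eq_smul_one, map_smul, map_one, mul_smul_comm, smul_mul_assoc,
          map_smul, mul_one, h1, mul_smul_comm, mul_one, ← smul_add]
        simp
      map_star' := fun f => by
        rw [star_add, ← h.E_star, star_mul (1 - ind U), star_sub, star_one, star_ind, mul_comm (star f)]
        simp only [star_mul, star_star, map_star, mul_assoc] }
  obtain ⟨a, ha, ha'⟩ := germ_exists_map ψ
  refine ⟨a, ha, fun ω hω f => ?_⟩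
  rw [ha']
  change (E (star v * ι f * v) + (1 - ind U) * f) ω = _
  simp [ind_of_mem hU ((germ_val_iff h hU e).1 hω)]

theorem Sys.exists_germ (h : Sys ι ρ E) (hc : Cen ρ ι.range ξ) :
    ∃ act DD, Germ ι ρ E ξ act DD := by
  have h1 : ∀ v : M, ∃ a : Ω → Ω, v ∈ GS ι ρ ξ → Continuous a ∧
      ∀ ω, Val E v ω → ∀ f : C(Ω, ℂ), f (a ω) = E (star v * ι f * v) ω := fun v => by
    by_cases hv : v ∈ GS ι ρ ξ
    · exact (germ_exists_act h hv).imp fun a ha _ => ha
    · exact ⟨id, fun h => absurd h hv⟩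
  have h2 : ∀ v : M, ∃ D : C(Ω, ℂ), v ∈ GS ι ρ ξ →
      ∀ f, fi ρ ξ (v * ι f * star v) = fi ρ ξ (ι (f * D)) := fun v => by
    by_cases hv : v ∈ GS ι ρ ξ
    · obtain ⟨L, hL⟩ := hv
      exact (h.exists_D hc hL.bd).imp fun a ha _ => ha
    · exact ⟨0, fun h => absurd h hv⟩
  choose act hact using h1
  choose DD hDD using h2
  exact ⟨act, DD, fun v hv => (hact v hv).1, fun v hv => (hact v hv).2, hDD⟩

theorem ip_add_right (ω : Ω) (a b c : M) : ip E ω a (b + c) = ip E ω a b + ip E ω a c := by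
  simp [ip, mul_add]

theorem ip_smul_right (ω : Ω) (a b : M) (c : ℂ) : ip E ω a (c • b) = c * ip E ω a b := by
  simp [ip]

theorem ip_sum_right {K : Type*} (s : Finset K) (ω : Ω) (a : M) (b : K → M) :
    ip E ω a (∑ k ∈ s, b k) = ∑ k ∈ s, ip E ω a (b k) := by
  simp [ip, mul_sum]

theorem ip_mul_left (ω : Ω) (a b c : M) : ip E ω a (b * c) = ip E ω (star b * a) c := by
  simp [ip, mul_assoc]

theorem Sys.ip_conj (h : Sys ι ρ E) (ω : Ω) (a b : M) : conj (ip E ω a b) = ip E ω b a := by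
  have := h.E_star (star a * b)
  rw [star_mul, star_star] at this
  simp [ip, this]

theorem Sys.ip_ι (h : Sys ι ρ E) (ω : Ω) (a b : M) (f : C(Ω, ℂ)) :
    ip E ω a (b * ι f) = f ω * ip E ω a b := by
  unfold ip
  rw [← mul_assoc, h.right, ContinuousMap.mul_apply, mul_comm]

theorem Sys.ip_le (h : Sys ι ρ E) (ω : Ω) {n : M} (hn : star n = n) (a : M) :
    |(ip E ω a (n * a)).re| ≤ ‖n‖ * (ip E ω a a).re := by
  let _ := CStarAlgebra.spectralOrder M
  have _ := CStarAlgebra.spectralOrderedRing M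
  have key : ∀ n : M, star n = n → (ip E ω a (n * a)).re ≤ ‖n‖ * (ip E ω a a).re := by
    intro n hn
    have h1 := h.pos' (star_left_conjugate_nonneg
      (sub_nonneg.2 (IsSelfAdjoint.le_algebraMap_norm_self (a := n) hn)) a) ω
    have h2 : star a * (algebraMap ℝ M ‖n‖ - n) * a =
        (‖n‖ : ℂ) • (star a * a) - star a * (n * a) := by
      rw [Algebra.algebraMap_eq_smul_one, mul_sub, sub_mul, mul_assoc _ n]
      simp
    rw [h2, map_sub, map_smul] at h1
    have h3 := (Complex.le_def.1 h1).1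
    simp only [Complex.zero_re, ContinuousMap.sub_apply, ContinuousMap.smul_apply, smul_eq_mul,
      Complex.sub_re, Complex.re_ofReal_mul, sub_nonneg] at h3
    exact h3
  rw [abs_le]
  refine ⟨?_, key n hn⟩
  have := key (-n) (by rw [star_neg, hn])
  simp only [ip, neg_mul, mul_neg, map_neg, ContinuousMap.neg_apply, Complex.neg_re,
    norm_neg] at this ⊢
  linarith

theorem Sys.val_clopen (h : Sys ι ρ E) (hv : v ∈ GS ι ρ ξ) : IsClopen {ω | Val E v ω} := by
  obtain ⟨U, hU, e⟩ := GS_dom h hv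
  convert hU using 1
  exact Set.ext fun _ => germ_val_iff h hU e

theorem Sys.ip_null (h : Sys ι ρ E) (hv : v ∈ GS ι ρ ξ) (h0 : ¬ Val E v ω) (m : M) :
    ip E ω m v = 0 := by
  obtain ⟨U, hU, e⟩ := GS_dom h hv
  have h1 : v * ι (ind U) = v := by
    have := germ_pi hv
    rwa [PI, e] at this
  rw [← h1, h.ip_ι, ind_of_notMem (mt (germ_val_iff h hU e).2 h0), zero_mul]

theorem Sys.val_one (h : Sys ι ρ E) (ω : Ω) : Val E (1 : M) ω := by
  unfold Val
  rw [star_one, one_mul, ← map_one ι, h.fix]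
  rfl

theorem Sys.val_ι (h : Sys ι ρ E) (f : C(Ω, ℂ)) (ω : Ω) : Val E (ι f) ω ↔ ‖f ω‖ = 1 := by
  unfold Val
  rw [← map_star, ← map_mul, h.fix, ContinuousMap.mul_apply, ContinuousMap.star_apply,
    RCLike.star_def, Complex.conj_mul']
  norm_cast
  exact pow_eq_one_iff_of_nonneg (norm_nonneg _) two_ne_zero

theorem germ_sq_one (h : Sys ι ρ E) {f : C(Ω, ℂ)} (h1 : Val E (ι f) ω) : conj (f ω) * f ω = 1 := by
  rw [Complex.conj_mul', (h.val_ι f ω).1 h1]
  simp

theorem germ_val_pr (h : Sys ι ρ E) {U : Set Ω} (hU : IsClopen U) : Val E (pr ι U) ω ↔ ω ∈ U :=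
  germ_val_iff h hU (by rw [(pr_proj ι U).isSelfAdjoint.star_eq, (pr_proj ι U).isIdempotentElem.eq])

namespace Germ

variable (h : Sys ι ρ E) (hc : Cen ρ ι.range ξ) (hg : Germ ι ρ E ξ act DD)

include h hc hg

theorem ip_mul (hv : v ∈ GS ι ρ ξ) (h1 : Val E v ω) (a b : M) :
    ip E ω (a * v) (b * v) = ip E (act v ω) a b := by
  unfold ip
  rw [hg.spec v hv ω h1, ← h.E_conj hc hv, h.fix, star_mul]
  simp only [mul_assoc]

theorem ip_ι_mul (hv : v ∈ GS ι ρ ξ) (h1 : Val E v ω) (m : M) (f : C(Ω, ℂ)) :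
    ip E ω m (ι f * v) = f (act v ω) * ip E ω m v := by
  rw [germ_comm h hv, h.ip_ι, hg.spec v hv ω h1]

theorem val_mul (hu : u ∈ GS ι ρ ξ) (hv : v ∈ GS ι ρ ξ) :
    Val E (u * v) ω ↔ Val E v ω ∧ Val E u (act v ω) := by
  change ip E ω (u * v) (u * v) = 1 ↔ _ ∧ ip E (act v ω) u u = 1
  by_cases h1 : Val E v ω
  · rw [ip_mul h hc hg hv h1]
    simp [h1]
  · rw [ip_mul_left, h.ip_null hv h1]
    simp [h1]

theorem act_mul (hu : u ∈ GS ι ρ ξ) (hv : v ∈ GS ι ρ ξ) (h1 : Val E (u * v) ω) :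
    act (u * v) ω = act u (act v ω) := by
  obtain ⟨h2, h3⟩ := (val_mul h hc hg hu hv).1 h1
  refine germ_pt_ext fun f => ?_
  rw [hg.spec _ (GS_mul h hu hv) ω h1, hg.spec u hu _ h3]
  have := ip_mul h hc hg hv h2 u (ι f * u)
  simpa only [ip, mul_assoc] using this

theorem act_mem (hv : v ∈ GS ι ρ ξ) (h0 : v ∈ ι.range) (h1 : Val E v ω) : act v ω = ω := by
  obtain ⟨z, rfl⟩ := h0
  refine germ_pt_ext fun f => ?_
  have h2 := germ_sq_one h h1
  change Val E (ι z) ω at h1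
  change ι z ∈ _ at hv
  change f (act (ι z) ω) = _
  rw [hg.spec _ hv ω h1, ← map_star, ← map_mul, ← map_mul, h.fix]
  simp only [ContinuousMap.mul_apply, ContinuousMap.star_apply, RCLike.star_def]
  linear_combination f ω * h2

theorem val_star (hv : v ∈ GS ι ρ ξ) (h1 : Val E v ω) :
    Val E (star v) (act v ω) ∧ act (star v) (act v ω) = ω := by
  have h2 : Val E (star v * v) ω := by
    unfold Val
    rwa [(germ_pi hv).proj.isSelfAdjoint.star_eq, (germ_pi hv).proj.isIdempotentElem.eq]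
  refine ⟨((val_mul h hc hg (GS_star hv) hv).1 h2).2, ?_⟩
  rw [← act_mul h hc hg (GS_star hv) hv h2]
  exact act_mem h hc hg (GS_mul h (GS_star hv) hv) (germ_sq_mem hv) h2

theorem DD_mul (hu : u ∈ GS ι ρ ξ) (hv : v ∈ GS ι ρ ξ) (h1 : Val E (u * v) ω) :
    DD (u * v) ω = DD u (act v ω) * DD v ω := by
  have h2 := ((val_mul h hc hg hu hv).1 h1).1
  have key : DD (u * v) - E (star v * ι (DD u) * v) * DD v = 0 := by
    refine h.eq_zero_of_fi hc fun f => ?_
    have e1 := germ_ι_cv h (GS_star hv) f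
    rw [star_star] at e1
    rw [mul_sub, map_sub, map_sub, sub_eq_zero, ← hg.rn _ (GS_mul h hu hv), ← mul_assoc,
      ← hg.rn v hv, map_mul ι, germ_ι_cv h hv,
      show u * v * ι f * star (u * v) = u * (v * ι f * star v) * star u by
        simp only [star_mul, mul_assoc], ← e1, hg.rn u hu, map_mul ι, e1]
    congr 1
    have e2 := germ_comm' hv (DD u)
    simp only [mul_assoc] at e2 ⊢
    rw [e2]
  rw [sub_eq_zero.1 key, ContinuousMap.mul_apply, hg.spec v hv ω h2]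

theorem DD_mem (hv : v ∈ GS ι ρ ξ) (h0 : v ∈ ι.range) (h1 : Val E v ω) : DD v ω = 1 := by
  obtain ⟨z, rfl⟩ := h0
  have h2 := germ_sq_one h h1
  change ι z ∈ _ at hv
  change DD (ι z) ω = _
  have key : DD (ι z) - star z * z = 0 := by
    refine h.eq_zero_of_fi hc fun f => ?_
    rw [mul_sub, map_sub, map_sub, sub_eq_zero, ← hg.rn _ hv, ← map_star, ← map_mul, ← map_mul]
    congr 2
    ring
  rw [sub_eq_zero.1 key]
  exact h2

theorem DD_le {L : ℝ} (hv : Gb ι ρ ξ L v) (ω : Ω) : 0 ≤ DD v ω ∧ (DD v ω).re ≤ L := by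
  have e : ∀ f, fi ρ ξ (ι (star f * f * DD v)) = (‖ρ (ι f * star v) ξ‖ ^ 2 : ℝ) := fun f => by
    rw [← hg.rn v ⟨L, hv⟩, ← fi_star_self]
    simp only [star_mul, star_star, map_mul, map_star, mul_assoc]
  refine ⟨h.nonneg_of_fi hc (fun f => ?_) ω, ?_⟩
  · rw [e]
    exact Complex.zero_le_real.2 (sq_nonneg _)
  · have := h.nonneg_of_fi hc (g := (L : ℂ) • 1 - DD v) (fun f => by
      rw [mul_sub, map_sub, map_sub, e, mul_smul_comm, mul_one, map_smul, map_smul, map_mul ι,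
        map_star ι, fi_star_self, smul_eq_mul]
      exact_mod_cast sub_nonneg.2 (hv.bd f).1) ω
    simpa using (Complex.le_def.1 this).1

theorem DD_ge {L : ℝ} (hv : Gb ι ρ ξ L v) (h1 : Val E v ω) : 1 ≤ L * (DD v ω).re := by
  have hv' : v ∈ GS ι ρ ξ := ⟨L, hv⟩
  have h2 : Val E (star v * v) ω :=
    (val_mul h hc hg (GS_star hv') hv').2 ⟨h1, (val_star h hc hg hv' h1).1⟩
  have h3 := DD_mul h hc hg (GS_star hv') hv' h2
  rw [DD_mem h hc hg (GS_mul h (GS_star hv') hv') (germ_sq_mem hv') h2] at h3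
  obtain ⟨a1, a2⟩ := DD_le h hc hg hv.star (act v ω)
  obtain ⟨a3, -⟩ := DD_le h hc hg hv ω
  have h4 := congrArg Complex.re h3
  rw [Complex.mul_re, ← (Complex.le_def.1 a3).2] at h4
  simp only [Complex.one_re, Complex.zero_im, mul_zero, sub_zero] at h4
  rw [h4]
  exact mul_le_mul_of_nonneg_right a2 (Complex.le_def.1 a3).1

theorem unique (hu : u ∈ GS ι ρ ξ) (hv : v ∈ GS ι ρ ξ) (h1 : Val E u ω) (h2 : Val E v ω)
    {U : Set Ω} (hU : IsClopen U) (a1 : act u ω ∈ U) (a2 : act v ω ∈ U)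
    (h3 : pr ι U * (v * star u) * pr ι U ∈ ι.range) :
    act v ω = act u ω ∧ DD v ω = DD u ω ∧
      ∃ c : ℂ, ‖c‖ = 1 ∧ ∀ m, ip E ω m v = c * ip E ω m u := by
  have hp : pr ι U ∈ GS ι ρ ξ := germ_pr U
  have hpm := pr_mem ι U
  have hz : pr ι U * (v * star u) * pr ι U ∈ GS ι ρ ξ :=
    GS_mul h (GS_mul h hp (GS_mul h hv (GS_star hu))) hp
  obtain ⟨s1, s2⟩ := val_star h hc hg hu h1
  have g1 := GS_mul h hp hu
  have v1 : Val E (pr ι U * u) ω := (val_mul h hc hg hp hu).2 ⟨h1, (germ_val_pr h hU).2 a1⟩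
  have b1 : act (pr ι U * u) ω = act u ω := by
    rw [act_mul h hc hg hp hu v1, act_mem h hc hg hp hpm ((germ_val_pr h hU).2 a1)]
  have g2 := GS_mul h (GS_star hu) g1
  have v2 : Val E (star u * (pr ι U * u)) ω :=
    (val_mul h hc hg (GS_star hu) g1).2 ⟨v1, by rwa [b1]⟩
  have b2 : act (star u * (pr ι U * u)) ω = ω := by
    rw [act_mul h hc hg (GS_star hu) g1 v2, b1, s2]
  have e2 : star u * (pr ι U * u) = ι (E (star u * ι (ind U) * u)) := by
    rw [germ_ι_cv h hu, mul_assoc, pr]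
  have g3 := GS_mul h hv g2
  have v3 : Val E (v * (star u * (pr ι U * u))) ω :=
    (val_mul h hc hg hv g2).2 ⟨v2, by rwa [b2]⟩
  have b3 : act (v * (star u * (pr ι U * u))) ω = act v ω := by
    rw [act_mul h hc hg hv g2 v3, b2]
  have w3 : Val E (pr ι U) (act (v * (star u * (pr ι U * u))) ω) := by
    rw [b3]; exact (germ_val_pr h hU).2 a2
  have v4 : Val E (pr ι U * (v * (star u * (pr ι U * u)))) ω :=
    (val_mul h hc hg hp g3).2 ⟨v3, w3⟩
  have b4 := act_mul h hc hg hp g3 v4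
  have d4 := DD_mul h hc hg hp g3 v4
  rw [act_mem h hc hg hp hpm w3, b3] at b4
  rw [DD_mem h hc hg hp hpm w3, one_mul, DD_mul h hc hg hv g2 v3, b2,
    DD_mem h hc hg g2 (e2 ▸ ⟨_, rfl⟩) v2, mul_one] at d4
  have i4 : ∀ m, ip E ω m (pr ι U * (v * (star u * (pr ι U * u)))) = ip E ω m v := fun m => by
    refine (ip_ι_mul h hc hg g3 v3 m (ind U)).trans ?_
    rw [b3, ind_of_mem hU a2, one_mul, e2, h.ip_ι,
      ← hg.spec u hu ω h1, ind_of_mem hU a1, one_mul]
  have e4 : pr ι U * (v * (star u * (pr ι U * u))) = pr ι U * (v * star u) * pr ι U * u := by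
    simp only [mul_assoc]
  rw [e4] at v4 b4 d4 i4
  have w5 := ((val_mul h hc hg hz hu).1 v4).2
  rw [act_mul h hc hg hz hu v4, act_mem h hc hg hz h3 w5] at b4
  rw [DD_mul h hc hg hz hu v4, DD_mem h hc hg hz h3 w5, one_mul] at d4
  refine ⟨b4.symm, d4.symm, ?_⟩
  obtain ⟨z, hz'⟩ := h3
  change ι z = _ at hz'
  rw [← hz'] at w5 i4
  exact ⟨z (act u ω), (h.val_ι z _).1 w5, fun m => by rw [← i4, ip_ι_mul h hc hg hu h1]⟩

open Classical in
theorem transport (hv : v ∈ GS ι ρ ξ) {U : Set Ω} (hU : IsClopen U) (h1 : ∀ ω ∈ U, Val E v ω)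
    (f : C(Ω, ℂ)) : ∃ g g' : C(Ω, ℂ), (∀ ω, g ω = if ω ∈ U then DD v ω * f (act v ω) else 0) ∧
      (∀ y, g' y = if Val E (star v) y ∧ act (star v) y ∈ U then f y else 0) ∧
      fi ρ ξ (ι g) = fi ρ ξ (ι g') := by
  have hs := GS_star hv
  refine ⟨ind U * E (star v * ι f * v) * DD v, E (v * ι (ind U) * star v) * f, fun ω => ?_,
    fun y => ?_, ?_⟩
  · simp only [ContinuousMap.mul_apply]
    split_ifs with hω
    · rw [ind_of_mem hU hω, one_mul, hg.spec v hv ω (h1 ω hω), mul_comm]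
    · rw [ind_of_notMem hω, zero_mul, zero_mul]
  · rw [ContinuousMap.mul_apply]
    by_cases hy : Val E (star v) y
    · have := hg.spec _ hs y hy (ind U)
      rw [star_star] at this
      rw [← this]
      by_cases hy' : act (star v) y ∈ U
      · rw [if_pos ⟨hy, hy'⟩, ind_of_mem hU hy', one_mul]
      · rw [if_neg fun h' => hy' h'.2, ind_of_notMem hy', zero_mul]
    · have := h.ip_null hs hy (star (v * ι (ind U)))
      rw [ip, star_star] at this
      rw [this, zero_mul, if_neg fun h' => hy h'.1]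
  · have e1 := germ_ι_cv h hs (ind U)
    rw [star_star] at e1
    rw [← hg.rn v hv, map_mul ι, map_mul ι, germ_ι_cv h hv, e1]
    congr 1
    have e2 := germ_comm' hv f
    simp only [mul_assoc] at e2 ⊢
    rw [e2]

end Germ

end Vale.Agent.P078
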