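import Vale.Agent.P078.LogInt
import Vale.Agent.P078.Arrow

/-! The real step lemma. -/

set_option linter.unusedSectionVars false

namespace Vale.Agent.P078

open Finset Polynomial MeasureTheory Complex Filter Topology
open scoped ComplexConjugate Matrix

variable {V : Type} [Fintype V] [DecidableEq V] {r : ℕ}

theorem rs_atom {K : Type} [Fintype K] [DecidableEq K] (s ω : K → ℝ) (hω : ∀ k, 0 ≤ ω k)
    {t : ℝ} (ht : 0 < t) {S : ℝ → ℂ}
    (hS : ∀ y : ℝ, 0 < y → S y = ∑ k, (ω k : ℂ) / (y * I - s k)) :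
    ∃ f : ℝ, II t S = Real.pi * f ∧ 0 ≤ f ∧
      (∀ θ : ℝ, 0 < θ → f ≤ θ → ∑ k with 0 < s k, ω k / (s k + t + θ) ≤ θ ∧
        ∑ k with s k ≤ 0, ω k / (θ - s k) ≤ t + θ) ∧
      ∀ F σ : ℝ, 0 < F → 0 < σ → ∑ k with 0 < s k, ω k / (s k + t / 2 + F) ≤ F →
        ∑ k with s k ≤ 0, ω k / (σ - s k) ≤ t / 2 + σ → f ≤ F + σ := by
  obtain ⟨l, u, h1, h2, h3, h4, h5, h6, h7⟩ := arrow_eigen s (fun k => √(ω k)) t
  have hsq : ∀ k, √(ω k) ^ 2 = ω k := fun k => Real.sq_sqrt (hω k)
  have hl := arrow_lower h1 h2 h3 h4 h5 ht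
  have hu := fun F σ hF hσ => arrow_upper h1 h2 h3 h4 h5 ht (F := F) (σ := σ) hF hσ
  simp only [hsq] at h6 hl hu
  refine ⟨_, ?_, hl.1, hl.2, hu⟩
  rw [← II_eq s ω l ht h6 h7]
  unfold II
  exact setIntegral_congr_fun measurableSet_Ioi fun y hy => by simp only [hS y hy]

theorem rs_markov {L : Fin r → ℝ} (hL : ∀ i, 0 ≤ L i) {a : ℝ} (ha : 0 < a)
    (h : ∑ i, L i ≤ r * a) : 8 * (univ.filter fun i => 8 * a < L i).card ≤ r := by
  have h1 : ((univ.filter fun i => 8 * a < L i).card : ℝ) * (8 * a) ≤ r * a := by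
    refine le_trans ?_ h
    refine le_trans ?_ (sum_le_sum_of_subset_of_nonneg (filter_subset (fun i => 8 * a < L i) univ)
      fun i _ _ => hL i)
    rw [← nsmul_eq_mul]
    exact card_nsmul_le_sum _ _ _ fun i hi => (mem_filter.1 hi).2.le
  have h2 : (8 : ℝ) * (univ.filter fun i => 8 * a < L i).card ≤ r := by
    nlinarith
  exact_mod_cast h2

theorem real_step (hr : 0 < r) {S : Fin r → ℝ → ℂ} (hS : ∀ i, Atomic (S i)) {t η : ℝ}
    (ht : 0 < t) (hη : 0 < η) :
    4 * (univ.filter fun i => II t (fun y => (∑ i, S i y) / r) + η <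
      II t fun y => S i y / 32).card ≤ r := by
  classical
  choose n s ω hω hs using hS
  have hr' : (0 : ℝ) < r := Nat.cast_pos.2 hr
  obtain ⟨f, hf, hf0, hl, -⟩ := rs_atom (K := Σ i, Fin (n i)) (fun k => s k.1 k.2)
    (fun k => ω k.1 k.2 / r) (fun k => div_nonneg (hω _ _) hr'.le) ht
    (S := fun y => (∑ i, S i y) / r) (fun y hy => by
      rw [Fintype.sum_sigma, sum_div]
      refine sum_congr rfl fun i _ => ?_
      rw [hs i y hy, sum_div]
      refine sum_congr rfl fun j _ => ?_
      push_cast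
      ring)
  have hπ := Real.pi_pos
  obtain ⟨θ, hθ⟩ : ∃ θ, θ = f + η / Real.pi := ⟨_, rfl⟩
  have hηπ : 0 < η / Real.pi := div_pos hη hπ
  have hθ0 : 0 < θ := by linarith
  obtain ⟨a1, a2⟩ := hl θ hθ0 (by linarith)
  have b1 := rs_markov (L := fun i => ∑ j with 0 < s i j, ω i j / (s i j + t + θ))
    (fun i => sum_nonneg fun j hj => div_nonneg (hω _ _)
      (by have := (mem_filter.1 hj).2; positivity)) hθ0 (by
      rw [← div_le_iff₀' hr']
      refine le_of_eq_of_le ?_ a1
      rw [sum_filter, Fintype.sum_sigma, sum_div]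
      refine sum_congr rfl fun i _ => ?_
      rw [sum_div, sum_filter]
      refine sum_congr rfl fun j _ => ?_
      simp only [div_right_comm])
  have b2 := rs_markov (L := fun i => ∑ j with s i j ≤ 0, ω i j / (θ - s i j))
    (fun i => sum_nonneg fun j hj => div_nonneg (hω _ _)
      (by have := (mem_filter.1 hj).2; linarith)) (add_pos ht hθ0) (by
      rw [← div_le_iff₀' hr']
      refine le_of_eq_of_le ?_ a2
      rw [sum_filter, Fintype.sum_sigma, sum_div]
      refine sum_congr rfl fun i _ => ?_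
      rw [sum_div, sum_filter]
      refine sum_congr rfl fun j _ => ?_
      simp only [div_right_comm])
  have hsub : (univ.filter fun i => II t (fun y => (∑ i, S i y) / r) + η <
      II t fun y => S i y / 32) ⊆
      (univ.filter fun i => 8 * θ < ∑ j with 0 < s i j, ω i j / (s i j + t + θ)) ∪
      (univ.filter fun i => 8 * (t + θ) < ∑ j with s i j ≤ 0, ω i j / (θ - s i j)) := by
    intro i hi
    by_contra hcon
    simp only [mem_union, mem_filter, mem_univ, true_and, not_or, not_lt] at hi hcon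
    obtain ⟨g, hg, -, -, hu⟩ := rs_atom (s i) (fun j => ω i j / 32)
      (fun j => div_nonneg (hω _ _) (by norm_num)) ht (S := fun y => S i y / 32) (fun y hy => by
        rw [hs i y hy, sum_div]
        refine sum_congr rfl fun j _ => ?_
        push_cast
        ring)
    have c1 : ∑ j with 0 < s i j, ω i j / 32 / (s i j + t / 2 + θ / 2) ≤
        (∑ j with 0 < s i j, ω i j / (s i j + t + θ)) / 16 := by
      rw [sum_div]
      refine sum_le_sum fun j hj => ?_
      have := (mem_filter.1 hj).2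
      rw [div_div, div_div]
      exact div_le_div_of_nonneg_left (hω _ _) (by positivity) (by linarith)
    have c2 : ∑ j with s i j ≤ 0, ω i j / 32 / (θ / 2 - s i j) ≤
        (∑ j with s i j ≤ 0, ω i j / (θ - s i j)) / 16 := by
      rw [sum_div]
      refine sum_le_sum fun j hj => ?_
      have := (mem_filter.1 hj).2
      rw [div_div, div_div]
      exact div_le_div_of_nonneg_left (hω _ _) (by linarith) (by linarith)
    have c3 := hu (θ / 2) (θ / 2) (by linarith) (by linarith) (by linarith [hcon.1])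
      (by linarith [hcon.2])
    rw [hf, hg] at hi
    have c4 : Real.pi * g ≤ Real.pi * θ := mul_le_mul_of_nonneg_left (by linarith) hπ.le
    have c5 : Real.pi * θ = Real.pi * f + η := by rw [hθ]; field_simp
    linarith
  have := (card_le_card hsub).trans (card_union_le _ _)
  omega

end Vale.Agent.P078
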