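import Vale.Agent.P078.FDefs

/-! Turning a ray into the imaginary axis. -/

set_option linter.unusedSectionVars false

namespace Vale.Agent.P078

open Finset Polynomial MeasureTheory Complex Filter Topology
open scoped ComplexConjugate Matrix

variable {V : Type} [Fintype V] [DecidableEq V] {r : ℕ}

theorem shift_intg {Φ : ℂ → ℂ} {b δ C : ℝ} (hb : 0 < b) (hδ : 0 < δ)
    (hΦ : DifferentiableOn ℂ Φ {τ | -δ < τ.im})
    (hC : ∀ τ : ℂ, b * ‖τ‖ ≤ τ.im → ‖Φ τ‖ ≤ C / (1 + ‖τ‖ ^ 2)) {u : ℂ} (hu : ‖u‖ = 1)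
    (hbu : b ≤ u.im) : IntegrableOn (fun σ : ℝ => u * Φ (σ * u)) (Set.Ioi 0) := by
  have hc : ContinuousOn (fun σ : ℝ => u * Φ (σ * u)) (Set.Ioi 0) := by
    refine continuousOn_const.mul (hΦ.continuousOn.comp (by fun_prop) fun σ hσ => ?_)
    have : 0 < σ * u.im := mul_pos hσ (hb.trans_le hbu)
    simp only [Set.mem_ofPred_eq, mul_im, ofReal_re, ofReal_im, zero_mul, add_zero]
    linarith
  refine Integrable.mono' (integrable_inv_one_add_sq.const_mul C).integrableOn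
    (hc.aestronglyMeasurable measurableSet_Ioi) ?_
  filter_upwards [ae_restrict_mem measurableSet_Ioi] with σ hσ
  have hn : ‖(σ : ℂ) * u‖ = σ := by
    rw [norm_mul, hu, mul_one, norm_real, Real.norm_of_nonneg (le_of_lt hσ)]
  have := hC (σ * u) (by
    rw [hn]
    simp only [mul_im, ofReal_re, ofReal_im, zero_mul, add_zero]
    rw [mul_comm]
    exact mul_le_mul_of_nonneg_left hbu (le_of_lt hσ))
  rw [hn] at this
  rwa [norm_mul, hu, one_mul, ← div_eq_mul_inv]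

theorem shift_mem {b δ R σ : ℝ} (hb : 0 < b) (hδ : 0 < δ) {u : ℂ} (hu : ‖u‖ = 1)
    (hbu : b ≤ u.im) (h0 : 0 ≤ σ) (h1 : σ ≤ R) :
    (σ : ℂ) * u ∈ Metric.ball (((R / b : ℝ) : ℂ) * I) (R / b + δ) := by
  have hN : 0 ≤ R / b := div_nonneg (h0.trans h1) hb.le
  have hR : R / b * b = R := div_mul_cancel₀ _ hb.ne'
  generalize R / b = N at hN hR ⊢
  have h2 : u.re ^ 2 + u.im ^ 2 = 1 := by
    have := Complex.sq_norm u
    rw [hu, Complex.normSq_apply] at this
    linarith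
  rw [Metric.mem_ball, dist_eq_norm, ← sq_lt_sq₀ (norm_nonneg _) (by positivity),
    Complex.sq_norm, Complex.normSq_apply]
  simp only [sub_re, sub_im, mul_re, mul_im, ofReal_re, ofReal_im, I_re, I_im, mul_zero, zero_mul,
    sub_zero, add_zero, mul_one]
  have h3 : σ * u.re * (σ * u.re) + (σ * u.im - N) * (σ * u.im - N) =
      σ ^ 2 - 2 * σ * (N * u.im) + N ^ 2 := by linear_combination σ ^ 2 * h2
  have h4 : R ≤ N * u.im := hR ▸ mul_le_mul_of_nonneg_left hbu hN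
  rw [h3]
  nlinarith [mul_nonneg h0 (sub_nonneg.2 h4), mul_nonneg h0 (sub_nonneg.2 h1), mul_nonneg hN hδ.le,
    mul_pos hδ hδ, mul_nonneg h0 (h0.trans h1)]

theorem contour_shift {Φ : ℂ → ℂ} {ζ : ℂ} (hζ : ‖ζ‖ = 1) (hb : 0 < ζ.im) {δ C : ℝ} (hδ : 0 < δ)
    (hΦ : DifferentiableOn ℂ Φ {τ | -δ < τ.im})
    (hC : ∀ τ : ℂ, ζ.im * ‖τ‖ ≤ τ.im → ‖Φ τ‖ ≤ C / (1 + ‖τ‖ ^ 2)) :
    IntegrableOn (fun σ : ℝ => (ζ * Φ (σ * ζ)).im) (Set.Ioi 0) ∧
      ∫ σ in Set.Ioi (0 : ℝ), (ζ * Φ (σ * ζ)).im = ∫ y in Set.Ioi (0 : ℝ), (Φ (y * I)).re := by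
  have hb1 : ζ.im ≤ I.im := (Complex.im_le_norm ζ).trans (by simp [hζ])
  have i1 := shift_intg hb hδ hΦ hC hζ le_rfl
  have i2 := shift_intg hb hδ hΦ hC norm_I hb1
  have hC0 : 0 ≤ C := by simpa using (norm_nonneg _).trans (hC 0 (by simp))
  set b := ζ.im with hbdef
  have key : ∀ R : ℝ, 0 < R → ‖(∫ σ in (0 : ℝ)..R, ζ * Φ (σ * ζ)) -
      ∫ σ in (0 : ℝ)..R, I * Φ (σ * I)‖ ≤ 2 * C / b ^ 2 / R := by
    intro R hR
    have hsub : Metric.ball (((R / b : ℝ) : ℂ) * I) (R / b + δ) ⊆ {τ : ℂ | -δ < τ.im} := by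
      intro τ hτ
      have h1 := (Complex.abs_im_le_norm _).trans_lt (mem_ball_iff_norm.1 hτ)
      simp only [sub_im, mul_im, ofReal_re, ofReal_im, I_re, I_im, mul_zero, mul_one,
        add_zero] at h1
      have := (abs_lt.1 h1).1
      simp only [Set.mem_ofPred_eq]
      linarith
    obtain ⟨Γ, hΓ⟩ := (hΦ.mono hsub).isExactOn_ball
    have ftc : ∀ u : ℂ, ‖u‖ = 1 → b ≤ u.im →
        IntegrableOn (fun σ : ℝ => u * Φ (σ * u)) (Set.Ioi 0) →
        ∫ σ in (0 : ℝ)..R, u * Φ (σ * u) = Γ (R * u) - Γ 0 := by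
      intro u hu hbu hi
      have := intervalIntegral.integral_eq_sub_of_hasDerivAt (f := fun σ : ℝ => Γ (σ * u))
        (f' := fun σ : ℝ => u * Φ (σ * u)) (a := 0) (b := R) (fun σ hσ => ?_)
        ((intervalIntegrable_iff_integrableOn_Ioc_of_le hR.le).2
          (hi.mono_set Set.Ioc_subset_Ioi_self))
      · simpa using this
      · rw [Set.uIcc_of_le hR.le] at hσ
        have h1 := (hΓ _ (shift_mem hb hδ hu hbu hσ.1 hσ.2)).comp (σ : ℂ)
          ((hasDerivAt_id (σ : ℂ)).mul_const u)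
        simpa [mul_comm] using h1.comp_ofReal
    rw [ftc ζ hζ le_rfl i1, ftc I norm_I hb1 i2, sub_sub_sub_cancel_right]
    have hconv : Convex ℝ ((Metric.ball (((R / b : ℝ) : ℂ) * I) (R / b + δ) ∩
        Metric.closedBall 0 R) ∩ {τ : ℂ | b * R ≤ τ.im}) :=
      ((convex_ball _ _).inter (convex_closedBall _ _)).inter (convex_halfSpace_im_ge _)
    have hmem : ∀ u : ℂ, ‖u‖ = 1 → b ≤ u.im → (R : ℂ) * u ∈
        (Metric.ball (((R / b : ℝ) : ℂ) * I) (R / b + δ) ∩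
          Metric.closedBall 0 R) ∩ {τ : ℂ | b * R ≤ τ.im} := fun u hu hbu =>
      ⟨⟨shift_mem hb hδ hu hbu hR.le le_rfl, by simp [hu, abs_of_pos hR]⟩, by
        simp only [Set.mem_ofPred_eq, mul_im, ofReal_re, ofReal_im, zero_mul, add_zero]
        rw [mul_comm]
        exact mul_le_mul_of_nonneg_left hbu hR.le⟩
    have h1 := hconv.norm_image_sub_le_of_norm_hasDerivWithin_le (f := Γ) (f' := Φ)
      (C := C / (b * R) ^ 2) (fun τ hτ => (hΓ τ hτ.1.1).hasDerivWithinAt) (fun τ hτ => by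
        have h2 : ‖τ‖ ≤ R := by simpa using hτ.1.2
        have h3 : b * R ≤ τ.im := hτ.2
        have h4 : b * R ≤ ‖τ‖ := h3.trans (Complex.im_le_norm τ)
        refine (hC τ ((mul_le_mul_of_nonneg_left h2 hb.le).trans h3)).trans ?_
        refine div_le_div_of_nonneg_left hC0 (by positivity) ?_
        have := pow_le_pow_left₀ (by positivity) h4 2
        linarith) (hmem I norm_I hb1) (hmem ζ hζ le_rfl)
    refine h1.trans ?_
    have h2 : ‖(R : ℂ) * ζ - R * I‖ ≤ 2 * R := by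
      refine (norm_sub_le _ _).trans (le_of_eq ?_)
      simp [hζ, abs_of_pos hR]
      ring
    refine (mul_le_mul_of_nonneg_left h2 (by positivity)).trans (le_of_eq ?_)
    field_simp
  have t1 := (intervalIntegral_tendsto_integral_Ioi 0 i1 tendsto_id).sub
    (intervalIntegral_tendsto_integral_Ioi 0 i2 tendsto_id)
  have t2 : Tendsto (fun R : ℝ => (∫ σ in (0 : ℝ)..R, ζ * Φ (σ * ζ)) -
      ∫ σ in (0 : ℝ)..R, I * Φ (σ * I)) atTop (𝓝 0) := by
    refine squeeze_zero_norm' ?_ (tendsto_const_nhds.div_atTop tendsto_id :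
      Tendsto (fun R : ℝ => 2 * C / b ^ 2 / R) atTop (𝓝 0))
    filter_upwards [eventually_gt_atTop 0] with R hR using key R hR
  have e := sub_eq_zero.1 (tendsto_nhds_unique t1 t2)
  refine ⟨i1.im, ?_⟩
  have e1 := integral_im i1
  have e2 := integral_im i2
  simp only [RCLike.im_to_complex] at e1 e2
  rw [e1, e, ← e2]
  simp

theorem norm_log_le {ρ : ℂ} {b : ℝ} (hb : 0 < b) (h : b ≤ ‖1 - ρ‖) :
    ‖Complex.log (1 - ρ)‖ ≤ (10 + 2 / b) * ‖ρ‖ := by
  have hb' : 0 < 2 / b := by positivity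
  rcases le_total ‖ρ‖ (1 / 2) with h1 | h1
  · have := Complex.norm_log_one_add_half_le_self (z := -ρ) (by simpa using h1)
    rw [← sub_eq_add_neg, norm_neg] at this
    nlinarith [norm_nonneg ρ]
  · have h2 := Complex.norm_le_abs_re_add_abs_im (Complex.log (1 - ρ))
    rw [Complex.log_re, Complex.log_im] at h2
    have h3 := (Complex.abs_arg_le_pi (1 - ρ)).trans Real.pi_le_four
    have hp : 0 < ‖1 - ρ‖ := hb.trans_le h
    have h4 : Real.log ‖1 - ρ‖ ≤ ‖ρ‖ := by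
      have := Real.log_le_sub_one_of_pos hp
      have h5 := norm_sub_le 1 ρ
      rw [norm_one] at h5
      linarith
    have h5 : -(1 / b) ≤ Real.log ‖1 - ρ‖ := by
      have := Real.one_sub_inv_le_log_of_pos hp
      have h6 := inv_anti₀ hb h
      rw [one_div]
      linarith
    have h6 : 1 / b ≤ 2 / b * ‖ρ‖ := by
      have := mul_le_mul_of_nonneg_left h1 hb'.le
      refine le_trans (le_of_eq ?_) this
      ring
    have h7 : |Real.log ‖1 - ρ‖| ≤ ‖ρ‖ + 2 / b * ‖ρ‖ := by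
      rw [abs_le]
      constructor <;> nlinarith [norm_nonneg ρ]
    nlinarith

end Vale.Agent.P078
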