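import Vale.Agent.P078.LogInt

/-! Continuity properties of the logarithmic integral. -/

set_option linter.unusedSectionVars false

namespace Vale.Agent.P078

open Finset Polynomial MeasureTheory Complex Filter Topology
open scoped ComplexConjugate Matrix

variable {V : Type} [Fintype V] [DecidableEq V] {r : ℕ}

namespace TameAux

theorem abs_log_sub {A B c : ℝ} (hA : 0 < A) (hB : 0 < B) (h1 : A ≤ c * B) (h2 : B ≤ c * A) :
    |Real.log A - Real.log B| ≤ Real.log c := by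
  have hc : 0 < c := (mul_pos_iff_of_pos_right hB).1 (hA.trans_le h1)
  have a1 := Real.log_le_log hA h1
  have a2 := Real.log_le_log hB h2
  rw [Real.log_mul hc.ne' hB.ne'] at a1
  rw [Real.log_mul hc.ne' hA.ne'] at a2
  rw [abs_le]
  constructor <;> linarith

theorem norm_le_near {p q : ℂ} {β y : ℝ} (hy : 0 < y) (h : ‖p - q‖ ≤ β) (hq : y ≤ ‖q‖) :
    ‖p‖ ≤ (1 + β / y) * ‖q‖ := by
  have h1 := norm_le_norm_add_norm_sub' p q
  have h2 : β ≤ β / y * ‖q‖ := by
    rw [div_mul_eq_mul_div, le_div_iff₀ hy]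
    exact mul_le_mul_of_nonneg_left hq ((norm_nonneg _).trans h)
  linarith

theorem base {a : ℝ} (ha : 0 < a) :
    IntegrableOn (fun y : ℝ => Real.log (1 + a ^ 2 / y ^ 2)) (Set.Ioi 0) ∧
      ∫ y in Set.Ioi (0 : ℝ), Real.log (1 + a ^ 2 / y ^ 2) = Real.pi * a := by
  have e : Set.EqOn (fun y : ℝ => Real.log (y ^ 2 + a ^ 2) - 2 * Real.log y)
      (fun y : ℝ => Real.log (1 + a ^ 2 / y ^ 2)) (Set.Ioi 0) := by
    intro y hy
    have hy : 0 < y := hy
    simp only
    rw [show 1 + a ^ 2 / y ^ 2 = (y ^ 2 + a ^ 2) / y ^ 2 by field_simp,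
      Real.log_div (by positivity) (by positivity), Real.log_pow]
    simp
  exact ⟨(logInt_base ha).1.congr_fun e measurableSet_Ioi,
    (setIntegral_congr_fun measurableSet_Ioi e).symm.trans (logInt_base ha).2⟩

theorem le_norm {w s : ℂ} {y : ℝ} (hw : y ≤ w.im) (hs : s.im ≤ 0) : y ≤ ‖w - s‖ :=
  le_trans (by rw [sub_im]; linarith) (Complex.im_le_norm _)

theorem log_eq {w s : ℂ} {y : ℝ} (hy : 0 < y) (hw : y ≤ w.im) (hs : s.im ≤ 0) :
    Real.log ‖1 - s / w‖ = Real.log ‖w - s‖ - Real.log ‖w‖ := by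
  have h1 : 0 < ‖w‖ := hy.trans_le (hw.trans (Complex.im_le_norm _))
  rw [one_sub_div (norm_pos_iff.1 h1), norm_div,
    Real.log_div (hy.trans_le (le_norm hw hs)).ne' h1.ne']

theorem bound {w s : ℂ} {y a : ℝ} (hy : 0 < y) (hw : y ≤ w.im) (hs : s.im ≤ 0)
    (h1 : y * ‖s‖ ≤ a ^ 2) (h2 : w.re ^ 2 ≤ a ^ 2) :
    |Real.log ‖1 - s / w‖| ≤ Real.log (1 + a ^ 2 / y ^ 2) := by
  have hw' := hw.trans (Complex.im_le_norm w)
  rw [log_eq hy hw hs]
  refine abs_log_sub (hy.trans_le (le_norm hw hs)) (hy.trans_le hw') ?_ ?_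
  · have := norm_le_near (p := w - s) (q := w) (β := a ^ 2 / y) hy
      (by rw [le_div_iff₀' hy]; simpa using h1) hw'
    rwa [div_div, ← sq y] at this
  · have h3 := le_norm (le_refl w.im) hs
    have h4 : 0 ≤ a ^ 2 / y ^ 2 := by positivity
    refine le_trans ?_ (mul_le_mul_of_nonneg_left h3 (by positivity))
    refine (sq_le_sq₀ (norm_nonneg _) (mul_nonneg (by positivity) (hy.le.trans hw))).1 ?_
    rw [Complex.sq_norm, Complex.normSq_apply]
    have h5 : a ^ 2 ≤ a ^ 2 / y ^ 2 * w.im ^ 2 := by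
      rw [div_mul_eq_mul_div, le_div_iff₀ (by positivity)]
      exact mul_le_mul_of_nonneg_left (pow_le_pow_left₀ hy.le hw 2) (sq_nonneg _)
    nlinarith [mul_nonneg h4 (sq_nonneg w.im), mul_nonneg (mul_nonneg h4 h4) (sq_nonneg w.im)]

theorem meas {m : ℝ} {S : ℝ → ℂ} (h : Tame m S) (l : ℂ) :
    AEStronglyMeasurable (fun y : ℝ => Real.log ‖1 - S y / (l + y * I)‖)
      (volume.restrict (Set.Ioi 0)) := by
  have h1 := (h.cont.aestronglyMeasurable (μ := volume) measurableSet_Ioi).aemeasurable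
  refine (Real.measurable_log.comp_aemeasurable (AEMeasurable.norm ?_)).aestronglyMeasurable
  exact aemeasurable_const.sub (h1.div (by fun_prop : Measurable _).aemeasurable)

theorem bound' {m : ℝ} {S : ℝ → ℂ} (h : Tame m S) {l : ℂ} (hl : 0 ≤ l.im) :
    ∀ᵐ y ∂(volume.restrict (Set.Ioi (0 : ℝ))), ‖Real.log ‖1 - S y / (l + y * I)‖‖ ≤
      Real.log (1 + (|m| + |l.re| + 1) ^ 2 / y ^ 2) := by
  filter_upwards [ae_restrict_mem measurableSet_Ioi] with y hy
  refine bound hy (by simpa using hl) (h.im y hy) ((h.bd y hy).trans ?_) ?_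
  · nlinarith [le_abs_self m, abs_nonneg m, abs_nonneg l.re]
  · have : (l + y * I).re ^ 2 = |l.re| ^ 2 := by simp
    rw [this]
    nlinarith [abs_nonneg m, abs_nonneg l.re]

theorem intg {m : ℝ} {S : ℝ → ℂ} (h : Tame m S) {l : ℂ} (hl : 0 ≤ l.im) :
    IntegrableOn (fun y : ℝ => Real.log ‖1 - S y / (l + y * I)‖) (Set.Ioi 0) :=
  Integrable.mono' (base (by positivity)).1 (meas h l) (bound' h hl)

theorem diff {w s : ℂ} {y a β m : ℝ} (hy : 0 < y) (hw : y ≤ w.im) (hs : s.im ≤ 0)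
    (h1 : y * ‖s‖ ≤ m) (hβ : 0 ≤ β) (hβ1 : β ≤ 1) (h2 : β * m ≤ a ^ 2) (h3 : 3 * β ≤ a ^ 2) :
    |Real.log ‖1 - s / (w + β * I)‖ - Real.log ‖1 - s / w‖| ≤ Real.log (1 + a ^ 2 / y ^ 2) := by
  have hw' : y ≤ (w + β * I).im := by simpa using hw.trans (le_add_of_nonneg_right hβ)
  have n1 := le_norm hw hs
  have n2 := le_norm hw' hs
  have n3 := hw.trans (Complex.im_le_norm w)
  have n4 := hw'.trans (Complex.im_le_norm _)
  have e : Real.log ‖1 - s / (w + β * I)‖ - Real.log ‖1 - s / w‖ =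
      Real.log ‖(w + β * I - s) * w‖ - Real.log ‖(w - s) * (w + β * I)‖ := by
    rw [log_eq hy hw hs, log_eq hy hw' hs, norm_mul, norm_mul,
      Real.log_mul (hy.trans_le n2).ne' (hy.trans_le n3).ne',
      Real.log_mul (hy.trans_le n1).ne' (hy.trans_le n4).ne']
    ring
  have p1 : y ^ 2 ≤ ‖(w + β * I - s) * w‖ := by
    rw [norm_mul, sq]; exact mul_le_mul n2 n3 hy.le (norm_nonneg _)
  have p2 : y ^ 2 ≤ ‖(w - s) * (w + β * I)‖ := by
    rw [norm_mul, sq]; exact mul_le_mul n1 n4 hy.le (norm_nonneg _)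
  have hy2 : 0 < y ^ 2 := by positivity
  rw [e]
  rcases le_total 1 y with h | h
  · have d : ‖(w + β * I - s) * w - (w - s) * (w + β * I)‖ ≤ a ^ 2 := by
      rw [show (w + β * I - s) * w - (w - s) * (w + β * I) = β * I * s by ring]
      simp only [norm_mul, norm_real, norm_I, mul_one, Real.norm_of_nonneg hβ]
      refine le_trans (mul_le_mul_of_nonneg_left (le_trans ?_ h1) hβ) h2
      exact le_mul_of_one_le_left (norm_nonneg _) h
    exact abs_log_sub (hy2.trans_le p1) (hy2.trans_le p2) (norm_le_near hy2 d p2)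
      (norm_le_near hy2 (by rwa [norm_sub_rev]) p1)
  · have nb : ‖(β : ℂ) * I‖ ≤ β := by simp [abs_of_nonneg hβ]
    have c : (1 + β / y) * (1 + β / y) ≤ 1 + a ^ 2 / y ^ 2 := by
      have : (1 + β / y) * (1 + β / y) = 1 + (2 * β * y + β ^ 2) / y ^ 2 := by field_simp; ring
      rw [this]
      gcongr
      nlinarith
    have q : ∀ p q p' q' : ℂ, ‖p‖ ≤ (1 + β / y) * ‖q‖ → ‖p'‖ ≤ (1 + β / y) * ‖q'‖ →
        ‖p * p'‖ ≤ (1 + a ^ 2 / y ^ 2) * ‖q * q'‖ := by
      intro p q p' q' k1 k2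
      rw [norm_mul, norm_mul]
      refine (mul_le_mul k1 k2 (norm_nonneg _) (by positivity)).trans ?_
      rw [mul_mul_mul_comm]
      exact mul_le_mul_of_nonneg_right c (by positivity)
    refine abs_log_sub (hy2.trans_le p1) (hy2.trans_le p2) (q _ _ _ _ ?_ ?_) (q _ _ _ _ ?_ ?_)
    · exact norm_le_near hy (by simpa using nb) n1
    · exact norm_le_near hy (by simpa using nb) n4
    · exact norm_le_near hy (by simpa using nb) n2
    · exact norm_le_near hy (by simpa using nb) n3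

end TameAux

open TameAux

theorem II_tendsto {m t : ℝ} {S : ℕ → ℝ → ℂ} {S' : ℝ → ℂ} (h : ∀ k, Tame m (S k))
    (hT : ∀ y : ℝ, 0 < y → Tendsto (fun k => S k y) atTop (𝓝 (S' y))) (ht : 0 < t) :
    Tendsto (fun k => II t (S k)) atTop (𝓝 (II t S')) := by
  refine tendsto_integral_of_dominated_convergence _ (fun k => meas (h k) t)
    (base (by positivity)).1 (fun k => bound' (h k) (by simp)) ?_
  filter_upwards [ae_restrict_mem measurableSet_Ioi] with y hy
  have hy : 0 < y := hy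
  have h1 : (S' y).im ≤ 0 := le_of_tendsto' ((Complex.continuous_im.tendsto _).comp (hT y hy))
    fun k => (h k).im y hy
  have hw : y ≤ ((t : ℂ) + y * I).im := by simp
  have h2 : (t : ℂ) + y * I ≠ 0 := fun h0 => by
    have := congrArg Complex.re h0
    simp at this
    exact ht.ne' this
  refine (((hT y hy).div_const _).const_sub 1).norm.log ?_
  rw [one_sub_div h2, norm_div]
  exact div_ne_zero (hy.trans_le (le_norm hw h1)).ne' (norm_ne_zero_iff.2 h2)

theorem II_own {t₀ m η : ℝ} (ht : 0 < t₀) (hη : 0 < η) : ∃ β₀ : ℝ, 0 < β₀ ∧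
    ∀ t β : ℝ, t₀ ≤ t → 0 ≤ β → β ≤ β₀ → ∀ S, Tame m S → |II (t + β * I) S - II t S| ≤ η := by
  have _ := ht
  have ha : 0 < η / Real.pi := div_pos hη Real.pi_pos
  refine ⟨min 1 ((η / Real.pi) ^ 2 / (|m| + 3)), by positivity, fun t β _ hβ hβ' S hS => ?_⟩
  have hβ1 := hβ'.trans (min_le_left _ _)
  have hβ2 := (le_div_iff₀ (by positivity)).1 (hβ'.trans (min_le_right _ _))
  rw [II, II, ← integral_sub (intg hS (by simpa using hβ)) (intg hS (by simp)),
    ← Real.norm_eq_abs]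
  refine (norm_integral_le_of_norm_le (base ha).1 ?_).trans (le_of_eq ?_)
  · filter_upwards [ae_restrict_mem measurableSet_Ioi] with y hy
    rw [add_right_comm]
    refine diff hy (by simp) (hS.im y hy) ((hS.bd y hy).trans (le_abs_self m)) hβ hβ1 ?_ ?_
    · nlinarith
    · nlinarith [mul_nonneg hβ (abs_nonneg m)]
  · rw [(base ha).2, mul_div_cancel₀ _ Real.pi_ne_zero]

theorem Tame.div {m : ℝ} {S : ℝ → ℂ} (h : Tame m S) {a : ℝ} (ha : 1 ≤ a) :
    Tame m fun y => S y / a := by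
  have ha0 : 0 < a := by linarith
  refine ⟨h.cont.div_const _, fun y hy => ?_, fun y hy => le_trans ?_ (h.bd y hy)⟩
  · rw [div_ofReal_im]
    exact div_nonpos_of_nonpos_of_nonneg (h.im y hy) ha0.le
  · rw [norm_div, norm_real, Real.norm_of_nonneg ha0.le]
    exact mul_le_mul_of_nonneg_left (div_le_self (norm_nonneg _) ha) hy.le

theorem Tame.avg {m : ℝ} (hr : 0 < r) {S : Fin r → ℝ → ℂ} (h : ∀ i, Tame m (S i)) :
    Tame m fun y => (∑ i, S i y) / r := by
  have hr0 : (0 : ℝ) < r := by exact_mod_cast hr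
  refine ⟨(continuousOn_finsetSum _ fun i _ => (h i).cont).div_const _, fun y hy => ?_,
    fun y hy => ?_⟩
  · rw [div_natCast_im, im_sum]
    exact div_nonpos_of_nonpos_of_nonneg (sum_nonpos fun i _ => (h i).im y hy) hr0.le
  · rw [norm_div, norm_natCast, ← mul_div_assoc, div_le_iff₀ hr0]
    refine (mul_le_mul_of_nonneg_left (norm_sum_le _ _) hy.le).trans ?_
    rw [mul_sum]
    refine (sum_le_sum fun i _ => (h i).bd y hy).trans (le_of_eq ?_)
    simp [mul_comm]

end Vale.Agent.P078
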