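import Vale.Agent.P078.Self
import Vale.Agent.P078.RS
import Vale.Agent.P078.Tame
import Vale.Agent.P078.Shift

/-! The step lemma on the imaginary axis and on the ray. -/

set_option linter.unusedSectionVars false

namespace Vale.Agent.P078

open Finset Polynomial MeasureTheory Complex Filter Topology
open scoped ComplexConjugate Matrix

variable {V : Type} [Fintype V] [DecidableEq V] {r : ℕ}

variable {T : Finset V} {x : V} {κ W : V → ℝ}

theorem im_level (a w : ℝ) (l τ : ℂ) : ((a : ℂ) * (l + τ / w)).im = a * (l.im + τ.im / w) := by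
  simp [div_ofReal_im]

theorem Tame.mono {m m' : ℝ} {S : ℝ → ℂ} (h : Tame m S) (hm : m ≤ m') : Tame m' S :=
  ⟨h.cont, h.im, fun y hy => (h.bd y hy).trans hm⟩

theorem RatOn.contOn {S : ℂ → ℂ} (h : RatOn S) :
    ContinuousOn (fun y : ℝ => S (y * I)) (Set.Ioi 0) := by
  obtain ⟨N, f, h1, h2⟩ := h
  have hc : ∀ g : ℝ[X], Continuous fun y : ℝ => aeval ((y : ℂ) * I) g := fun g =>
    g.continuous_aeval.comp (by fun_prop)
  exact ((hc N).continuousOn.div (hc f).continuousOn fun y hy => h1 _ (by simpa using hy)).congr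
    fun y hy => h2 _ (by simpa using hy)

theorem Stab.tame {c : Finset V → ℝ} (hc : Stab c) (hx : x ∈ T) (hκ : ∀ v, 1 ≤ κ v)
    (hW : ∀ v, 0 < W v) {l : ℝ → ℂ} (hl : ContinuousOn l (Set.Ioi 0))
    (hl' : ∀ y : ℝ, 0 < y → 0 ≤ (l y).im) :
    Tame (ms c T x W) fun y => Sf c T x fun v => ((κ v : ℂ) * (l y + y * I / W v))⁻¹ := by
  have key : ∀ y : ℝ, 0 < y → ∀ v, y / W v ≤ ((κ v : ℂ) * (l y + y * I / W v)).im := by
    intro y hy v
    have h1 := hl' y hy
    have h2 := div_pos hy (hW v)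
    rw [im_level, mul_I_im, ofReal_re]
    nlinarith [hκ v]
  have pos : ∀ y : ℝ, 0 < y → ∀ v, 0 < ((κ v : ℂ) * (l y + y * I / W v)).im := fun y hy v =>
    (div_pos hy (hW v)).trans_le (key y hy v)
  refine ⟨fun y hy => hc.Sf_tendsto (fun v => ?_) (pos y hy),
    fun y hy => hc.Sf_im hx fun v _ => pos y hy v, fun y hy => ?_⟩
  · exact ((hl y hy).add (Continuous.continuousWithinAt (by fun_prop))).const_mul _
  · rw [← le_div_iff₀' hy, div_eq_inv_mul, ← ms_mul]
    refine (hc.Sf_norm hx (pos y hy)).trans (hc.ms_mono fun v _ => ?_)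
    rw [inv_mul_eq_div, ← inv_div y]
    exact inv_anti₀ (div_pos hy (hW v)) (key y hy v)

theorem imag_step (hr : 0 < r) {c : Fin r → Finset V → ℝ} (hc : ∀ i, Stab (c i)) (hx : x ∈ T)
    (hκ : ∀ v, 1 ≤ κ v) (hW : ∀ v, 0 < W v) {t β η : ℝ} (ht : 0 < t) (hβ : 0 < β) (hη : 0 < η) :
    4 * (univ.filter fun i =>
      II t (fun y => (∑ i, Sf (c i) T x fun v => ((κ v : ℂ) * (t + β * I + y * I / W v))⁻¹) / r)
        + η < II t fun y =>
          (Sf (c i) T x fun v => ((κ v : ℂ) * (t + β * I + y * I / W v))⁻¹) / 32).card ≤ r := by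
  obtain ⟨N, hN, hI, hT⟩ := exists_newton
  obtain ⟨m, hm⟩ := (Set.finite_range fun i => ms (c i) T x W).bddAbove
  set S : ℕ → Fin r → ℂ → ℂ := fun k i τ =>
    Sf (c i) T x fun v => ((κ v : ℂ) * (t + β * N k τ + τ / W v))⁻¹ with hS
  have pos : ∀ (u τ : ℂ), 0 < u.im → 0 < τ.im → ∀ v,
      0 < ((κ v : ℂ) * (t + β * u + τ / W v)).im := by
    intro u τ hu hτ v
    have := hκ v
    have := hW v
    rw [im_level, add_im, ofReal_im, zero_add, im_ofReal_mul]
    positivity
  have tm : ∀ k i, Tame m fun y => S k i (y * I) := fun k i =>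
    ((hc i).tame hx hκ hW (l := fun y => t + β * N k (y * I))
      (continuousOn_const.add (continuousOn_const.mul (hN k).contOn)) fun y hy => by
        rw [add_im, ofReal_im, zero_add, im_ofReal_mul]
        exact (mul_pos hβ (hI k _ (by simpa using hy))).le).mono (hm ⟨i, rfl⟩)
  have at' : ∀ k i, Atomic fun y => S k i (y * I) := by
    intro k i
    have h1 : RatOn (S k i) := (hc i).Sf_rat (fun v => ((RatOn.const (κ v)).mul
      (((RatOn.const t).add ((RatOn.const β).mul (hN k))).add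
        (RatOn.id.mul (RatOn.const (W v)⁻¹)))).congr fun z _ => by
          rw [ofReal_inv, div_eq_mul_inv]) fun v τ hτ => pos _ _ (hI k τ hτ) hτ v
    obtain ⟨n, s, ω, h2, h3⟩ := h1.atoms
      (fun z hz => (hc i).Sf_im hx fun v _ => pos _ _ (hI k z hz) hz v)
      ((eventually_gt_atTop 0).mono (tm k i).bd)
    exact ⟨n, s, ω, h2, fun y hy => h3 _ (by simpa using hy)⟩
  have lim : ∀ i (y : ℝ), 0 < y → Tendsto (fun k => S k i (y * I)) atTop
      (𝓝 (Sf (c i) T x fun v => ((κ v : ℂ) * (t + β * I + y * I / W v))⁻¹)) := fun i y hy =>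
    (hc i).Sf_tendsto (fun v => ((((hT y hy).const_mul _).const_add _).add_const _).const_mul _)
      (pos _ _ (by simp) (by simpa using hy))
  have l1 := II_tendsto (fun k => Tame.avg hr (tm k))
    (fun y hy => (tendsto_finsetSum _ fun i _ => lim i y hy).div_const _) ht
  have l2 := fun i => II_tendsto (fun k => (tm k i).div (a := 32) (by norm_num))
    (fun y hy => (lim i y hy).div_const _) ht
  simp only [ofReal_ofNat] at l2
  have h3 : 0 < η / 3 := by positivity
  obtain ⟨k, h1, h2⟩ := ((l1.eventually (gt_mem_nhds (lt_add_of_pos_right _ h3))).and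
    (eventually_all.2 fun i => (l2 i).eventually (lt_mem_nhds (sub_lt_self _ h3)))).exists
  refine (Nat.mul_le_mul_left _ (card_le_card fun i hi => ?_)).trans (real_step hr (at' k) ht h3)
  rw [mem_filter] at hi ⊢
  exact ⟨hi.1, by linarith [hi.2, h2 i]⟩

theorem ray_eq {c : Finset V → ℝ} (hc : Stab c) (hx : x ∈ T) (hκ : ∀ v, 1 ≤ κ v)
    (hW : ∀ v, 0 < W v) (hWx : W x = 1) {t : ℝ} (ht : 0 < t) {ζ : ℂ} (hζ : ‖ζ‖ = 1)
    (hb : 0 < ζ.im) :
    IntegrableOn (fun σ : ℝ => (ζ * Complex.log (1 - ((κ x * (t + σ / W x))⁻¹ : ℝ) * conj ζ *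
      Sf c T x fun v => ((κ v * (t + σ / W v))⁻¹ : ℝ) * conj ζ)).im) (Set.Ioi 0) ∧
    ∫ σ in Set.Ioi (0 : ℝ), (ζ * Complex.log (1 - ((κ x * (t + σ / W x))⁻¹ : ℝ) * conj ζ *
      Sf c T x fun v => ((κ v * (t + σ / W v))⁻¹ : ℝ) * conj ζ)).im =
      II (ζ * t) fun y => (Sf c T x fun v => ((κ v : ℂ) * (ζ * t + y * I / W v))⁻¹) / κ x := by
  obtain ⟨v₀, hv₀⟩ := @Finite.exists_min V ℝ _ ⟨x⟩ _ W
  set z : V → ℂ → ℂ := fun v τ => (κ v : ℂ) * (ζ * t + τ / W v) with hz
  have him : ∀ v τ, (z v τ).im = κ v * (ζ.im * t + τ.im / W v) := fun v τ => by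
    rw [hz, im_level, im_mul_ofReal]
  have hd : ∀ v, DifferentiableOn ℂ (z v) {τ | -(ζ.im * t * W v₀) < τ.im} := fun v =>
    Differentiable.differentiableOn (by fun_prop)
  have hbt := mul_pos hb ht
  have pos : ∀ v, ∀ τ ∈ {τ : ℂ | -(ζ.im * t * W v₀) < τ.im}, 0 < (z v τ).im := by
    intro v τ hτ
    have h1 : -(ζ.im * t) < τ.im / W v := by
      rw [lt_div_iff₀ (hW v)]
      have : -(ζ.im * t * W v₀) < τ.im := hτ
      nlinarith [hv₀ v]
    rw [him]
    exact mul_pos (by linarith [hκ v]) (by linarith)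
  have key := contour_shift (Φ := fun τ => Complex.log (1 - (z x τ)⁻¹ * Sf c T x fun v => (z v τ)⁻¹))
    (C := (10 + 2 / ζ.im) * (ms c T x (fun v => 1 + W v) / ζ.im ^ 2 * (1 + 1 / t ^ 2))) hζ hb
    (mul_pos hbt (hW v₀))
    ((((hd x).inv fun τ hτ h => (pos x τ hτ).ne' (by rw [h, zero_im])).mul
      (hc.Sf_diff hd pos)).const_sub 1 |>.clog fun τ hτ =>
        sub_div_mem_slitPlane (pos x τ hτ) (hc.Sf_im hx fun v _ => pos v τ hτ)) (by
      intro τ hτ
      have h0 := norm_nonneg τ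
      have h1 : 0 ≤ ζ.im * ‖τ‖ := by positivity
      have hm : τ ∈ {τ : ℂ | -(ζ.im * t * W v₀) < τ.im} :=
        (neg_neg_of_pos (mul_pos hbt (hW v₀))).trans_le (h1.trans hτ)
      have hD : 0 < ζ.im * (t + ‖τ‖) := by positivity
      have h2 : ∀ v, ζ.im * (t + ‖τ‖) ≤ (1 + W v) * (z v τ).im := by
        intro v
        have h3 := hW v
        have h4 : 0 ≤ τ.im / W v := div_nonneg (h1.trans hτ) h3.le
        have h5 : W v * (τ.im / W v) = τ.im := by field_simp
        have h6 : ζ.im * t + τ.im / W v ≤ (z v τ).im := by rw [him]; nlinarith [hκ v]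
        nlinarith [mul_pos hbt h3]
      have h3 : κ x * (ζ.im * (t + ‖τ‖)) ≤ (z x τ).im := by
        rw [him, hWx, div_one]
        exact mul_le_mul_of_nonneg_left (by linarith) (by linarith [hκ x])
      have h4 : ‖z x τ‖ ≤ κ x * (t + ‖τ‖) := by
        rw [hz]
        simp only [hWx, ofReal_one, div_one, norm_mul, norm_real]
        rw [Real.norm_of_nonneg (by linarith [hκ x])]
        refine mul_le_mul_of_nonneg_left ((norm_add_le _ _).trans ?_) (by linarith [hκ x])
        rw [norm_mul, hζ, one_mul, norm_real, Real.norm_of_nonneg ht.le]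
      have h5 : ζ.im * (t + ‖τ‖) ≤ ‖z x τ‖ :=
        ((le_mul_of_one_le_left hD.le (hκ x)).trans h3).trans ((le_abs_self _).trans (abs_im_le_norm _))
      have h6 := hc.Sf_im hx (z := fun v => z v τ) fun v _ => pos v τ hm
      have h7 : ‖Sf c T x fun v => (z v τ)⁻¹‖ ≤
          (ζ.im * (t + ‖τ‖))⁻¹ * ms c T x fun v => 1 + W v := by
        rw [← ms_mul]
        refine (hc.Sf_norm hx fun v => pos v τ hm).trans (hc.ms_mono fun v _ => ?_)
        rw [inv_mul_eq_div, le_div_iff₀ hD, inv_mul_le_iff₀ (pos v τ hm), mul_comm (z v τ).im]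
        exact h2 v
      have h8 : 0 ≤ ms c T x fun v => 1 + W v :=
        (mul_nonneg_iff_of_pos_left (inv_pos.2 hD)).1 ((norm_nonneg _).trans h7)
      generalize (Sf c T x fun v => (z v τ)⁻¹) = S at h6 h7 ⊢
      have h9 : 0 < ‖z x τ‖ := hD.trans_le h5
      refine (norm_log_le hb ?_).trans ?_
      · rw [show 1 - (z x τ)⁻¹ * S = (z x τ - S) / z x τ by
          field_simp [norm_pos_iff.1 h9], norm_div, le_div_iff₀ h9]
        refine le_trans ?_ ((le_abs_self _).trans (abs_im_le_norm _))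
        rw [sub_im]
        nlinarith [mul_le_mul_of_nonneg_left h4 hb.le]
      · rw [mul_div_assoc]
        refine mul_le_mul_of_nonneg_left ?_ (by positivity)
        rw [norm_mul, norm_inv]
        refine (mul_le_mul (inv_anti₀ hD h5) h7 (norm_nonneg _) (by positivity)).trans ?_
        rw [mul_div_assoc, show ∀ M : ℝ, (ζ.im * (t + ‖τ‖))⁻¹ * ((ζ.im * (t + ‖τ‖))⁻¹ * M) =
          M / ζ.im ^ 2 * (1 / (t + ‖τ‖) ^ 2) from fun M => by field_simp]
        refine mul_le_mul_of_nonneg_left ?_ (by positivity)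
        rw [div_le_div_iff₀ (by positivity) (by positivity)]
        have : 1 / t ^ 2 * t ^ 2 = 1 := by field_simp
        have h10 : 0 < 1 / t ^ 2 := by positivity
        nlinarith [mul_nonneg h10.le (mul_nonneg ht.le h0), mul_nonneg h10.le (sq_nonneg ‖τ‖),
          mul_nonneg ht.le h0])
  have e1 : ∀ (σ : ℝ) v, (z v (σ * ζ))⁻¹ = ((κ v * (t + σ / W v))⁻¹ : ℝ) * conj ζ := by
    intro σ v
    rw [← Complex.inv_eq_conj hζ, ofReal_inv, ← mul_inv, hz]
    congr 1
    push_cast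
    ring
  simp only [e1] at key
  refine ⟨key.1, key.2.trans (integral_congr_ae (Eventually.of_forall fun y => ?_))⟩
  simp only [log_re, hz, hWx, ofReal_one, div_one]
  rw [div_div, inv_mul_eq_div]

end Vale.Agent.P078
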