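import Vale.Agent.P078.FDefs

/-! Compact totally disconnected spaces. -/

set_option linter.unusedSectionVars false

namespace Vale.Agent.P078

open Finset Polynomial MeasureTheory Filter Topology
open scoped ComplexConjugate Matrix

variable {Ω : Type*} [TopologicalSpace Ω]

theorem continuous_glue {D Y : Type*} [TopologicalSpace Y] {δ : Ω → D} (hδ : IsLocallyConstant δ)
    {G : D → Ω → Y} (hG : ∀ d, Continuous (G d)) : Continuous fun ω => G (δ ω) ω :=
  continuous_iff_continuousAt.2 fun x => (hG (δ x)).continuousAt.congr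
    ((hδ.eventually_eq x).mono fun y hy => by beta_reduce; rw [hy])

theorem lc_glue {D Y : Type*} {δ : Ω → D} (hδ : IsLocallyConstant δ) {G : D → Ω → Y}
    (hG : ∀ d, IsLocallyConstant (G d)) : IsLocallyConstant fun ω => G (δ ω) ω := by
  refine (IsLocallyConstant.iff_eventually_eq _).2 fun x => ?_
  filter_upwards [hδ.eventually_eq x, (hG (δ x)).eventually_eq x] with y h1 h2
  rw [h1, h2]

theorem lc_pi {J Y : Type*} [Finite J] {f : Ω → J → Y}
    (hf : ∀ j, IsLocallyConstant fun ω => f ω j) : IsLocallyConstant f :=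
  (IsLocallyConstant.iff_eventually_eq _).2 fun x =>
    (eventually_all.2 fun j => (hf j).eventually_eq x).mono fun _ hy => funext hy

variable [CompactSpace Ω] [T2Space Ω] [TotallyDisconnectedSpace Ω]

theorem top_exists_fin {D : Type*} {U : D → Set Ω} (hU : ∀ d, IsOpen (U d))
    (h : ∀ ω, ∃ d, ω ∈ U d) : ∃ (n : ℕ) (π : Ω → Fin n) (c : Fin n → D),
      IsLocallyConstant π ∧ ∀ ω, ω ∈ U (c (π ω)) := by
  have hc : TopologicalSpace.IsOpenCover fun d => (⟨U d, hU d⟩ : TopologicalSpace.Opens Ω) :=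
    TopologicalSpace.IsOpenCover.of_sets hU (Set.iUnion_eq_univ_iff.2 h)
  obtain ⟨n, W, h1, h2, h3⟩ := hc.exists_finite_nonempty_disjoint_clopen_cover
  choose c hc using fun j => (h1 j).2
  choose π hπ using fun ω => Set.mem_iUnion.1 (h2 (Set.mem_univ ω))
  refine ⟨n, π, c, (IsLocallyConstant.iff_eventually_eq _).2 fun x => ?_, fun ω => hc _ (hπ ω)⟩
  filter_upwards [(W (π x)).isClopen.isOpen.mem_nhds (hπ x)] with y hy
  by_contra hne
  have h4 : W (π y) ⊓ W (π x) ≤ ⊥ := disjoint_iff_inf_le.1 (h3 hne)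
  exact h4 (show y ∈ W (π y) ⊓ W (π x) from ⟨hπ y, hy⟩)

theorem exists_lc_cover {D : Type*} {U : D → Set Ω} (hU : ∀ d, IsOpen (U d))
    (h : ∀ ω, ∃ d, ω ∈ U d) : ∃ δ : Ω → D, IsLocallyConstant δ ∧ ∀ ω, ω ∈ U (δ ω) := by
  obtain ⟨n, π, c, h1, h2⟩ := top_exists_fin hU h
  exact ⟨c ∘ π, h1.comp c, h2⟩

theorem exists_clopen_between {K U : Set Ω} (hK : IsClosed K) (hU : IsOpen U) (h : K ⊆ U) :
    ∃ W, IsClopen W ∧ K ⊆ W ∧ W ⊆ U := exists_clopen_of_closed_subset_open hK hU h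

theorem exists_lc_near (f : C(Ω, ℂ)) {ε : ℝ} (hε : 0 < ε) :
    ∃ (n : ℕ) (π : Ω → Fin n) (c : Fin n → ℂ), IsLocallyConstant π ∧
      ∀ ω, ‖f ω - c (π ω)‖ ≤ ε := by
  obtain ⟨n, π, c, h1, h2⟩ := top_exists_fin (U := fun z : ℂ => f ⁻¹' Metric.ball z ε)
    (fun z => Metric.isOpen_ball.preimage f.continuous) fun ω => ⟨f ω, Metric.mem_ball_self hε⟩
  exact ⟨n, π, c, h1, fun ω => (mem_ball_iff_norm.1 (h2 ω)).le⟩

end Vale.Agent.P078
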