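import Vale.Agent.P078.MDefs
import Vale.Agent.P078.Top

/-! Indicator functions, projections and pinchings. -/

set_option linter.unusedSectionVars false

namespace Vale.Agent.P078

open Filter Topology Finset Vale.Agent.P104 Vale.Agent.P082
open scoped InnerProductSpace ComplexOrder ComplexConjugate

universe u v

variable {G : Type v} [NormedAddCommGroup G] [InnerProductSpace ℂ G] [CompleteSpace G]
  {M : Type u} [CStarAlgebra M] {ρ : M →⋆ₐ[ℂ] (G →L[ℂ] G)}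
  {Ω : Type u} [TopologicalSpace Ω] [CompactSpace Ω] [T2Space Ω] [TotallyDisconnectedSpace Ω]
  {ι : C(Ω, ℂ) →⋆ₐ[ℂ] M} {E : M →ₗ[ℂ] C(Ω, ℂ)} {ξ : G}

variable {J J₀ : Type} [Fintype J] [Fintype J₀] {π : Ω → J} {π₀ : Ω → J₀} {U U' : Set Ω}

theorem ind_of_mem (hU : IsClopen U) {ω : Ω} (h : ω ∈ U) : ind U ω = 1 := by
  rw [ind, dif_pos hU]
  exact Set.indicator_of_mem h fun _ => (1 : ℂ)

theorem ind_of_notMem {ω : Ω} (h : ω ∉ U) : ind U ω = 0 := by
  rw [ind]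
  split_ifs
  · exact Set.indicator_of_notMem h fun _ => (1 : ℂ)
  · rfl

theorem indx_ind_cases (U : Set Ω) (ω : Ω) : ind U ω = 0 ∨ ind U ω = 1 := by
  by_cases hU : IsClopen U
  · exact (em' (ω ∈ U)).imp ind_of_notMem (ind_of_mem hU)
  · rw [ind, dif_neg hU]
    exact .inl rfl

theorem norm_ind_le (U : Set Ω) : ‖ind U‖ ≤ 1 := (ContinuousMap.norm_le _ zero_le_one).2 fun ω => by
  rcases indx_ind_cases U ω with h | h <;> simp [h]

theorem star_ind (U : Set Ω) : star (ind U) = ind U := by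
  ext ω
  rcases indx_ind_cases U ω with h | h <;> simp [h]

theorem ind_mul (hU : IsClopen U) (hU' : IsClopen U') : ind U * ind U' = ind (U ∩ U') := by
  ext ω
  rw [ContinuousMap.mul_apply]
  by_cases h : ω ∈ U
  · by_cases h' : ω ∈ U'
    · rw [ind_of_mem hU h, ind_of_mem hU' h', ind_of_mem (hU.inter hU') ⟨h, h'⟩, one_mul]
    · rw [ind_of_notMem h', ind_of_notMem (U := U ∩ U') fun h2 => h' h2.2, mul_zero]
  · rw [ind_of_notMem h, ind_of_notMem (U := U ∩ U') fun h2 => h h2.1, zero_mul]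

theorem ind_union (hU : IsClopen U) (hU' : IsClopen U') (h : Disjoint U U') :
    ind (U ∪ U') = ind U + ind U' := by
  ext ω
  rw [ContinuousMap.add_apply]
  by_cases h1 : ω ∈ U
  · rw [ind_of_mem hU h1, ind_of_notMem (Set.disjoint_left.1 h h1),
      ind_of_mem (hU.union hU') (.inl h1), add_zero]
  · by_cases h2 : ω ∈ U'
    · rw [ind_of_mem hU' h2, ind_of_notMem h1, ind_of_mem (hU.union hU') (.inr h2), zero_add]
    · rw [ind_of_notMem h1, ind_of_notMem h2,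
        ind_of_notMem (U := U ∪ U') fun h3 => h3.elim h1 h2, add_zero]

theorem ind_univ : ind (Set.univ : Set Ω) = 1 := by
  ext ω
  exact ind_of_mem isClopen_univ (Set.mem_univ ω)

theorem ind_empty : ind (∅ : Set Ω) = 0 := by
  ext ω
  exact ind_of_notMem (Set.notMem_empty ω)

theorem ind_compl (hU : IsClopen U) : ind Uᶜ = 1 - ind U := by
  rw [eq_sub_iff_add_eq', ← ind_union hU hU.compl disjoint_compl_right, Set.union_compl_self,
    ind_univ]

theorem exists_ind {f : C(Ω, ℂ)} (h : f * f = f) : ∃ U, IsClopen U ∧ f = ind U := by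
  have h1 : ∀ ω, f ω = 0 ∨ f ω = 1 := fun ω =>
    IsIdempotentElem.iff_eq_zero_or_one.1 (DFunLike.congr_fun h ω)
  have h2 : f ⁻¹' {1} = (f ⁻¹' {0})ᶜ := by
    ext ω
    rcases h1 ω with h3 | h3 <;> simp [h3]
  have h3 : IsClopen (f ⁻¹' {1}) := ⟨isClosed_singleton.preimage f.continuous,
    h2 ▸ (isClosed_singleton.preimage f.continuous).isOpen_compl⟩
  refine ⟨_, h3, ContinuousMap.ext fun ω => ?_⟩
  rcases h1 ω with h4 | h4
  · rw [h4, ind_of_notMem (by simp [h4])]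
  · rw [h4, ind_of_mem h3 h4]

theorem pr_proj (ι : C(Ω, ℂ) →⋆ₐ[ℂ] M) (U : Set Ω) : IsStarProjection (pr ι U) := by
  refine isStarProjection_iff'.2 ⟨?_, by rw [pr, ← map_star, star_ind]⟩
  rw [pr, ← map_mul]
  congr 1
  ext ω
  rcases indx_ind_cases U ω with h | h <;> simp [h]

theorem pr_mem (ι : C(Ω, ℂ) →⋆ₐ[ℂ] M) (U : Set Ω) : pr ι U ∈ ι.range := ⟨_, rfl⟩

theorem ι_comm (ι : C(Ω, ℂ) →⋆ₐ[ℂ] M) (f g : C(Ω, ℂ)) : ι f * ι g = ι g * ι f := by
  rw [← map_mul, ← map_mul, mul_comm]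

theorem norm_ι_le (ι : C(Ω, ℂ) →⋆ₐ[ℂ] M) (f : C(Ω, ℂ)) : ‖ι f‖ ≤ ‖f‖ :=
  NonUnitalStarAlgHom.norm_apply_le ι f

theorem indx_fib_clopen (hπ : IsLocallyConstant π) (j : J) : IsClopen (π ⁻¹' {j}) :=
  hπ.isClopen_fiber j

theorem indx_pr_mul (ι : C(Ω, ℂ) →⋆ₐ[ℂ] M) (hU : IsClopen U) (hU' : IsClopen U') :
    pr ι U * pr ι U' = pr ι (U ∩ U') := by
  rw [pr, pr, pr, ← map_mul, ind_mul hU hU']

theorem indx_pr_empty (ι : C(Ω, ℂ) →⋆ₐ[ℂ] M) : pr ι ∅ = 0 := by rw [pr, ind_empty, map_zero]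

theorem indx_sum_ind (hπ : IsLocallyConstant π) (c : J → ℂ) (ω : Ω) :
    (∑ j, c j • ind (π ⁻¹' {j})) ω = c (π ω) := by
  rw [ContinuousMap.sum_apply, sum_eq_single (π ω) (fun j _ hj => ?_) (by simp)]
  · rw [ContinuousMap.smul_apply, ind_of_mem (indx_fib_clopen hπ _) rfl, smul_eq_mul, mul_one]
  · rw [ContinuousMap.smul_apply, ind_of_notMem (U := π ⁻¹' {j}) fun h => hj h.symm, smul_zero]

theorem indx_ι_sum_ind (ι : C(Ω, ℂ) →⋆ₐ[ℂ] M) (π : Ω → J) (c : J → ℂ) :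
    ι (∑ j, c j • ind (π ⁻¹' {j})) = ∑ j, c j • ee ι π j := by
  simp only [map_sum, map_smul, ee, pr]

theorem ee_part (ι : C(Ω, ℂ) →⋆ₐ[ℂ] M) (hπ : IsLocallyConstant π) : IsPart (ee ι π) := by
  refine ⟨fun _ => pr_proj _ _, fun i j hij => ?_, ?_⟩
  · rw [ee, ee, indx_pr_mul ι (indx_fib_clopen hπ i) (indx_fib_clopen hπ j), ← indx_pr_empty ι]
    congr 1
    exact Set.eq_empty_of_forall_notMem fun ω h => hij (h.1.symm.trans h.2)
  · have h := indx_ι_sum_ind ι π fun _ => 1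
    rw [show ∑ j, (1 : ℂ) • ind (π ⁻¹' {j}) = 1 from ContinuousMap.ext (indx_sum_ind hπ fun _ => 1),
      map_one] at h
    simpa only [one_smul] using h.symm

theorem ι_lc (ι : C(Ω, ℂ) →⋆ₐ[ℂ] M) (hπ : IsLocallyConstant π) (c : J → ℂ) {f : C(Ω, ℂ)}
    (hf : ∀ ω, f ω = c (π ω)) : ι f = ∑ j, c j • ee ι π j := by
  rw [← indx_ι_sum_ind]
  congr 1
  ext ω
  rw [indx_sum_ind hπ, hf]

theorem ee_mul_pr (hπ : IsLocallyConstant π) (hU : IsClopen U)
    (h : ∀ ω ω', π ω = π ω' → ω ∈ U → ω' ∈ U) (j : J) :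
    (π ⁻¹' {j} ⊆ U ∧ ee ι π j * pr ι U = ee ι π j) ∨
      (π ⁻¹' {j} ⊆ Uᶜ ∧ ee ι π j * pr ι U = 0) := by
  rw [ee, indx_pr_mul ι (indx_fib_clopen hπ j) hU]
  by_cases h1 : π ⁻¹' {j} ⊆ U
  · exact .inl ⟨h1, congrArg _ (Set.inter_eq_left.2 h1)⟩
  · obtain ⟨ω, h2, h3⟩ := Set.not_subset.1 h1
    have h4 : π ⁻¹' {j} ⊆ Uᶜ := fun ω' h5 h6 => h3 (h ω' ω (h5.trans h2.symm) h6)
    refine .inr ⟨h4, (congrArg _ ?_).trans (indx_pr_empty ι)⟩
    exact Set.eq_empty_of_forall_notMem fun ω h => h4 h.1 h.2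

theorem pin_add (π : Ω → J) (a b : M) : pin ι π (a + b) = pin ι π a + pin ι π b := by
  simp only [pin, mul_add, add_mul, sum_add_distrib]

theorem pin_sub (π : Ω → J) (a b : M) : pin ι π (a - b) = pin ι π a - pin ι π b := by
  simp only [pin, mul_sub, sub_mul, sum_sub_distrib]

theorem pin_smul (π : Ω → J) (c : ℂ) (a : M) : pin ι π (c • a) = c • pin ι π a := by
  simp only [pin, mul_smul_comm, smul_mul_assoc, smul_sum]

theorem pin_star (π : Ω → J) (a : M) : star (pin ι π a) = pin ι π (star a) := by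
  have h : ∀ j, star (ee ι π j) = ee ι π j := fun j => (pr_proj ι _).isSelfAdjoint.star_eq
  simp only [pin, star_sum, star_mul, h, mul_assoc]

theorem indx_ee_comm (ι : C(Ω, ℂ) →⋆ₐ[ℂ] M) (π : Ω → J) (j : J) (f : C(Ω, ℂ)) :
    ee ι π j * ι f = ι f * ee ι π j := ι_comm ι _ f

theorem pin_ι (hπ : IsLocallyConstant π) (f : C(Ω, ℂ)) : pin ι π (ι f) = ι f := by
  simp only [pin, indx_ee_comm, mul_assoc, (ee_part ι hπ).idem]
  rw [← mul_sum, (ee_part ι hπ).sum, mul_one]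

theorem pin_left (π : Ω → J) (f : C(Ω, ℂ)) (a : M) : pin ι π (ι f * a) = ι f * pin ι π a := by
  simp only [pin, mul_sum, ← mul_assoc, indx_ee_comm]

theorem pin_right (π : Ω → J) (f : C(Ω, ℂ)) (a : M) : pin ι π (a * ι f) = pin ι π a * ι f := by
  simp only [pin, sum_mul, mul_assoc, indx_ee_comm]

theorem pin_pin (hπ : IsLocallyConstant π) (h₀ : IsLocallyConstant π₀) (h : Rf π π₀) (a : M) :
    pin ι π (pin ι π₀ a) = pin ι π a := by
  refine sum_congr rfl fun j _ => ?_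
  have h1 : ∀ i, ee ι π j * (ee ι π₀ i * a * ee ι π₀ i) * ee ι π j =
      ee ι π j * a * ee ι π j * ee ι π₀ i := by
    intro i
    have h2 : ee ι π₀ i * ee ι π j = ee ι π j * ee ι π₀ i := ι_comm ι _ _
    rw [← mul_assoc, ← mul_assoc, mul_assoc _ (ee ι π₀ i) (ee ι π j), h2,
      mul_assoc _ (ee ι π j) (ee ι π₀ i)]
    rcases ee_mul_pr (ι := ι) hπ (indx_fib_clopen h₀ i)
      (fun ω ω' e h3 => (h ω ω' e).symm.trans h3) j with h3 | h3
    · rw [show ee ι π j * ee ι π₀ i = ee ι π j from h3.2]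
    · rw [show ee ι π j * ee ι π₀ i = 0 from h3.2, mul_zero, mul_zero]
  rw [pin, mul_sum, sum_mul, sum_congr rfl fun i _ => h1 i, ← mul_sum, (ee_part ι h₀).sum, mul_one]

theorem ee_mul_pin (hπ : IsLocallyConstant π) (j : J) (a : M) :
    ee ι π j * pin ι π a = ee ι π j * a * ee ι π j := by
  rw [pin, mul_sum, sum_eq_single j (fun i _ hi => ?_) (by simp)]
  · rw [← mul_assoc, ← mul_assoc, (ee_part ι hπ).idem]
  · rw [← mul_assoc, ← mul_assoc, (ee_part ι hπ).orth j i hi.symm, zero_mul, zero_mul]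

theorem norm_sum_le_of_orth {e f a : J → M} (he : ∀ j, IsStarProjection (e j))
    (hf : ∀ j, IsStarProjection (f j)) (he' : ∀ i j, i ≠ j → e i * e j = 0)
    (hf' : ∀ i j, i ≠ j → f i * f j = 0) {C : ℝ} (hC : 0 ≤ C) (ha : ∀ j, ‖a j‖ ≤ C) :
    ‖∑ j, e j * a j * f j‖ ≤ C := by
  let _ := CStarAlgebra.spectralOrder M
  have _ := CStarAlgebra.spectralOrderedRing M
  have h1 : star (∑ j, e j * a j * f j) * ∑ j, e j * a j * f j =
      ∑ j, star (f j) * (star (e j * a j) * (e j * a j)) * f j := by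
    rw [star_sum, sum_mul]
    refine sum_congr rfl fun i _ => ?_
    rw [mul_sum, sum_eq_single i (fun j _ hj => ?_) (by simp)]
    · simp only [star_mul, mul_assoc]
    · simp only [star_mul, (he i).isSelfAdjoint.star_eq, mul_assoc]
      rw [← mul_assoc (e i), he' i j hj.symm, zero_mul, mul_zero, mul_zero]
  have h2 : ∀ j, star (f j) * (star (e j * a j) * (e j * a j)) * f j ≤ C ^ 2 • f j := by
    intro j
    refine (CStarAlgebra.star_left_conjugate_le_norm_smul (IsSelfAdjoint.star_mul_self _)).trans ?_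
    rw [(hf j).isSelfAdjoint.star_eq, (hf j).isIdempotentElem.eq, CStarRing.norm_star_mul_self,
      ← sq]
    refine smul_le_smul_of_nonneg_right (pow_le_pow_left₀ (norm_nonneg _) ?_ 2) (hf j).nonneg
    exact (norm_mul_le _ _).trans
      ((mul_le_of_le_one_left (norm_nonneg _) (he j).norm_le).trans (ha j))
  have h3 : IsStarProjection (∑ j, f j) := by
    refine isStarProjection_iff'.2 ⟨?_, by
      simp only [star_sum, fun j => (hf j).isSelfAdjoint.star_eq]⟩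
    rw [sum_mul]
    refine sum_congr rfl fun i _ => ?_
    rw [mul_sum, sum_eq_single i (fun j _ hj => hf' i j hj.symm) (by simp),
      (hf i).isIdempotentElem.eq]
  have h4 := CStarAlgebra.norm_le_norm_of_nonneg_of_le (star_mul_self_nonneg _)
    (h1.le.trans (sum_le_sum fun j _ => h2 j))
  rw [CStarRing.norm_star_mul_self, ← smul_sum, norm_smul, Real.norm_of_nonneg (sq_nonneg C),
    ← sq] at h4
  exact (pow_le_pow_iff_left₀ (norm_nonneg _) hC two_ne_zero).1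
    (h4.trans (mul_le_of_le_one_right (sq_nonneg C) h3.norm_le))

theorem norm_pin_le (π : Ω → J) (hπ : IsLocallyConstant π) (a : M) : ‖pin ι π a‖ ≤ ‖a‖ :=
  norm_sum_le_of_orth (a := fun _ => a) (ee_part ι hπ).proj (ee_part ι hπ).proj (ee_part ι hπ).orth
    (ee_part ι hπ).orth (norm_nonneg a) fun _ => le_rfl

theorem comm_of_clopen {m : M} (h : ∀ U, IsClopen U → pr ι U * m = m * pr ι U) (f : C(Ω, ℂ)) :
    ι f * m = m * ι f := by
  have h0 : Continuous ι := AddMonoidHomClass.continuous_of_bound ι 1 fun g => by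
    simpa only [one_mul] using norm_ι_le ι g
  have h1 : IsClosed {g : C(Ω, ℂ) | ι g * m = m * ι g} :=
    isClosed_eq (h0.mul continuous_const) (continuous_const.mul h0)
  refine h1.closure_subset (Metric.mem_closure_iff.2 fun ε hε => ?_)
  obtain ⟨n, π, c, hπ, hc⟩ := exists_lc_near f (half_pos hε)
  refine ⟨∑ j, c j • ind (π ⁻¹' {j}), ?_, ?_⟩
  · change ι _ * m = m * ι _
    rw [indx_ι_sum_ind, sum_mul, mul_sum]
    refine sum_congr rfl fun j _ => ?_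
    rw [smul_mul_assoc, mul_smul_comm, ee, h _ (indx_fib_clopen hπ j)]
  · refine lt_of_le_of_lt ((ContinuousMap.dist_le (half_pos hε).le).2 fun ω => ?_)
      (half_lt_self hε)
    rw [indx_sum_ind hπ, dist_eq_norm]
    exact hc ω

theorem exists_Pt (hπ : IsLocallyConstant π) : ∃ P : Pt Ω, Rf P.π π ∧ Rf π P.π :=
  ⟨⟨Fintype.card J, fun ω => Fintype.equivFin J (π ω), hπ.comp _⟩,
    fun _ _ e => (Fintype.equivFin J).injective e, fun _ _ e => congrArg (Fintype.equivFin J) e⟩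

theorem eventually_Rf (hπ : IsLocallyConstant π) :
    ∀ᶠ P : Pt Ω in (UU Ω : Filter (Pt Ω)), Rf P.π π := by
  obtain ⟨P, h, -⟩ := exists_Pt hπ
  exact ((eventually_ge_atTop P).filter_mono (Ultrafilter.of_le _)).mono
    fun Q hQ ω ω' e => h ω ω' (hQ ω ω' e)

theorem exists_sqrt {f : C(Ω, ℂ)} (h : ∀ ω, 0 ≤ f ω) :
    ∃ g : C(Ω, ℂ), star g = g ∧ g * g = f ∧ ∀ ω, 0 ≤ g ω := by
  refine ⟨⟨fun ω => (√(f ω).re : ℝ), by fun_prop⟩, ?_, ?_, fun ω => ?_⟩
  · ext ω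
    simp
  · ext ω
    have h1 := Complex.nonneg_iff.1 (h ω)
    change ((√(f ω).re : ℝ) : ℂ) * (√(f ω).re : ℝ) = f ω
    rw [← Complex.ofReal_mul, Real.mul_self_sqrt h1.1]
    exact Complex.ext rfl h1.2
  · exact Complex.zero_le_real.2 (Real.sqrt_nonneg _)

theorem Sys.masa' (h : Sys ι ρ E) : Masa ι.range := by
  refine fun m => ⟨?_, fun hm => h.masa m fun U _ => hm _ (pr_mem ι U)⟩
  rintro ⟨f, rfl⟩ _ ⟨g, rfl⟩
  exact ι_comm ι g f

theorem Sys.norm_ι (h : Sys ι ρ E) (f : C(Ω, ℂ)) : ‖ι f‖ = ‖f‖ :=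
  NonUnitalStarAlgHom.norm_map ι h.inj f

theorem Sys.E_pin (h : Sys ι ρ E) (hπ : IsLocallyConstant π) (a : M) : E (pin ι π a) = E a := by
  have h1 : ∀ j, E (ee ι π j * a * ee ι π j) = E (ee ι π j * a) := fun j => by
    rw [ee, pr, h.right, h.left, mul_right_comm, ind_mul (indx_fib_clopen hπ j) (indx_fib_clopen hπ j),
      Set.inter_self]
  rw [pin, map_sum, sum_congr rfl fun j _ => h1 j, ← map_sum, ← sum_mul, (ee_part ι hπ).sum,
    one_mul]

theorem Sys.ι_E (h : Sys ι ρ E) {a : M} (ha : a ∈ ι.range) : ι (E a) = a := by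
  obtain ⟨f, rfl⟩ := ha
  exact congrArg ι (h.fix f)

theorem Sys.mem_of_WL (h : Sys ι ρ E) {κ : Type*} {l : Filter κ} [l.NeBot] {a : κ → M} {x : M}
    (ha : ∀ᶠ i in l, a i ∈ ι.range) (hx : WL ρ l a x) : x ∈ ι.range :=
  h.masa x fun U _ => (hx.const_mul _).unique h.vn (hx.mul_const _)
    (ha.mono fun _ hi => (h.masa' _).1 hi _ (pr_mem ι U))

theorem Sys.nonneg_iff [PartialOrder M] [StarOrderedRing M] (h : Sys ι ρ E) (f : C(Ω, ℂ)) :
    0 ≤ ι f ↔ ∀ ω, 0 ≤ f ω := by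
  refine ⟨fun hf ω => ?_, fun hf => ?_⟩
  · obtain ⟨b, hb⟩ := CStarAlgebra.nonneg_iff_eq_star_mul_self.1 hf
    have h1 := h.pos b ω
    rwa [← hb, h.fix] at h1
  · obtain ⟨g, h1, h2, -⟩ := exists_sqrt hf
    have h3 := star_mul_self_nonneg (ι g)
    rwa [← map_star, h1, ← map_mul, h2] at h3

theorem Sys.pos' [PartialOrder M] [StarOrderedRing M] (h : Sys ι ρ E) {m : M} (hm : 0 ≤ m) (ω : Ω) :
    0 ≤ E m ω := by
  obtain ⟨b, rfl⟩ := CStarAlgebra.nonneg_iff_eq_star_mul_self.1 hm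
  exact h.pos b ω

theorem WL.nonneg [PartialOrder M] [StarOrderedRing M] (h : IsVN ρ) {κ : Type*} {l : Filter κ}
    [l.NeBot] {a : κ → M} {x : M} (ha : ∀ᶠ i in l, 0 ≤ a i) (hx : WL ρ l a x) : 0 ≤ x :=
  h.nonneg_of (hx.star.unique h hx (ha.mono fun _ hi => hi.isSelfAdjoint.star_eq)) fun ξ =>
    ge_of_tendsto (hx.vf ξ) (ha.mono fun _ hi => vf_nonneg ξ hi)

end Vale.Agent.P078
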