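import Vale.Agent.P078.MDefs

/-! The data from which the local matrices are built. -/

set_option linter.unusedSectionVars false

namespace Vale.Agent.P078

open Filter Topology Finset Vale.Agent.P104 Vale.Agent.P082
open scoped InnerProductSpace ComplexOrder ComplexConjugate

universe u v

variable {G : Type u} [NormedAddCommGroup G] [InnerProductSpace ℂ G] [CompleteSpace G]
  {M : Type u} [CStarAlgebra M] {ρ : M →⋆ₐ[ℂ] (G →L[ℂ] G)}
  {Ω : Type u} [TopologicalSpace Ω] [CompactSpace Ω] [T2Space Ω] [TotallyDisconnectedSpace Ω]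
  {ι : C(Ω, ℂ) →⋆ₐ[ℂ] M} {E : M →ₗ[ℂ] C(Ω, ℂ)} {ξ : G}

variable (ι ρ E ξ) in
/-- Generators, a separating partition and the action on points. -/
structure Dat (Γ I : Type) [Fintype Γ] where
  act : M → Ω → Ω
  DD : M → C(Ω, ℂ)
  gv : Γ → M
  bar : Γ → Γ
  co : Γ → ℂ
  L : ℝ
  cell : Ω → I
  R : ℕ
  sys : Sys ι ρ E
  cen : Cen ρ ι.range ξ
  germ : Germ ι ρ E ξ act DD
  one_le : 1 ≤ L
  gb : ∀ g, Gb ι ρ ξ L (gv g)
  gv_bar : ∀ g, gv (bar g) = star (gv g)
  sa : star (∑ g, co g • gv g) = ∑ g, co g • gv g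
  norm_le : ‖∑ g, co g • gv g‖ ≤ 1
  zero : E (∑ g, co g • gv g) = 0
  lc : IsLocallyConstant cell
  sep : Sep ι gv cell (2 * R + 2)

namespace Dat

variable {Γ I : Type} [Fintype Γ] (D : Dat ρ ι E ξ Γ I)

/-- The element to be paved. -/
noncomputable def n : M := ∑ g, D.co g • D.gv g

/-- The word `l` is defined at `ω` and moves it to the cell `a`. -/
def Hit (ω : Ω) (a : I) (l : List Γ) : Prop :=
  Val E (wd D.gv l) ω ∧ D.cell (D.act (wd D.gv l) ω) = a

open Classical in
/-- The distance from a point to a cell, cut at `R + 1`. -/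
noncomputable def d (ω : Ω) (a : I) : ℕ :=
  if h : ∃ k, k ≤ D.R ∧ ∃ l : List Γ, l.length = k ∧ D.Hit ω a l then Nat.find h else D.R + 1

/-- A shortest word. -/
noncomputable def wl (ω : Ω) (a : I) : List Γ :=
  Classical.epsilon fun l => l.length ≤ D.R ∧ l.length = D.d ω a ∧ D.Hit ω a l

/-- The basis vector of a cell. -/
noncomputable def ww (ω : Ω) (a : I) : M := if D.d ω a ≤ D.R then wd D.gv (D.wl ω a) else 0

/-- The point of a cell seen from `ω`. -/
noncomputable def pt (ω : Ω) (a : I) : Ω :=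
  if D.d ω a ≤ D.R then D.act (wd D.gv (D.wl ω a)) ω else ω

/-- The local matrix. -/
noncomputable def X (ω : Ω) : Matrix I I ℂ :=
  Matrix.of fun a b => ip E ω (D.ww ω a) (D.n * D.ww ω b)

/-- The local weights. -/
noncomputable def W (ω : Ω) (a : I) : ℝ :=
  if D.d ω a ≤ D.R then (D.DD (wd D.gv (D.wl ω a)) ω).re else 1

end Dat

end Vale.Agent.P078
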