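import Vale.Agent.P078.FFb
import Vale.Agent.P078.Top

/-! The potential of a system of local matrices. -/

set_option linter.unusedSectionVars false

namespace Vale.Agent.P078

open Finset Polynomial MeasureTheory Filter Topology
open scoped ComplexConjugate Matrix

variable {Ω : Type*} [TopologicalSpace Ω] [CompactSpace Ω] [MeasurableSpace Ω] [BorelSpace Ω]
  {μ : Measure Ω} [IsProbabilityMeasure μ] {I : Type} [Fintype I] [DecidableEq I] {R N r : ℕ}
  {L t : ℝ} {P : ℝ[X]}

namespace LocSys

variable (S : LocSys Ω μ I R N L)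

/-- The system with the opposite matrices. -/
def neg : LocSys Ω μ I R N L :=
  { S with
    X := fun ω => -S.X ω
    X_cont := S.X_cont.neg
    adm := fun ω => (S.adm ω).neg
    lip := fun ω a b h => S.lip ω a b fun h0 => h (by simp [h0])
    gauge := fun ω a => (S.gauge ω a).imp fun g hg =>
      ⟨hg.1, fun b b' h h' => by simp [hg.2 b b' h h']⟩ }

/-- The state seen from a point. -/
def ls (st : Ω → Option (Fin r)) (ω : Ω) (a : I) : Option (Fin r) := st (S.pt ω a)

/-- The potential at a point. -/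
noncomputable def F (t : ℝ) (P : ℝ[X]) (st : Ω → Option (Fin r)) (ω : Ω) : ℝ :=
  FF t P (S.X ω) (S.ls st ω) (S.W ω) (S.cell ω)

/-- The change of the total potential of the matrix at `ω` when the centre is coloured. -/
noncomputable def De (t : ℝ) (P : ℝ[X]) (st : Ω → Option (Fin r)) (c : Fin r) (ω : Ω) : ℝ :=
  ∑ y, FF t P (S.X ω) (Function.update (S.ls st ω) (S.cell ω) (some c)) (S.W ω) y -
    ∑ y, FF t P (S.X ω) (S.ls st ω) (S.W ω) y

theorem ls_lc {st : Ω → Option (Fin r)} (hst : IsLocallyConstant st) :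
    IsLocallyConstant (S.ls st) :=
  lc_pi fun a => hst.comp_continuous (S.pt_cont a)

theorem locf_int {f : Ω → ℝ} (hf : Continuous f) : Integrable f μ :=
  hf.integrable_of_hasCompactSupport (HasCompactSupport.of_compactSpace f)

theorem ite_cont (i a : I) (k : ℕ) {f : Ω → ℝ} (hf : Continuous f) :
    Continuous fun ω => if S.cell ω = i ∧ S.d ω a ≤ k then f ω else 0 :=
  continuous_glue (S.cell_lc.prodMk S.d_lc)
    (G := fun δ ω => if δ.1 = i ∧ δ.2 a ≤ k then f ω else 0) fun δ => by
      split_ifs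
      · exact hf
      · exact continuous_const

theorem shift_cont (a : I) {f : Ω → ℝ} (hf : Continuous f) :
    Continuous fun ω => S.W ω a * f (S.pt ω a) :=
  ((continuous_apply a).comp S.W_cont).mul (hf.comp (S.pt_cont a))

theorem F_cont (hr : 0 < r) (ht : 0 < t) (hP : Polynomial.X ^ 2 ∣ P) {st : Ω → Option (Fin r)}
    (hst : IsLocallyConstant st) : Continuous (S.F t P st) :=
  continuous_glue ((S.ls_lc hst).prodMk S.cell_lc)
    (G := fun δ ω => FF t P (S.X ω) δ.1 (S.W ω) δ.2) fun δ =>
      FF_cont hr ht hP S.X_cont S.W_cont S.adm S.W_pos δ.1 δ.2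

theorem De_cont (hr : 0 < r) (ht : 0 < t) (hP : Polynomial.X ^ 2 ∣ P) {st : Ω → Option (Fin r)}
    (hst : IsLocallyConstant st) (c : Fin r) : Continuous (S.De t P st c) :=
  continuous_glue ((S.ls_lc hst).prodMk S.cell_lc)
    (G := fun δ ω => ∑ y, FF t P (S.X ω) (Function.update δ.1 δ.2 (some c)) (S.W ω) y -
      ∑ y, FF t P (S.X ω) δ.1 (S.W ω) y) fun δ =>
      (continuous_finsetSum _ fun y _ =>
        FF_cont hr ht hP S.X_cont S.W_cont S.adm S.W_pos _ y).sub
      (continuous_finsetSum _ fun y _ => FF_cont hr ht hP S.X_cont S.W_cont S.adm S.W_pos _ y)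

theorem F_shift (hr : 0 < r) {K : ℕ} (hK : P.natDegree ≤ K) (st : Ω → Option (Fin r)) {ω : Ω}
    {a : I} (ha : 2 * S.d ω a + K + 1 ≤ R) {s : I → Option (Fin r)}
    (hs : ∀ b, S.d ω b ≤ R → s b = S.ls st ω b) :
    S.W ω a * S.F t P st (S.pt ω a) = FF t P (S.X ω) s (S.W ω) a := by
  obtain ⟨y, hy⟩ : ∃ y, y = S.pt ω a := ⟨_, rfl⟩
  have hc : S.cell y = a := hy ▸ S.cell_pt ω a (by omega)
  have htri := S.tri ω a
  have hsym := S.symm ω a (by omega)
  obtain ⟨g, hg1, hg⟩ := S.gauge ω a
  rw [← hy] at htri hsym hg ⊢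
  have hback : S.pt y (S.cell ω) = ω := by
    rw [← (htri _ (by omega)).2.1, S.pt_self]
  obtain ⟨g', hg1', hg'⟩ := S.gauge y (S.cell ω)
  rw [hback] at hg'
  unfold F
  rw [hc, ← FF_scale t P _ _ _ _ (S.W_pos ω a)]
  symm
  refine FF_local hr (S.adm ω).herm (S.adm y).herm t (fun b => min (K + 1) (S.d y b))
    (fun b b' h => ?_) (fun b b' h => ?_) ?_ hK hg1 (fun b b' h h' => ?_) fun b h => ?_
  · by_cases hb : S.d y b ≤ K
    · have h1 := (htri b (by omega)).1
      have h2 := S.lip ω b b' h
      have h3 := hg' b b' (by omega) (by omega)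
      have h4 : S.X y b b' ≠ 0 := by
        rw [h3]
        refine mul_ne_zero (mul_ne_zero ?_ h) ?_
        · rw [_root_.map_ne_zero, ← norm_ne_zero_iff, hg1']; exact one_ne_zero
        · rw [← norm_ne_zero_iff, hg1']; exact one_ne_zero
      have := S.lip y b b' h4
      omega
    · omega
  · have := S.lip y b b' h
    omega
  · rw [(S.d_zero y a).2 hc.symm]
    simp
  · exact hg b b' (by omega) (by omega)
  · obtain ⟨h1, h2, h3⟩ := htri b (by omega)
    refine ⟨?_, h3⟩
    rw [hs b (by omega)]
    unfold ls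
    rw [h2]

theorem integral_ball (hr : 0 < r) (ht : 0 < t) {γ : ℝ} {ζ : ℂ} (hP : GoodP t γ ζ P) {k : ℕ}
    (hR : 2 * k + P.natDegree + 1 ≤ R) {st : Ω → Option (Fin r)} (hst : IsLocallyConstant st) :
    Continuous (fun ω => ∑ a with S.d ω a ≤ k, FF t P (S.X ω) (S.ls st ω) (S.W ω) a) ∧
    ∫ ω, ∑ a with S.d ω a ≤ k, FF t P (S.X ω) (S.ls st ω) (S.W ω) a ∂μ ≤
      N ^ k * ∫ ω, S.F t P st ω ∂μ := by
  have hF := S.F_cont hr ht hP.dvd hst
  refine ⟨continuous_glue ((S.ls_lc hst).prodMk S.d_lc)
    (G := fun δ ω => ∑ a with δ.2 a ≤ k, FF t P (S.X ω) δ.1 (S.W ω) a) fun δ =>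
      continuous_finsetSum _ fun y _ => FF_cont hr ht hP.dvd S.X_cont S.W_cont S.adm S.W_pos _ y,
    ?_⟩
  have e1 : ∀ ω, ∑ a with S.d ω a ≤ k, FF t P (S.X ω) (S.ls st ω) (S.W ω) a =
      ∑ a, ∑ i, if S.cell ω = i ∧ S.d ω a ≤ k then S.W ω a * S.F t P st (S.pt ω a) else 0 := by
    intro ω
    rw [sum_filter]
    refine sum_congr rfl fun a _ => ?_
    rw [sum_eq_single (S.cell ω) (fun i _ h => if_neg fun h' => h h'.1.symm)
      fun h => absurd (mem_univ _) h]
    by_cases h : S.d ω a ≤ k
    · rw [if_pos h, if_pos ⟨rfl, h⟩, S.F_shift hr le_rfl st (by omega) fun _ _ => rfl]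
    · rw [if_neg h, if_neg fun h' => h h'.2]
  have e2 : ∀ y, ∑ a, ∑ i, (if S.cell y = a ∧ S.d y i ≤ k then S.F t P st y else 0) ≤
      N ^ k * S.F t P st y := by
    intro y
    rw [sum_eq_single (S.cell y) (fun a _ h => sum_eq_zero fun i _ => if_neg fun h' => h h'.1.symm)
      fun h => absurd (mem_univ _) h]
    simp only [true_and]
    rw [← sum_filter, sum_const, nsmul_eq_mul]
    refine mul_le_mul_of_nonneg_right ?_ (FF_nonneg hr (S.adm y) ht hP _ (S.W_pos y) _)
    exact_mod_cast S.card y k (by omega)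
  simp only [e1]
  rw [integral_finsetSum _ fun a _ => integrable_finsetSum _ fun i _ =>
    locf_int (S.ite_cont i a k (S.shift_cont a hF))]
  rw [sum_congr rfl fun a _ => by
    rw [integral_finsetSum _ fun i _ => locf_int (S.ite_cont i a k (S.shift_cont a hF)),
      sum_congr rfl fun i _ => S.mt a i k _ (by omega) hF,
      ← integral_finsetSum _ fun i _ => locf_int (S.ite_cont a i k hF)]]
  rw [← integral_finsetSum _ fun a _ => integrable_finsetSum _ fun i _ =>
    locf_int (S.ite_cont a i k hF), ← integral_const_mul]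
  exact integral_mono (integrable_finsetSum _ fun a _ => integrable_finsetSum _ fun i _ =>
    locf_int (S.ite_cont a i k hF)) ((locf_int hF).const_mul _) e2

theorem round (hr : 0 < r) (ht : 0 < t) (hP : Polynomial.X ^ 2 ∣ P)
    (hR : 3 * P.natDegree + 1 ≤ R) {st : Ω → Option (Fin r)} (hst : IsLocallyConstant st) (i : I)
    {col : Ω → Fin r} (hcol : IsLocallyConstant col) :
    ∫ ω, S.F t P (fun ω => if S.cell ω = i then some (col ω) else st ω) ω ∂μ =
      ∫ ω, S.F t P st ω ∂μ + ∫ ω, (if S.cell ω = i then S.De t P st (col ω) ω else 0) ∂μ := by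
  obtain ⟨K, hK⟩ : ∃ K, K = P.natDegree := ⟨_, rfl⟩
  obtain ⟨st', hst'⟩ : ∃ st' : Ω → Option (Fin r),
      st' = fun ω => if S.cell ω = i then some (col ω) else st ω := ⟨_, rfl⟩
  have hlc : IsLocallyConstant st' := by
    rw [hst']
    exact ((S.cell_lc.prodMk hcol).prodMk hst).comp
      fun δ => if δ.1.1 = i then some δ.1.2 else δ.2
  rw [← hst']
  have hF := S.F_cont hr ht hP hst
  have hF' := S.F_cont hr ht hP hlc
  have hf : Continuous fun ω => S.F t P st' ω - S.F t P st ω := hF'.sub hF
  have e1 : ∀ y, S.F t P st' y - S.F t P st y =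
      ∑ a, if S.cell y = a ∧ S.d y i ≤ K then S.F t P st' y - S.F t P st y else 0 := by
    intro y
    rw [sum_eq_single (S.cell y) (fun a _ h => if_neg fun h' => h h'.1.symm)
      fun h => absurd (mem_univ _) h]
    split_ifs with h
    · rfl
    · rw [sub_eq_zero]
      have hi : K < S.d y i := by simpa using h
      refine FF_local hr (S.adm y).herm (S.adm y).herm t (S.d y) (S.lip y) (S.lip y)
        ((S.d_zero y _).2 rfl) hK.ge (g := fun _ => 1) (by simp) (by simp) fun a ha => ⟨?_, rfl⟩
      unfold ls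
      rw [hst']
      refine if_neg ?_
      rw [S.cell_pt y a (by omega)]
      rintro rfl
      omega
  have e2 : ∀ ω, ∑ a, (if S.cell ω = i ∧ S.d ω a ≤ K then
      S.W ω a * (S.F t P st' (S.pt ω a) - S.F t P st (S.pt ω a)) else 0) =
      if S.cell ω = i then S.De t P st (col ω) ω else 0 := by
    intro ω
    split_ifs with h
    · unfold De
      rw [← sum_sub_distrib]
      refine sum_congr rfl fun a _ => ?_
      split_ifs with ha
      · rw [mul_sub, S.F_shift hr hK.ge st (by omega) fun _ _ => rfl,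
          S.F_shift hr hK.ge st' (by omega)
            (s := Function.update (S.ls st ω) (S.cell ω) (some (col ω))) fun b hb => ?_]
        unfold ls
        rw [hst']
        by_cases hb' : b = S.cell ω
        · subst hb'
          simp only [Function.update_self, S.pt_self, if_pos h]
        · rw [Function.update_of_ne hb']
          refine (if_neg ?_).symm
          rw [S.cell_pt ω b hb, ← h]
          exact hb'
      · symm
        rw [sub_eq_zero]
        have hi : K < S.d ω a := by simpa [h] using ha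
        have hl : ∀ b b', S.X ω b b' ≠ 0 →
            Nat.dist (S.d ω a) (S.d ω b') ≤ Nat.dist (S.d ω a) (S.d ω b) + 1 := by
          intro b b' hb
          have h1 := S.lip ω b b' hb
          have h2 := S.lip ω b' b fun h0 => hb (by
            rw [← (S.adm ω).herm.apply b b', h0, star_zero])
          unfold Nat.dist
          omega
        refine FF_local hr (S.adm ω).herm (S.adm ω).herm t
          (fun b => Nat.dist (S.d ω a) (S.d ω b)) hl hl (Nat.dist_self _) hK.ge
          (g := fun _ => 1) (by simp) (by simp) fun b hb => ⟨Function.update_of_ne ?_ _ _, rfl⟩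
        rintro rfl
        rw [(S.d_zero ω _).2 rfl] at hb
        unfold Nat.dist at hb
        omega
    · exact sum_eq_zero fun a _ => if_neg fun h' => h h'.1
  rw [← sub_eq_iff_eq_add', ← integral_sub (locf_int hF') (locf_int hF),
    integral_congr_ae (Eventually.of_forall e1),
    integral_finsetSum _ fun a _ => locf_int (S.ite_cont a i K hf),
    ← sum_congr rfl fun a _ => S.mt a i K _ (by omega) hf,
    ← integral_finsetSum _ fun a _ => locf_int (S.ite_cont i a K (S.shift_cont a hf))]
  simp only [e2]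

end LocSys

end Vale.Agent.P078
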