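import Vale.Agent.P078.Imag
import Vale.Agent.P078.Deform
import Vale.Agent.P078.FFa

/-! The step lemma for the local potential. -/

set_option linter.unusedSectionVars false

namespace Vale.Agent.P078

open Finset Polynomial MeasureTheory Complex Filter Topology
open scoped ComplexConjugate Matrix

variable {V : Type} [Fintype V] [DecidableEq V] {r : ℕ}

theorem cf_update (hr : 0 < r) (X : Matrix V V ℂ) (s : V → Option (Fin r)) {x : V}
    (o : Option (Fin r)) {T S : Finset V} (hS : S ⊆ T.erase x) :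
    cf X (Function.update s x o) S = cf X s S :=
  cf_congr hr (g := fun _ => 1) (fun _ => norm_one) (fun _ _ _ _ => by simp)
    fun _ ha => Function.update_of_ne (ne_of_mem_erase (hS ha)) ..

theorem Sf_avg (hr : 0 < r) (X : Matrix V V ℂ) {s : V → Option (Fin r)} {x : V} (hx : s x = none)
    (T : Finset V) (β : V → ℂ) : Sf (cf X s) T x β =
      (∑ i, Sf (cf X (Function.update s x (some i))) T x β) / r := by
  have h : ∀ i, NC (cf X (Function.update s x (some i))) (T.erase x) β =
      NC (cf X s) (T.erase x) β := fun i =>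
    sum_congr rfl fun S hS => by simp only [cf_update hr X s _ (mem_powerset.1 hS)]
  simp only [Sf, h]
  rw [← sum_div, div_right_comm, sum_neg_distrib, sum_comm, neg_div (r : ℂ), sum_div]
  congr 2
  refine sum_congr rfl fun S _ => ?_
  rw [cf_avg hx, ← sum_mul]
  push_cast
  ring

theorem step_err (hr : 0 < r) {t L γ : ℝ} (ht : 0 < t) (hL : 1 ≤ L) {ζ : ℂ} {P : ℝ[X]}
    (hP : GoodP t γ ζ P) {X : Matrix V V ℂ} (s : V → Option (Fin r)) {W : V → ℝ} {x : V}
    (hX : Adm X) (hW : ∀ v, 0 < W v) (hx : W x = 1) (hn : ∀ v, X x v ≠ 0 → W v ≤ L) :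
    |∑ y, FF t P X s W y - (∫ σ in Set.Ioi (0 : ℝ),
        ∑ y ∈ univ.erase x, pair P (ratio (cf X s) (univ.erase x) y (al t s W σ))) -
      II (ζ * t) fun y => (Sf (cf X s) univ x
        fun v => ((kap (s v) : ℂ) * (ζ * t + y * I / W v))⁻¹) / kap (s x)| ≤ γ * L / t := by
  obtain ⟨h1, h2⟩ := ray_eq (hX.stab hr s) (mem_univ x) (fun v => one_le_kap (s v)) hW hx ht
    hP.norm hP.im
  have h3 := fun (T : Finset V) => integrable_finsetSum T fun y (hy : y ∈ T) =>
    FF_integrable hr hX ht hP.dvd s hW hy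
  obtain ⟨h4, h5⟩ := integral_inv_sq ht
  simp only [FF]
  rw [← h2, ← integral_finsetSum _ fun y hy => FF_integrable hr hX ht hP.dvd s hW hy,
    ← integral_sub (h3 _) (h3 _), ← integral_sub ((h3 _).sub' (h3 _)) h1, ← Real.norm_eq_abs,
    div_eq_mul_one_div, ← h5, ← integral_const_mul]
  refine norm_integral_le_of_norm_le (h4.const_mul _)
    ((ae_restrict_mem measurableSet_Ioi).mono fun σ hσ => ?_)
  refine ((hX.stab hr s).deform hP ht (mem_univ x) fun v _ => al_bounds ht s hW hσ v).trans ?_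
  rw [mul_assoc, mul_one_div]
  exact mul_le_mul_of_nonneg_left (al_mass hr hX ht s hW univ hL hx hn hσ) (hP.im.le.trans hP.im')

theorem step (hr : 0 < r) {t L η : ℝ} (ht : 0 < t) (hL : 1 ≤ L) (hη : 0 < η) :
    ∃ γ₀ : ℝ, 0 < γ₀ ∧ ∀ (γ : ℝ) (ζ : ℂ) (P : ℝ[X]), γ ≤ γ₀ → GoodP t γ ζ P →
      ∀ (V : Type) [Fintype V] [DecidableEq V] (X : Matrix V V ℂ) (s : V → Option (Fin r))
        (W : V → ℝ) (x : V), Adm X → s x = none → (∀ v, 0 < W v) → W x = 1 →
        (∀ v, X x v ≠ 0 → W v ≤ L) →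
        4 * (univ.filter fun i => ∑ y, FF t P X s W y + η <
          ∑ y, FF t P X (Function.update s x (some i)) W y).card ≤ r := by
  have h5 : 0 < η / 5 := by positivity
  obtain ⟨β₀, hβ₀, hβ⟩ := II_own (t₀ := 9 / 10 * t) (m := L) (by positivity) h5
  refine ⟨min (β₀ / t) (η / 5 * t / L), by positivity, ?_⟩
  intro γ ζ P hγ hP V _ _ X s W x hX hs hW hx hn
  obtain ⟨g1, g2⟩ := le_min_iff.1 hγ
  have g3 : γ * L / t ≤ η / 5 := by rwa [div_le_iff₀ ht, ← le_div_iff₀ (by linarith)]
  have g4 : ζ.im * t ≤ β₀ := (le_div_iff₀ ht).1 (hP.im'.trans g1)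
  have g5 : 9 / 10 * t ≤ ζ.re * t := mul_le_mul_of_nonneg_right hP.re ht.le
  have g6 : 0 < ζ.im * t := mul_pos hP.im ht
  have e : ζ * t = (ζ.re * t : ℝ) + (ζ.im * t : ℝ) * I := by apply Complex.ext <;> simp
  have hc := fun i => hX.stab hr (Function.update s x (some i))
  have tm := fun i => ((hc i).tame (mem_univ x) (fun v => one_le_kap (s v)) hW
    (l := fun _ => (ζ.re * t : ℝ) + (ζ.im * t : ℝ) * I) continuousOn_const
    fun _ _ => by simpa using g6.le).mono (ms_cf_le hr hX _ _ _ (by linarith) hn)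
  have a0 := abs_le.1 ((step_err hr ht hL hP s hX hW hx hn).trans g3)
  have b0 := abs_le.1 (hβ _ _ g5 g6.le g4 _ (Tame.avg hr tm))
  simp only [Sf_avg hr X hs, hs, e, show kap (none : Option (Fin r)) = 1 from rfl, ofReal_one,
    div_one] at a0
  refine (Nat.mul_le_mul_left _ (card_le_card fun i hi => ?_)).trans
    (imag_step hr hc (mem_univ x) (fun v => one_le_kap (s v)) hW
      (t := ζ.re * t) (by linarith) g6 h5)
  rw [mem_filter] at hi ⊢
  have a1 := abs_le.1 ((step_err hr ht hL hP (Function.update s x (some i)) hX hW hx hn).trans g3)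
  have b1 := abs_le.1 (hβ _ _ g5 g6.le g4 _ ((tm i).div (a := 32) (by norm_num)))
  have e1 : ∀ σ y, ratio (cf X (Function.update s x (some i))) (univ.erase x) y
      (al t (Function.update s x (some i)) W σ) = ratio (cf X s) (univ.erase x) y (al t s W σ) :=
    fun σ y => ratio_congr y (fun S hS => cf_update hr X s _ hS) fun v hv => by
      rw [al, al, Function.update_of_ne (ne_of_mem_erase hv)]
  have e2 : ∀ u : V → ℂ, (Sf (cf X (Function.update s x (some i))) univ x
      fun v => ((kap (Function.update s x (some i) v) : ℂ) * u v)⁻¹) =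
      Sf (cf X (Function.update s x (some i))) univ x fun v => ((kap (s v) : ℂ) * u v)⁻¹ :=
    fun u => Sf_congr fun v hv => by rw [Function.update_of_ne (ne_of_mem_erase hv)]
  simp only [e1, e2, e, Function.update_self, show kap (some i) = 32 from rfl] at a1
  simp only [ofReal_ofNat] at a1 b1
  exact ⟨hi.1, by linarith [hi.2, a0.1, a1.2, b0.1, b1.2]⟩

end Vale.Agent.P078
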