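import Vale.Agent.P078.Rounds
import Vale.Agent.P078.Final
import Vale.Agent.P078.LocF
import Vale.Agent.P078.Step

/-! The local form of the paving theorem. -/

set_option linter.unusedSectionVars false

namespace Vale.Agent.P078

open Finset Polynomial MeasureTheory Filter Topology
open scoped ComplexConjugate Matrix

universe u

section Aux

variable {Ω : Type*} [TopologicalSpace Ω] [CompactSpace Ω] [MeasurableSpace Ω] [BorelSpace Ω]
  {μ : Measure Ω} [IsProbabilityMeasure μ] {I : Type} [Fintype I] [DecidableEq I] {R N r : ℕ}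
  {L t γ : ℝ} {ζ : ℂ} {P : ℝ[X]}

theorem lks_int {f : Ω → ℝ} (hf : Continuous f) : Integrable f μ :=
  hf.integrable_of_hasCompactSupport (HasCompactSupport.of_compactSpace f)

theorem lks_nbr (S : LocSys Ω μ I R N L) (hL : 1 ≤ L) (hR : 1 ≤ R) (ω : Ω) (v : I)
    (h : S.X ω (S.cell ω) v ≠ 0) : S.W ω v ≤ L := by
  have h1 := S.lip ω _ _ h
  rw [(S.d_zero ω _).2 rfl] at h1
  refine (S.W_le ω v (by omega)).trans ?_
  simpa using pow_le_pow_right₀ hL (show S.d ω v ≤ 1 by omega)

theorem lks_init (S : LocSys Ω μ I R N L) (hL : 1 ≤ L) (hR : 1 ≤ R) (hr : 4 ≤ r) (ht0 : 0 < t)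
    (ht : 8 / √r ≤ t) (hP : GoodP t γ ζ P) :
    ∫ ω, S.F t P (fun _ => (none : Option (Fin r))) ω ∂μ ≤ γ * L / t := by
  calc _ ≤ ∫ _, γ * L / t ∂μ :=
        integral_mono (lks_int (S.F_cont (by omega) ht0 hP.dvd (IsLocallyConstant.const _)))
          (integrable_const _) fun ω => FF_init hr (S.adm ω) ht hP (S.W_pos ω) hL (S.W_self ω)
            (lks_nbr S hL hR ω)
    _ = _ := by simp

theorem lks_final (S : LocSys Ω μ I R N L) (hL : 1 ≤ L) (hr : 0 < r) (ht : 0 < t)
    (hP : GoodP t γ ζ P) {k : ℕ} (hk : k ≤ R) (c : Ω → Fin r) (ω : Ω) {v : I → ℂ}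
    (hv : ∀ a, k < S.d ω a → v a = 0)
    (h : 128 * t * nsq v < qf (mask (S.X ω) fun a => c (S.pt ω a)) v) :
    2 ≤ 10 * L ^ k / t ^ 2 *
      ∑ a with S.d ω a ≤ k, FF t P (S.X ω) (S.ls (fun ω => some (c ω)) ω) (S.W ω) a := by
  have hLk : 0 < L ^ k := by positivity
  have h1 := FF_final hr (S.adm ω) ht hP (fun a => c (S.pt ω a)) (S.W_pos ω)
    (T := univ.filter fun a => S.d ω a ≤ k) (inv_pos.2 hLk) (fun a ha => by
      have ha' := (mem_filter.1 ha).2
      have h2 := S.W_ge ω a (ha'.trans hk)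
      have h3 : L ^ S.d ω a ≤ L ^ k := pow_le_pow_right₀ hL ha'
      rw [inv_le_iff_one_le_mul₀' hLk]
      exact h2.trans (mul_le_mul_of_nonneg_right h3 (S.W_pos ω a).le))
    (fun a ha => hv a (by simpa using ha)) h
  calc (2 : ℝ) = 10 * L ^ k / t ^ 2 * ((L ^ k)⁻¹ * t ^ 2 / 5) := by field_simp; norm_num
    _ ≤ _ := mul_le_mul_of_nonneg_left h1 (by positivity)

theorem lks_point (S : LocSys Ω μ I R N L) (hL : 1 ≤ L) (hr : 0 < r) (ht : 0 < t)
    (hP : GoodP t γ ζ P) {η : ℝ} (hη : 0 < η) {G : ℝ[X]} (hk : G.natDegree ≤ R)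
    (h1 : ∀ s : ℝ, |s| ≤ 128 * t → G.eval s ≤ η) (h2 : ∀ s : ℝ, |s| ≤ 1 → G.eval s ≤ 2)
    (c : Ω → Fin r) (ω : Ω) :
    (aeval (mask (S.X ω) fun a => c (S.pt ω a)) G (S.cell ω) (S.cell ω)).re ≤
      η + 10 * L ^ G.natDegree / t ^ 2 *
        (∑ a with S.d ω a ≤ G.natDegree,
          FF t P (S.X ω) (S.ls (fun ω => some (c ω)) ω) (S.W ω) a +
        ∑ a with S.neg.d ω a ≤ G.natDegree,
          FF t P (S.neg.X ω) (S.neg.ls (fun ω => some (c ω)) ω) (S.neg.W ω) a) := by
  have hY := (S.adm ω).mask fun a => c (S.pt ω a)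
  have hd : ∀ a b, mask (S.X ω) (fun a => c (S.pt ω a)) a b ≠ 0 → S.d ω b ≤ S.d ω a + 1 :=
    fun a b h => S.lip ω a b fun h0 => h (by simp [mask, h0])
  have hy := (S.d_zero ω _).2 rfl
  have n1 : 0 ≤ ∑ a with S.d ω a ≤ G.natDegree,
      FF t P (S.X ω) (S.ls (fun ω => some (c ω)) ω) (S.W ω) a :=
    sum_nonneg fun a _ => FF_nonneg hr (S.adm ω) ht hP _ (S.W_pos ω) a
  have n2 : 0 ≤ ∑ a with S.neg.d ω a ≤ G.natDegree,
      FF t P (S.neg.X ω) (S.neg.ls (fun ω => some (c ω)) ω) (S.neg.W ω) a :=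
    sum_nonneg fun a _ => FF_nonneg hr (S.neg.adm ω) ht hP _ (S.neg.W_pos ω) a
  have hA : 0 ≤ 10 * L ^ G.natDegree / t ^ 2 := by positivity
  have m1 := mul_nonneg hA n1
  have m2 := mul_nonneg hA n2
  rw [mul_add]
  by_cases h : ∀ v : I → ℂ, (∀ a, G.natDegree < S.d ω a → v a = 0) →
      |qf (mask (S.X ω) fun a => c (S.pt ω a)) v| ≤ 128 * t * nsq v
  · have := aeval_diag_le hY.herm (S.d ω) hd hy le_rfl h1 h
    linarith
  · have h3 := aeval_diag_le hY.herm (S.d ω) hd hy le_rfl h2 fun v _ => by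
      simpa using hY.contr v
    push Not at h
    obtain ⟨v, hv, h⟩ := h
    rcases lt_abs.1 h with h | h
    · have := lks_final S hL hr ht hP hk c ω hv h
      linarith
    · rw [← qf_neg, ← mask_neg] at h
      have := lks_final S.neg hL hr ht hP hk c ω hv h
      linarith

theorem lks_De_int (S : LocSys Ω μ I R N L) (hr : 0 < r) (ht : 0 < t)
    (hP : Polynomial.X ^ 2 ∣ P) {st : Ω → Option (Fin r)} (hst : IsLocallyConstant st) (i : I)
    {col : Ω → Fin r} (hcol : IsLocallyConstant col) :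
    Integrable (fun ω => if S.cell ω = i then S.De t P st (col ω) ω else 0) μ := by
  refine lks_int (continuous_glue (S.cell_lc.prodMk hcol)
    (G := fun d ω => if d.1 = i then S.De t P st d.2 ω else 0) fun d => ?_)
  split_ifs
  · exact S.De_cont hr ht hP hst _
  · exact continuous_const

theorem lks_emb {h : ℕ} {f g : Fin (2 * h) → ℝ} {η : ℝ} (hη : 0 < η)
    (hf : 4 * (univ.filter fun i => η < f i).card ≤ 2 * h)
    (hg : 4 * (univ.filter fun i => η < g i).card ≤ 2 * h) :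
    ∃ e : Fin h ↪ Fin (2 * h), ∀ l, f (e l) + g (e l) < 3 * η := by
  have h1 := card_union_le (univ.filter fun i => η < f i) (univ.filter fun i => η < g i)
  have h2 := card_compl ((univ.filter fun i => η < f i) ∪ (univ.filter fun i => η < g i))
  rw [Fintype.card_fin] at h2
  obtain ⟨e, he⟩ := Function.Embedding.exists_of_card_le_finset (α := Fin h)
    (s := ((univ.filter fun i => η < f i) ∪ (univ.filter fun i => η < g i))ᶜ)
    (by rw [Fintype.card_fin]; omega)
  refine ⟨e, fun l => ?_⟩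
  have h3 := he ⟨l, rfl⟩
  simp only [coe_compl, coe_union, coe_filter, mem_univ, true_and, Set.mem_compl_iff,
    Set.mem_union, Set.mem_ofPred_eq, not_or, not_lt] at h3
  linarith [h3.1, h3.2]

end Aux

theorem lks {h N : ℕ} [NeZero h] (hh : 2 ≤ h) {L η : ℝ} (hL : 1 ≤ L) (hη : 0 < η) {G : ℝ[X]}
    (h1 : ∀ s : ℝ, |s| ≤ 1024 / √(2 * h : ℕ) → G.eval s ≤ η)
    (h2 : ∀ s : ℝ, |s| ≤ 1 → G.eval s ≤ 2) :
    ∃ R : ℕ, G.natDegree ≤ R ∧ ∀ (Ω : Type u) [TopologicalSpace Ω] [CompactSpace Ω] [T2Space Ω]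
      [TotallyDisconnectedSpace Ω] [MeasurableSpace Ω] [BorelSpace Ω] (μ : Measure Ω)
      [IsProbabilityMeasure μ] (I : Type) [Fintype I] [DecidableEq I] (S : LocSys Ω μ I R N L)
      (J₀ : Type) [Fintype J₀] (π₀ : Ω → J₀), IsLocallyConstant π₀ →
      ∃ (J : Type) (_ : Fintype J) (_ : DecidableEq J) (π : Ω → J)
        (col : (J → Fin h) → Ω → Fin (2 * h)) (Θ : Fin (2 * h) → (J → Fin h) → J → Fin h),
        IsLocallyConstant π ∧ Rf π π₀ ∧ (∀ l, IsLocallyConstant (col l)) ∧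
        (∀ c, Function.Injective (Θ c)) ∧ (∀ l ω, Θ (col l ω) l (π ω) = 0) ∧
        ∀ l, ∫ ω, (aeval (mask (S.X ω) fun a => col l (S.pt ω a)) G (S.cell ω) (S.cell ω)).re ∂μ
          ≤ 2 * η := by
  have hr : 0 < 2 * h := by omega
  have hsq : 0 < √((2 * h : ℕ) : ℝ) := Real.sqrt_pos.2 (by exact_mod_cast hr)
  set t : ℝ := 8 / √((2 * h : ℕ) : ℝ) with ht
  have ht0 : 0 < t := by positivity
  set k := G.natDegree with hk
  set A : ℝ := 10 * L ^ k / t ^ 2 * N ^ k with hA
  have hA0 : 0 ≤ A := by positivity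
  set η' : ℝ := η / (6 * (A + 1)) with hη'
  have hη0 : 0 < η' := by positivity
  obtain ⟨γ₀, hγ₀, hstep⟩ := step hr ht0 hL hη0
  set γ : ℝ := min γ₀ (η * t / (4 * (A + 1) * L)) with hγ
  have hγ0 : 0 < γ := lt_min hγ₀ (by positivity)
  obtain ⟨ζ, P, hP⟩ := exists_goodP ht0 hγ0
  refine ⟨3 * (P.natDegree + k) + 3, by omega, ?_⟩
  intro Ω _ _ _ _ _ _ μ _ I _ _ S J₀ _ π₀ h₀
  have hbad : ∀ (S : LocSys Ω μ I (3 * (P.natDegree + k) + 3) N L)
      (st : Ω → Option (Fin (2 * h))) (ω : Ω), st ω = none →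
      4 * (univ.filter fun c => η' < S.De t P st c ω).card ≤ 2 * h := by
    intro S st ω hω
    have := hstep γ ζ P (min_le_left _ _) hP I (S.X ω) (S.ls st ω) (S.W ω) (S.cell ω) (S.adm ω)
      (by rw [LocSys.ls, S.pt_self, hω]) (S.W_pos ω) (S.W_self ω) (lks_nbr S hL (by omega) ω)
    simpa only [LocSys.De, lt_sub_iff_add_lt'] using this
  obtain ⟨J, _, _, π, col, Θ, g1, g2, g3, g4, g5, g6⟩ := rounds (μ := μ) (h := h) S.cell_lc
    (fun st : Ω → Option (Fin (2 * h)) => ∫ ω, S.F t P st ω ∂μ + ∫ ω, S.neg.F t P st ω ∂μ)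
    (η := 3 * η') (fun st i hst hi => by
      obtain ⟨g, hg, hU⟩ := exists_lc_cover (U := fun g : Fin h ↪ Fin (2 * h) =>
          {ω | S.cell ω ≠ i} ∪ {ω | ∀ l, S.De t P st (g l) ω + S.neg.De t P st (g l) ω < 3 * η'})
        (fun g => by
          refine (S.cell_lc {i}ᶜ).union ?_
          rw [Set.ofPred_forall]
          exact isOpen_iInter_of_finite fun l => isOpen_lt
            ((S.De_cont hr ht0 hP.dvd hst _).add (S.neg.De_cont hr ht0 hP.dvd hst _))
            continuous_const)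
        (fun ω => by
          by_cases hω : S.cell ω = i
          · obtain ⟨e, he⟩ := lks_emb hη0 (hbad S st ω (hi ω hω)) (hbad S.neg st ω (hi ω hω))
            exact ⟨e, Or.inr he⟩
          · exact ⟨Fin.castLEEmb (by omega), Or.inl hω⟩)
      refine ⟨g, hg, fun l hl => ?_⟩
      have hcol : IsLocallyConstant fun ω => g ω (l ω) :=
        (hg.prodMk hl).comp fun x : (Fin h ↪ Fin (2 * h)) × Fin h => x.1 x.2
      have e1 := S.round hr ht0 hP.dvd (by omega) hst i hcol
      have e2 := S.neg.round hr ht0 hP.dvd (by omega) hst i hcol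
      have i1 := lks_De_int S hr ht0 hP.dvd hst i hcol
      have i2 := lks_De_int S.neg hr ht0 hP.dvd hst i hcol
      have hm : MeasurableSet (S.cell ⁻¹' {i}) := (S.cell_lc {i}).measurableSet
      have e3 := integral_mono (i1.add i2)
        ((integrable_const (3 * η')).indicator hm) fun ω => by
          show (if S.cell ω = i then S.De t P st (g ω (l ω)) ω else 0) +
            (if S.cell ω = i then S.neg.De t P st (g ω (l ω)) ω else 0) ≤ _
          by_cases hω : S.cell ω = i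
          · rw [if_pos hω, if_pos hω, Set.indicator_of_mem (show ω ∈ S.cell ⁻¹' {i} from hω)]
            exact ((hU ω).resolve_left fun h => h hω) (l ω) |>.le
          · rw [if_neg hω, if_neg hω,
              Set.indicator_of_notMem (show ω ∉ S.cell ⁻¹' {i} from hω), add_zero]
      rw [integral_indicator_const _ hm, smul_eq_mul] at e3
      have e4 := integral_add i1 i2
      have e5 : ∫ ω, S.neg.F t P (fun ω => if S.cell ω = i then some (g ω (l ω)) else st ω) ω ∂μ =
        _ := e2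
      simp only [Pi.add_apply] at e3
      rw [e1, e5]
      linarith) h₀
  refine ⟨J, inferInstance, inferInstance, π, col, Θ, g1, g2, g3, g4, g5, fun l => ?_⟩
  by_cases hint : Integrable (fun ω => (aeval (mask (S.X ω) fun a => col l (S.pt ω a)) G
    (S.cell ω) (S.cell ω)).re) μ
  swap
  · rw [integral_undef hint]
    positivity
  have hst : IsLocallyConstant fun ω => some (col l ω) := (g3 l).comp some
  obtain ⟨c1, b1⟩ := S.integral_ball hr ht0 hP (k := k) (by omega) hst
  obtain ⟨c2, b2⟩ := S.neg.integral_ball hr ht0 hP (k := k) (by omega) hst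
  have e1 := integral_mono hint ((integrable_const η).add
    (((lks_int c1).add (lks_int c2)).const_mul (10 * L ^ k / t ^ 2)))
    (lks_point S hL hr ht0 hP hη (by omega) (fun s hs => h1 s (by
      rw [ht] at hs
      linarith [show 128 * (8 / √((2 * h : ℕ) : ℝ)) = 1024 / √((2 * h : ℕ) : ℝ) by ring]))
      h2 (col l))
  simp only [Pi.add_apply] at e1
  rw [integral_add (integrable_const η) ((lks_int (c1.fun_add c2)).const_mul _), integral_const_mul,
    integral_add (lks_int c1) (lks_int c2)] at e1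
  have e2 := lks_init S hL (by omega) (r := 2 * h) (by omega) ht0 le_rfl hP
  have e3 := lks_init S.neg hL (by omega) (r := 2 * h) (by omega) ht0 le_rfl hP
  have e4 := g6 l
  have e5 : γ * L / t ≤ η / (4 * (A + 1)) := by
    rw [div_le_iff₀ ht0]
    calc γ * L ≤ η * t / (4 * (A + 1) * L) * L :=
          mul_le_mul_of_nonneg_right (min_le_right _ _) (by linarith)
      _ = _ := by field_simp
  have e6 : ∫ ω, S.F t P (fun ω => some (col l ω)) ω ∂μ +
      ∫ ω, S.neg.F t P (fun ω => some (col l ω)) ω ∂μ ≤ η / (A + 1) := by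
    have : η / (A + 1) = 2 * (η / (4 * (A + 1))) + 3 * η' := by
      rw [hη']; field_simp; ring
    linarith
  have e7 : A * (η / (A + 1)) ≤ η := by
    rw [← mul_div_assoc, div_le_iff₀ (by positivity)]
    nlinarith
  have e8 := mul_le_mul_of_nonneg_left (add_le_add b1 b2)
    (show 0 ≤ 10 * L ^ k / t ^ 2 by positivity)
  have e9 := mul_le_mul_of_nonneg_left e6 hA0
  rw [← mul_add, ← mul_assoc, ← hA] at e8
  simp only [integral_const, probReal_univ, one_smul] at e1
  linarith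

end Vale.Agent.P078
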