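import Vale.Agent.P078.FDefs

/-! Locality of the moments. -/

set_option linter.unusedSectionVars false

namespace Vale.Agent.P078

open Finset Polynomial MeasureTheory Complex Filter Topology
open scoped ComplexConjugate Matrix

variable {V : Type} [Fintype V] [DecidableEq V] {r : ℕ}

theorem constantCoeff_NP {c : Finset V → ℝ} (h0 : c ∅ = 1) (T : Finset V) (α : V → ℝ) :
    PowerSeries.constantCoeff (NP c T α) = 1 := by
  rw [NP, NN, map_sum, sum_eq_single_of_mem ∅ (empty_mem_powerset T)]
  · simp [h0]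
  · intro S _ hS
    obtain ⟨v, hv⟩ := nonempty_iff_ne_empty.2 hS
    rw [map_mul, map_prod, prod_eq_zero hv (by simp), mul_zero]

theorem loc_NP_congr {c c' : Finset V → ℝ} {T : Finset V} {α α' : V → ℝ}
    (hc : ∀ S ⊆ T, c S = c' S) (hα : ∀ v ∈ T, α v = α' v) : NP c T α = NP c' T α' :=
  sum_congr rfl fun S hS => by
    beta_reduce
    rw [hc S (mem_powerset.1 hS),
      prod_congr rfl fun v hv => by rw [hα v (mem_powerset.1 hS hv)]]

theorem ratio_congr {c c' : Finset V → ℝ} {T : Finset V} {α α' : V → ℝ} (y : V)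
    (hc : ∀ S ⊆ T, c S = c' S) (hα : ∀ v ∈ T, α v = α' v) : ratio c T y α = ratio c' T y α' := by
  rw [ratio, ratio, loc_NP_congr hc hα, loc_NP_congr
    (fun S hS => hc S (hS.trans (erase_subset y T))) fun v hv => hα v (mem_of_mem_erase hv)]

theorem loc_sum_union {M : Type*} [AddCommMonoid M] {A B : Finset V} (h : Disjoint A B)
    (f : Finset V → M) :
    ∑ S ∈ (A ∪ B).powerset, f S = ∑ S₁ ∈ A.powerset, ∑ S₂ ∈ B.powerset, f (S₁ ∪ S₂) := by
  induction B using Finset.induction_on generalizing f with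
  | empty => simp
  | insert b B hb ih =>
    obtain ⟨h1, h2⟩ := disjoint_insert_right.1 h
    rw [union_insert, sum_powerset_insert (by simp [h1, hb]), ih h2, ih h2, ← sum_add_distrib]
    refine sum_congr rfl fun S _ => ?_
    rw [sum_powerset_insert hb]
    simp only [union_insert]

theorem loc_factor {c : Finset V → ℝ} {d : V → ℕ}
    (hm : ∀ (S₁ S₂ : Finset V) (j : ℕ), (∀ a ∈ S₁, d a < j) → (∀ b ∈ S₂, j < d b) →
      c (S₁ ∪ S₂) = c S₁ * c S₂) (α : V → ℝ) {j : ℕ} {T : Finset V} (hT : ∀ a ∈ T, d a ≠ j) :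
    NP c T α = NP c (T.filter fun a => d a < j) α * NP c (T.filter fun a => j < d a) α := by
  have e : T = (T.filter fun a => d a < j) ∪ T.filter fun a => j < d a := by
    rw [← filter_or, filter_true_of_mem fun a ha => Nat.lt_or_gt_of_ne (hT a ha)]
  have dj : Disjoint (T.filter fun a => d a < j) (T.filter fun a => j < d a) :=
    disjoint_filter.2 fun a _ h => by omega
  conv_lhs => rw [e]
  rw [NP, NP, NP, NN, NN, NN, loc_sum_union dj, sum_mul_sum]
  refine sum_congr rfl fun S₁ h1 => sum_congr rfl fun S₂ h2 => ?_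
  rw [hm S₁ S₂ j (fun a ha => (mem_filter.1 (mem_powerset.1 h1 ha)).2)
    (fun a ha => (mem_filter.1 (mem_powerset.1 h2 ha)).2),
    prod_union (disjoint_of_subset_left (mem_powerset.1 h1)
      (disjoint_of_subset_right (mem_powerset.1 h2) dj)), map_mul]
  ring

/-- The term of a subset. -/
noncomputable def locE (c : Finset V → ℝ) (α : V → ℝ) (S : Finset V) : PowerSeries ℝ :=
  PowerSeries.C (c S) * ∏ v ∈ S, PowerSeries.C (α v) * PowerSeries.X

/-- The contribution of a pair of subsets. -/
noncomputable def locW (c : Finset V → ℝ) (α : V → ℝ) (y v : V) (q : Finset V × Finset V) :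
    PowerSeries ℝ :=
  (if y ∉ q.1 then locE c α q.1 else 0) * (if v ∉ q.2 then locE c α q.2 else 0)
    - locE c α q.1 * if y ∉ q.2 ∧ v ∉ q.2 then locE c α q.2 else 0

theorem loc_erase (T : Finset V) (y : V) : (T.erase y).powerset = T.powerset.filter (y ∉ ·) := by
  ext S
  simp [subset_erase]

theorem loc_D (c : Finset V → ℝ) (α : V → ℝ) (y v : V) (T : Finset V) :
    NP c (T.erase y) α * NP c (T.erase v) α - NP c T α * NP c ((T.erase v).erase y) α
      = ∑ q ∈ T.powerset ×ˢ T.powerset, locW c α y v q := by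
  have e : ∀ A, NP c A α = ∑ S ∈ A.powerset, locE c α S := fun A => rfl
  simp only [e, loc_erase, filter_filter, sum_filter, sum_mul_sum, locW, sum_sub_distrib,
    sum_product, and_comm]

theorem loc_dvd (c : Finset V → ℝ) (α : V → ℝ) (y v : V) (q : Finset V × Finset V) :
    PowerSeries.X ^ (q.1 ∪ q.2).card ∣ locW c α y v q := by
  have h1 : ∀ S, PowerSeries.X ^ S.card ∣ locE c α S := fun S => by
    rw [locE, prod_mul_distrib, prod_const, ← mul_assoc]
    exact dvd_mul_left _ _
  have h2 : PowerSeries.X ^ (q.1 ∪ q.2).card ∣ locE c α q.1 * locE c α q.2 :=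
    (pow_dvd_pow _ (card_union_le _ _)).trans (by rw [pow_add]; exact mul_dvd_mul (h1 _) (h1 _))
  rw [locW]
  split_ifs <;> simp [h2]

theorem loc_fib (c : Finset V → ℝ) (α : V → ℝ) (y v : V) (T : Finset V) :
    ∑ q ∈ T.powerset ×ˢ T.powerset, locW c α y v q = ∑ U ∈ T.powerset,
      ∑ q ∈ (U.powerset ×ˢ U.powerset).filter (fun q => q.1 ∪ q.2 = U), locW c α y v q := by
  rw [← sum_fiberwise_of_maps_to (t := T.powerset) (g := fun q => q.1 ∪ q.2) fun q hq =>
    mem_powerset.2 (union_subset (mem_powerset.1 (mem_product.1 hq).1)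
      (mem_powerset.1 (mem_product.1 hq).2))]
  refine sum_congr rfl fun U hU => sum_congr ?_ fun _ _ => rfl
  ext q
  simp only [mem_filter, mem_product, mem_powerset] at hU ⊢
  constructor
  · rintro ⟨-, rfl⟩
    exact ⟨⟨subset_union_left, subset_union_right⟩, rfl⟩
  · rintro ⟨h, e⟩
    exact ⟨⟨h.1.trans hU, h.2.trans hU⟩, e⟩

theorem loc_small {c : Finset V → ℝ} {d : V → ℕ}
    (hm : ∀ (S₁ S₂ : Finset V) (j : ℕ), (∀ a ∈ S₁, d a < j) → (∀ b ∈ S₂, j < d b) →
      c (S₁ ∪ S₂) = c S₁ * c S₂) (α : V → ℝ) {y v : V} {K : ℕ} (hy : d y = 0) (hv : K < d v)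
    {T : Finset V} (hT : T.card ≤ K) :
    NP c (T.erase y) α * NP c (T.erase v) α - NP c T α * NP c ((T.erase v).erase y) α = 0 := by
  by_cases h1 : y ∈ T
  · obtain ⟨j, hj, hj'⟩ := exists_mem_notMem_of_card_lt_card
      (s := (T.erase y).image d) (t := Icc 1 K) (card_image_le.trans_lt (by
        have := card_pos.2 ⟨y, h1⟩
        rw [card_erase_of_mem h1, Nat.card_Icc]
        omega))
    rw [mem_Icc] at hj
    have hne : ∀ a ∈ T, d a ≠ j := fun a ha e => by
      by_cases h : a = y
      · subst h; omega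
      · exact hj' (mem_image.2 ⟨a, mem_erase.2 ⟨h, ha⟩, e⟩)
    have a1 : ∀ A : Finset V, (A.erase y).filter (fun a => j < d a) = A.filter fun a => j < d a :=
      fun A => by rw [filter_erase, erase_eq_of_notMem (by simp [hy])]
    have a2 : ∀ A : Finset V, (A.erase v).filter (fun a => d a < j) = A.filter fun a => d a < j :=
      fun A => by
        rw [filter_erase, erase_eq_of_notMem fun h => by have := (mem_filter.1 h).2; omega]
    rw [loc_factor hm α hne, loc_factor hm α (T := T.erase y)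
        fun a ha => hne a (mem_of_mem_erase ha),
      loc_factor hm α (T := T.erase v) fun a ha => hne a (mem_of_mem_erase ha),
      loc_factor hm α (T := (T.erase v).erase y)
        fun a ha => hne a (mem_of_mem_erase (mem_of_mem_erase ha)), a1, a1, a2,
      erase_right_comm, a2]
    ring
  · rw [erase_eq_of_notMem h1, erase_eq_of_notMem fun h => h1 (mem_of_mem_erase h), sub_self]

theorem loc_step {c : Finset V → ℝ} (h0 : c ∅ = 1) {d : V → ℕ}
    (hm : ∀ (S₁ S₂ : Finset V) (j : ℕ), (∀ a ∈ S₁, d a < j) → (∀ b ∈ S₂, j < d b) →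
      c (S₁ ∪ S₂) = c S₁ * c S₂) (α : V → ℝ) {y v : V} {K : ℕ} (hy : d y = 0) (hv : K < d v)
    (T : Finset V) : PowerSeries.X ^ (K + 1) ∣ ratio c T y α - ratio c (T.erase v) y α := by
  have z : ∀ U : Finset V, U.card ≤ K → ∑ q ∈ (U.powerset ×ˢ U.powerset).filter
      (fun q => q.1 ∪ q.2 = U), locW c α y v q = 0 := by
    intro U
    induction U using Finset.strongInduction with
    | H U ih =>
      intro hU
      have := loc_small hm α hy hv hU
      rwa [loc_D, loc_fib, sum_eq_single_of_mem U (mem_powerset_self U) fun W hW hne =>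
        ih W (Finset.ssubset_iff_subset_ne.2 ⟨mem_powerset.1 hW, hne⟩)
          ((card_le_card (mem_powerset.1 hW)).trans hU)] at this
  have hD : PowerSeries.X ^ (K + 1) ∣ NP c (T.erase y) α * NP c (T.erase v) α
      - NP c T α * NP c ((T.erase v).erase y) α := by
    rw [loc_D, loc_fib]
    refine dvd_sum fun U _ => ?_
    rcases le_or_gt U.card K with h | h
    · rw [z U h]; exact dvd_zero _
    · refine dvd_sum fun q hq => (pow_dvd_pow _ ?_).trans (loc_dvd c α y v q)
      rw [(mem_filter.1 hq).2]; exact h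
  have i1 := PowerSeries.mul_inv_cancel (NP c T α) (by rw [constantCoeff_NP h0]; exact one_ne_zero)
  have i2 := PowerSeries.mul_inv_cancel (NP c (T.erase v) α)
    (by rw [constantCoeff_NP h0]; exact one_ne_zero)
  have e : ratio c T y α - ratio c (T.erase v) y α = (NP c (T.erase y) α * NP c (T.erase v) α
      - NP c T α * NP c ((T.erase v).erase y) α) * ((NP c T α)⁻¹ * (NP c (T.erase v) α)⁻¹) := by
    rw [ratio, ratio]
    linear_combination (-(NP c (T.erase y) α * (NP c T α)⁻¹)) * i2
      + (NP c ((T.erase v).erase y) α * (NP c (T.erase v) α)⁻¹) * i1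
  rw [e]
  exact hD.mul_right _

theorem ratio_local {c : Finset V → ℝ} (h0 : c ∅ = 1) (d : V → ℕ)
    (hm : ∀ (S₁ S₂ : Finset V) (j : ℕ), (∀ a ∈ S₁, d a < j) → (∀ b ∈ S₂, j < d b) →
      c (S₁ ∪ S₂) = c S₁ * c S₂) {y : V} (hy : d y = 0) (T : Finset V) (α : V → ℝ) {k K : ℕ}
    (hk : k ≤ K) : PowerSeries.coeff k (ratio c T y α) =
      PowerSeries.coeff k (ratio c (T.filter fun v => d v ≤ K) y α) := by
  induction T using Finset.strongInduction with
  | H T ih =>
    by_cases h : ∀ v ∈ T, d v ≤ K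
    · rw [filter_true_of_mem h]
    · push Not at h
      obtain ⟨v, hvT, hv⟩ := h
      have h1 := PowerSeries.X_pow_dvd_iff.1 (loc_step h0 hm α hy hv T) k (by omega)
      rw [map_sub, sub_eq_zero] at h1
      rw [h1, ih _ (erase_ssubset hvT), filter_erase,
        erase_eq_of_notMem fun h => by have := (mem_filter.1 h).2; omega]

end Vale.Agent.P078
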