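import Vale.Agent.P078.Rat

/-! The self-energy. -/

set_option linter.unusedSectionVars false

namespace Vale.Agent.P078

open Finset Polynomial MeasureTheory Complex Filter Topology
open scoped ComplexConjugate Matrix

variable {V : Type} [Fintype V] [DecidableEq V] {r : ℕ}

variable {c : Finset V → ℝ} {T : Finset V} {x : V}

theorem self_NC (c : Finset V → ℝ) (T : Finset V) (β : V → ℂ) :
    NC c T β = ∑ S ∈ T.powerset, (c S : ℂ) * ∏ v ∈ S, β v := rfl

theorem self_ne {z : ℂ} (hz : 0 < z.im) : z ≠ 0 := fun h => by simp [h] at hz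

theorem NC_eq (hx : x ∈ T) {β : V → ℂ} (h : NC c (T.erase x) β ≠ 0) :
    NC c T β = NC c (T.erase x) β * (1 - β x * Sf c T x β) := by
  have h1 : NC c T β = NC c (T.erase x) β +
      β x * ∑ S ∈ (T.erase x).powerset, (c (insert x S) : ℂ) * ∏ v ∈ S, β v := by
    conv_lhs => rw [← insert_erase hx]
    rw [self_NC, sum_powerset_insert (notMem_erase x T), self_NC, mul_sum]
    refine congrArg _ (sum_congr rfl fun S hS => ?_)
    rw [prod_insert fun h => notMem_erase x T (mem_powerset.1 hS h)]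
    ring
  rw [h1, Sf]
  field_simp
  ring

theorem Sf_congr {β β' : V → ℂ} (h : ∀ v ∈ T.erase x, β v = β' v) :
    Sf c T x β = Sf c T x β' := by
  have h1 : ∀ S ∈ (T.erase x).powerset, ∏ v ∈ S, β v = ∏ v ∈ S, β' v := fun S hS =>
    prod_congr rfl fun v hv => h v (mem_powerset.1 hS hv)
  rw [Sf, Sf, self_NC, self_NC, sum_congr rfl fun S hS => congrArg _ (h1 S hS),
    sum_congr rfl fun S hS => congrArg ((c S : ℂ) * ·) (h1 S hS)]

theorem Stab.Sf_im (hc : Stab c) (hx : x ∈ T) {z : V → ℂ} (hz : ∀ v ∈ T.erase x, 0 < (z v).im) :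
    (Sf c T x fun v => (z v)⁻¹).im ≤ 0 := by
  by_contra h
  rw [not_le] at h
  generalize hS : (Sf c T x fun v => (z v)⁻¹) = S at h
  have h1 : ∀ v ∈ T, 0 < (Function.update z x S v).im := fun v hv => by
    by_cases hv' : v = x
    · rwa [hv', Function.update_self]
    · rw [Function.update_of_ne hv']
      exact hz v (mem_erase.2 ⟨hv', hv⟩)
  have h2 : (Sf c T x fun v => (Function.update z x S v)⁻¹) = S := by
    rw [← hS]
    exact Sf_congr fun v hv => by rw [Function.update_of_ne (mem_erase.1 hv).1]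
  refine hc.up T _ h1 ?_
  rw [NC_eq hx (hc.up _ _ fun v hv => h1 v (mem_of_mem_erase hv)), h2, Function.update_self,
    inv_mul_cancel₀ (self_ne h), sub_self, mul_zero]

theorem Stab.Sf_rat (hc : Stab c) {z : V → ℂ → ℂ} (h : ∀ v, RatOn (z v))
    (hz : ∀ v τ, 0 < τ.im → 0 < (z v τ).im) : RatOn fun τ => Sf c T x fun v => (z v τ)⁻¹ := by
  have h1 : ∀ (a : ℝ) (S : Finset V), RatOn fun τ => (a : ℂ) * ∏ v ∈ S, (z v τ)⁻¹ := fun a S =>
    (RatOn.const a).mul (RatOn.prod S fun v _ => (h v).inv fun τ hτ => self_ne (hz v τ hτ))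
  have h2 : RatOn fun τ => NC c (T.erase x) fun v => (z v τ)⁻¹ :=
    RatOn.sum _ fun S _ => h1 (c S) S
  exact ((RatOn.sum _ fun S _ => h1 (c (insert x S)) S).neg.mul
    (h2.inv fun τ hτ => hc.up _ _ fun v _ => hz v τ hτ)).congr fun τ _ => (div_eq_mul_inv _ _).symm

theorem self_tendsto {ι : Type*} {l : Filter ι} {β : ι → V → ℂ} {β₀ : V → ℂ} (a : Finset V → ℝ)
    (T : Finset V) (h : ∀ v, Tendsto (fun i => β i v) l (𝓝 (β₀ v))) :
    Tendsto (fun i => NC a T (β i)) l (𝓝 (NC a T β₀)) :=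
  tendsto_finsetSum _ fun S _ => (tendsto_finsetProd S fun v _ => h v).const_mul _

theorem self_zero (c : Finset V → ℝ) (T : Finset V) : NC c T (fun _ => 0) = c ∅ := by
  rw [self_NC, sum_eq_single_of_mem ∅ (empty_mem_powerset T) fun S _ hS => by
    rw [prod_const, zero_pow (card_ne_zero.2 (nonempty_iff_ne_empty.2 hS)), mul_zero]]
  simp

theorem self_lim (a : ℂ) {b : ℂ} (hb : b ≠ 0) :
    Tendsto (fun y : ℝ => y * I * (a + y * I * b)⁻¹) atTop (𝓝 b⁻¹) ∧
      Tendsto (fun y : ℝ => (a + y * I * b)⁻¹) atTop (𝓝 0) := by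
  have h1 : Tendsto (fun y : ℝ => ((y : ℂ) * I)⁻¹) atTop (𝓝 0) := by
    have := ((continuous_ofReal.tendsto 0).comp tendsto_inv_atTop_zero).const_mul I⁻¹
    simpa [Function.comp_def] using this
  have h0 : ∀ᶠ y : ℝ in atTop, (y : ℂ) * I ≠ 0 := (eventually_gt_atTop 0).mono fun y hy =>
    mul_ne_zero (ofReal_ne_zero.2 hy.ne') I_ne_zero
  have h2 : Tendsto (fun y : ℝ => y * I * (a + y * I * b)⁻¹) atTop (𝓝 b⁻¹) := by
    have h3 := ((h1.const_mul a).add_const b).inv₀ (by simpa using hb)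
    rw [mul_zero, zero_add] at h3
    refine h3.congr' (h0.mono fun y hy => ?_)
    beta_reduce
    generalize (y : ℂ) * I = w at hy
    rw [show a * w⁻¹ + b = w⁻¹ * (a + w * b) by field_simp, mul_inv, inv_inv]
  refine ⟨h2, ?_⟩
  have h3 := h1.mul h2
  rw [zero_mul] at h3
  exact h3.congr' (h0.mono fun y hy => inv_mul_cancel_left₀ hy _)

theorem Stab.Sf_norm (hc : Stab c) (hx : x ∈ T) {z : V → ℂ} (hz : ∀ v, 0 < (z v).im) :
    ‖Sf c T x fun v => (z v)⁻¹‖ ≤ ms c T x fun v => ((z v).im)⁻¹ := by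
  have h1 : ∀ v (τ : ℂ), 0 < τ.im → 0 < (((z v).re : ℂ) + τ * (z v).im).im := fun v τ hτ => by
    simpa using mul_pos hτ (hz v)
  have h2 := (hc.Sf_rat (T := T) (x := x) (z := fun v τ => ((z v).re : ℂ) + τ * (z v).im)
    (fun v => (RatOn.const _).add (RatOn.id.mul (RatOn.const _))) h1).norm_le
    (fun τ hτ => hc.Sf_im hx fun v _ => h1 v τ hτ) (m := ms c T x fun v => ((z v).im)⁻¹) ?_
  · simpa only [mul_comm I, re_add_im] using h2
  have h3 := fun v => self_lim (z v).re (ofReal_ne_zero.2 (hz v).ne')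
  have h4 := self_tendsto c (T.erase x) (β₀ := fun _ => 0) fun v => (h3 v).2
  rw [self_zero, hc.c0, ofReal_one] at h4
  have h5 : ∀ S ∈ (T.erase x).powerset, Tendsto (fun y : ℝ => y * I * ((c (insert x S) : ℂ) *
      ∏ v ∈ S, (((z v).re : ℂ) + y * I * (z v).im)⁻¹)) atTop
      (𝓝 (∑ v ∈ T.erase x, if S = {v} then (c {x, v} : ℂ) * ((z v).im : ℂ)⁻¹ else 0)) := by
    intro S hS
    rcases S.eq_empty_or_nonempty with rfl | ⟨v, hv⟩
    · simp [hc.c1, (singleton_ne_empty _).symm]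
    have h6 := (((h3 v).1.mul (tendsto_finsetProd (S.erase v) fun w _ => (h3 w).2)).const_mul
      (c (insert x S) : ℂ))
    have h7 : (c (insert x S) : ℂ) * (((z v).im : ℂ)⁻¹ * ∏ _w ∈ S.erase v, (0 : ℂ)) =
        ∑ v ∈ T.erase x, if S = {v} then (c {x, v} : ℂ) * ((z v).im : ℂ)⁻¹ else 0 := by
      by_cases h8 : S = {v}
      · have h9 := mem_powerset.1 hS hv
        simp only [h8, singleton_inj, sum_ite_eq, if_pos h9, erase_singleton, prod_empty, mul_one]
      · have h9 : (S.erase v).card ≠ 0 := fun h => h8 (by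
          rw [← insert_erase hv, card_eq_zero.1 h]
          rfl)
        rw [prod_const, zero_pow h9, mul_zero, mul_zero]
        refine (sum_eq_zero fun w _ => if_neg fun h => h8 ?_).symm
        rw [h] at hv ⊢
        rw [mem_singleton.1 hv]
    rw [h7] at h6
    refine h6.congr fun y => ?_
    rw [← mul_prod_erase S _ hv]
    ring
  have h6 := (tendsto_finsetSum _ h5).neg.div h4 one_ne_zero
  have h7 : -(∑ S ∈ (T.erase x).powerset, ∑ v ∈ T.erase x,
      if S = {v} then (c {x, v} : ℂ) * ((z v).im : ℂ)⁻¹ else 0) / 1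
      = ((ms c T x fun v => ((z v).im)⁻¹ : ℝ) : ℂ) := by
    rw [div_one, sum_comm, ms, ofReal_sum, ← sum_neg_distrib]
    refine sum_congr rfl fun v hv => ?_
    rw [sum_ite_eq', if_pos (mem_powerset.2 (singleton_subset_iff.2 hv))]
    push_cast
    ring
  rw [h7] at h6
  refine h6.congr fun y => ?_
  rw [Pi.div_apply, ← mul_sum, Sf]
  ring

theorem Stab.Sf_diff (hc : Stab c) {z : V → ℂ → ℂ} {U : Set ℂ}
    (h : ∀ v, DifferentiableOn ℂ (z v) U) (hz : ∀ v, ∀ τ ∈ U, 0 < (z v τ).im) :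
    DifferentiableOn ℂ (fun τ => Sf c T x fun v => (z v τ)⁻¹) U := by
  have h1 : ∀ (a : Finset V → ℝ) (T : Finset V),
      DifferentiableOn ℂ (fun τ => NC a T fun v => (z v τ)⁻¹) U := fun a T =>
    DifferentiableOn.fun_sum fun S _ => (DifferentiableOn.fun_finsetProd
      fun v _ => (h v).inv fun τ hτ => self_ne (hz v τ hτ)).const_mul _
  exact (h1 (fun S => c (insert x S)) _).neg.div (h1 c _)
    fun τ hτ => hc.up _ _ fun v _ => hz v τ hτ

theorem Stab.Sf_tendsto (hc : Stab c) {ι : Type*} {l : Filter ι} {z : ι → V → ℂ} {z₀ : V → ℂ}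
    (h : ∀ v, Tendsto (fun i => z i v) l (𝓝 (z₀ v))) (hz : ∀ v, 0 < (z₀ v).im) :
    Tendsto (fun i => Sf c T x fun v => (z i v)⁻¹) l (𝓝 (Sf c T x fun v => (z₀ v)⁻¹)) := by
  have h1 := fun v => (h v).inv₀ (self_ne (hz v))
  exact (self_tendsto (fun S => c (insert x S)) _ h1).neg.div (self_tendsto c _ h1)
    (hc.up _ _ fun v _ => hz v)

theorem Stab.ms_mono (hc : Stab c) {w w' : V → ℝ} (h : ∀ v ∈ T.erase x, w v ≤ w' v) :
    ms c T x w ≤ ms c T x w' :=
  sum_le_sum fun v hv => mul_le_mul_of_nonneg_left (h v hv)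
    (neg_nonneg.2 (hc.c2 x v (mem_erase.1 hv).1.symm))

theorem ms_mul (c : Finset V → ℝ) (T : Finset V) (x : V) (a : ℝ) (w : V → ℝ) :
    ms c T x (fun v => a * w v) = a * ms c T x w := by
  rw [ms, ms, mul_sum]
  exact sum_congr rfl fun v _ => by ring

theorem sub_div_mem_slitPlane {z S : ℂ} (hz : 0 < z.im) (hS : S.im ≤ 0) :
    1 - z⁻¹ * S ∈ slitPlane := by
  have h1 : S = z * (z⁻¹ * S) := (mul_inv_cancel_left₀ (self_ne hz) S).symm
  generalize z⁻¹ * S = w at h1
  by_contra h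
  rw [mem_slitPlane_iff, not_or, not_lt, not_not, sub_re, sub_im, one_re, one_im, zero_sub,
    neg_eq_zero] at h
  rw [h1, mul_im, h.2] at hS
  nlinarith [h.1]

end Vale.Agent.P078
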