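import Vale.Agent.P078.HL
import Vale.Agent.P078.Local
import Vale.Agent.P078.Self

/-! The local measures. -/

set_option linter.unusedSectionVars false

namespace Vale.Agent.P078

open Finset Polynomial MeasureTheory Complex Filter Topology
open scoped ComplexConjugate Matrix

variable {V : Type} [Fintype V] [DecidableEq V] {r : ℕ}

variable {c : Finset V → ℝ} {T : Finset V} {y : V} {α : V → ℝ} {t : ℝ}

namespace LMAux

/-- The generating polynomial along a ray. -/
noncomputable def Np (c : Finset V → ℝ) (T : Finset V) (α : V → ℝ) : ℝ[X] :=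
  ∑ S ∈ T.powerset, C (c S * ∏ v ∈ S, α v) * X ^ S.card

/-- Its reversal. -/
noncomputable def Rp (c : Finset V → ℝ) (T : Finset V) (α : V → ℝ) : ℝ[X] :=
  ∑ S ∈ T.powerset, C (c S * ∏ v ∈ S, α v) * X ^ (T.card - S.card)

theorem NP_eq (c : Finset V → ℝ) (T : Finset V) (α : V → ℝ) :
    NP c T α = ∑ S ∈ T.powerset,
      PowerSeries.C (c S * ∏ v ∈ S, α v) * PowerSeries.X ^ S.card := by
  refine sum_congr rfl fun S _ => ?_
  rw [prod_mul_distrib, prod_const, map_mul, map_prod, mul_assoc]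

theorem Np_coe (c : Finset V → ℝ) (T : Finset V) (α : V → ℝ) :
    coeToPowerSeries.ringHom (Np c T α) = NP c T α := by
  rw [NP_eq, Np, map_sum]
  refine sum_congr rfl fun S _ => ?_
  rw [map_mul, map_pow, coeToPowerSeries.ringHom_apply, coeToPowerSeries.ringHom_apply, coe_C,
    coe_X]

theorem NC_ray (c : Finset V → ℝ) (T : Finset V) (α : V → ℝ) (u : ℂ) :
    NC c T (fun v => α v * u) =
      ∑ S ∈ T.powerset, ((c S * ∏ v ∈ S, α v : ℝ) : ℂ) * u ^ S.card := by
  refine sum_congr rfl fun S _ => ?_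
  rw [prod_mul_distrib, prod_const]
  push_cast
  ring

theorem Np_eval (c : Finset V → ℝ) (T : Finset V) (α : V → ℝ) (u : ℂ) :
    aeval u (Np c T α) = NC c T fun v => α v * u := by
  rw [NC_ray, Np, map_sum]
  refine sum_congr rfl fun S _ => ?_
  rw [map_mul, map_pow, aeval_C, aeval_X, coe_algebraMap]

theorem Rp_eval (c : Finset V → ℝ) (T : Finset V) (α : V → ℝ) {z : ℂ} (hz : z ≠ 0) :
    aeval z (Rp c T α) = z ^ T.card * NC c T fun v => α v * z⁻¹ := by
  rw [NC_ray, Rp, map_sum, mul_sum]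
  refine sum_congr rfl fun S hS => ?_
  rw [map_mul, map_pow, aeval_C, aeval_X, coe_algebraMap,
    pow_sub₀ _ hz (card_le_card (mem_powerset.1 hS)), inv_pow]
  ring

theorem Rp_deg (c : Finset V → ℝ) (T : Finset V) (α : V → ℝ) : (Rp c T α).natDegree ≤ T.card :=
  natDegree_sum_le_of_forall_le _ _ fun _ _ =>
    (natDegree_C_mul_X_pow_le _ _).trans (Nat.sub_le _ _)

theorem Rp_coeff (c : Finset V → ℝ) (T : Finset V) (α : V → ℝ) :
    (Rp c T α).coeff T.card = c ∅ := by
  rw [Rp, finsetSum_coeff, sum_eq_single ∅ (fun S hS h => ?_) (by simp)]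
  · simp
  · have a1 := card_le_card (mem_powerset.1 hS)
    have a2 := card_pos.2 (nonempty_iff_ne_empty.2 h)
    rw [coeff_C_mul_X_pow, if_neg (by omega)]

theorem coeff_NP (c : Finset V → ℝ) (T : Finset V) (α : V → ℝ) (k : ℕ) :
    PowerSeries.coeff k (NP c T α) =
      ∑ S ∈ T.powerset, if k = S.card then c S * ∏ v ∈ S, α v else 0 := by
  rw [NP_eq, map_sum]
  refine sum_congr rfl fun S _ => ?_
  rw [PowerSeries.coeff_C_mul, PowerSeries.coeff_X_pow, mul_ite, mul_one, mul_zero]

theorem sum_one (U : Finset V) (h : Finset V → ℝ) :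
    ∑ S ∈ U.powerset, (if 1 = S.card then h S else 0) = ∑ v ∈ U, h {v} := by
  simp only [eq_comm (a := 1)]
  rw [← sum_filter, ← powersetCard_eq_filter, powersetCard_one, sum_map]
  rfl

theorem geom (a : ℝ) :
    (1 - PowerSeries.C a * PowerSeries.X) * PowerSeries.mk (fun k => a ^ k) = 1 := by
  ext k
  rw [sub_mul, one_mul, map_sub, mul_assoc, PowerSeries.coeff_C_mul, PowerSeries.coeff_mk]
  cases k with
  | zero => simp
  | succ k => simp [PowerSeries.coeff_succ_X_mul, pow_succ', PowerSeries.coeff_one]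

theorem series (h0 : c ∅ = 1) {n : ℕ} {s β : Fin n → ℝ}
    (h1 : ∀ u : ℂ, u.im < 0 → NC c T (fun v => α v * u) ≠ 0)
    (h2 : ∀ u : ℂ, u.im < 0 → ∀ j, 1 - s j * u ≠ 0)
    (h : ∀ u : ℂ, u.im < 0 → NC c (T.erase y) (fun v => α v * u) / NC c T (fun v => α v * u) =
      ∑ j, (β j : ℂ) / (1 - s j * u)) (k : ℕ) :
    PowerSeries.coeff k (ratio c T y α) = ∑ j, β j * s j ^ k := by
  have e1 : Np c (T.erase y) α * ∏ j, (1 - C (s j) * X) =
      Np c T α * ∑ j, C (β j) * ∏ i ∈ univ.erase j, (1 - C (s i) * X) := by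
    refine map_injective (algebraMap ℝ ℂ) (algebraMap ℝ ℂ).injective
      (eq_of_infinite_eval_eq _ _ (Set.infinite_of_injective_forall_mem
        (f := fun m : ℕ => (m : ℂ) - I) (fun a b e => by simpa using e) fun m => ?_))
    have hu : ((m : ℂ) - I).im < 0 := by simp
    generalize (m : ℂ) - I = u at hu
    have a1 := h u hu
    rw [div_eq_iff (h1 u hu)] at a1
    simp only [Set.mem_ofPred_eq, eval_map_algebraMap, map_mul, map_sum, map_prod, map_sub, map_one,
      aeval_X, aeval_C, coe_algebraMap, Np_eval]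
    rw [a1, mul_right_comm, mul_comm, sum_mul]
    congr 1
    refine sum_congr rfl fun j _ => ?_
    rw [← mul_prod_erase univ _ (mem_univ j), ← mul_assoc, div_mul_cancel₀ _ (h2 u hu j)]
  have e2 := congrArg coeToPowerSeries.ringHom e1
  simp only [map_mul, map_sum, map_prod, map_sub, map_one, Np_coe] at e2
  simp only [coeToPowerSeries.ringHom_apply, coe_C, coe_X] at e2
  have e3 : ∑ j, PowerSeries.C (β j) *
      ∏ i ∈ univ.erase j, (1 - PowerSeries.C (s i) * PowerSeries.X) =
      (∑ j, PowerSeries.C (β j) * PowerSeries.mk fun k => s j ^ k) *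
        ∏ j, (1 - PowerSeries.C (s j) * PowerSeries.X) := by
    rw [sum_mul]
    refine sum_congr rfl fun j _ => ?_
    rw [← mul_prod_erase univ _ (mem_univ j), mul_assoc, ← mul_assoc (PowerSeries.mk _),
      mul_comm (PowerSeries.mk _), geom, one_mul]
  rw [e3, ← mul_assoc] at e2
  have e4 := mul_right_cancel₀ (prod_ne_zero_iff.2 fun j _ => left_ne_zero_of_mul_eq_one (geom _))
    e2
  rw [ratio, e4, mul_right_comm, PowerSeries.mul_inv_cancel _ (by
    rw [constantCoeff_NP h0]
    exact one_ne_zero), one_mul, map_sum]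
  refine sum_congr rfl fun j _ => ?_
  rw [PowerSeries.coeff_C_mul, PowerSeries.coeff_mk]

end LMAux

open LMAux

theorem Stab.lm (hc : Stab c) (hy : y ∈ T) (ht : 0 < t) (hα : ∀ v ∈ T, 0 < α v ∧ α v ≤ 1 / t) :
    ∃ (n : ℕ) (s β : Fin n → ℝ), (∀ j, 0 ≤ β j) ∧ (∀ j, |s j| ≤ 1 / t) ∧
      (∀ j, s j ≠ 0 → NC c T (fun v => ((s j / α v : ℝ) : ℂ)⁻¹) = 0) ∧
      (∀ k, PowerSeries.coeff k (ratio c T y α) = ∑ j, β j * s j ^ k) ∧
      ∀ u : ℂ, u.im < 0 → NC c (T.erase y) (fun v => α v * u) / NC c T (fun v => α v * u) =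
        ∑ j, (β j : ℂ) / (1 - s j * u) := by
  have hz0 : ∀ z : ℂ, 0 < z.im → z ≠ 0 := by
    rintro z hz rfl
    simp at hz
  have hray : ∀ z : ℂ, (fun v => (α v : ℂ) * z⁻¹) = fun v => (z / α v)⁻¹ := fun z =>
    funext fun v => by rw [inv_div, div_eq_mul_inv]
  have him : ∀ z : ℂ, 0 < z.im → ∀ v ∈ T, 0 < (z / α v).im := fun z hz v hv => by
    rw [div_ofReal_im]
    exact div_pos hz (hα v hv).1
  have hup : ∀ U ⊆ T, ∀ z : ℂ, 0 < z.im → NC c U (fun v => α v * z⁻¹) ≠ 0 := fun U hU z hz => by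
    rw [hray]
    exact hc.up U _ fun v hv => him z hz v (hU hv)
  have hcard := card_erase_add_one hy
  have hq : ∀ z : ℂ, 0 < z.im → aeval z (Rp c (T.erase y) α) / aeval z (Rp c T α) =
      z⁻¹ * (NC c (T.erase y) (fun v => α v * z⁻¹) / NC c T (fun v => α v * z⁻¹)) := by
    intro z hz
    have := hz0 z hz
    rw [Rp_eval _ _ _ this, Rp_eval _ _ _ this, ← hcard, pow_succ, mul_assoc,
      mul_div_mul_left _ _ (pow_ne_zero _ this), ← div_div, div_div, mul_comm z, ← div_div,
      div_eq_mul_inv _ z, mul_comm]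
  have h1 : ∀ z : ℂ, 0 < z.im → aeval z (Rp c T α) ≠ 0 := fun z hz => by
    rw [Rp_eval _ _ _ (hz0 z hz)]
    exact mul_ne_zero (pow_ne_zero _ (hz0 z hz)) (hup T subset_rfl z hz)
  have h2 : ∀ z : ℂ, 0 < z.im →
      (aeval z (Rp c (T.erase y) α) / aeval z (Rp c T α)).im ≤ 0 := by
    intro z hz
    have a1 := hup _ (erase_subset y T) z hz
    have a2 := hc.Sf_im hy (z := fun v => z / α v) fun v hv => him z hz v (mem_of_mem_erase hv)
    rw [← hray] at a2
    rw [hq z hz, NC_eq hy a1, div_mul_cancel_left₀ a1, ← mul_inv, mul_sub, mul_one,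
      mul_comm (α y : ℂ), mul_assoc, mul_inv_cancel_left₀ (hz0 z hz), inv_im]
    refine div_nonpos_of_nonpos_of_nonneg ?_ (normSq_nonneg _)
    rw [sub_im, im_ofReal_mul]
    nlinarith [(hα y hy).1]
  have hd : T.card ≤ (Rp c T α).natDegree := le_natDegree_of_ne_zero (by
    rw [Rp_coeff, hc.c0]
    exact one_ne_zero)
  have hd' := Rp_deg c (T.erase y) α
  have hlc : (Rp c T α).leadingCoeff ≠ 0 := leadingCoeff_ne_zero.2 (HLAux.ne_zero h1)
  obtain ⟨l, b, β, hb, e1, e2⟩ := hl (N := Rp c (T.erase y) α) rfl (by omega) h1 h2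
  have hroot : ∀ j, l j ≠ 0 → NC c T (fun v => ((l j / α v : ℝ) : ℂ)⁻¹) = 0 := by
    intro j hj
    have a0 : (l j : ℂ) ≠ 0 := ofReal_ne_zero.2 hj
    have a1 := congrArg (aeval (l j : ℂ)) e1
    rw [Rp_eval _ _ _ a0, map_mul, map_prod, prod_eq_zero (mem_univ j) (by simp), mul_zero,
      hray] at a1
    simpa only [ofReal_div] using (mul_eq_zero.1 a1).resolve_left (pow_ne_zero _ a0)
  have hne : ∀ u : ℂ, u.im < 0 → ∀ j, 1 - l j * u ≠ 0 := by
    intro u hu j h
    have a1 := congrArg im h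
    have a2 := congrArg re h
    simp only [sub_im, one_im, im_ofReal_mul, zero_im, zero_sub, neg_eq_zero, mul_eq_zero,
      hu.ne, or_false] at a1
    simp [a1] at a2
  have hinv : ∀ u : ℂ, u.im < 0 → 0 < u⁻¹.im := by
    intro u hu
    rw [inv_im]
    refine div_pos (neg_pos.2 hu) (normSq_pos.2 ?_)
    rintro rfl
    simp at hu
  have hfin : ∀ u : ℂ, u.im < 0 →
      NC c (T.erase y) (fun v => α v * u) / NC c T (fun v => α v * u) =
        ∑ j, (b j : ℂ) / (1 - l j * u) := by
    have hβ : β = 0 := by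
      have c1 : (Rp c (T.erase y) α).coeff (Rp c T α).natDegree = 0 :=
        coeff_eq_zero_of_natDegree_lt (by omega)
      have c2 : ∀ k, (∏ j ∈ univ.erase k, (X - C (l j))).coeff (Rp c T α).natDegree = 0 := by
        intro k
        refine coeff_eq_zero_of_natDegree_lt ?_
        have := Lagrange.natDegree_nodal (s := univ.erase k) (v := l)
        rw [Lagrange.nodal_eq] at this
        rw [this, card_erase_of_mem (mem_univ k), card_univ, Fintype.card_fin]
        have := k.pos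
        omega
      rw [mul_add, mul_left_comm, ← e1] at e2
      have c3 := congrArg (fun p => p.coeff (Rp c T α).natDegree) e2
      simp only [c1, coeff_add, coeff_C_mul, finsetSum_coeff, c2, mul_zero, sum_const_zero,
        add_zero, coeff_natDegree] at c3
      exact (mul_eq_zero.1 c3.symm).resolve_right hlc
    intro u hu
    have hz := hinv u hu
    have hu0 : u ≠ 0 := fun h => hz0 _ hz (inv_eq_zero.2 h)
    have a1 := hq _ hz
    have e3 := congrArg (aeval u⁻¹) e1
    have e4 := congrArg (aeval u⁻¹) e2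
    simp only [hβ, map_zero, zero_mul, zero_add, map_mul, map_sum, map_prod, map_sub, aeval_X,
      aeval_C, coe_algebraMap] at e3 e4
    rw [inv_inv, e3, e4, mul_div_mul_left _ _ (by exact_mod_cast hlc), Finset.sum_div] at a1
    refine mul_left_cancel₀ hu0 (a1.symm.trans ?_)
    rw [mul_sum]
    have a2 : ∀ j, u⁻¹ - l j = (1 - l j * u) / u := fun j => by field_simp
    refine Finset.sum_congr rfl fun k _ => ?_
    rw [← Finset.mul_prod_erase univ _ (mem_univ k), mul_div_mul_right _ _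
      (prod_ne_zero_iff.2 fun j _ => a2 j ▸ div_ne_zero (hne u hu j) hu0), a2, div_div_eq_mul_div,
      mul_comm, mul_div_assoc]
  refine ⟨_, l, b, hb, fun j => ?_, hroot, series hc.c0 (fun u hu => ?_) hne hfin, hfin⟩
  · by_contra h
    have h3 : 0 < 1 / t := by positivity
    rw [not_le] at h
    refine hc.big T (fun v => l j / α v) ?_ (hroot j (abs_pos.1 (h3.trans h)))
    refine (lt_abs.1 h).imp (fun h4 v hv => ?_) fun h4 v hv => ?_
    · rw [one_lt_div (hα v hv).1]
      exact (hα v hv).2.trans_lt h4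
    · rw [div_lt_iff₀ (hα v hv).1]
      linarith [(hα v hv).2]
  · simpa only [inv_inv] using hup T subset_rfl _ (hinv u hu)

theorem Stab.coeff_zero (hc : Stab c) (T : Finset V) (y : V) (α : V → ℝ) :
    PowerSeries.coeff 0 (ratio c T y α) = 1 := by
  rw [PowerSeries.coeff_zero_eq_constantCoeff_apply, ratio, map_mul, PowerSeries.constantCoeff_inv,
    constantCoeff_NP hc.c0, constantCoeff_NP hc.c0, inv_one, mul_one]

theorem Stab.coeff_two (hc : Stab c) (hy : y ∈ T) (α : V → ℝ) :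
    PowerSeries.coeff 2 (ratio c T y α) = α y * ms c T y α := by
  have h0 := constantCoeff_NP hc.c0 T α
  have h1 : ratio c T y α * NP c T α = NP c (T.erase y) α := by
    rw [ratio, mul_assoc, PowerSeries.inv_mul_cancel _ (h0 ▸ one_ne_zero), mul_one]
  have h2 : PowerSeries.coeff 1 (NP c T α) = 0 := by
    rw [coeff_NP, sum_one]
    simp [hc.c1]
  have h3 : PowerSeries.coeff 2 (NP c T α) =
      PowerSeries.coeff 2 (NP c (T.erase y) α) - α y * ms c T y α := by
    rw [coeff_NP, coeff_NP]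
    conv_lhs => rw [← insert_erase hy]
    rw [sum_powerset_insert (notMem_erase y T), ms, mul_sum, sub_eq_add_neg, ← sum_neg_distrib]
    congr 1
    rw [sum_congr rfl (g := fun S => if 1 = S.card then
      c (insert y S) * (α y * ∏ v ∈ S, α v) else 0), sum_one]
    · refine sum_congr rfl fun v _ => ?_
      rw [prod_singleton]
      ring
    · intro S hS
      have a1 : y ∉ S := fun h => notMem_erase y T (mem_powerset.1 hS h)
      rw [card_insert_of_notMem a1, prod_insert a1]
      simp only [Nat.reduceEqDiff, eq_comm]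
  have h4 := congrArg (PowerSeries.coeff 2) h1
  rw [PowerSeries.coeff_mul, Finset.Nat.sum_antidiagonal_succ, Finset.Nat.sum_antidiagonal_succ,
    Finset.Nat.antidiagonal_zero, sum_singleton] at h4
  simp only [zero_add, Nat.reduceAdd] at h4
  rw [hc.coeff_zero, h2, h3, PowerSeries.coeff_zero_eq_constantCoeff_apply, h0] at h4
  linarith

theorem pair_eq {φ : PowerSeries ℝ} {n : ℕ} {s β : Fin n → ℝ}
    (h : ∀ k, PowerSeries.coeff k φ = ∑ j, β j * s j ^ k) (P : ℝ[X]) :
    pair P φ = ∑ j, β j * P.eval (s j) := by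
  simp only [pair, h, eval_eq_sum, Polynomial.sum_def, mul_sum]
  rw [sum_comm]
  exact sum_congr rfl fun j _ => sum_congr rfl fun k _ => mul_left_comm _ _ _

theorem Stab.pair_le (hc : Stab c) (hy : y ∈ T) (ht : 0 < t)
    (hα : ∀ v ∈ T, 0 < α v ∧ α v ≤ 1 / t) {P : ℝ[X]} {B : ℝ}
    (hB : ∀ s : ℝ, |s| ≤ 1 / t → |P.eval s| ≤ B * s ^ 2) :
    |pair P (ratio c T y α)| ≤ B * (α y * ms c T y α) := by
  obtain ⟨n, s, β, h1, h2, -, h3, -⟩ := hc.lm hy ht hα
  rw [pair_eq h3, ← hc.coeff_two hy, h3, mul_sum]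
  refine (abs_sum_le_sum_abs _ _).trans (sum_le_sum fun j _ => ?_)
  rw [abs_mul, abs_of_nonneg (h1 j), mul_left_comm]
  exact mul_le_mul_of_nonneg_left (hB _ (h2 j)) (h1 j)

end Vale.Agent.P078
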