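import Vale.Agent.P078.Sing
import Vale.Agent.P078.Nb

/-! Symmetries which make finitely many cross terms small. -/

set_option linter.unusedSectionVars false

namespace Vale.Agent.P078

open Filter Topology Finset Vale.Agent.P104 Vale.Agent.P082
open scoped InnerProductSpace ComplexOrder ComplexConjugate

universe u v

variable {G : Type v} [NormedAddCommGroup G] [InnerProductSpace ℂ G] [CompleteSpace G]
  {M : Type u} [CStarAlgebra M] {ρ : M →⋆ₐ[ℂ] (G →L[ℂ] G)}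
  {Ω : Type u} [TopologicalSpace Ω] [CompactSpace Ω] [T2Space Ω] [TotallyDisconnectedSpace Ω]
  {ι : C(Ω, ℂ) →⋆ₐ[ℂ] M} {E : M →ₗ[ℂ] C(Ω, ℂ)} {ξ : G}

theorem leg_inner_nonneg (x : G) : 0 ≤ ⟪x, x⟫_ℂ := by
  rw [inner_self_eq_norm_sq_to_K]
  exact pow_nonneg (Complex.zero_le_real.2 (norm_nonneg x)) 2

theorem leg_sq (a : ℤˣ) : ((a : ℤ) : ℂ) * ((a : ℤ) : ℂ) = 1 := by
  rw [← Int.cast_mul, ← Units.val_mul, Int.units_mul_self, Units.val_one, Int.cast_one]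

theorem leg_orth {n : ℕ} {i j : Fin n} (hij : i ≠ j) :
    ∑ ε : Fin n → ℤˣ, ((ε i : ℤ) : ℂ) * ((ε j : ℤ) : ℂ) = 0 := by
  have e := Equiv.sum_comp (Equiv.mulLeft (Pi.mulSingle i (-1) : Fin n → ℤˣ))
    fun ε : Fin n → ℤˣ => ((ε i : ℤ) : ℂ) * ((ε j : ℤ) : ℂ)
  simp only [Equiv.coe_mulLeft, Pi.mul_apply, Pi.mulSingle_eq_same, Pi.mulSingle_eq_of_ne hij.symm,
    one_mul, neg_mul, Units.val_neg, Int.cast_neg, sum_neg_distrib] at e
  linear_combination (-1 / 2 : ℂ) * e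

theorem leg_avg {n : ℕ} (e : Fin n → M) (y : M) :
    ∑ ε : Fin n → ℤˣ, (∑ j, (((ε j : ℤˣ) : ℤ) : ℂ) • e j) * y * ∑ j, (((ε j : ℤˣ) : ℤ) : ℂ) • e j =
      ∑ _ε : Fin n → ℤˣ, ∑ j, e j * y * e j := by
  simp only [sum_mul, mul_sum, smul_mul_assoc, mul_smul_comm, smul_sum, smul_smul]
  rw [sum_comm, sum_comm (s := (univ : Finset (Fin n → ℤˣ)))]
  refine sum_congr rfl fun j _ => ?_
  rw [sum_comm, sum_eq_single j]
  · simp only [leg_sq, one_smul]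
  · intro i _ hi
    rw [← sum_smul, leg_orth hi.symm, zero_smul]
  · intro hj
    exact absurd (mem_univ j) hj

theorem leg_sy {n : ℕ} {e : Fin n → M} {A : StarSubalgebra ℂ M} (he : IsPart e) (hA : ∀ j, e j ∈ A)
    (ε : Fin n → ℤˣ) : Sy A (∑ j, (((ε j : ℤˣ) : ℤ) : ℂ) • e j) := by
  refine ⟨sum_mem fun j _ => SMulMemClass.smul_mem _ (hA j), ?_, ?_⟩
  · rw [star_sum]
    refine sum_congr rfl fun j _ => ?_
    rw [star_smul, he.star_eq, star_intCast]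
  · rw [← he.sum, sum_mul]
    refine sum_congr rfl fun j _ => ?_
    rw [mul_sum, sum_eq_single j]
    · rw [smul_mul_smul_comm, leg_sq, one_smul, he.idem]
    · intro i _ hi
      rw [smul_mul_smul_comm, he.orth j i hi.symm, smul_zero]
    · intro hj
      exact absurd (mem_univ j) hj

theorem leg_norm_conj {A : StarSubalgebra ℂ M} {s : M} (hs : Sy A s) (y : M) :
    ‖s * y * s‖ ≤ ‖y‖ := by
  have h1 : ‖s‖ * ‖s‖ ≤ 1 := by
    rw [← CStarRing.norm_star_mul_self, hs.sa, hs.sq]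
    exact (IsStarProjection.one M).norm_le
  have h2 : ‖s * y * s‖ ≤ ‖s‖ * ‖y‖ * ‖s‖ :=
    (norm_mul_le _ _).trans (mul_le_mul_of_nonneg_right (norm_mul_le _ _) (norm_nonneg _))
  nlinarith [norm_nonneg y]

theorem exists_sy (h : Sys ι ρ E) {K : Type} [Fintype K] (y : K → M) (ζ ζ' : K → G) {δ : ℝ}
    (hδ : 0 < δ) : ∃ s, Sy ι.range s ∧ ∑ k, (⟪ζ k, ρ (s * y k * s) (ζ' k)⟫_ℂ).re ≤
      ∑ k, (⟪ζ k, ρ (ι (E (y k))) (ζ' k)⟫_ℂ).re + δ := by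
  classical
  have t : Tendsto (fun P : Pt Ω => ∑ k, (⟪ζ k, ρ (pin ι P.π (y k)) (ζ' k)⟫_ℂ).re)
      (UU Ω : Filter (Pt Ω)) (𝓝 (∑ k, (⟪ζ k, ρ (ι (E (y k))) (ζ' k)⟫_ℂ).re)) :=
    tendsto_finsetSum _ fun k _ => (Complex.continuous_re.tendsto _).comp (h.lim (y k) (ζ k) (ζ' k))
  obtain ⟨P, hP⟩ := (t.eventually (gt_mem_nhds (lt_add_of_pos_right _ hδ))).exists
  have he := ee_part ι P.lc
  let s : (Fin P.n → ℤˣ) → M := fun ε => ∑ j, (((ε j : ℤˣ) : ℤ) : ℂ) • ee ι P.π j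
  have hs : ∀ ε, Sy ι.range (s ε) := fun ε => leg_sy he (fun j => pr_mem ι _) ε
  have hsum : ∑ ε : Fin P.n → ℤˣ, ∑ k, (⟪ζ k, ρ (s ε * y k * s ε) (ζ' k)⟫_ℂ).re ≤
      ∑ _ε : Fin P.n → ℤˣ, ∑ k, (⟪ζ k, ρ (pin ι P.π (y k)) (ζ' k)⟫_ℂ).re := by
    rw [sum_comm, sum_comm (s := (univ : Finset (Fin P.n → ℤˣ)))]
    refine le_of_eq (sum_congr rfl fun k _ => ?_)
    have a : ∑ ε : Fin P.n → ℤˣ, s ε * y k * s ε = ∑ _ε : Fin P.n → ℤˣ, pin ι P.π (y k) :=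
      leg_avg (ee ι P.π) (y k)
    have := congrArg (fun z => (⟪ζ k, ρ z (ζ' k)⟫_ℂ).re) a
    simpa only [map_sum, _root_.sum_apply, inner_sum, Complex.re_sum] using this
  obtain ⟨ε, -, hε⟩ := exists_le_of_sum_le univ_nonempty hsum
  exact ⟨s ε, hs ε, hε.trans hP.le⟩

variable [PartialOrder M] [StarOrderedRing M]

theorem single_leg (h : Sys ι ρ E) {J : Type} [Fintype J] {η : J → G} (hs : Sing ρ ι.range η)
    {K K' : Type} [Fintype K] [Fintype K'] (m : K → M) (y : K' → M) (hy : ∀ k, E (y k) = 0)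
    (ζ ζ' : K' → G) {δ : ℝ} (hδ : 0 < δ) : ∃ s, Sy ι.range s ∧
      (∀ k, Nb (vfs ρ η) (m k * s + s * star (m k)) 0 δ) ∧
      ∑ k, (⟪ζ k, ρ (s * y k * s) (ζ' k)⟫_ℂ).re ≤ δ := by
  classical
  let ϱ : M →ₗ[ℂ] ℂ := ∑ j, fi ρ (η j) ∘ₗ (ι : C(Ω, ℂ) →ₐ[ℂ] M).toLinearMap ∘ₗ E
  have hϱ : ∀ x, ϱ x = ∑ j, ⟪η j, ρ (ι (E x)) (η j)⟫_ℂ := fun x => by
    simp only [ϱ, LinearMap.sum_apply]
    rfl
  have hφ : ∀ x, vfs ρ η x = ∑ j, (⟪η j, ρ x (η j)⟫_ℂ).re := fun x => by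
    simp only [vfs, LinearMap.sum_apply]
    rfl
  have p1 : PosF ϱ := fun x => by
    obtain ⟨g, hg, e, -⟩ := exists_sqrt (h.pos x)
    rw [hϱ]
    refine sum_nonneg fun j _ => ?_
    have : ι (E (star x * x)) = star (ι g) * ι g := by rw [← e, ← map_star, hg, map_mul]
    rw [this, ws_mul_apply, ← ws_inner]
    exact leg_inner_nonneg _
  have p2 : CenF ι.range ϱ := by
    rintro _ ⟨f, rfl⟩ x
    have : E (ι f * x) = E (x * ι f) := by rw [h.left, h.right, mul_comm]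
    change ϱ (ι f * x) = ϱ (x * ι f)
    rw [hϱ, hϱ, this]
  have p3 : ∀ χ, Nml ρ χ → PosF χ → CenF ι.range χ →
      (∀ x, (χ (star x * x)).re ≤ (ϱ (star x * x)).re) → χ 1 = 0 := fun χ a1 a2 a3 a4 =>
    hs χ a1 a2 a3 fun a ha => (a4 a).trans_eq (by
      rw [hϱ, hφ, h.ι_E (mul_mem (star_mem ha) ha), Complex.re_sum])
  have n1 : 0 ≤ vfs ρ η 1 := vfs_nonneg η zero_le_one
  have n2 : ∀ k, 0 ≤ vfs ρ η (m k * star (m k)) := fun k => vfs_nonneg η (mul_star_self_nonneg _)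
  obtain ⟨B, hB, b1, b2⟩ : ∃ B : ℝ, 0 < B ∧ vfs ρ η 1 ≤ B ∧
      ∀ k, vfs ρ η (m k * star (m k)) ≤ B := by
    have n3 := sum_nonneg (s := univ) fun k _ => n2 k
    refine ⟨∑ k, vfs ρ η (m k * star (m k)) + vfs ρ η 1 + 1, by linarith, by linarith, fun k => ?_⟩
    have := single_le_sum (f := fun k => vfs ρ η (m k * star (m k))) (fun k _ => n2 k) (mem_univ k)
    linarith
  obtain ⟨K₀, hK₀, k1⟩ : ∃ K₀ : ℝ, 0 ≤ K₀ ∧ ∀ s, Sy ι.range s →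
      -K₀ ≤ ∑ k, (⟪ζ k, ρ (s * y k * s) (ζ' k)⟫_ℂ).re := by
    refine ⟨∑ k, ‖ζ k‖ * (‖y k‖ * ‖ζ' k‖), sum_nonneg fun k _ => by positivity, fun s hs => ?_⟩
    rw [← sum_neg_distrib]
    refine sum_le_sum fun k _ => neg_le_of_abs_le ((Complex.abs_re_le_norm _).trans
      ((norm_inner_le_norm _ _).trans (mul_le_mul_of_nonneg_left ((ws_norm_le _ _).trans
        (mul_le_mul_of_nonneg_right (leg_norm_conj hs _) (norm_nonneg _))) (norm_nonneg _))))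
  obtain ⟨l₂, hl₂, e₂⟩ : ∃ l₂ : ℝ, 0 < l₂ ∧ l₂ * B = δ / 4 :=
    ⟨δ / 4 / B, by positivity, div_mul_cancel₀ _ hB.ne'⟩
  obtain ⟨l₁, hl₁, e₁⟩ : ∃ l₁ : ℝ, 0 < l₁ ∧ B / l₁ = δ / 4 :=
    ⟨B / (δ / 4), by positivity, div_div_cancel₀ hB.ne'⟩
  obtain ⟨C, hC, eC⟩ : ∃ C : ℝ, 0 < C ∧ C * (l₂ * (δ / 4)) = K₀ + δ :=
    ⟨(K₀ + δ) / (l₂ * (δ / 4)), by positivity, div_mul_cancel₀ _ (by positivity)⟩
  obtain ⟨δ₂, hδ₂, d1, d2⟩ : ∃ δ₂ : ℝ, 0 < δ₂ ∧ l₁ * δ₂ ≤ δ / 4 ∧ C * δ₂ ≤ δ / 2 := by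
    refine ⟨min (δ / 4 / l₁) (δ / 2 / C), by positivity, ?_, ?_⟩
    · exact (mul_le_mul_of_nonneg_left (min_le_left _ _) hl₁.le).trans_eq
        (mul_div_cancel₀ _ hl₁.ne')
    · exact (mul_le_mul_of_nonneg_left (min_le_right _ _) hC.le).trans_eq
        (mul_div_cancel₀ _ hC.ne')
  obtain ⟨v, hv⟩ := sing_zero p1 p2 p3 (fun q : K × J => ρ (star (m q.1)) (η q.2)) hδ₂
  have v0 : 0 ≤ (ϱ (star v * v)).re := (Complex.nonneg_iff.1 (p1 v)).1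
  have v1 : ∀ k, vfs ρ η (star ((1 - star v) * star (m k)) * ((1 - star v) * star (m k))) ≤ δ₂ := by
    intro k
    rw [vfs_star_mul]
    simp only [ws_mul_apply]
    rw [Fintype.sum_prod_type] at hv
    have := single_le_sum (f := fun k => ∑ j, ‖ρ (1 - star v) (ρ (star (m k)) (η j))‖ ^ 2)
      (fun k _ => sum_nonneg fun j _ => by positivity) (mem_univ k)
    linarith
  have v2 : (ϱ (star v * v)).re ≤ δ₂ := by
    have := sum_nonneg (s := univ) fun (q : K × J) _ =>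
      sq_nonneg ‖ρ (1 - star v) (ρ (star (m q.1)) (η q.2))‖
    linarith
  obtain ⟨s, hsy, hle⟩ := exists_sy h (K := K' ⊕ J) (Sum.elim y fun _ => (C : ℂ) • (star v * v))
    (Sum.elim ζ η) (Sum.elim ζ' η) (half_pos hδ)
  have e1 : ∑ j, (⟪η j, ρ (s * ((C : ℂ) • (star v * v)) * s) (η j)⟫_ℂ).re =
      C * vfs ρ η (star (v * s) * (v * s)) := by
    rw [hφ, mul_sum]
    refine sum_congr rfl fun j _ => ?_
    rw [mul_smul_comm, smul_mul_assoc, map_smul, smul_apply, inner_smul_right, Complex.re_ofReal_mul,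
      star_mul, hsy.sa]
    simp only [mul_assoc]
  have e2 : ∑ j, (⟪η j, ρ (ι (E ((C : ℂ) • (star v * v)))) (η j)⟫_ℂ).re =
      C * (ϱ (star v * v)).re := by
    rw [← Complex.re_sum, ← hϱ, map_smul, smul_eq_mul, Complex.re_ofReal_mul]
  simp only [Fintype.sum_sum_type, Sum.elim_inl, Sum.elim_inr, hy, map_zero, zero_apply,
    inner_zero_right, Complex.zero_re, sum_const_zero, zero_add, e1, e2] at hle
  have w0 : 0 ≤ vfs ρ η (star (v * s) * (v * s)) := vfs_nonneg η (star_mul_self_nonneg _)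
  have w1 := mul_le_mul_of_nonneg_left v2 hC.le
  have w2 := mul_nonneg hC.le w0
  have w3 : vfs ρ η (star (v * s) * (v * s)) ≤ l₂ * (δ / 4) := by
    refine le_of_mul_le_mul_left ?_ hC
    have := k1 s hsy
    linarith
  refine ⟨s, hsy, fun k => ?_, by linarith⟩
  have c1 := Nb.cross (vfs ρ η) ((1 - star v) * star (m k)) s hl₁
  have c2 := Nb.cross (vfs ρ η) (star (m k)) (v * s) hl₂
  have c3 := c1.add c2
  have e3 : star ((1 - star v) * star (m k)) * s + star s * ((1 - star v) * star (m k)) +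
      (star (star (m k)) * (v * s) + star (v * s) * star (m k)) = m k * s + s * star (m k) := by
    simp only [star_mul, star_sub, star_one, star_star, hsy.sa]
    noncomm_ring
  rw [e3] at c3
  refine c3.mono (by simp) ?_
  rw [star_star, hsy.sa, hsy.sq]
  have f1 := mul_le_mul_of_nonneg_left (v1 k) hl₁.le
  have f2 := div_le_div_of_nonneg_right b1 hl₁.le
  have f3 := mul_le_mul_of_nonneg_left (b2 k) hl₂.le
  have f4 : vfs ρ η (star (v * s) * (v * s)) / l₂ ≤ δ / 4 := by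
    rw [div_le_iff₀ hl₂, mul_comm]
    exact w3
  linarith

end Vale.Agent.P078
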