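import Vale.Agent.P078.Nrm

/-! Separating partitions. -/

set_option linter.unusedSectionVars false

namespace Vale.Agent.P078

open Filter Topology Finset Vale.Agent.P104 Vale.Agent.P082
open scoped InnerProductSpace ComplexOrder ComplexConjugate

universe u v

variable {G : Type u} [NormedAddCommGroup G] [InnerProductSpace ℂ G] [CompleteSpace G]
  {M : Type u} [CStarAlgebra M] {ρ : M →⋆ₐ[ℂ] (G →L[ℂ] G)}
  {Ω : Type u} [TopologicalSpace Ω] [CompactSpace Ω] [T2Space Ω] [TotallyDisconnectedSpace Ω]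
  {ι : C(Ω, ℂ) →⋆ₐ[ℂ] M} {E : M →ₗ[ℂ] C(Ω, ℂ)} {ξ : G}

theorem sep_wd_cons {Γ : Type} (gv : Γ → M) (g : Γ) (l : List Γ) :
    wd gv (g :: l) = gv g * wd gv l := by simp [wd]

theorem wd_Gb (h : Sys ι ρ E) {Γ : Type} {gv : Γ → M} {L : ℝ} (hL : 0 ≤ L)
    (hg : ∀ g, Gb ι ρ ξ L (gv g)) (l : List Γ) : Gb ι ρ ξ (L ^ l.length) (wd gv l) := by
  induction l with
  | nil => exact Gb.of_mem (v := 1) (by simp [PI]) (one_mem _)
  | cons g l ih =>
    rw [List.length_cons, pow_succ', sep_wd_cons]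
    exact Gb.mul h hL (pow_nonneg hL _) (hg g) ih

theorem sep_wd_GS (h : Sys ι ρ E) {Γ : Type} {gv : Γ → M} (hg : ∀ g, gv g ∈ GS ι ρ ξ)
    (l : List Γ) : wd gv l ∈ GS ι ρ ξ := by
  induction l with
  | nil => exact ⟨1, Gb.of_mem (v := 1) (by simp [PI]) (one_mem _)⟩
  | cons g l ih =>
    rw [sep_wd_cons]
    exact GS_mul h (hg g) ih

theorem sep_comm {a b : M} (ha : a ∈ ι.range) (hb : b ∈ ι.range) : a * b = b * a := by
  obtain ⟨f, rfl⟩ := ha
  obtain ⟨g, rfl⟩ := hb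
  exact ι_comm ι f g

theorem sep_pr_compl {U : Set Ω} (hU : IsClopen U) : pr ι Uᶜ = 1 - pr ι U := by
  rw [pr, ind_compl hU, map_sub, map_one, pr]

theorem sep_pr_mul {U V : Set Ω} (hU : IsClopen U) (hV : IsClopen V) :
    pr ι U * pr ι V = pr ι (U ∩ V) := by
  rw [pr, pr, ← map_mul, ind_mul hU hV, pr]

theorem sep_pin (h : Sys ι ρ E) {J : Type} [Fintype J] {π : Ω → J} (hπ : IsLocallyConstant π)
    {w : M} (hw : w ∈ GS ι ρ ξ) : ∃ B, IsClopen B ∧ star (pin ι π w) * pin ι π w = pr ι B := by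
  have he := ee_part ι hπ
  choose B _ hB using fun j => GS_dom h
    (GS_mul h (GS_mul h ⟨1, Gb.pr (π ⁻¹' {j})⟩ hw) ⟨1, Gb.pr (π ⁻¹' {j})⟩)
  have hB' : ∀ j, ee ι π j * star w * (ee ι π j * ee ι π j) * w * ee ι π j = ι (ind (B j)) :=
    fun j => by
      have h1 : star (ee ι π j * w * ee ι π j) * (ee ι π j * w * ee ι π j) = ι (ind (B j)) := hB j
      rw [← h1, star_mul, star_mul, he.star_eq]
      simp only [mul_assoc]
  have h1 : star (pin ι π w) * pin ι π w = ι (∑ j, ind (B j)) := by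
    rw [pin_star, pin, pin, sum_mul_sum, map_sum]
    refine sum_congr rfl fun j _ => ?_
    rw [← hB', sum_eq_single j (fun k _ hk => ?_) fun hj => absurd (mem_univ j) hj]
    · simp only [mul_assoc]
    · rw [mul_assoc, mul_assoc (ee ι π k), ← mul_assoc (ee ι π j) (ee ι π k), he.orth j k hk.symm,
        zero_mul, mul_zero]
  obtain ⟨U, hU, h2⟩ := exists_ind (f := ∑ j, ind (B j)) (h.inj (by
    rw [map_mul, map_sum, sum_mul_sum]
    refine sum_congr rfl fun j _ => ?_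
    rw [sum_eq_single j (fun k _ hk => ?_) fun hj => absurd (mem_univ j) hj]
    · exact (pr_proj ι (B j)).isIdempotentElem
    · rw [← hB', ← hB', mul_assoc, mul_assoc _ w (ee ι π k), mul_assoc (ee ι π k * star w),
        mul_assoc (ee ι π k), ← mul_assoc (ee ι π j) (ee ι π k), he.orth j k hk.symm, zero_mul,
        mul_zero]))
  exact ⟨U, hU, by rw [h1, h2, pr]⟩

theorem sep_norm {y : M} {B : Set Ω} (h : star y * y = pr ι B) : ‖ρ (pr ι B) ξ‖ = ‖ρ y ξ‖ := by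
  have h1 := fi_star_self (ρ := ρ) (ξ := ξ) (pr ι B)
  rw [(pr_proj ι B).isSelfAdjoint.star_eq, (pr_proj ι B).isIdempotentElem.eq, ← h,
    fi_star_self, h] at h1
  exact ((sq_eq_sq₀ (norm_nonneg _) (norm_nonneg _)).1 (Complex.ofReal_injective h1)).symm

theorem sep_union {K : Type} (s : Finset K) {B : K → Set Ω} (hB : ∀ k, IsClopen (B k)) :
    ‖ρ (pr ι (⋃ k ∈ s, B k)) ξ‖ ≤ ∑ k ∈ s, ‖ρ (pr ι (B k)) ξ‖ := by
  classical
  induction s using Finset.induction_on with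
  | empty => simp [pr, ind_empty]
  | insert k s hk ih =>
    have hs : IsClopen (⋃ k ∈ s, B k) := isClopen_biUnion_finset fun k _ => hB k
    have h1 : pr ι (B k ∪ ⋃ k ∈ s, B k) = pr ι (B k) + pr ι (B k)ᶜ * pr ι (⋃ k ∈ s, B k) := by
      rw [sep_pr_mul (hB k).compl hs, pr, pr, pr, ← map_add,
        ← ind_union (hB k) ((hB k).compl.inter hs)
          (disjoint_compl_right.mono_right Set.inter_subset_left),
        Set.union_inter_distrib_left, Set.union_compl_self, Set.univ_inter]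
    have h2 : ‖ρ (pr ι (B k)ᶜ)‖ ≤ 1 :=
      (NonUnitalStarAlgHom.norm_apply_le ρ _).trans ((norm_ι_le ι _).trans (norm_ind_le _))
    rw [set_biUnion_insert, sum_insert hk, h1, map_add, map_mul, ContinuousLinearMap.add_apply,
      ContinuousLinearMap.mul_apply]
    refine (norm_add_le _ _).trans (add_le_add_right (le_trans ?_ ih) _)
    exact (ContinuousLinearMap.le_opNorm _ _).trans (mul_le_of_le_one_left (norm_nonneg _) h2)

theorem sep_move {v a : M} (hv : v ∈ GS ι ρ ξ) (ha : a ∈ ι.range) :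
    ∃ b ∈ ι.range, a * v = v * b := by
  obtain ⟨f, rfl⟩ := ha
  obtain ⟨L, hL⟩ := hv
  exact ⟨_, hL.nz.l f, GS_comm ⟨L, hL⟩ f⟩

theorem sep_cut (h : Sys ι ρ E) {Γ : Type} {gv : Γ → M} (hg : ∀ g, gv g ∈ GS ι ρ ξ) (U : Set Ω)
    (l : List Γ) : ∃ a ∈ ι.range, wd (fun g => pr ι U * gv g * pr ι U) l = wd gv l * a := by
  induction l with
  | nil => exact ⟨1, one_mem _, by simp [wd]⟩
  | cons g l ih =>
    obtain ⟨a, ha, h1⟩ := ih
    obtain ⟨b, hb, h2⟩ := sep_move (sep_wd_GS h hg l) (pr_mem ι U)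
    obtain ⟨c, hc, h3⟩ := sep_move (sep_wd_GS h hg (g :: l)) (pr_mem ι U)
    refine ⟨c * (b * a), mul_mem hc (mul_mem hb ha), ?_⟩
    rw [sep_wd_cons, h1, ← mul_assoc _ c, ← h3, sep_wd_cons, mul_assoc _ (pr ι U),
      ← mul_assoc (pr ι U) (wd gv l), h2]
    simp only [mul_assoc]

theorem sep_end {Γ : Type} (gv : Γ → M) (U : Set Ω) (l : List Γ) :
    l = [] ∨ wd (fun g => pr ι U * gv g * pr ι U) l * pr ι U =
      wd (fun g => pr ι U * gv g * pr ι U) l := by
  induction l with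
  | nil => exact Or.inl rfl
  | cons g l ih =>
    right
    rw [sep_wd_cons, mul_assoc]
    rcases ih with rfl | ih
    · simp only [wd, List.map_nil, List.prod_nil, one_mul, mul_one]
      rw [mul_assoc _ (pr ι U), (pr_proj ι U).isIdempotentElem.eq]
    · rw [ih]

theorem Sys.exists_sep (h : Sys ι ρ E) (hc : Cen ρ ι.range ξ) {Γ : Type} [Fintype Γ] {gv : Γ → M}
    (hg : ∀ g, gv g ∈ GS ι ρ ξ) (R : ℕ) {δ : ℝ} (hδ : 0 < δ) :
    ∃ (P : Pt Ω) (U : Set Ω), IsClopen U ∧ ‖ρ (1 - pr ι U) ξ‖ ≤ δ ∧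
      Sep ι (fun g => pr ι U * gv g * pr ι U) P.π R := by
  have : Finite {l : List Γ // l.length ≤ R} := List.finite_length_le Γ R
  let _ := Fintype.ofFinite {l : List Γ // l.length ≤ R}
  have hN : (0 : ℝ) < Fintype.card {l : List Γ // l.length ≤ R} + 1 := by positivity
  obtain ⟨P, hP⟩ := h.pin_conv hc (fun l : {l : List Γ // l.length ≤ R} => wd gv l.1)
    (div_pos hδ hN)
  have h1 := hP _ P.π P.lc fun _ _ e => e
  have h2 : ∀ l : List Γ, ∃ B, IsClopen B ∧ star (pin ι P.π (wd gv l) - ι (E (wd gv l))) *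
      (pin ι P.π (wd gv l) - ι (E (wd gv l))) = pr ι B := fun l => by
    obtain ⟨V, hV, h3, -⟩ := h.diag_part (sep_wd_GS h hg l)
    rw [← pin_ι P.lc (E (wd gv l)), ← pin_sub, ← h3, ← mul_one_sub, ← sep_pr_compl hV]
    exact sep_pin h P.lc (GS_mul h (sep_wd_GS h hg l) ⟨1, Gb.pr _⟩)
  choose B hB h2 using h2
  have hs : IsClopen (⋃ l ∈ (univ : Finset {l : List Γ // l.length ≤ R}), B l.1) :=
    isClopen_biUnion_finset fun l _ => hB l.1
  refine ⟨P, _, hs.compl, ?_, fun l hl i => ?_⟩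
  · rw [sep_pr_compl hs, sub_sub_cancel]
    have h3 := sep_union (ρ := ρ) (ξ := ξ) (ι := ι) (univ : Finset {l : List Γ // l.length ≤ R})
      (B := fun l => B l.1) fun l => hB l.1
    have h4 : ∀ l : {l : List Γ // l.length ≤ R}, ‖ρ (pr ι (B l.1)) ξ‖ ≤
        δ / (Fintype.card {l : List Γ // l.length ≤ R} + 1) := fun l => by
      rw [sep_norm (h2 l.1)]
      exact h1 l
    have h5 := sum_le_card_nsmul univ _ _ fun l _ => h4 l
    refine h3.trans (h5.trans ?_)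
    rw [card_univ, nsmul_eq_mul, ← mul_div_assoc, div_le_iff₀ hN]
    nlinarith
  · have h3 : (⋃ l ∈ (univ : Finset {l : List Γ // l.length ≤ R}), B l.1)ᶜ ⊆ (B l)ᶜ :=
      Set.compl_subset_compl.2 fun ω hω => Set.mem_biUnion (mem_coe.2 (mem_univ ⟨l, hl⟩)) hω
    have hU := hs.compl
    generalize (⋃ l ∈ (univ : Finset {l : List Γ // l.length ≤ R}), B l.1)ᶜ = U at h3 hU
    have he : ee ι P.π i ∈ ι.range := pr_mem ι _
    rcases sep_end (ι := ι) gv U l with rfl | h4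
    · exact mul_mem (mul_mem he (one_mem _)) he
    obtain ⟨a, ha, h5⟩ := sep_cut h hg U l
    have h6 : (pin ι P.π (wd gv l) - ι (E (wd gv l))) * pr ι U = 0 := by
      have h7 := PI.of_idem (v := pin ι P.π (wd gv l) - ι (E (wd gv l)))
        (by rw [h2]; exact (pr_proj ι _).isIdempotentElem)
      rw [PI, h2] at h7
      rw [← Set.inter_eq_right.2 h3, ← sep_pr_mul (hB l).compl hU, ← mul_assoc,
        sep_pr_compl (hB l), mul_one_sub, h7, sub_self, zero_mul]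
    rw [sub_mul, sub_eq_zero] at h6
    have h7 : ee ι P.π i * (wd gv l * a * pr ι U) * ee ι P.π i =
        ee ι P.π i * (pin ι P.π (wd gv l) * pr ι U) * a := by
      rw [← mul_assoc _ (pin ι P.π _), ee_mul_pin P.lc, mul_assoc (wd gv l), ← mul_assoc,
        mul_assoc _ (a * _), sep_comm (mul_mem ha (pr_mem ι U)) he, sep_comm ha (pr_mem ι U)]
      simp only [mul_assoc]
    rw [← h4, h5, h7, h6]
    exact mul_mem (mul_mem he (mul_mem ⟨_, rfl⟩ (pr_mem ι U))) ha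

theorem exists_gens {n : M} (hn : n ∈ NA ι ρ ξ) :
    ∃ (Γ : Type) (_ : Fintype Γ) (gv : Γ → M) (bar : Γ → Γ) (co : Γ → ℂ) (L : ℝ), 1 ≤ L ∧
      (∀ g, Gb ι ρ ξ L (gv g)) ∧ (∀ g, gv (bar g) = star (gv g)) ∧ n = ∑ g, co g • gv g := by
  obtain ⟨k, f, g, rfl⟩ := Submodule.mem_span_set'.1 hn
  choose L hL using fun i => (g i).2
  have h0 : 0 ≤ ∑ i, |L i| := sum_nonneg fun _ _ => abs_nonneg _
  have h1 : ∀ i, Gb ι ρ ξ (1 + ∑ i, |L i|) (g i) := fun i => (hL i).mono (by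
    linarith [le_abs_self (L i),
      single_le_sum (f := fun i => |L i|) (fun _ _ => abs_nonneg _) (mem_univ i)])
  refine ⟨Fin k ⊕ Fin k, inferInstance, Sum.elim (fun i => g i) fun i => star (g i : M), Sum.swap,
    Sum.elim f 0, 1 + ∑ i, |L i|, by linarith, ?_, ?_, by simp⟩
  · rintro (i | i)
    · exact h1 i
    · exact (h1 i).star
  · rintro (i | i) <;> simp

end Vale.Agent.P078
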