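import Vale.Agent.P078.LDefs
import Vale.Agent.P078.Germ
import Vale.Agent.P078.Sep

/-! Shortest words. -/

set_option linter.unusedSectionVars false

namespace Vale.Agent.P078

open Filter Topology Finset Vale.Agent.P104 Vale.Agent.P082
open scoped InnerProductSpace ComplexOrder ComplexConjugate

universe u v

variable {G : Type u} [NormedAddCommGroup G] [InnerProductSpace ℂ G] [CompleteSpace G]
  {M : Type u} [CStarAlgebra M] {ρ : M →⋆ₐ[ℂ] (G →L[ℂ] G)}
  {Ω : Type u} [TopologicalSpace Ω] [CompactSpace Ω] [T2Space Ω] [TotallyDisconnectedSpace Ω]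
  {ι : C(Ω, ℂ) →⋆ₐ[ℂ] M} {E : M →ₗ[ℂ] C(Ω, ℂ)} {ξ : G}

theorem loc_ip_zero_left (ω : Ω) (b : M) : ip E ω 0 b = 0 := by simp [ip]

theorem loc_ip_zero_right (ω : Ω) (a : M) : ip E ω a 0 = 0 := by simp [ip]

theorem loc_lc_prop {S : Set Ω} (h : IsClopen S) : IsLocallyConstant fun ω => ω ∈ S := by
  refine (IsLocallyConstant.iff_eventually_eq _).2 fun x => ?_
  by_cases hx : x ∈ S
  · filter_upwards [h.isOpen.mem_nhds hx] with y hy
    exact propext ⟨fun _ => hx, fun _ => hy⟩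
  · filter_upwards [h.compl.isOpen.mem_nhds hx] with y hy
    exact propext ⟨fun h => absurd h hy, fun h => absurd h hx⟩

namespace Dat

variable {Γ I : Type} [Fintype Γ] [Fintype I] [DecidableEq I] (D : Dat ρ ι E ξ Γ I) {ω : Ω}
  {a b : I} {l l' : List Γ}

theorem wd_gb (l : List Γ) : Gb ι ρ ξ (D.L ^ l.length) (wd D.gv l) :=
  wd_Gb D.sys (zero_le_one.trans D.one_le) D.gb l

theorem wd_mem (l : List Γ) : wd D.gv l ∈ GS ι ρ ξ := ⟨_, D.wd_gb l⟩

theorem wd_append (l l' : List Γ) : wd D.gv (l ++ l') = wd D.gv l * wd D.gv l' := by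
  simp [wd]

theorem wd_nil : wd D.gv [] = 1 := by simp [wd]

theorem wd_cons (g : Γ) (l : List Γ) : wd D.gv (g :: l) = D.gv g * wd D.gv l := by simp [wd]

theorem wd_rev (l : List Γ) : wd D.gv (l.map D.bar).reverse = star (wd D.gv l) := by
  induction l with
  | nil => simp [wd]
  | cons g l ih =>
    rw [List.map_cons, List.reverse_cons, wd_append, ih, wd_cons, wd_cons, wd_nil, mul_one,
      D.gv_bar, star_mul]

include D in
theorem one_gs : (1 : M) ∈ GS ι ρ ξ := D.wd_nil ▸ D.wd_mem []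

theorem act_one (ω : Ω) : D.act 1 ω = ω :=
  Germ.act_mem D.sys D.cen D.germ D.one_gs (one_mem _) (D.sys.val_one ω)

theorem hit_nil (ω : Ω) (a : I) : D.Hit ω a [] ↔ a = D.cell ω := by
  rw [Hit, wd_nil, act_one]
  exact ⟨fun h => h.2.symm, fun h => ⟨D.sys.val_one ω, h.symm⟩⟩

theorem hit_lc (a : I) (l : List Γ) : IsLocallyConstant fun ω => D.Hit ω a l :=
  loc_lc_prop ((D.sys.val_clopen (D.wd_mem l)).inter
    ((D.lc.isClopen_fiber a).preimage (D.germ.cont _ (D.wd_mem l))))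

theorem d_le_succ (ω : Ω) (a : I) : D.d ω a ≤ D.R + 1 := by
  classical
  unfold d
  split_ifs with h
  · exact (Nat.find_spec h).1.trans (Nat.le_succ _)
  · exact le_rfl

theorem d_le (h : D.Hit ω a l) (hl : l.length ≤ D.R) : D.d ω a ≤ l.length := by
  classical
  have h' : ∃ k, k ≤ D.R ∧ ∃ l : List Γ, l.length = k ∧ D.Hit ω a l := ⟨_, hl, l, rfl, h⟩
  unfold d
  rw [dif_pos h']
  exact Nat.find_le ⟨hl, l, rfl, h⟩

theorem exists_hit (h : D.d ω a ≤ D.R) : ∃ l : List Γ, l.length = D.d ω a ∧ D.Hit ω a l := by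
  classical
  unfold d at h ⊢
  split_ifs at h ⊢ with h'
  · exact (Nat.find_spec h').2
  · omega

theorem wl_spec (h : D.d ω a ≤ D.R) : (D.wl ω a).length = D.d ω a ∧ D.Hit ω a (D.wl ω a) := by
  obtain ⟨l, h1, h2⟩ := D.exists_hit h
  exact (Classical.epsilon_spec (p := fun l : List Γ =>
    l.length ≤ D.R ∧ l.length = D.d ω a ∧ D.Hit ω a l) ⟨l, h1 ▸ h, h1, h2⟩).2

theorem ev_hit (x : Ω) : ∀ᶠ y in 𝓝 x, ∀ a (l : List Γ), l.length ≤ D.R →
    (D.Hit y a l ↔ D.Hit x a l) := by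
  refine eventually_all.2 fun a => ?_
  refine (eventually_all_finite (List.finite_length_le Γ D.R)).2 fun l _ => ?_
  exact ((D.hit_lc a l).eventually_eq x).mono fun y hy => by rw [hy]

theorem d_mono {ω' : Ω} (h : ∀ l : List Γ, l.length ≤ D.R → D.Hit ω a l → D.Hit ω' a l) :
    D.d ω' a ≤ D.d ω a := by
  by_cases h1 : D.d ω a ≤ D.R
  · obtain ⟨l, h2, h3⟩ := D.exists_hit h1
    exact h2 ▸ D.d_le (h l (h2 ▸ h1) h3) (h2 ▸ h1)
  · have := D.d_le_succ ω' a
    omega

theorem d_congr {ω' : Ω} (h : ∀ l : List Γ, l.length ≤ D.R → (D.Hit ω a l ↔ D.Hit ω' a l)) :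
    D.d ω a = D.d ω' a :=
  le_antisymm (D.d_mono fun l hl => (h l hl).2) (D.d_mono fun l hl => (h l hl).1)

theorem d_lc : IsLocallyConstant D.d :=
  (IsLocallyConstant.iff_eventually_eq _).2 fun x =>
    (D.ev_hit x).mono fun _ hy => funext fun a => D.d_congr (hy a)

theorem wl_lc : IsLocallyConstant D.wl := by
  refine (IsLocallyConstant.iff_eventually_eq _).2 fun x =>
    (D.ev_hit x).mono fun y hy => funext fun a => ?_
  unfold wl
  congr 1
  funext l
  rw [D.d_congr (hy a)]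
  exact propext (and_congr_right fun hl => and_congr_right fun _ => hy a l hl)

theorem ww_lc : IsLocallyConstant D.ww :=
  (D.d_lc.prodMk D.wl_lc).comp fun p a => if p.1 a ≤ D.R then wd D.gv (p.2 a) else 0

theorem ww_pos (h : D.d ω a ≤ D.R) : D.ww ω a = wd D.gv (D.wl ω a) := if_pos h

theorem ww_neg (h : ¬ D.d ω a ≤ D.R) : D.ww ω a = 0 := if_neg h

theorem uniq (h : D.Hit ω a l) (h' : D.Hit ω a l') (hl : l.length + l'.length ≤ 2 * D.R + 2) :
    D.act (wd D.gv l') ω = D.act (wd D.gv l) ω ∧ D.DD (wd D.gv l') ω = D.DD (wd D.gv l) ω ∧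
      ∃ c : ℂ, ‖c‖ = 1 ∧ ∀ m, ip E ω m (wd D.gv l') = c * ip E ω m (wd D.gv l) := by
  refine Germ.unique D.sys D.cen D.germ (D.wd_mem l) (D.wd_mem l') h.1 h'.1
    (D.lc.isClopen_fiber a) h.2 h'.2 ?_
  rw [← wd_rev, ← wd_append]
  refine D.sep _ ?_ a
  simp only [List.length_append, List.length_reverse, List.length_map]
  omega

theorem ip_ne (h : D.Hit ω a l) (h' : D.Hit ω b l') (hab : a ≠ b) :
    ip E ω (wd D.gv l) (wd D.gv l') = 0 := by
  have hU := D.lc.isClopen_fiber a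
  have e1 := Germ.ip_ι_mul D.sys D.cen D.germ (D.wd_mem l') h'.1 (wd D.gv l)
    (ind {ω | D.cell ω = a})
  have e2 := Germ.ip_ι_mul D.sys D.cen D.germ (D.wd_mem l) h.1 (wd D.gv l')
    (ind {ω | D.cell ω = a})
  rw [ind_of_notMem (fun e => hab (e.symm.trans h'.2)), zero_mul, ip_mul_left, ← map_star,
    star_ind, ← D.sys.ip_conj, e2, ind_of_mem hU h.2, one_mul, D.sys.ip_conj] at e1
  exact e1

theorem orth (ω : Ω) (a b : I) :
    ip E ω (D.ww ω a) (D.ww ω b) = if a = b ∧ D.d ω a ≤ D.R then 1 else 0 := by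
  by_cases ha : D.d ω a ≤ D.R
  · by_cases hab : a = b
    · subst hab
      rw [if_pos ⟨rfl, ha⟩, D.ww_pos ha]
      exact (D.wl_spec ha).2.1
    · rw [if_neg fun h => hab h.1]
      by_cases hb : D.d ω b ≤ D.R
      · rw [D.ww_pos ha, D.ww_pos hb]
        exact D.ip_ne (D.wl_spec ha).2 (D.wl_spec hb).2 hab
      · rw [D.ww_neg hb, loc_ip_zero_right]
  · rw [if_neg fun h => ha h.2, D.ww_neg ha, loc_ip_zero_left]

theorem expand_wd (hl : l.length ≤ D.R) (m : M) :
    ip E ω m (wd D.gv l) = ∑ a, ip E ω m (D.ww ω a) * ip E ω (D.ww ω a) (wd D.gv l) := by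
  by_cases hv : Val E (wd D.gv l) ω
  · have h : D.Hit ω (D.cell (D.act (wd D.gv l) ω)) l := ⟨hv, rfl⟩
    generalize D.cell (D.act (wd D.gv l) ω) = b at h
    have hb : D.d ω b ≤ D.R := (D.d_le h hl).trans hl
    obtain ⟨-, -, c, -, hc⟩ := D.uniq (D.wl_spec hb).2 h (by have := (D.wl_spec hb).1; omega)
    simp only [hc, ← D.ww_pos hb, orth]
    rw [sum_eq_single b (fun a _ hab => by simp [hab]) (by simp)]
    simp [hb, mul_comm]
  · simp [D.sys.ip_null (D.wd_mem l) hv]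

theorem ip_n (h : D.d ω b ≤ D.R) (m : M) : ip E ω m (D.n * D.ww ω b) =
    ∑ g, D.co g * ip E ω m (wd D.gv (g :: D.wl ω b)) := by
  simp only [D.ww_pos h, n, sum_mul, smul_mul_assoc, ip_sum_right, ip_smul_right, wd_cons]

theorem expand (h : D.d ω b < D.R) (m : M) :
    ip E ω m (D.n * D.ww ω b) = ∑ a, ip E ω m (D.ww ω a) * D.X ω a b := by
  simp only [X, Matrix.of_apply, D.ip_n h.le, mul_sum]
  rw [sum_comm]
  refine sum_congr rfl fun g _ => ?_
  rw [D.expand_wd (by have := (D.wl_spec h.le).1; simp only [List.length_cons]; omega) m, mul_sum]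
  exact sum_congr rfl fun a _ => by ring

theorem X_conj (ω : Ω) (a b : I) : conj (D.X ω a b) = D.X ω b a := by
  have : star D.n = D.n := D.sa
  simp only [X, Matrix.of_apply]
  rw [D.sys.ip_conj, ip_mul_left ω (D.ww ω b), this]

theorem lip (h : D.X ω a b ≠ 0) : D.d ω b ≤ D.d ω a + 1 := by
  by_cases ha : D.d ω a < D.R
  swap
  · have := D.d_le_succ ω b
    omega
  have h1 : D.X ω b a ≠ 0 := by
    rw [← X_conj]
    simpa using h
  rw [X, Matrix.of_apply, D.ip_n ha.le] at h1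
  obtain ⟨g, -, hg⟩ := exists_ne_zero_of_sum_ne_zero h1
  have h2 := right_ne_zero_of_mul hg
  have hb : D.d ω b ≤ D.R := by
    by_contra hb
    exact h2 (by rw [D.ww_neg hb, loc_ip_zero_left])
  have hv : Val E (wd D.gv (g :: D.wl ω a)) ω := by
    by_contra hv
    exact h2 (D.sys.ip_null (D.wd_mem _) hv _)
  have h3 : D.Hit ω b (g :: D.wl ω a) := by
    refine ⟨hv, ?_⟩
    by_contra hne
    rw [D.ww_pos hb] at h2
    exact h2 (D.ip_ne (D.wl_spec hb).2 ⟨hv, rfl⟩ (Ne.symm hne))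
  have h4 := (D.wl_spec ha.le).1
  have := D.d_le h3 (by simp only [List.length_cons]; omega)
  simp only [List.length_cons] at this
  omega

end Dat

end Vale.Agent.P078
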