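import Vale.Agent.P078.LocA

/-! Properties of the local matrices at one point. -/

set_option linter.unusedSectionVars false

namespace Vale.Agent.P078

open Filter Topology Finset Vale.Agent.P104 Vale.Agent.P082
open scoped InnerProductSpace ComplexOrder ComplexConjugate

universe u v

variable {G : Type u} [NormedAddCommGroup G] [InnerProductSpace ℂ G] [CompleteSpace G]
  {M : Type u} [CStarAlgebra M] {ρ : M →⋆ₐ[ℂ] (G →L[ℂ] G)}
  {Ω : Type u} [TopologicalSpace Ω] [CompactSpace Ω] [T2Space Ω] [TotallyDisconnectedSpace Ω]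
  {ι : C(Ω, ℂ) →⋆ₐ[ℂ] M} {E : M →ₗ[ℂ] C(Ω, ℂ)} {ξ : G}

theorem loc_ip_comb {K : Type*} [Fintype K] (ω : Ω) (c c' : K → ℂ) (w w' : K → M) :
    ip E ω (∑ k, c k • w k) (∑ k, c' k • w' k) =
      ∑ a, ∑ b, conj (c a) * (ip E ω (w a) (w' b) * c' b) := by
  simp only [ip, star_sum, star_smul, sum_mul, mul_sum, smul_mul_assoc, mul_smul_comm, map_sum,
    map_smul, ContinuousMap.coe_sum, ContinuousMap.coe_smul, Finset.sum_apply, Pi.smul_apply,
    smul_eq_mul, smul_sum]
  rw [sum_comm]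
  exact sum_congr rfl fun a _ => sum_congr rfl fun b _ => by
    simp only [RCLike.star_def]
    ring

namespace Dat

variable {Γ I : Type} [Fintype Γ] [Fintype I] [DecidableEq I] (D : Dat ρ ι E ξ Γ I) {ω : Ω}
  {a b : I} {l l' : List Γ}

theorem pt_pos (h : D.d ω a ≤ D.R) : D.pt ω a = D.act (wd D.gv (D.wl ω a)) ω := if_pos h

theorem W_eq (h : D.d ω a ≤ D.R) : D.W ω a = (D.DD (wd D.gv (D.wl ω a)) ω).re := if_pos h

theorem pt_cont (a : I) : Continuous fun ω => D.pt ω a := by
  refine continuous_glue (D.d_lc.prodMk D.wl_lc)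
    (G := fun p ω => if p.1 a ≤ D.R then D.act (wd D.gv (p.2 a)) ω else ω) fun p => ?_
  split_ifs
  · exact D.germ.cont _ (D.wd_mem _)
  · exact continuous_id

theorem X_cont : Continuous D.X :=
  continuous_glue D.ww_lc (G := fun w ω => Matrix.of fun a b => ip E ω (w a) (D.n * w b))
    fun w => continuous_matrix fun a b => (E (star (w a) * (D.n * w b))).continuous

theorem W_cont : Continuous D.W := by
  refine continuous_pi fun a => continuous_glue (D.d_lc.prodMk D.wl_lc)
    (G := fun p ω => if p.1 a ≤ D.R then (D.DD (wd D.gv (p.2 a)) ω).re else 1) fun p => ?_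
  split_ifs
  · exact Complex.continuous_re.comp (D.DD _).continuous
  · exact continuous_const

theorem adm (ω : Ω) : Adm (D.X ω) := by
  refine ⟨Matrix.IsHermitian.ext fun a b => D.X_conj ω b a, fun a => ?_, fun v => ?_⟩
  · rw [X, Matrix.of_apply]
    by_cases ha : D.d ω a ≤ D.R
    · have := Germ.ip_mul D.sys D.cen D.germ (D.wd_mem _) (D.wl_spec ha).2.1 1 D.n
      rw [one_mul] at this
      have h0 : E D.n = 0 := D.zero
      rw [D.ww_pos ha, this, ip, star_one, one_mul, h0, ContinuousMap.zero_apply]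
    · rw [D.ww_neg ha, loc_ip_zero_left]
  · have h1 := D.sys.ip_le ω (n := D.n) D.sa (∑ b, v b • D.ww ω b)
    have h2 : qf (D.X ω) v =
        (ip E ω (∑ b, v b • D.ww ω b) (D.n * ∑ b, v b • D.ww ω b)).re := by
      simp only [mul_sum, mul_smul_comm, loc_ip_comb, qf, dotProduct, Matrix.mulVec, X,
        Matrix.of_apply, Pi.star_apply, RCLike.star_def]
    have h3 : (ip E ω (∑ b, v b • D.ww ω b) (∑ b, v b • D.ww ω b)).re ≤ nsq v := by
      rw [loc_ip_comb, Complex.re_sum, nsq]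
      refine sum_le_sum fun a _ => ?_
      rw [sum_eq_single a (fun b _ hb => by simp [orth, Ne.symm hb]) (by simp), orth]
      split_ifs
      · rw [one_mul, Complex.conj_mul']
        norm_cast
      · simp
    have h4 : 0 ≤ (ip E ω (∑ b, v b • D.ww ω b) (∑ b, v b • D.ww ω b)).re :=
      (Complex.nonneg_iff.1 (D.sys.pos _ ω)).1
    have h5 : ‖D.n‖ ≤ 1 := D.norm_le
    rw [h2]
    exact h1.trans ((mul_le_of_le_one_left h4 h5).trans h3)

theorem d_zero (ω : Ω) (a : I) : D.d ω a = 0 ↔ a = D.cell ω := by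
  rw [← hit_nil]
  refine ⟨fun h => ?_, fun h => Nat.le_zero.1 (D.d_le h (Nat.zero_le _))⟩
  obtain ⟨l, h1, h2⟩ := D.exists_hit (ω := ω) (a := a) (by omega)
  rwa [List.length_eq_zero_iff.1 (h1.trans h)] at h2

theorem d_self (ω : Ω) : D.d ω (D.cell ω) = 0 := (D.d_zero _ _).2 rfl

theorem d_self_le (ω : Ω) : D.d ω (D.cell ω) ≤ D.R := (D.d_self ω).le.trans (Nat.zero_le _)

theorem wd_self (ω : Ω) : wd D.gv (D.wl ω (D.cell ω)) = 1 := by
  rw [List.length_eq_zero_iff.1 ((D.wl_spec (D.d_self_le ω)).1.trans (D.d_self ω)), wd_nil]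

theorem pt_self (ω : Ω) : D.pt ω (D.cell ω) = ω := by
  rw [D.pt_pos (D.d_self_le ω), wd_self, act_one]

theorem W_self (ω : Ω) : D.W ω (D.cell ω) = 1 := by
  rw [D.W_eq (D.d_self_le ω), wd_self,
    Germ.DD_mem D.sys D.cen D.germ D.one_gs (one_mem _) (D.sys.val_one ω), Complex.one_re]

theorem ww_self (ω : Ω) : D.ww ω (D.cell ω) = 1 := by
  rw [D.ww_pos (D.d_self_le ω), wd_self]

theorem W_le (h : D.d ω a ≤ D.R) : D.W ω a ≤ D.L ^ D.d ω a := by
  rw [D.W_eq h, ← (D.wl_spec h).1]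
  exact (Germ.DD_le D.sys D.cen D.germ (D.wd_gb _) ω).2

theorem W_ge (h : D.d ω a ≤ D.R) : 1 ≤ D.L ^ D.d ω a * D.W ω a := by
  rw [D.W_eq h, ← (D.wl_spec h).1]
  exact Germ.DD_ge D.sys D.cen D.germ (D.wd_gb _) (D.wl_spec h).2.1

theorem W_pos (ω : Ω) (a : I) : 0 < D.W ω a := by
  by_cases h : D.d ω a ≤ D.R
  · exact (pos_iff_pos_of_mul_pos (zero_lt_one.trans_le (D.W_ge h))).1
      (pow_pos (zero_lt_one.trans_le D.one_le) _)
  · rw [W, if_neg h]
    exact zero_lt_one

theorem cell_pt (h : D.d ω a ≤ D.R) : D.cell (D.pt ω a) = a := by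
  rw [D.pt_pos h]
  exact (D.wl_spec h).2.2

theorem card (ω : Ω) {k : ℕ} (hk : k ≤ D.R) :
    (univ.filter fun a => D.d ω a ≤ k).card ≤ (Fintype.card Γ + 1) ^ k := by
  have e : (Fintype.card Γ + 1) ^ k = (univ : Finset (Fin k → Option Γ)).card := by simp
  rw [e]
  refine card_le_card_of_injOn (fun a i => (D.wl ω a)[(i : ℕ)]?) (fun _ _ => mem_univ _)
    fun a ha b hb hab => ?_
  simp only [coe_filter, mem_univ, true_and, Set.mem_ofPred_eq] at ha hb
  have h1 := D.wl_spec (ha.trans hk)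
  have h2 := D.wl_spec (hb.trans hk)
  have h3 : D.wl ω a = D.wl ω b := by
    refine List.ext_getElem? fun i => ?_
    by_cases hi : i < k
    · exact congrFun hab ⟨i, hi⟩
    · rw [List.getElem?_eq_none (by omega), List.getElem?_eq_none (by omega)]
  rw [← h1.2.2, h3, h2.2.2]

theorem ip_ι_ww (ω : Ω) (a : I) (m : M) (f : C(Ω, ℂ)) :
    ip E ω m (ι f * D.ww ω a) = f (D.pt ω a) * ip E ω m (D.ww ω a) := by
  by_cases h : D.d ω a ≤ D.R
  · rw [D.ww_pos h, D.pt_pos h]
    exact Germ.ip_ι_mul D.sys D.cen D.germ (D.wd_mem _) (D.wl_spec h).2.1 m f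
  · rw [D.ww_neg h, mul_zero, loc_ip_zero_right, mul_zero]

theorem ip_ee_ww {C : Type} [DecidableEq C] {col : Ω → C} (hcol : IsLocallyConstant col) (ω : Ω)
    (a : I) (m : M) (c : C) : ip E ω m (ee ι col c * D.ww ω a) =
      if col (D.pt ω a) = c then ip E ω m (D.ww ω a) else 0 := by
  rw [ee, pr, ip_ι_ww]
  split_ifs with h
  · rw [ind_of_mem (U := col ⁻¹' {c}) (hcol.isClopen_fiber c) h, one_mul]
  · rw [ind_of_notMem (U := col ⁻¹' {c}) h, zero_mul]

theorem link_step {C : Type} [Fintype C] [DecidableEq C] {col : Ω → C}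
    (hcol : IsLocallyConstant col) (h : D.d ω b < D.R) (m : M) :
    ip E ω m (pin ι col D.n * D.ww ω b) =
      ∑ a, ip E ω m (D.ww ω a) * (mask (D.X ω) fun a => col (D.pt ω a)) a b := by
  have k : ∀ c, ip E ω m (ee ι col c * D.n * ee ι col c * D.ww ω b) =
      if col (D.pt ω b) = c then
        ∑ a, (if col (D.pt ω a) = c then ip E ω m (D.ww ω a) else 0) * D.X ω a b else 0 := by
    intro c
    rw [mul_assoc, ip_mul_left, D.ip_ee_ww hcol, ← ip_mul_left, mul_assoc, ip_mul_left,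
      D.expand h]
    simp only [← ip_mul_left, D.ip_ee_ww hcol]
  simp only [pin, sum_mul, ip_sum_right, k, sum_ite_eq, mem_univ, if_true, mask, Matrix.of_apply]
  exact sum_congr rfl fun a _ => by split_ifs <;> simp

theorem link_ind {C : Type} [Fintype C] [DecidableEq C] {col : Ω → C}
    (hcol : IsLocallyConstant col) (ω : Ω) {j : ℕ} (hj : j ≤ D.R) :
    (∀ m, ip E ω m (pin ι col D.n ^ j) = ∑ b, ip E ω m (D.ww ω b) *
      ((mask (D.X ω) fun a => col (D.pt ω a)) ^ j) b (D.cell ω)) ∧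
    ∀ b, ((mask (D.X ω) fun a => col (D.pt ω a)) ^ j) b (D.cell ω) ≠ 0 → D.d ω b ≤ j := by
  induction j with
  | zero =>
    refine ⟨fun m => ?_, fun b hb => ?_⟩
    · simp [Matrix.one_apply, ww_self]
    · rw [pow_zero] at hb
      exact ((D.d_zero ω b).2 (by_contra fun h => hb (Matrix.one_apply_ne h))).le
  | succ j ih =>
    obtain ⟨h1, h2⟩ := ih (by omega)
    refine ⟨fun m => ?_, fun a ha => ?_⟩
    · rw [pow_succ', ip_mul_left, h1]
      simp only [pow_succ', Matrix.mul_apply, mul_sum, ← ip_mul_left]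
      rw [sum_comm]
      refine sum_congr rfl fun b _ => ?_
      by_cases hb : ((mask (D.X ω) fun a => col (D.pt ω a)) ^ j) b (D.cell ω) = 0
      · simp [hb]
      · have := h2 b hb
        rw [D.link_step hcol (by omega), sum_mul]
        exact sum_congr rfl fun a _ => mul_assoc _ _ _
    · rw [pow_succ', Matrix.mul_apply] at ha
      obtain ⟨b, -, hb⟩ := exists_ne_zero_of_sum_ne_zero ha
      have h3 := h2 b (right_ne_zero_of_mul hb)
      have h4 : D.X ω b a ≠ 0 := by
        have h5 := left_ne_zero_of_mul hb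
        rw [← X_conj]
        intro h6
        apply h5
        simp only [map_eq_zero] at h6
        simp [mask, h6]
      have := D.lip h4
      omega

theorem link {C : Type} [Fintype C] [DecidableEq C] {col : Ω → C} (hcol : IsLocallyConstant col)
    {j : ℕ} (hj : j ≤ D.R) (ω : Ω) : E (pin ι col D.n ^ j) ω =
      ((mask (D.X ω) fun a => col (D.pt ω a)) ^ j) (D.cell ω) (D.cell ω) := by
  have h := (D.link_ind hcol ω hj).1 (D.ww ω (D.cell ω))
  simp only [orth, D.d_self_le, and_true, ite_mul, one_mul, zero_mul, sum_ite_eq, mem_univ,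
    if_true] at h
  rw [← h, ww_self, ip, star_one, one_mul]

end Dat

end Vale.Agent.P078
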