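import Vale.Agent.P078.LocB

/-! Compatibility of the local matrices and mass transport. -/

set_option linter.unusedSectionVars false

namespace Vale.Agent.P078

open Filter Topology Finset Vale.Agent.P104 Vale.Agent.P082
open scoped InnerProductSpace ComplexOrder ComplexConjugate

universe u v

variable {G : Type u} [NormedAddCommGroup G] [InnerProductSpace ℂ G] [CompleteSpace G]
  {M : Type u} [CStarAlgebra M] {ρ : M →⋆ₐ[ℂ] (G →L[ℂ] G)}
  {Ω : Type u} [TopologicalSpace Ω] [CompactSpace Ω] [T2Space Ω] [TotallyDisconnectedSpace Ω]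
  {ι : C(Ω, ℂ) →⋆ₐ[ℂ] M} {E : M →ₗ[ℂ] C(Ω, ℂ)} {ξ : G}

namespace Dat

variable {Γ I : Type} [Fintype Γ] [Fintype I] [DecidableEq I] (D : Dat ρ ι E ξ Γ I) {ω : Ω}
  {a b : I} {l l' : List Γ}

theorem hit_append (h : D.Hit ω a l) (h' : D.Hit (D.act (wd D.gv l) ω) b l') :
    D.Hit ω b (l' ++ l) := by
  have hv : Val E (wd D.gv l' * wd D.gv l) ω :=
    (Germ.val_mul D.sys D.cen D.germ (D.wd_mem l') (D.wd_mem l)).2 ⟨h.1, h'.1⟩
  rw [Hit, wd_append, Germ.act_mul D.sys D.cen D.germ (D.wd_mem l') (D.wd_mem l) hv]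
  exact ⟨hv, h'.2⟩

theorem hit_tri (h : D.d ω a + D.d (D.pt ω a) b ≤ D.R) :
    D.Hit ω b (D.wl (D.pt ω a) b ++ D.wl ω a) ∧
      (D.wl (D.pt ω a) b ++ D.wl ω a).length = D.d ω a + D.d (D.pt ω a) b := by
  have ha : D.d ω a ≤ D.R := by omega
  have hb : D.d (D.pt ω a) b ≤ D.R := by omega
  refine ⟨D.hit_append (D.wl_spec ha).2 (D.pt_pos ha ▸ (D.wl_spec hb).2), ?_⟩
  rw [List.length_append, (D.wl_spec ha).1, (D.wl_spec hb).1, add_comm]

theorem tri (h : D.d ω a + D.d (D.pt ω a) b ≤ D.R) :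
    D.d ω b ≤ D.d ω a + D.d (D.pt ω a) b ∧ D.pt ω b = D.pt (D.pt ω a) b ∧
      D.W ω b = D.W ω a * D.W (D.pt ω a) b := by
  have ha : D.d ω a ≤ D.R := by omega
  have hb : D.d (D.pt ω a) b ≤ D.R := by omega
  obtain ⟨h1, h2⟩ := D.hit_tri h
  have h3 : D.d ω b ≤ D.d ω a + D.d (D.pt ω a) b := h2 ▸ D.d_le h1 (h2 ▸ h)
  have h4 : D.d ω b ≤ D.R := h3.trans h
  obtain ⟨h5, h6, -⟩ := D.uniq h1 (D.wl_spec h4).2 (by have := (D.wl_spec h4).1; omega)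
  have hv := h1.1
  rw [wd_append] at hv h5 h6
  rw [Germ.act_mul D.sys D.cen D.germ (D.wd_mem _) (D.wd_mem _) hv, ← D.pt_pos ha] at h5
  rw [Germ.DD_mul D.sys D.cen D.germ (D.wd_mem _) (D.wd_mem _) hv, ← D.pt_pos ha] at h6
  refine ⟨h3, by rw [D.pt_pos h4, h5, D.pt_pos hb], ?_⟩
  have h7 := (Complex.nonneg_iff.1
    (Germ.DD_le D.sys D.cen D.germ (D.wd_gb (D.wl ω a)) ω).1).2
  rw [D.W_eq h4, D.W_eq ha, D.W_eq hb, h6, Complex.mul_re, ← h7, mul_zero, sub_zero, mul_comm]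

theorem symm (h : D.d ω a ≤ D.R) : D.d (D.pt ω a) (D.cell ω) ≤ D.d ω a := by
  obtain ⟨h1, h2⟩ := D.wl_spec h
  obtain ⟨h3, h4⟩ := Germ.val_star D.sys D.cen D.germ (D.wd_mem _) h2.1
  have h5 : D.Hit (D.pt ω a) (D.cell ω) ((D.wl ω a).map D.bar).reverse := by
    rw [Hit, wd_rev, D.pt_pos h, h4]
    exact ⟨h3, rfl⟩
  have h6 : ((D.wl ω a).map D.bar).reverse.length = D.d ω a := by simpa using h1
  exact h6 ▸ D.d_le h5 (h6 ▸ h)

theorem phase (ω : Ω) (a b : I) : ∃ c : ℂ, ‖c‖ = 1 ∧ (D.d ω a + D.d (D.pt ω a) b ≤ D.R →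
    ∀ m, ip E ω m (D.ww ω b) = c * ip E ω m (D.ww (D.pt ω a) b * D.ww ω a)) := by
  by_cases h : D.d ω a + D.d (D.pt ω a) b ≤ D.R
  swap
  · exact ⟨1, norm_one, fun h' => absurd h' h⟩
  obtain ⟨h1, h2⟩ := D.hit_tri h
  have h4 : D.d ω b ≤ D.R := (D.tri h).1.trans h
  obtain ⟨-, -, c, h5, h6⟩ := D.uniq h1 (D.wl_spec h4).2 (by have := (D.wl_spec h4).1; omega)
  refine ⟨c, h5, fun _ m => ?_⟩
  rw [D.ww_pos h4, h6, wd_append, D.ww_pos (a := a) (by omega), D.ww_pos (a := b) (by omega)]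

theorem gauge (ω : Ω) (a : I) : ∃ g : I → ℂ, (∀ b, ‖g b‖ = 1) ∧ ∀ b b',
    D.d ω a + D.d (D.pt ω a) b ≤ D.R → D.d ω a + D.d (D.pt ω a) b' ≤ D.R →
      D.X ω b b' = conj (g b) * D.X (D.pt ω a) b b' * g b' := by
  choose g h1 h2 using D.phase ω a
  refine ⟨g, h1, fun b b' hb hb' => ?_⟩
  have ha : D.d ω a ≤ D.R := by omega
  have h3 := Germ.ip_mul D.sys D.cen D.germ (D.wd_mem _) (D.wl_spec ha).2.1
    (D.ww (D.pt ω a) b) (D.n * D.ww (D.pt ω a) b')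
  rw [← D.pt_pos ha, ← D.ww_pos ha] at h3
  simp only [X, Matrix.of_apply]
  rw [← h3, ip_mul_left, h2 b' hb', ← ip_mul_left, ← D.sys.ip_conj, h2 b hb, map_mul,
    D.sys.ip_conj, mul_assoc D.n]
  ring

theorem back {i : I} {k : ℕ} (hk : 2 * k ≤ D.R) (l : List Γ) (y : Ω) :
    (Val E (star (wd D.gv l)) y ∧ D.act (star (wd D.gv l)) y ∈
      {ω | (D.cell ω = i ∧ D.d ω a ≤ k) ∧ D.wl ω a = l}) ↔
    (D.cell y = a ∧ D.d y i ≤ k) ∧ D.wl (D.pt y i) a = l := by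
  constructor
  · rintro ⟨h1, ⟨h2, h3⟩, h4⟩
    have h5 := (Germ.val_star D.sys D.cen D.germ (GS_star (D.wd_mem l)) h1).2
    rw [star_star] at h5
    generalize D.act (star (wd D.gv l)) y = ω at h2 h3 h4 h5
    have ha : D.d ω a ≤ D.R := by omega
    rw [← h4, ← D.pt_pos ha] at h5
    subst h5 h2
    have h6 := D.symm ha
    have h7 := (D.tri (ω := ω) (a := a) (b := D.cell ω) (by omega)).2.1
    rw [pt_self] at h7
    exact ⟨⟨D.cell_pt ha, h6.trans h3⟩, by rw [← h7, h4]⟩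
  · rintro ⟨⟨h1, h2⟩, h3⟩
    subst h1
    have hi : D.d y i ≤ D.R := by omega
    have h4 := D.symm hi
    have h5 := (D.tri (ω := y) (a := i) (b := D.cell y) (by omega)).2.1
    have h6 := D.cell_pt hi
    rw [pt_self] at h5
    generalize D.pt y i = ω at h3 h4 h5 h6
    have ha : D.d ω (D.cell y) ≤ D.R := by omega
    have h7 := Germ.val_star D.sys D.cen D.germ (D.wd_mem _) (D.wl_spec ha).2.1
    rw [← D.pt_pos ha, ← h5, h3] at h7
    exact ⟨h7.1, by rw [h7.2]; exact ⟨⟨h6, h4.trans h2⟩, h3⟩⟩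

theorem mt [MeasurableSpace Ω] [BorelSpace Ω] {μ : MeasureTheory.Measure Ω}
    [MeasureTheory.IsProbabilityMeasure μ] (hμ : ∀ f : C(Ω, ℂ), ∫ ω, f ω ∂μ = fi ρ ξ (ι f))
    (a i : I) (k : ℕ) (f : Ω → ℝ) (hk : 2 * k ≤ D.R) (hf : Continuous f) :
    ∫ ω, (if D.cell ω = i ∧ D.d ω a ≤ k then D.W ω a * f (D.pt ω a) else 0) ∂μ =
      ∫ y, (if D.cell y = a ∧ D.d y i ≤ k then f y else 0) ∂μ := by
  classical
  have hU : ∀ l : List Γ, IsClopen {ω | (D.cell ω = i ∧ D.d ω a ≤ k) ∧ D.wl ω a = l} := fun l =>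
    ⟨⟨D.lc.prodMk (D.d_lc.prodMk D.wl_lc) {p | (p.1 = i ∧ p.2.1 a ≤ k) ∧ p.2.2 a = l}ᶜ⟩,
      D.lc.prodMk (D.d_lc.prodMk D.wl_lc) {p | (p.1 = i ∧ p.2.1 a ≤ k) ∧ p.2.2 a = l}⟩
  have hV : ∀ l : List Γ, ∀ ω ∈ {ω | (D.cell ω = i ∧ D.d ω a ≤ k) ∧ D.wl ω a = l},
      Val E (wd D.gv l) ω := by
    rintro l ω ⟨⟨-, h2⟩, rfl⟩
    exact (D.wl_spec (by omega)).2.1
  choose g g' h1 h2 h3 using fun l : List Γ => Germ.transport D.sys D.cen D.germ (D.wd_mem l)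
    (hU l) (hV l) ⟨fun ω => (f ω : ℂ), Complex.continuous_ofReal.comp hf⟩
  set S := (List.finite_length_le Γ k).toFinset with hS
  have e : ∫ ω, (∑ l ∈ S, g l) ω ∂μ = ∫ ω, (∑ l ∈ S, g' l) ω ∂μ := by
    simp only [hμ, map_sum, h3]
  have e1 : ∀ ω, (∑ l ∈ S, g l) ω =
      ((if D.cell ω = i ∧ D.d ω a ≤ k then D.W ω a * f (D.pt ω a) else 0 : ℝ) : ℂ) := by
    intro ω
    simp only [ContinuousMap.coe_sum, Finset.sum_apply, h1, Set.mem_ofPred_eq,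
      ContinuousMap.coe_mk]
    by_cases h : D.cell ω = i ∧ D.d ω a ≤ k
    · have ha : D.d ω a ≤ D.R := by omega
      have h7 := (Complex.nonneg_iff.1
        (Germ.DD_le D.sys D.cen D.germ (D.wd_gb (D.wl ω a)) ω).1).2
      have hm : D.wl ω a ∈ S := by simpa [hS, (D.wl_spec ha).1] using h.2
      simp only [h, true_and, if_true, sum_ite_eq, hm, D.W_eq ha, ← D.pt_pos ha,
        Complex.ofReal_mul]
      congr 1
      exact Complex.ext rfl h7.symm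
    · simp [h]
  have e2 : ∀ y, (∑ l ∈ S, g' l) y =
      ((if D.cell y = a ∧ D.d y i ≤ k then f y else 0 : ℝ) : ℂ) := by
    intro y
    simp only [ContinuousMap.coe_sum, Finset.sum_apply, h2, D.back hk, ContinuousMap.coe_mk]
    by_cases h : D.cell y = a ∧ D.d y i ≤ k
    · have h4 := D.symm (ω := y) (a := i) (by omega)
      rw [h.1] at h4
      have hm : D.wl (D.pt y i) a ∈ S := by
        simpa [hS, (D.wl_spec (ω := D.pt y i) (a := a) (by omega)).1] using h4.trans h.2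
      simp only [h, true_and, if_true, sum_ite_eq, hm]
    · simp [h]
  simp only [e1, e2, integral_complex_ofReal] at e
  exact_mod_cast e

/-- The system of local matrices. -/
noncomputable def loc [MeasurableSpace Ω] [BorelSpace Ω] {μ : MeasureTheory.Measure Ω}
    [MeasureTheory.IsProbabilityMeasure μ] (hμ : ∀ f : C(Ω, ℂ), ∫ ω, f ω ∂μ = fi ρ ξ (ι f)) :
    LocSys Ω μ I D.R (Fintype.card Γ + 1) D.L where
  cell := D.cell
  d := D.d
  pt := D.pt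
  X := D.X
  W := D.W
  cell_lc := D.lc
  d_lc := D.d_lc
  pt_cont := D.pt_cont
  X_cont := D.X_cont
  W_cont := D.W_cont
  adm := D.adm
  d_zero := D.d_zero
  pt_self := D.pt_self
  W_self := D.W_self
  W_pos := D.W_pos
  W_le _ _ := D.W_le
  W_ge _ _ := D.W_ge
  lip _ _ _ := D.lip
  cell_pt _ _ := D.cell_pt
  card ω _ := D.card ω
  tri _ _ _ := D.tri
  symm _ _ := D.symm
  gauge := D.gauge
  mt := D.mt hμ

end Dat

end Vale.Agent.P078
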