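import Vale.Agent.P078.FDefs

/-! The logarithmic integral in terms of zeros and poles. -/

set_option linter.unusedSectionVars false

namespace Vale.Agent.P078

open Finset Polynomial MeasureTheory Complex Filter Topology
open scoped ComplexConjugate Matrix

variable {V : Type} [Fintype V] [DecidableEq V] {r : ℕ}

theorem logInt_base {a : ℝ} (ha : 0 < a) :
    IntegrableOn (fun y : ℝ => Real.log (y ^ 2 + a ^ 2) - 2 * Real.log y) (Set.Ioi 0) ∧
      ∫ y in Set.Ioi (0 : ℝ), (Real.log (y ^ 2 + a ^ 2) - 2 * Real.log y) = Real.pi * a := by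
  set g : ℝ → ℝ := fun y => y * Real.log (y ^ 2 + a ^ 2) - 2 * (y * Real.log y) +
    2 * a * Real.arctan (y / a) with hg
  have hne : ∀ y : ℝ, y ^ 2 + a ^ 2 ≠ 0 := fun y => by positivity
  have hc : Continuous g :=
    ((continuous_id.mul (Continuous.log (by fun_prop) hne)).sub
      (continuous_const.mul Real.continuous_mul_log)).add
      (continuous_const.mul (Real.continuous_arctan.comp (by fun_prop)))
  have hd : ∀ y ∈ Set.Ioi (0 : ℝ),
      HasDerivAt g (Real.log (y ^ 2 + a ^ 2) - 2 * Real.log y) y := by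
    intro y hy
    have hy0 : y ≠ 0 := ne_of_gt hy
    have h1 : HasDerivAt (fun y : ℝ => y ^ 2 + a ^ 2) (2 * y) y := by
      simpa using (hasDerivAt_pow 2 y).add_const (a ^ 2)
    have h2 := (((hasDerivAt_id y).mul (h1.log (hne y))).sub
      ((Real.hasDerivAt_mul_log hy0).const_mul 2)).add
      ((((hasDerivAt_id y).div_const a).arctan).const_mul (2 * a))
    refine h2.congr_deriv ?_
    have := hne y
    simp only [id]
    field_simp
    ring
  have hlog : ∀ y : ℝ, 0 < y →
      Real.log (y ^ 2 + a ^ 2) - 2 * Real.log y = Real.log (1 + a ^ 2 / y ^ 2) := by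
    intro y hy
    rw [show 1 + a ^ 2 / y ^ 2 = (y ^ 2 + a ^ 2) / y ^ 2 by field_simp,
      Real.log_div (hne y) (by positivity), Real.log_pow]
    simp
  have hpos : ∀ y ∈ Set.Ioi (0 : ℝ), 0 ≤ Real.log (y ^ 2 + a ^ 2) - 2 * Real.log y := by
    intro y hy
    rw [hlog y hy]
    exact Real.log_nonneg (le_add_of_nonneg_right (by positivity))
  have hl : Tendsto g atTop (𝓝 (0 + 2 * a * (Real.pi / 2))) := by
    have t1 : Tendsto (fun y : ℝ => y * (Real.log (y ^ 2 + a ^ 2) - 2 * Real.log y)) atTop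
        (𝓝 0) := by
      have t0 : Tendsto (fun y : ℝ => a ^ 2 / y) atTop (𝓝 0) :=
        tendsto_const_nhds.div_atTop tendsto_id
      refine squeeze_zero' ?_ ?_ t0
      · filter_upwards [eventually_gt_atTop 0] with y hy
        exact mul_nonneg hy.le (hpos y hy)
      · filter_upwards [eventually_gt_atTop 0] with y hy
        rw [hlog y hy]
        have := Real.log_le_sub_one_of_pos (show 0 < 1 + a ^ 2 / y ^ 2 by positivity)
        calc y * Real.log (1 + a ^ 2 / y ^ 2) ≤ y * (a ^ 2 / y ^ 2) :=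
              mul_le_mul_of_nonneg_left (by linarith) hy.le
          _ = a ^ 2 / y := by field_simp
    have t2 : Tendsto (fun y : ℝ => Real.arctan (y / a)) atTop (𝓝 (Real.pi / 2)) :=
      (Real.tendsto_arctan_atTop.mono_right nhdsWithin_le_nhds).comp
        (tendsto_id.atTop_div_const ha)
    refine (t1.add (t2.const_mul (2 * a))).congr fun y => ?_
    simp only [hg]
    ring
  refine ⟨integrableOn_Ioi_deriv_of_nonneg hc.continuousWithinAt hd hpos hl, ?_⟩
  rw [integral_Ioi_of_hasDerivAt_of_nonneg hc.continuousWithinAt hd hpos hl]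
  simp only [hg, zero_mul, mul_zero, zero_div, Real.arctan_zero]
  ring

theorem logInt_one (a : ℝ) :
    IntegrableOn (fun y : ℝ => Real.log ‖y * I - a‖ - Real.log y) (Set.Ioi 0) ∧
      ∫ y in Set.Ioi (0 : ℝ), (Real.log ‖y * I - a‖ - Real.log y) = Real.pi / 2 * |a| := by
  rcases eq_or_ne a 0 with rfl | ha
  · simp
  have h := logInt_base (abs_pos.2 ha)
  have e : ∀ y : ℝ, Real.log ‖y * I - a‖ - Real.log y =
      1 / 2 * (Real.log (y ^ 2 + |a| ^ 2) - 2 * Real.log y) := by
    intro y
    have : y ^ 2 + |a| ^ 2 = ‖(y : ℂ) * I - a‖ ^ 2 := by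
      rw [Complex.sq_norm, Complex.normSq_apply, sq_abs]
      simp
      ring
    rw [this, Real.log_pow]
    push_cast
    ring
  simp only [e]
  refine ⟨h.1.const_mul _, ?_⟩
  rw [integral_const_mul, h.2]
  ring

theorem integral_log_ratio (a b : ℝ) :
    IntegrableOn (fun y : ℝ => Real.log ‖y * I - a‖ - Real.log ‖y * I - b‖) (Set.Ioi 0) ∧
      ∫ y in Set.Ioi (0 : ℝ), (Real.log ‖y * I - a‖ - Real.log ‖y * I - b‖) =
        Real.pi / 2 * (|a| - |b|) := by
  have e : ∀ y : ℝ, Real.log ‖y * I - a‖ - Real.log ‖y * I - b‖ =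
      (Real.log ‖y * I - a‖ - Real.log y) - (Real.log ‖y * I - b‖ - Real.log y) :=
    fun y => by ring
  simp only [e]
  refine ⟨(logInt_one a).1.sub (logInt_one b).1, ?_⟩
  rw [integral_sub (logInt_one a).1 (logInt_one b).1, (logInt_one a).2, (logInt_one b).2]
  ring

theorem II_eq {K : Type} [Fintype K] (s ω : K → ℝ) (l : Option K → ℝ) {t : ℝ} (ht : 0 < t)
    (h : ∀ τ : ℂ, 0 < τ.im → ∏ j, (τ - l j) =
      (τ + t - ∑ k, (ω k : ℂ) / (τ - s k)) * ∏ k, (τ - s k))
    (htr : ∑ j, l j = ∑ k, s k - t) :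
    II t (fun y => ∑ k, (ω k : ℂ) / (y * I - s k)) =
      Real.pi * (∑ j, max (l j) 0 - ∑ k, max (s k) 0) := by
  have e : ∀ y ∈ Set.Ioi (0 : ℝ),
      Real.log ‖1 - (∑ k, (ω k : ℂ) / (y * I - s k)) / (t + y * I)‖ =
      (Real.log ‖y * I - l none‖ - Real.log ‖y * I - ((-t : ℝ) : ℂ)‖) +
        ∑ k, (Real.log ‖y * I - l (some k)‖ - Real.log ‖y * I - s k‖) := by
    intro y hy
    have hne : ∀ c : ℝ, (y : ℂ) * I - c ≠ 0 := fun c hc => by
      have := congrArg Complex.im hc
      simp at this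
      exact ne_of_gt hy this
    have h1 := h (y * I) (by simpa using hy)
    have h2 : (t : ℂ) + y * I ≠ 0 := by
      have := hne (-t)
      rwa [Complex.ofReal_neg, sub_neg_eq_add, add_comm] at this
    have h3 : ∏ k, ((y : ℂ) * I - s k) ≠ 0 := prod_ne_zero_iff.2 fun k _ => hne _
    have h4 : 1 - (∑ k, (ω k : ℂ) / (y * I - s k)) / (t + y * I) =
        (∏ j, ((y : ℂ) * I - l j)) / ((y * I - ((-t : ℝ) : ℂ)) * ∏ k, ((y : ℂ) * I - s k)) := by
      rw [h1, Complex.ofReal_neg, sub_neg_eq_add, add_comm _ (t : ℂ), mul_div_mul_right _ _ h3,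
        sub_div, div_self h2]
    rw [h4, norm_div, norm_mul, norm_prod, norm_prod,
      Real.log_div (prod_ne_zero_iff.2 fun j _ => norm_ne_zero_iff.2 (hne _))
        (mul_ne_zero (norm_ne_zero_iff.2 (hne _))
          (prod_ne_zero_iff.2 fun j _ => norm_ne_zero_iff.2 (hne _))),
      Real.log_mul (norm_ne_zero_iff.2 (hne _))
        (prod_ne_zero_iff.2 fun j _ => norm_ne_zero_iff.2 (hne _)),
      Real.log_prod (fun j _ => norm_ne_zero_iff.2 (hne _)),
      Real.log_prod (fun j _ => norm_ne_zero_iff.2 (hne _)), Fintype.sum_option, sum_sub_distrib]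
    ring
  rw [II, setIntegral_congr_fun measurableSet_Ioi e, integral_add (integral_log_ratio _ _).1
    (integrable_finsetSum _ fun k _ => (integral_log_ratio _ _).1),
    integral_finsetSum _ fun k _ => (integral_log_ratio _ _).1, (integral_log_ratio _ _).2]
  simp only [(integral_log_ratio _ _).2]
  have hm : ∀ x : ℝ, max x 0 = (|x| + x) / 2 := fun x => by
    rcases le_total x 0 with hx | hx
    · rw [max_eq_right hx, abs_of_nonpos hx]; ring
    · rw [max_eq_left hx, abs_of_nonneg hx]; ring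
  simp only [hm, ← sum_div, sum_add_distrib, htr, ← mul_sum, sum_sub_distrib]
  rw [Fintype.sum_option, abs_neg, abs_of_pos ht]
  ring

end Vale.Agent.P078
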