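import Vale.Agent.P078.FDefs
import Vale.Agent.P082.Lim
import Vale.Agent.P104.Closure

/-! Definitions for the operator algebraic part. -/

set_option linter.unusedSectionVars false

namespace Vale.Agent.P078

open Filter Topology Finset Vale.Agent.P104 Vale.Agent.P082
open scoped InnerProductSpace ComplexOrder

universe u v

section Top

variable {Ω : Type u} [TopologicalSpace Ω]

open Classical in
/-- The indicator function of a clopen set. -/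
noncomputable def ind (U : Set Ω) : C(Ω, ℂ) :=
  if h : IsClopen U then ⟨U.indicator fun _ => 1, h.continuous_indicator continuous_const⟩ else 0

variable (Ω) in
/-- Finite clopen partitions. -/
structure Pt where
  n : ℕ
  π : Ω → Fin n
  lc : IsLocallyConstant π

instance : Preorder (Pt Ω) where
  le P Q := Rf Q.π P.π
  le_refl _ _ _ h := h
  le_trans _ _ _ h h' ω ω' e := h ω ω' (h' ω ω' e)

instance : Nonempty (Pt Ω) := ⟨⟨1, fun _ => 0, IsLocallyConstant.const _⟩⟩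

instance : IsDirectedOrder (Pt Ω) :=
  ⟨fun P Q => ⟨⟨P.n * Q.n, fun ω => finProdFinEquiv (P.π ω, Q.π ω),
      (P.lc.prodMk Q.lc).comp finProdFinEquiv⟩,
    fun _ _ e => congrArg Prod.fst (finProdFinEquiv.injective e),
    fun _ _ e => congrArg Prod.snd (finProdFinEquiv.injective e)⟩⟩

variable (Ω) in
/-- An ultrafilter of finer and finer partitions. -/
noncomputable def UU : Ultrafilter (Pt Ω) := Ultrafilter.of atTop

/-- Finitely additive maps of clopen sets. -/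
structure Hom (θ : Set Ω → Set Ω) : Prop where
  clopen : ∀ U, IsClopen U → IsClopen (θ U)
  empty : θ ∅ = ∅
  union : ∀ U U', IsClopen U → IsClopen U' → Disjoint U U' → θ (U ∪ U') = θ U ∪ θ U'
  disj : ∀ U U', IsClopen U → IsClopen U' → Disjoint U U' → Disjoint (θ U) (θ U')

end Top

section Alg

variable {G : Type v} [NormedAddCommGroup G] [InnerProductSpace ℂ G] [CompleteSpace G]
  {M : Type u} [CStarAlgebra M]

/-- The complex vector functional. -/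
noncomputable def fi (ρ : M →⋆ₐ[ℂ] (G →L[ℂ] G)) (ξ : G) : M →ₗ[ℂ] ℂ where
  toFun x := ⟪ξ, ρ x ξ⟫_ℂ
  map_add' x y := by simp
  map_smul' r x := by simp

/-- The sum of finitely many vector functionals. -/
noncomputable def vfs (ρ : M →⋆ₐ[ℂ] (G →L[ℂ] G)) {J : Type} [Fintype J] (η : J → G) :
    M →ₗ[ℝ] ℝ := ∑ j, vf ρ (η j)

/-- Operators in the commutant. -/
def Com (ρ : M →⋆ₐ[ℂ] (G →L[ℂ] G)) (T : G →L[ℂ] G) : Prop := ∀ m, ρ m * T = T * ρ m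

/-- Subalgebras equal to their relative commutant. -/
def Masa (A : StarSubalgebra ℂ M) : Prop := ∀ m, m ∈ A ↔ ∀ a ∈ A, a * m = m * a

/-- Functionals which are continuous along bounded weak limits. -/
def Nml (ρ : M →⋆ₐ[ℂ] (G →L[ℂ] G)) (χ : M →ₗ[ℂ] ℂ) : Prop :=
  ∀ (U : Ultrafilter M) (R : ℝ) (x : M), (∀ᶠ a in (U : Filter M), ‖a‖ ≤ R) →
    WL ρ (U : Filter M) id x → Tendsto χ (U : Filter M) (𝓝 (χ x))

/-- Positive functionals. -/
def PosF (χ : M →ₗ[ℂ] ℂ) : Prop := ∀ m, 0 ≤ χ (star m * m)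

/-- Central functionals. -/
def CenF (A : StarSubalgebra ℂ M) (χ : M →ₗ[ℂ] ℂ) : Prop := ∀ a ∈ A, ∀ m, χ (a * m) = χ (m * a)

/-- No normal central functional lies below the given vectors. -/
def Sing (ρ : M →⋆ₐ[ℂ] (G →L[ℂ] G)) (A : StarSubalgebra ℂ M) {J : Type} [Fintype J] (η : J → G) :
    Prop :=
  ∀ χ, Nml ρ χ → PosF χ → CenF A χ → (∀ a ∈ A, (χ (star a * a)).re ≤ vfs ρ η (star a * a)) →
    χ 1 = 0

/-- A cyclic, separating and central unit vector. -/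
structure Cen (ρ : M →⋆ₐ[ℂ] (G →L[ℂ] G)) (A : StarSubalgebra ℂ M) (ξ : G) : Prop where
  norm_one : ‖ξ‖ = 1
  cyc : DenseRange fun m => ρ m ξ
  sep : ∀ m, ρ m ξ = 0 → m = 0
  cen : CenF A (fi ρ ξ)

/-- Symmetries in a subalgebra. -/
structure Sy (A : StarSubalgebra ℂ M) (s : M) : Prop where
  mem : s ∈ A
  sa : star s = s
  sq : s * s = 1

/-- Paving under a projection `z`, with a large projection `q`. -/
def PavQ (A : StarSubalgebra ℂ M) (φ : M →ₗ[ℝ] ℝ) (z x : M) (n : ℕ) (c δ : ℝ) : Prop :=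
  ∃ p : Fin n → M, (∀ i, IsStarProjection (p i) ∧ p i ∈ A) ∧ (∀ i j, i ≠ j → p i * p j = 0) ∧
    ∑ i, p i = z ∧ ∃ a ∈ A, star a = a ∧ ‖a‖ ≤ 1 ∧ z * a = a ∧ ∃ q, IsStarProjection q ∧
      z * q = q ∧ φ (z - q) ≤ δ ∧ ‖q * (∑ i, p i * x * p i - a) * q‖ ≤ c

/-- Words in `x` and `p`. -/
def Wd (x p : M) : ℕ → M
  | 0 => p
  | m + 1 => p * x * Wd x p m

/-- Sets of contractions whose vectors are uniformly approximated from the commutant. -/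
def RA (ρ : M →⋆ₐ[ℂ] (G →L[ℂ] G)) (ξ : G) (Y : Set M) : Prop :=
  (∀ y ∈ Y, ‖y‖ ≤ 1) ∧ ∀ δ : ℝ, 0 < δ → ∃ C : ℝ, ∀ y ∈ Y, ∃ T, Com ρ T ∧ ‖T‖ ≤ C ∧
    ‖ρ y ξ - T ξ‖ ≤ δ

/-- The product of a word in the generators. -/
def wd {Γ : Type} (gv : Γ → M) (l : List Γ) : M := (l.map gv).prod

section Ord

variable [PartialOrder M] [StarOrderedRing M]

/-- `y` is bounded by `c` up to a positive element which is small for `φ`. -/
def Nb (φ : M →ₗ[ℝ] ℝ) (y : M) (c δ : ℝ) : Prop :=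
  ∃ b, 0 ≤ b ∧ -(c • (1 : M) + b) ≤ y ∧ y ≤ c • (1 : M) + b ∧ φ b ≤ δ

/-- Paving up to a small positive element. -/
def Pav (A : StarSubalgebra ℂ M) (φ : M →ₗ[ℝ] ℝ) (x : M) (n : ℕ) (c δ : ℝ) : Prop :=
  ∃ p : Fin n → M, IsPart p ∧ (∀ i, p i ∈ A) ∧ ∃ a ∈ A, star a = a ∧ ‖a‖ ≤ 1 ∧
    Nb φ (∑ i, p i * x * p i - a) c δ

end Ord

variable {Ω : Type u} [TopologicalSpace Ω] [CompactSpace Ω] (ι : C(Ω, ℂ) →⋆ₐ[ℂ] M)

/-- The projection of a clopen set. -/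
noncomputable def pr (U : Set Ω) : M := ι (ind U)

/-- The projections of a partition. -/
noncomputable def ee {J : Type} (π : Ω → J) (j : J) : M := pr ι (π ⁻¹' {j})

/-- The pinching along a partition. -/
noncomputable def pin {J : Type} [Fintype J] (π : Ω → J) (m : M) : M :=
  ∑ j, ee ι π j * m * ee ι π j

/-- The projection onto the cells with label zero. -/
noncomputable def pl {J : Type} {h : ℕ} [NeZero h] (π : Ω → J) (l : J → Fin h) : M :=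
  pr ι {ω | l (π ω) = 0}

/-- A maximal abelian subalgebra with spectrum `Ω` and the limit `E` of its pinchings. -/
structure Sys (ρ : M →⋆ₐ[ℂ] (G →L[ℂ] G)) (E : M →ₗ[ℂ] C(Ω, ℂ)) : Prop where
  vn : IsVN ρ
  inj : Function.Injective ι
  masa : ∀ m, (∀ U, IsClopen U → pr ι U * m = m * pr ι U) → m ∈ ι.range
  fix : ∀ f, E (ι f) = f
  left : ∀ f m, E (ι f * m) = f * E m
  right : ∀ f m, E (m * ι f) = E m * f
  E_star : ∀ m, E (star m) = star (E m)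
  pos : ∀ m ω, 0 ≤ E (star m * m) ω
  E_norm : ∀ m, ‖E m‖ ≤ ‖m‖
  lim : ∀ m, WL ρ (UU Ω : Filter (Pt Ω)) (fun P => pin ι P.π m) (ι (E m))

/-- Two-sided normalizers. -/
structure Nz₀ (v : M) : Prop where
  l : ∀ f, star v * ι f * v ∈ ι.range
  r : ∀ f, v * ι f * star v ∈ ι.range

/-- Bounded Radon-Nikodym derivatives. -/
def Bd (ρ : M →⋆ₐ[ℂ] (G →L[ℂ] G)) (ξ : G) (L : ℝ) (v : M) : Prop :=
  ∀ f, ‖ρ (ι f * star v) ξ‖ ^ 2 ≤ L * ‖ρ (ι f) ξ‖ ^ 2 ∧ ‖ρ (ι f * v) ξ‖ ^ 2 ≤ L * ‖ρ (ι f) ξ‖ ^ 2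

/-- Normalizing isometric pieces with derivatives bounded by `L`. -/
structure Gb (ρ : M →⋆ₐ[ℂ] (G →L[ℂ] G)) (ξ : G) (L : ℝ) (v : M) : Prop where
  pi : PI v
  nz : Nz₀ ι v
  bd : Bd ι ρ ξ L v

/-- Normalizing isometric pieces with bounded derivatives. -/
def GS (ρ : M →⋆ₐ[ℂ] (G →L[ℂ] G)) (ξ : G) : Set M := {v | ∃ L, Gb ι ρ ξ L v}

/-- Their linear span. -/
noncomputable def NA (ρ : M →⋆ₐ[ℂ] (G →L[ℂ] G)) (ξ : G) : Submodule ℂ M :=
  Submodule.span ℂ (GS ι ρ ξ)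

/-- Diffuse elements. -/
def Dif (ρ : M →⋆ₐ[ℂ] (G →L[ℂ] G)) (E : M →ₗ[ℂ] C(Ω, ℂ)) (ξ : G) (w : M) : Prop :=
  ∀ η : ℝ, 0 < η → ∃ P : Pt Ω, ∑ j, ‖ρ (ι (E (star w * ee ι P.π j * w))) ξ‖ ^ 2 ≤ η

/-- Intertwiners. -/
def Itw (θ : Set Ω → Set Ω) (y : M) : Prop := ∀ U, IsClopen U → pr ι U * y = y * pr ι (θ U)

/-- Products and pinchings of `x` and of contractions of the subalgebra. -/
def Yn (x : M) : ℕ → Set M
  | 0 => {y | y = x ∨ ∃ f, ‖f‖ ≤ 1 ∧ y = ι f}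
  | n + 1 => {y | y ∈ Yn x n ∨ (∃ a ∈ Yn x n, ∃ b ∈ Yn x n, y = a * b) ∨
      ∃ (J : Type) (_ : Fintype J) (π : Ω → J), IsLocallyConstant π ∧ ∃ a ∈ Yn x n, y = pin ι π a}

/-- The right action of the subalgebra. -/
structure Right (ρ : M →⋆ₐ[ℂ] (G →L[ℂ] G)) (ξ : G) (Rr : C(Ω, ℂ) →⋆ₐ[ℂ] (G →L[ℂ] G)) : Prop where
  com : ∀ f, Com ρ (Rr f)
  app : ∀ f m, Rr f (ρ m ξ) = ρ (m * ι f) ξ

/-- Short words do not return to a cell, except trivially. -/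
def Sep {Γ I : Type} (gv : Γ → M) (cell : Ω → I) (R : ℕ) : Prop :=
  ∀ l : List Γ, l.length ≤ R → ∀ i, ee ι cell i * wd gv l * ee ι cell i ∈ ι.range

/-- The inner product at a point. -/
noncomputable def ip (E : M →ₗ[ℂ] C(Ω, ℂ)) (ω : Ω) (a b : M) : ℂ := E (star a * b) ω

/-- The point lies in the domain of the isometric piece. -/
def Val (E : M →ₗ[ℂ] C(Ω, ℂ)) (v : M) (ω : Ω) : Prop := E (star v * v) ω = 1

/-- The action on points and the derivatives. -/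
structure Germ (ρ : M →⋆ₐ[ℂ] (G →L[ℂ] G)) (E : M →ₗ[ℂ] C(Ω, ℂ)) (ξ : G) (act : M → Ω → Ω)
    (DD : M → C(Ω, ℂ)) : Prop where
  cont : ∀ v ∈ GS ι ρ ξ, Continuous (act v)
  spec : ∀ v ∈ GS ι ρ ξ, ∀ ω, Val E v ω → ∀ f : C(Ω, ℂ), f (act v ω) = E (star v * ι f * v) ω
  rn : ∀ v ∈ GS ι ρ ξ, ∀ f, fi ρ ξ (v * ι f * star v) = fi ρ ξ (ι (f * DD v))

end Alg

end Vale.Agent.P078
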