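import Vale.Agent.P078.Cen

/-! The majority cell. -/

set_option linter.unusedSectionVars false

namespace Vale.Agent.P078

open Filter Topology Finset Vale.Agent.P104 Vale.Agent.P082
open scoped InnerProductSpace ComplexOrder ComplexConjugate

universe u v

variable {G : Type u} [NormedAddCommGroup G] [InnerProductSpace ℂ G] [CompleteSpace G]
  {M : Type u} [CStarAlgebra M] {ρ : M →⋆ₐ[ℂ] (G →L[ℂ] G)}
  {Ω : Type u} [TopologicalSpace Ω] [CompactSpace Ω] [T2Space Ω] [TotallyDisconnectedSpace Ω]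
  {ι : C(Ω, ℂ) →⋆ₐ[ℂ] M} {E : M →ₗ[ℂ] C(Ω, ℂ)} {ξ : G}

theorem maj_mx {J : Type} (s : Finset J) (f : J → C(Ω, ℝ)) :
    ∃ g : C(Ω, ℝ), ∀ ω c, g ω ≤ c ↔ 0 ≤ c ∧ ∀ j ∈ s, f j ω ≤ c := by
  classical
  induction s using Finset.induction_on with
  | empty => exact ⟨0, fun ω c => by simp⟩
  | insert a s _ ih =>
    obtain ⟨g, hg⟩ := ih
    refine ⟨g ⊔ f a, fun ω c => ?_⟩
    rw [ContinuousMap.sup_apply, sup_le_iff, hg, Finset.forall_mem_insert]
    tauto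

/-- Finitely additive positive functions of clopen sets. -/
structure MajF (F : Set Ω → C(Ω, ℝ)) : Prop where
  pos : ∀ U ω, 0 ≤ F U ω
  empty : F ∅ = 0
  add : ∀ U U', IsClopen U → IsClopen U' → Disjoint U U' → F (U ∪ U') = F U + F U'

theorem MajF.mono {F : Set Ω → C(Ω, ℝ)} (h : MajF F) {U U' : Set Ω} (hU : IsClopen U)
    (hU' : IsClopen U') (hs : U ⊆ U') (ω : Ω) : F U ω ≤ F U' ω := by
  rw [← Set.union_sdiff_cancel hs, h.add _ _ hU (hU'.diff hU) Set.disjoint_sdiff_right]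
  exact le_add_of_nonneg_right (h.pos _ ω)

theorem MajF.sum {F : Set Ω → C(Ω, ℝ)} (h : MajF F) {J : Type} {π : Ω → J}
    (hπ : IsLocallyConstant π) (s : Finset J) : ∑ j ∈ s, F (π ⁻¹' {j}) = F (π ⁻¹' s) := by
  classical
  induction s using Finset.induction_on with
  | empty => simp [h.empty]
  | insert a s ha ih =>
    have hc : ∀ t, IsClopen (π ⁻¹' t) := fun t => ⟨⟨hπ tᶜ⟩, hπ t⟩
    rw [Finset.sum_insert ha, ih, Finset.coe_insert, Set.insert_eq, Set.preimage_union,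
      h.add _ _ (hc _) (hc _) ((Set.disjoint_singleton_left.2 ha).preimage π)]

theorem maj_cell {P Q : Pt Ω} (h : P ≤ Q) (k : Fin Q.n) :
    Q.π ⁻¹' {k} = ∅ ∨ ∃ j, Q.π ⁻¹' {k} ⊆ P.π ⁻¹' {j} := by
  rcases (Q.π ⁻¹' {k}).eq_empty_or_nonempty with h0 | ⟨ω, hω⟩
  · exact Or.inl h0
  · exact Or.inr ⟨P.π ω, fun ω' hω' => h ω' ω (hω'.trans hω.symm)⟩

theorem MajF.point {F : Set Ω → C(Ω, ℝ)} (h : MajF F) (φ : C(Ω, ℝ) →ₗ[ℝ] ℝ) (hφ : Monotone φ)
    (hn : ∀ g : Pt Ω → C(Ω, ℝ), Antitone g → (∀ P, 0 ≤ g P) → ∃ m, (∀ P, m ≤ g P) ∧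
      Tendsto (fun P => φ (g P)) (UU Ω : Filter (Pt Ω)) (𝓝 (φ m)))
    {η : ℝ} (hη : 0 < η) (hd : ∀ P : Pt Ω, η ≤ ∑ j, φ (F (P.π ⁻¹' {j}) * F (P.π ⁻¹' {j}))) :
    ∃ (U : Set Ω) (m : C(Ω, ℝ)) (ω : Ω), IsClopen U ∧ 0 < m ω ∧ F U ω < 3 / 2 * m ω ∧
      ∀ (P : Pt Ω) ω c, 0 ≤ c → c < m ω → ∃ j, c < F (U ∩ P.π ⁻¹' {j}) ω := by
  choose g hg using fun (U : Set Ω) (P : Pt Ω) =>
    maj_mx Finset.univ fun j => F (U ∩ P.π ⁻¹' {j})
  have g0 : ∀ U P, 0 ≤ g U P := fun U P ω => ((hg U P ω _).1 le_rfl).1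
  have g1 : ∀ U P ω j, F (U ∩ P.π ⁻¹' {j}) ω ≤ g U P ω := fun U P ω j =>
    ((hg U P ω _).1 le_rfl).2 j (mem_univ _)
  have ga : ∀ U, IsClopen U → Antitone (g U) := fun U hU P Q hPQ ω => by
    refine (hg U Q ω _).2 ⟨g0 U P ω, fun k _ => ?_⟩
    rcases maj_cell hPQ k with h0 | ⟨j, hj⟩
    · rw [h0, Set.inter_empty, h.empty]
      exact g0 U P ω
    · exact (h.mono (hU.inter (Q.lc.isClopen_fiber k)) (hU.inter (P.lc.isClopen_fiber j))
        (Set.inter_subset_inter_right _ hj) ω).trans (g1 U P ω j)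
  choose! m hm hl using fun U hU => hn (g U) (ga U hU) (g0 U)
  by_contra! hc
  have h1 : ∀ U, IsClopen U → ∀ ω, 3 / 2 * m U ω ≤ F U ω := fun U hU ω => by
    by_contra! h2
    have h3 := h.pos U ω
    obtain ⟨P, ω', c, h4, h5, h6⟩ := hc U (m U) ω hU (by linarith) h2
    exact absurd ((hm U hU P ω').trans ((hg U P ω' c).2 ⟨h4, fun j _ => h6 j⟩)) (not_le.2 h5)
  have h2 : ∀ P : Pt Ω, φ (m Set.univ) ≤ 2 / 3 * φ (g Set.univ P) := fun P => by
    have hc : ∀ j, IsClopen (P.π ⁻¹' {j}) := P.lc.isClopen_fiber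
    have h3 := (tendsto_finsetSum Finset.univ fun j _ =>
      (hl _ (hc j)).sub_const (φ (m (P.π ⁻¹' {j})))).const_add (2 / 3 * φ (g Set.univ P))
    simp only [sub_self, Finset.sum_const_zero, add_zero] at h3
    refine le_of_tendsto_of_tendsto (hl _ isClopen_univ) h3 ?_
    filter_upwards [eventually_Rf P.lc] with Q hQ
    have h4 : g Set.univ Q ≤ (2 / 3 : ℝ) • g Set.univ P +
        ∑ j, (g (P.π ⁻¹' {j}) Q - m (P.π ⁻¹' {j})) := ContinuousMap.le_def.2 fun ω => by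
      have h5 : ∀ j ∈ Finset.univ, 0 ≤ g (P.π ⁻¹' {j}) Q ω - m (P.π ⁻¹' {j}) ω := fun j _ =>
        sub_nonneg.2 (hm _ (hc j) Q ω)
      have h6 := Finset.sum_nonneg h5
      have h7 : 0 ≤ g Set.univ P ω := g0 _ P ω
      simp only [ContinuousMap.add_apply, ContinuousMap.smul_apply, ContinuousMap.sum_apply,
        ContinuousMap.sub_apply, smul_eq_mul]
      refine (hg _ Q ω _).2 ⟨by linarith, fun k _ => ?_⟩
      rcases maj_cell (P := P) hQ k with h0 | ⟨j, hj⟩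
      · rw [h0, Set.inter_empty, h.empty, ContinuousMap.zero_apply]
        linarith
      · have h8 := g1 (P.π ⁻¹' {j}) Q ω k
        have h9 := g1 Set.univ P ω j
        have h10 := h1 _ (hc j) ω
        have h11 := Finset.single_le_sum h5 (mem_univ j)
        rw [Set.inter_eq_right.2 hj] at h8
        rw [Set.univ_inter] at h9 ⊢
        linarith
    simpa only [map_add, map_smul, map_sum, map_sub, smul_eq_mul] using hφ h4
  have h3 := ge_of_tendsto' ((hl _ isClopen_univ).const_mul (2 / 3)) h2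
  have h4 : ∀ P : Pt Ω, η ≤ ‖F Set.univ‖ * φ (g Set.univ P) := fun P => by
    refine (hd P).trans ?_
    rw [← map_sum, ← smul_eq_mul, ← map_smul]
    refine hφ (ContinuousMap.le_def.2 fun ω => ?_)
    have h5 := congrArg (fun f : C(Ω, ℝ) => f ω) (h.sum P.lc Finset.univ)
    simp only [ContinuousMap.sum_apply, Finset.coe_univ, Set.preimage_univ] at h5
    simp only [ContinuousMap.smul_apply, ContinuousMap.sum_apply, ContinuousMap.mul_apply,
      smul_eq_mul]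
    calc _ ≤ ∑ j, F (P.π ⁻¹' {j}) ω * g Set.univ P ω := Finset.sum_le_sum fun j _ =>
          mul_le_mul_of_nonneg_left (by simpa using g1 Set.univ P ω j) (h.pos _ ω)
      _ ≤ _ := by
        rw [← Finset.sum_mul, h5]
        exact mul_le_mul_of_nonneg_right ((le_abs_self _).trans ((F Set.univ).norm_coe_le_norm ω))
          (g0 _ P ω)
  have h5 := ge_of_tendsto' ((hl _ isClopen_univ).const_mul ‖F Set.univ‖) h4
  have h6 := mul_nonpos_of_nonneg_of_nonpos (norm_nonneg (F Set.univ))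
    (show φ (m Set.univ) ≤ 0 by linarith)
  linarith

theorem MajF.hom {F : Set Ω → C(Ω, ℝ)} (h : MajF F) {U₀ : Set Ω} {m : C(Ω, ℝ)} {ω₀ : Ω}
    (h0 : IsClopen U₀) (h1 : 0 < m ω₀) (h2 : F U₀ ω₀ < 3 / 2 * m ω₀)
    (h3 : ∀ (P : Pt Ω) ω c, 0 ≤ c → c < m ω → ∃ j, c < F (U₀ ∩ P.π ⁻¹' {j}) ω) :
    ∃ (θ : Set Ω → Set Ω) (γ : ℝ), 0 < γ ∧ Hom θ ∧ (θ Set.univ).Nonempty ∧
      ∀ U, IsClopen U → ∀ ω ∈ θ U, γ ≤ F U ω := by
  obtain ⟨γ, h4, h5⟩ := exists_between (max_lt h1 (show 2 / 3 * F U₀ ω₀ < m ω₀ by linarith))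
  rw [max_lt_iff] at h4
  obtain ⟨V, hV, h6, h7⟩ := compact_exists_isClopen_in_isOpen (x := ω₀)
    ((isOpen_lt (continuous_const (y := γ)) m.continuous).inter
      (isOpen_lt (F U₀).continuous (continuous_const (y := 3 / 2 * γ))))
    ⟨h5, show F U₀ ω₀ < _ by linarith [h4.2]⟩
  have ha : ∀ U U', IsClopen U → IsClopen U' → Disjoint U U' → ∀ ω,
      F (U₀ ∩ (U ∪ U')) ω = F (U₀ ∩ U) ω + F (U₀ ∩ U') ω := fun U U' hU hU' hd ω => by
    rw [Set.inter_union_distrib_left, h.add _ _ (h0.inter hU) (h0.inter hU')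
      (hd.mono Set.inter_subset_right Set.inter_subset_right), ContinuousMap.add_apply]
  have hd : ∀ U, IsClopen U → ∀ ω ∈ V, γ < F (U₀ ∩ U) ω ∨ γ < F (U₀ ∩ Uᶜ) ω := fun U hU ω hω => by
    classical
    obtain ⟨j, hj⟩ := h3 ⟨2, LocallyConstant.ofIsClopen hU, LocallyConstant.isLocallyConstant _⟩
      ω γ h4.1.le (h7 hω).1
    rcases (Fin.exists_fin_two (p := fun j => γ < F (U₀ ∩ LocallyConstant.ofIsClopen hU ⁻¹' {j}) ω)).1
      ⟨j, hj⟩ with hj | hj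
    · exact Or.inl (by rwa [LocallyConstant.ofIsClopen_fiber_zero hU] at hj)
    · exact Or.inr (by rwa [LocallyConstant.ofIsClopen_fiber_one hU] at hj)
  have he : ∀ U, IsClopen U → ∀ ω ∈ V, γ / 2 ≤ F (U₀ ∩ U) ω → γ < F (U₀ ∩ U) ω :=
    fun U hU ω hω hle => (hd U hU ω hω).resolve_right fun hlt => by
      have h8 := ha U Uᶜ hU hU.compl disjoint_compl_right ω
      have h9 : F U₀ ω < 3 / 2 * γ := (h7 hω).2
      rw [Set.union_compl_self, Set.inter_univ] at h8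
      linarith
  refine ⟨fun U => V ∩ {ω | γ < F (U₀ ∩ U) ω}, γ, h4.1, ⟨fun U hU => ⟨?_, ?_⟩, ?_,
    fun U U' hU hU' hd => ?_, fun U U' hU hU' hd => ?_⟩, ⟨ω₀, h6, ?_⟩, fun U hU ω hω => ?_⟩
  · have : V ∩ {ω | γ < F (U₀ ∩ U) ω} = V ∩ {ω | γ / 2 ≤ F (U₀ ∩ U) ω} :=
      Set.ext fun ω => and_congr_right fun hω =>
        ⟨fun h8 => (half_le_self h4.1.le).trans (le_of_lt h8), he U hU ω hω⟩
    rw [this]
    exact hV.1.inter (isClosed_le continuous_const (F _).continuous)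
  · exact hV.2.inter (isOpen_lt continuous_const (F _).continuous)
  · simp [h.empty, h4.1.not_gt]
  · ext ω
    have h8 := ha U U' hU hU' hd ω
    have h9 := h.pos (U₀ ∩ U) ω
    have h10 := h.pos (U₀ ∩ U') ω
    simp only [Set.mem_inter_iff, Set.mem_union, Set.mem_ofPred_eq]
    refine ⟨fun ⟨hω, h11⟩ => ?_, ?_⟩
    · rcases le_or_gt (γ / 2) (F (U₀ ∩ U) ω) with h12 | h12
      · exact Or.inl ⟨hω, he U hU ω hω h12⟩
      · exact Or.inr ⟨hω, he U' hU' ω hω (by linarith)⟩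
    · rintro (⟨hω, h11⟩ | ⟨hω, h11⟩) <;> exact ⟨hω, by linarith⟩
  · refine Set.disjoint_left.2 fun ω ⟨hω, h8⟩ ⟨_, h9⟩ => ?_
    have h10 := ha U U' hU hU' hd ω
    have h11 := h.mono (h0.inter (hU.union hU')) h0 Set.inter_subset_left ω
    have h12 : F U₀ ω < 3 / 2 * γ := (h7 hω).2
    simp only [Set.mem_ofPred_eq] at h8 h9
    linarith [h4.1]
  · refine (hd _ isClopen_univ ω₀ h6).resolve_right ?_
    simp [h.empty, h4.1.le]
  · exact hω.2.le.trans (h.mono (h0.inter hU) hU Set.inter_subset_right ω)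

/-- The complexification of a real function. -/
noncomputable def majC : C(Ω, ℝ) →L[ℝ] C(Ω, ℂ) := Complex.ofRealCLM.compLeftContinuous ℝ Ω

/-- The real part of a complex function. -/
noncomputable def majR : C(Ω, ℂ) →L[ℝ] C(Ω, ℝ) := Complex.reCLM.compLeftContinuous ℝ Ω

theorem majC_apply (f : C(Ω, ℝ)) (ω : Ω) : majC f ω = f ω := rfl

theorem majR_apply (f : C(Ω, ℂ)) (ω : Ω) : majR f ω = (f ω).re := rfl

theorem majC_majR {f : C(Ω, ℂ)} (h : ∀ ω, (f ω).im = 0) : majC (majR f) = f :=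
  ContinuousMap.ext fun ω => Complex.ext rfl (h ω).symm

theorem Sys.maj_lim (h : Sys ι ρ E) (ξ : G) (g : Pt Ω → C(Ω, ℝ)) (ha : Antitone g)
    (h0 : ∀ P, 0 ≤ g P) : ∃ m, (∀ P, m ≤ g P) ∧ Tendsto (fun P => (fi ρ ξ (ι (majC (g P)))).re)
      (UU Ω : Filter (Pt Ω)) (𝓝 (fi ρ ξ (ι (majC m))).re) := by
  let _ := CStarAlgebra.spectralOrder M
  have _ := CStarAlgebra.spectralOrderedRing M
  obtain ⟨P₀⟩ : Nonempty (Pt Ω) := inferInstance
  obtain ⟨x, hx⟩ := h.vn.exists_lim (UU Ω) (a := fun P => ι (majC (g P))) (R := ‖g P₀‖)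
    ((eventually_Rf P₀.lc).mono fun P hP => (norm_ι_le ι _).trans
      ((ContinuousMap.norm_le _ (norm_nonneg _)).2 fun ω => by
        rw [majC_apply, Complex.norm_real, Real.norm_of_nonneg (show 0 ≤ g P ω from h0 P ω)]
        exact (ha hP ω).trans ((le_abs_self _).trans ((g P₀).norm_coe_le_norm ω))))
  obtain ⟨f, rfl⟩ := h.mem_of_WL (Eventually.of_forall fun P => ⟨majC (g P), rfl⟩) hx
  have h1 : ∀ P ω, f ω ≤ g P ω := fun P ω => by
    have h2 := WL.nonneg h.vn ((eventually_Rf P.lc).mono fun Q hQ => by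
      rw [← map_sub, h.nonneg_iff]
      exact fun ω => sub_nonneg.2 (Complex.real_le_real.2 (ha hQ ω)))
      ((WL.const (ι (majC (g P)))).sub hx)
    exact sub_nonneg.1 ((h.nonneg_iff (majC (g P) - f)).1 (by rw [map_sub]; exact h2) ω)
  refine ⟨majR f, fun P ω => (h1 P ω).1, ?_⟩
  rw [majC_majR fun ω => (h1 P₀ ω).2]
  exact (Complex.continuous_re.tendsto _).comp (hx ξ ξ)

theorem Sys.majority (h : Sys ι ρ E) (hc : Cen ρ ι.range ξ) {w : M} (hw : ¬ Dif ι ρ E ξ w) :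
    ∃ (θ : Set Ω → Set Ω) (γ : ℝ), 0 < γ ∧ Hom θ ∧ (θ Set.univ).Nonempty ∧
      ∀ U, IsClopen U → ∀ ω ∈ θ U, γ ≤ (E (star w * pr ι U * w) ω).re := by
  have hp : ∀ U ω, 0 ≤ E (star w * pr ι U * w) ω := fun U ω => by
    have := h.pos (pr ι U * w) ω
    rwa [star_mul, (pr_proj ι U).isSelfAdjoint.star_eq, mul_assoc, ← mul_assoc (pr ι U),
      (pr_proj ι U).isIdempotentElem.eq, ← mul_assoc] at this
  have hF : MajF fun U => majR (E (star w * pr ι U * w)) :=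
    ⟨fun U ω => (hp U ω).1, by simp [pr, ind_empty], fun U U' hU hU' hd => by
      simp only [pr, ind_union hU hU' hd, map_add, mul_add, add_mul]⟩
  let φ : C(Ω, ℝ) →ₗ[ℝ] ℝ :=
    { toFun := fun f => (fi ρ ξ (ι (majC f))).re
      map_add' := fun f g => by simp only [map_add, Complex.add_re]
      map_smul' := fun c f => by
        rw [map_smul, ← Complex.coe_smul, map_smul, map_smul, smul_eq_mul, Complex.re_ofReal_mul]
        rfl }
  have hφ : Monotone φ := fun f g hfg =>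
    (fi_ι_mono (ι := ι) (f := majC f) (g := majC g) fun ω => Complex.real_le_real.2 (hfg ω)).1
  simp only [Dif, not_forall, not_exists, not_le] at hw
  obtain ⟨η, hη, hw⟩ := hw
  obtain ⟨U, m, ω, h1, h2, h3, h4⟩ := hF.point φ hφ (h.maj_lim ξ) hη fun P =>
    (hw P).le.trans_eq (Finset.sum_congr rfl fun j _ => by
      have e := majC_majR (f := E (star w * pr ι (P.π ⁻¹' {j}) * w)) fun ω => (hp _ ω).2.symm
      have e1 : ∀ f : C(Ω, ℝ), majC (f * f) = star (majC f) * majC f := fun f =>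
        ContinuousMap.ext fun ω => by simp [majC_apply]
      change _ = (fi ρ ξ (ι (majC _))).re
      rw [e1, e, map_mul ι, map_star ι, fi_star_self, Complex.ofReal_re]
      rfl)
  exact hF.hom h1 h2 h3 h4

end Vale.Agent.P078
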