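import Vale.Agent.P078.Cen

/-! The key estimate for crossing terms. -/

set_option linter.unusedSectionVars false

namespace Vale.Agent.P078

open Filter Topology Finset Vale.Agent.P104 Vale.Agent.P082
open scoped InnerProductSpace ComplexOrder ComplexConjugate

universe u v

variable {G : Type u} [NormedAddCommGroup G] [InnerProductSpace ℂ G] [CompleteSpace G]
  {M : Type u} [CStarAlgebra M] {ρ : M →⋆ₐ[ℂ] (G →L[ℂ] G)}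
  {Ω : Type u} [TopologicalSpace Ω] [CompactSpace Ω] [T2Space Ω] [TotallyDisconnectedSpace Ω]
  {ι : C(Ω, ℂ) →⋆ₐ[ℂ] M} {E : M →ₗ[ℂ] C(Ω, ℂ)} {ξ : G}

namespace MixKAux

theorem sq_eq (A : G →L[ℂ] G) (v : G) : ‖A v‖ ^ 2 = (⟪v, (star A * A) v⟫_ℂ).re := by
  rw [mul_apply_eq_comp, ContinuousLinearMap.star_eq_adjoint,
    ContinuousLinearMap.adjoint_inner_right, inner_self_eq_norm_sq_to_K]
  norm_cast

theorem bessel {J : Type} [Fintype J] {q : J → G →L[ℂ] G} (hq : ∀ j, IsStarProjection (q j))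
    (ho : ∀ i j, i ≠ j → q i * q j = 0) (v : G) : ∑ j, ‖q j v‖ ^ 2 ≤ ‖v‖ ^ 2 := by
  have h1 : ‖∑ j, q j * 1 * q j‖ ≤ 1 :=
    norm_sum_le_of_orth (a := fun _ => 1) hq hq ho ho zero_le_one
      fun _ => ContinuousLinearMap.norm_id_le
  have e : ∑ j, ‖q j v‖ ^ 2 = (⟪v, (∑ j, q j * 1 * q j) v⟫_ℂ).re := by
    simp only [sq_eq, (hq _).isSelfAdjoint.star_eq, mul_one, _root_.sum_apply, inner_sum,
      Complex.re_sum]
  rw [e, sq]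
  refine (Complex.re_le_norm _).trans ((norm_inner_le_norm _ _).trans ?_)
  gcongr
  simpa using ContinuousLinearMap.le_of_opNorm_le _ h1 v

theorem com_app {T : G →L[ℂ] G} (hT : Com ρ T) (m : M) (v : G) : ρ m (T v) = T (ρ m v) :=
  congrArg (fun S : G →L[ℂ] G => S v) (hT m)

variable {J : Type} [Fintype J] {π : Ω → J} {Rr : C(Ω, ℂ) →⋆ₐ[ℂ] (G →L[ℂ] G)}

theorem bessel_l (hπ : IsLocallyConstant π) (v : G) :
    ∑ j, ‖ρ (ee ι π j) v‖ ^ 2 ≤ ‖v‖ ^ 2 :=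
  bessel (fun j => ((ee_part ι hπ).proj j).map ρ)
    (fun i j hij => by rw [← map_mul, (ee_part ι hπ).orth i j hij, map_zero]) v

theorem bessel_r (hπ : IsLocallyConstant π) (v : G) : ∑ j, ‖ee Rr π j v‖ ^ 2 ≤ ‖v‖ ^ 2 :=
  bessel (ee_part Rr hπ).proj (ee_part Rr hπ).orth v

theorem bessel_lr (hR : Right ι ρ ξ Rr) (hπ : IsLocallyConstant π) (v : G) :
    ∑ j, ‖ρ (ee ι π j) (ee Rr π j v)‖ ^ 2 ≤ ‖v‖ ^ 2 := by
  have hc : ∀ j, Com ρ (ee Rr π j) := fun j => hR.com _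
  refine bessel (q := fun j => ρ (ee ι π j) * ee Rr π j) (fun j =>
    (((ee_part ι hπ).proj j).map ρ).mul ((ee_part Rr hπ).proj j) (hc j _)) (fun i j hij => ?_) v
  rw [mul_assoc, ← mul_assoc (ee Rr π i), ← hc i, mul_assoc, (ee_part Rr hπ).orth i j hij,
    mul_zero, mul_zero]

theorem coarsen (hR : Right ι ρ ξ Rr) (hπ : IsLocallyConstant π) {K : Type} [Fintype K]
    {π' : Ω → K} (hπ' : IsLocallyConstant π') (hf : Rf π π') (y : M) (v : G) :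
    ∑ i, ‖ρ (ee ι π i * y) (ee Rr π i v)‖ ^ 2 ≤ ∑ a, ‖ρ (ee ι π' a * y) (ee Rr π' a v)‖ ^ 2 := by
  refine le_trans ?_ (sum_le_sum fun a _ => bessel_lr hR hπ _)
  rw [sum_comm]
  refine sum_le_sum fun i _ => ?_
  rcases (π ⁻¹' {i}).eq_empty_or_nonempty with h0 | ⟨ω, hω⟩
  · have : ee Rr π i = 0 := by rw [ee, pr, h0, ind_empty, map_zero]
    simp [this]
  have e : ind (π ⁻¹' {i}) * ind (π' ⁻¹' {π' ω}) = ind (π ⁻¹' {i}) := by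
    rw [ind_mul (U := π ⁻¹' {i}) (U' := π' ⁻¹' {π' ω}) (hπ.isClopen_fiber i)
      (hπ'.isClopen_fiber _), Set.inter_eq_left.2]
    intro ω' h
    exact hf ω' ω (h.trans hω.symm)
  refine le_trans (le_of_eq ?_) (single_le_sum (f := fun a =>
    ‖ρ (ee ι π i) (ee Rr π i (ρ (ee ι π' a * y) (ee Rr π' a v)))‖ ^ 2)
    (fun _ _ => sq_nonneg _) (mem_univ (π' ω)))
  have e1 : ee ι π i * ee ι π' (π' ω) = ee ι π i := by rw [ee, ee, pr, pr, ← map_mul, e]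
  have e2 : ee Rr π i * ee Rr π' (π' ω) = ee Rr π i := by rw [ee, ee, pr, pr, ← map_mul, e]
  have hc : Com ρ (ee Rr π i) := hR.com _
  rw [← com_app hc, ← mul_apply_eq_comp (ee Rr π i), e2, ← mul_apply_eq_comp (ρ (ee ι π i)),
    ← map_mul, ← mul_assoc, e1]

theorem block (hR : Right ι ρ ξ Rr) (π : Ω → J) {x : M} (hx : star x = x) (U : Set Ω)
    {T : G →L[ℂ] G} (hT : Com ρ T) :
    ∑ j, ‖ρ (pr ι U * (x * ee ι π j)) (pr Rr U (T ξ))‖ ^ 2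
      ≤ ‖T‖ * ‖pr Rr U (T ξ)‖ * ‖ρ (pin ι π (x * pr ι U * x)) ξ‖ := by
  have hc : Com ρ (pr Rr U) := hR.com _
  have e : ∑ j, ‖ρ (pr ι U * (x * ee ι π j)) (pr Rr U (T ξ))‖ ^ 2
      = (⟪pr Rr U (T ξ), ρ (pin ι π (x * pr ι U * x)) (pr Rr U (T ξ))⟫_ℂ).re := by
    simp only [sq_eq, pin, map_sum, _root_.sum_apply, inner_sum, Complex.re_sum]
    refine sum_congr rfl fun j _ => ?_
    have s1 : star (ee ι π j) = ee ι π j := (pr_proj ι _).isSelfAdjoint.star_eq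
    have s2 : star (pr ι U) = pr ι U := (pr_proj ι _).isSelfAdjoint.star_eq
    have s3 : ∀ a, pr ι U * (pr ι U * a) = pr ι U * a := fun a => by
      rw [← mul_assoc, (pr_proj ι U).isIdempotentElem.eq]
    rw [← map_star, ← map_mul]
    simp only [star_mul, s1, s2, s3, hx, mul_assoc]
  rw [e, com_app hc, com_app hT]
  refine (Complex.re_le_norm _).trans ((norm_inner_le_norm _ _).trans ?_)
  have h1 : ‖pr Rr U (T (ρ (pin ι π (x * pr ι U * x)) ξ))‖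
      ≤ 1 * (‖T‖ * ‖ρ (pin ι π (x * pr ι U * x)) ξ‖) :=
    (pr Rr U).le_of_opNorm_le_of_le (pr_proj Rr U).norm_le (T.le_opNorm _)
  nlinarith [norm_nonneg (pr Rr U (T ξ))]

end MixKAux

open MixKAux

theorem Sys.key_com (h : Sys ι ρ E) (hc : Cen ρ ι.range ξ) {Rr : C(Ω, ℂ) →⋆ₐ[ℂ] (G →L[ℂ] G)}
    (hR : Right ι ρ ξ Rr) {x : M} (hx : star x = x) (hd : Dif ι ρ E ξ x) (C : ℝ) {η : ℝ}
    (hη : 0 < η) : ∃ P : Pt Ω, ∀ (J : Type) [Fintype J] (π : Ω → J), IsLocallyConstant π →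
      Rf π P.π → ∀ T, Com ρ T → ‖T‖ ≤ C →
        ∑ i, ∑ j, ‖ρ (ee ι π i * x * ee ι π j) (Rr (ind (π ⁻¹' {i})) (T ξ))‖ ^ 2 ≤ η := by
  obtain ⟨t, ht, ht'⟩ : ∃ t : ℝ, 0 < t ∧ t * C ^ 4 ≤ η :=
    ⟨η / (C ^ 4 + 1), by positivity, by
      rw [div_mul_eq_mul_div, div_le_iff₀ (by positivity)]; linarith⟩
  obtain ⟨P₁, h1⟩ := hd (t * η / 4) (by positivity)
  rw [hx] at h1
  obtain ⟨δ, hδ, hδ'⟩ : ∃ δ : ℝ, 0 < δ ∧ P₁.n * δ ^ 2 ≤ t * η / 4 :=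
    ⟨√(t * η / 4 / (P₁.n + 1)), by positivity, by
      rw [Real.sq_sqrt (by positivity), mul_div_assoc', div_le_iff₀ (by positivity)]
      nlinarith [mul_pos ht hη]⟩
  obtain ⟨P₂, h2⟩ := h.pin_conv hc (fun a => x * ee ι P₁.π a * x) hδ
  obtain ⟨P, p1, p2⟩ := exists_ge_ge P₁ P₂
  refine ⟨P, fun J _ π hπ hf T hT hC => ?_⟩
  have h3 := h2 J π hπ fun ω ω' e => p2 ω ω' (hf ω ω' e)
  have h4 := fun j => coarsen hR hπ P₁.lc (fun ω ω' e => p1 ω ω' (hf ω ω' e)) (x * ee ι π j) (T ξ)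
  simp only [mul_assoc]
  rw [sum_comm]
  refine (sum_le_sum fun j _ => h4 j).trans ?_
  rw [sum_comm]
  have h5 : ∀ a, ∑ j, ‖ρ (ee ι P₁.π a * (x * ee ι π j)) (ee Rr P₁.π a (T ξ))‖ ^ 2
      ≤ t * C ^ 2 / 2 * ‖ee Rr P₁.π a (T ξ)‖ ^ 2
        + (‖ρ (ι (E (x * ee ι P₁.π a * x))) ξ‖ ^ 2 + δ ^ 2) / t := by
    intro a
    refine (block hR π hx _ hT).trans ?_
    have h6 := h3 a
    rw [map_sub, sub_apply] at h6
    have h7 := (norm_le_norm_add_norm_sub' _ _).trans (add_le_add le_rfl h6)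
    change ‖T‖ * ‖ee Rr P₁.π a (T ξ)‖ * ‖ρ (pin ι π (x * ee ι P₁.π a * x)) ξ‖ ≤ _
    have h8 : ‖T‖ * ‖ee Rr P₁.π a (T ξ)‖ * ‖ρ (pin ι π (x * ee ι P₁.π a * x)) ξ‖
        ≤ C * ‖ee Rr P₁.π a (T ξ)‖ * (‖ρ (ι (E (x * ee ι P₁.π a * x))) ξ‖ + δ) := by
      have := (norm_nonneg _).trans hC
      gcongr
    refine h8.trans ?_
    generalize ‖ρ (ι (E (x * ee ι P₁.π a * x))) ξ‖ = b
    generalize ‖ee Rr P₁.π a (T ξ)‖ = c
    rw [← sub_le_iff_le_add', le_div_iff₀ ht]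
    nlinarith [sq_nonneg (t * C * c - (b + δ)), sq_nonneg (b - δ)]
  refine (sum_le_sum fun a _ => h5 a).trans ?_
  rw [sum_add_distrib, ← mul_sum, ← sum_div, sum_add_distrib, sum_const, card_univ,
    Fintype.card_fin, nsmul_eq_mul]
  have h6 : ‖T ξ‖ ^ 2 ≤ C ^ 2 := by
    have := T.le_of_opNorm_le hC ξ
    rw [hc.norm_one, mul_one] at this
    gcongr
  have h7 := mul_le_mul_of_nonneg_left ((bessel_r (Rr := Rr) P₁.lc (T ξ)).trans h6)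
    (show 0 ≤ t * C ^ 2 / 2 by positivity)
  have h8 : (∑ a, ‖ρ (ι (E (x * ee ι P₁.π a * x))) ξ‖ ^ 2 + P₁.n * δ ^ 2) / t ≤ η / 2 := by
    rw [div_le_iff₀ ht]; linarith
  nlinarith

theorem Sys.key (h : Sys ι ρ E) (hc : Cen ρ ι.range ξ) {x : M} (hx : star x = x) (hn : ‖x‖ ≤ 1)
    (hd : Dif ι ρ E ξ x) {Y : Set M} (hY : RA ρ ξ Y) {η : ℝ} (hη : 0 < η) :
    ∃ P : Pt Ω, ∀ (J : Type) [Fintype J] (π : Ω → J), IsLocallyConstant π → Rf π P.π →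
      ∀ R ∈ Y, ∀ R' ∈ Y,
        ∑ i, ∑ j, ‖ρ (ee ι π i * x * ee ι π j * (R * ee ι π i * R')) ξ‖ ^ 2 ≤ η := by
  obtain ⟨Rr, hR⟩ := hc.exists_right
  obtain ⟨C₁, h1⟩ := hY.2 √(η / 9) (by positivity)
  obtain ⟨C₂, h2⟩ := hY.2 √(η / 9 / (C₁ ^ 2 + 1)) (by positivity)
  obtain ⟨P, hP⟩ := h.key_com hc hR hx hd C₂ (η := η / 9 / (C₁ ^ 2 + 1)) (by positivity)
  refine ⟨P, fun J _ π hπ hf R hR1 R' hR2 => ?_⟩
  obtain ⟨T', c1, n1, a1⟩ := h1 R' hR2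
  obtain ⟨T, c2, n2, a2⟩ := h2 R hR1
  have h3 := hP J π hπ hf T c2 n2
  have b1 : ‖ρ R' ξ - T' ξ‖ ^ 2 ≤ η / 9 := by
    rw [← Real.sq_sqrt (show 0 ≤ η / 9 by positivity)]; gcongr
  have b2 : ‖ρ R ξ - T ξ‖ ^ 2 ≤ η / 9 / (C₁ ^ 2 + 1) := by
    rw [← Real.sq_sqrt (show 0 ≤ η / 9 / (C₁ ^ 2 + 1) by positivity)]; gcongr
  have hc1 : ∀ {a : M} (v : G), ‖a‖ ≤ 1 → ‖ρ a v‖ ^ 2 ≤ ‖v‖ ^ 2 := fun {a} v ha => by
    have := (ρ a).le_of_opNorm_le ((h.vn.norm_eq a).trans_le ha) v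
    rw [one_mul] at this
    gcongr
  have hex : ∀ i, ‖ee ι π i * x‖ ≤ 1 := fun i =>
    (norm_mul_le _ _).trans (mul_le_one₀ ((ee_part ι hπ).norm_le i) (norm_nonneg _) hn)
  have key : ∀ i j, ‖ρ (ee ι π i * x * ee ι π j * (R * ee ι π i * R')) ξ‖ ^ 2
      ≤ 3 * ‖ρ (ee ι π j) (ρ R (ρ (ee ι π i) (ρ R' ξ - T' ξ)))‖ ^ 2
        + 3 * C₁ ^ 2 * ‖ρ (ee ι π i * x * ee ι π j) (Rr (ind (π ⁻¹' {i})) (T ξ))‖ ^ 2
        + 3 * C₁ ^ 2 * ‖ρ (ee ι π j) (ee Rr π i (ρ R ξ - T ξ))‖ ^ 2 := by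
    intro i j
    have e1 : ee Rr π i (ρ R ξ) = ρ R (ρ (ee ι π i) ξ) := by
      have := hR.app (ind (π ⁻¹' {i})) R
      rw [map_mul] at this
      exact this
    have e : ρ (ee ι π i * x * ee ι π j * (R * ee ι π i * R')) ξ
        = ρ (ee ι π i * x) (ρ (ee ι π j) (ρ R (ρ (ee ι π i) (ρ R' ξ - T' ξ))))
          + T' (ρ (ee ι π i * x * ee ι π j) (ee Rr π i (T ξ)))
          + T' (ρ (ee ι π i * x) (ρ (ee ι π j) (ee Rr π i (ρ R ξ - T ξ)))) := by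
      simp only [map_mul ρ (ee ι π i * x), map_mul ρ (ee ι π i * x * ee ι π j), map_mul ρ R,
        map_mul ρ (R * ee ι π i), mul_apply_eq_comp, map_sub, e1, com_app c1]
      abel
    have hT : ∀ v, ‖T' v‖ ^ 2 ≤ C₁ ^ 2 * ‖v‖ ^ 2 := fun v => by
      rw [← mul_pow]
      have := T'.le_of_opNorm_le n1 v
      gcongr
    have t : ∀ a b c : G, ‖a + b + c‖ ^ 2 ≤ 3 * ‖a‖ ^ 2 + 3 * ‖b‖ ^ 2 + 3 * ‖c‖ ^ 2 := by
      intro a b c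
      have h4 : ‖a + b + c‖ ^ 2 ≤ (‖a‖ + ‖b‖ + ‖c‖) ^ 2 := by
        have := norm_add₃_le (a := a) (b := b) (c := c)
        gcongr
      nlinarith [sq_nonneg (‖a‖ - ‖b‖), sq_nonneg (‖a‖ - ‖c‖), sq_nonneg (‖b‖ - ‖c‖)]
    rw [e]
    refine (t _ _ _).trans ?_
    have q1 := hc1 (ρ (ee ι π j) (ρ R (ρ (ee ι π i) (ρ R' ξ - T' ξ)))) (hex i)
    have q2 := hT (ρ (ee ι π i * x * ee ι π j) (ee Rr π i (T ξ)))
    have q3 := (hT _).trans (mul_le_mul_of_nonneg_left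
      (hc1 (ρ (ee ι π j) (ee Rr π i (ρ R ξ - T ξ))) (hex i)) (sq_nonneg C₁))
    change _ ≤ _ + 3 * C₁ ^ 2 * ‖ρ (ee ι π i * x * ee ι π j) (ee Rr π i (T ξ))‖ ^ 2 + _
    linarith
  refine (sum_le_sum fun i _ => sum_le_sum fun j _ => key i j).trans ?_
  simp only [sum_add_distrib, ← mul_sum]
  have s1 : ∑ i, ∑ j, ‖ρ (ee ι π j) (ρ R (ρ (ee ι π i) (ρ R' ξ - T' ξ)))‖ ^ 2 ≤ η / 9 :=
    (sum_le_sum fun i _ => (bessel_l hπ _).trans (hc1 _ (hY.1 R hR1))).trans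
      ((bessel_l hπ _).trans b1)
  have s2 : ∑ i, ∑ j, ‖ρ (ee ι π j) (ee Rr π i (ρ R ξ - T ξ))‖ ^ 2 ≤ η / 9 / (C₁ ^ 2 + 1) :=
    (sum_le_sum fun i _ => bessel_l hπ _).trans ((bessel_r hπ _).trans b2)
  have s3 : C₁ ^ 2 * (η / 9 / (C₁ ^ 2 + 1)) ≤ η / 9 := by
    rw [mul_div_assoc', div_le_iff₀ (by positivity)]; linarith
  nlinarith [mul_le_mul_of_nonneg_left s2 (sq_nonneg C₁),
    mul_le_mul_of_nonneg_left h3 (sq_nonneg C₁)]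

end Vale.Agent.P078
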