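import Vale.Agent.P078.Cen

/-! Words, and their approximation from the commutant. -/

set_option linter.unusedSectionVars false

namespace Vale.Agent.P078

open Filter Topology Finset Vale.Agent.P104 Vale.Agent.P082
open scoped InnerProductSpace ComplexOrder ComplexConjugate

universe u v

variable {G : Type u} [NormedAddCommGroup G] [InnerProductSpace ℂ G] [CompleteSpace G]
  {M : Type u} [CStarAlgebra M] {ρ : M →⋆ₐ[ℂ] (G →L[ℂ] G)}
  {Ω : Type u} [TopologicalSpace Ω] [CompactSpace Ω] [T2Space Ω] [TotallyDisconnectedSpace Ω]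
  {ι : C(Ω, ℂ) →⋆ₐ[ℂ] M} {E : M →ₗ[ℂ] C(Ω, ℂ)} {ξ : G}

theorem Yn_mono (x : M) {n n' : ℕ} (h : n ≤ n') : Yn ι x n ⊆ Yn ι x n' := by
  induction h with
  | refl => exact le_rfl
  | step _ ih => exact fun y hy => Or.inl (ih hy)

namespace MixWAux

theorem x_mem (x : M) (n : ℕ) : x ∈ Yn ι x n := Yn_mono x (Nat.zero_le n) (Or.inl rfl)

theorem ι_mem (x : M) {f : C(Ω, ℂ)} (hf : ‖f‖ ≤ 1) (n : ℕ) : ι f ∈ Yn ι x n :=
  Yn_mono x (Nat.zero_le n) (Or.inr ⟨f, hf, rfl⟩)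

theorem one_mem (x : M) (n : ℕ) : 1 ∈ Yn ι x n := by
  have := ι_mem (ι := ι) x (f := 1) ((ContinuousMap.norm_le _ zero_le_one).2 fun _ => by simp) n
  rwa [map_one] at this

theorem mul_mem {x a b : M} {n : ℕ} (ha : a ∈ Yn ι x n) (hb : b ∈ Yn ι x n) :
    a * b ∈ Yn ι x (n + 1) := Or.inr (Or.inl ⟨a, ha, b, hb, rfl⟩)

theorem pin_mem {x a : M} {n : ℕ} {J : Type} [Fintype J] {π : Ω → J} (hπ : IsLocallyConstant π)
    (ha : a ∈ Yn ι x n) : pin ι π a ∈ Yn ι x (n + 1) :=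
  Or.inr (Or.inr ⟨J, inferInstance, π, hπ, a, ha, rfl⟩)

theorem norm_le {x : M} (hx : ‖x‖ ≤ 1) (n : ℕ) : ∀ y ∈ Yn ι x n, ‖y‖ ≤ 1 := by
  induction n with
  | zero =>
    rintro y (rfl | ⟨f, hf, rfl⟩)
    exacts [hx, (norm_ι_le ι f).trans hf]
  | succ n ih =>
    rintro y (hy | ⟨a, ha, b, hb, rfl⟩ | ⟨J, _, π, hπ, a, ha, rfl⟩)
    · exact ih y hy
    · exact (norm_mul_le _ _).trans (mul_le_one₀ (ih a ha) (norm_nonneg _) (ih b hb))
    · exact (norm_pin_le π hπ a).trans (ih a ha)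

theorem com_mul {S T : G →L[ℂ] G} (hS : Com ρ S) (hT : Com ρ T) : Com ρ (S * T) := fun m => by
  rw [← mul_assoc, hS m, mul_assoc, hT m, mul_assoc]

theorem com_app {T : G →L[ℂ] G} (hT : Com ρ T) (m : M) (v : G) : ρ m (T v) = T (ρ m v) :=
  congrArg (fun S : G →L[ℂ] G => S v) (hT m)

theorem right_app {Rr : C(Ω, ℂ) →⋆ₐ[ℂ] (G →L[ℂ] G)} (hR : Right ι ρ ξ Rr) (f : C(Ω, ℂ)) :
    Rr f ξ = ρ (ι f) ξ := by
  simpa using hR.app f 1

theorem pin_approx {Rr : C(Ω, ℂ) →⋆ₐ[ℂ] (G →L[ℂ] G)} (hR : Right ι ρ ξ Rr) {J : Type} [Fintype J]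
    {π : Ω → J} (hπ : IsLocallyConstant π) (a : M) {T : G →L[ℂ] G} (hT : Com ρ T) :
    Com ρ (pin Rr π T) ∧ ‖ρ (pin ι π a) ξ - pin Rr π T ξ‖ ≤ ‖ρ a ξ - T ξ‖ := by
  have hc : ∀ j, Com ρ (ee Rr π j) := fun j => hR.com _
  refine ⟨fun m => ?_, ?_⟩
  · unfold pin
    rw [mul_sum, sum_mul]
    exact sum_congr rfl fun j _ => com_mul (com_mul (hc j) hT) (hc j) m
  have hp := ee_part ι hπ
  have hq := ee_part Rr hπ
  have h1 : ‖∑ j, ρ (ee ι π j) * 1 * ee Rr π j‖ ≤ 1 :=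
    norm_sum_le_of_orth (a := fun _ => 1) (fun j => (hp.proj j).map ρ) hq.proj
      (fun i j hij => by rw [← map_mul, hp.orth i j hij, map_zero]) hq.orth zero_le_one
      fun _ => ContinuousLinearMap.norm_id_le
  have e : ρ (pin ι π a) ξ - pin Rr π T ξ
      = (∑ j, ρ (ee ι π j) * 1 * ee Rr π j) (ρ a ξ - T ξ) := by
    unfold pin
    rw [map_sum, _root_.sum_apply, _root_.sum_apply, _root_.sum_apply, ← sum_sub_distrib]
    refine sum_congr rfl fun j _ => ?_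
    have e1 : ee Rr π j ξ = ρ (ee ι π j) ξ := right_app hR _
    have e2 : ee Rr π j (ρ a ξ) = ρ (a * ee ι π j) ξ := hR.app _ a
    simp only [mul_one, mul_apply_eq_comp, map_sub, e1, e2, mul_assoc, map_mul]
    rw [← com_app hT, ← com_app (hc j)]
  rw [e]
  simpa using ContinuousLinearMap.le_of_opNorm_le _ h1 (ρ a ξ - T ξ)

theorem diff (x : M) (m : ℕ) : ∃ (κ : Type) (_ : Fintype κ) (n : ℕ),
    ∀ (J : Type) [Fintype J] (π : Ω → J),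
    IsLocallyConstant π → ∀ f g : C(Ω, ℂ), ‖f‖ ≤ 1 → ‖g‖ ≤ 1 →
      Wd x (ι f) m ∈ Yn ι x n ∧ ∃ R R' : κ → M, (∀ a, R a ∈ Yn ι x n ∧ R' a ∈ Yn ι x n) ∧
        ∀ i, Wd x (ι f + ee ι π i * ι g) m - Wd x (ι f) m = ∑ a, R a * ee ι π i * R' a := by
  induction m with
  | zero =>
    exact ⟨Unit, inferInstance, 0, fun J _ π _ f g hf hg => ⟨ι_mem x hf 0, fun _ => 1,
      fun _ => ι g, fun _ => ⟨one_mem x 0, ι_mem x hg 0⟩, fun i => by simp [Wd]⟩⟩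
  | succ m ih =>
    obtain ⟨κ, _, n, h⟩ := ih
    refine ⟨Option (κ ⊕ κ), inferInstance, n + 4, fun J _ π hπ f g hf hg => ?_⟩
    obtain ⟨hW, R, R', hR, e⟩ := h J π hπ f g hf hg
    have m1 : ∀ {k : C(Ω, ℂ)} {a : M}, ‖k‖ ≤ 1 → a ∈ Yn ι x n → ι k * x * a ∈ Yn ι x (n + 2) :=
      fun hk ha => mul_mem (mul_mem (ι_mem x hk n) (x_mem x n)) (Yn_mono x (by omega) ha)
    refine ⟨Yn_mono x (by omega) (m1 hf hW),
      fun a => a.elim 1 (Sum.elim (fun a => ι f * x * R a) fun _ => 1),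
      fun a => a.elim (ι g * x * Wd x (ι f) m)
        (Sum.elim R' fun a => pin ι π (ι g * x * R a) * R' a), ?_, fun i => ?_⟩
    · rintro (_ | a | a)
      · exact ⟨one_mem x _, Yn_mono x (by omega) (m1 hg hW)⟩
      · exact ⟨Yn_mono x (by omega) (m1 hf (hR a).1), Yn_mono x (by omega) (hR a).2⟩
      · exact ⟨one_mem x _,
          mul_mem (pin_mem hπ (m1 hg (hR a).1)) (Yn_mono x (by omega) (hR a).2)⟩
    · have e1 := sub_eq_iff_eq_add.1 (e i)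
      simp only [Wd, e1, Fintype.sum_option, Fintype.sum_sum_type, Option.elim, Sum.elim_inl,
        Sum.elim_inr, one_mul, ← mul_assoc, ee_mul_pin hπ]
      simp only [mul_add, add_mul, mul_sum, mul_assoc, sum_add_distrib]
      abel

end MixWAux

open MixWAux

theorem Yn_RA (h : Sys ι ρ E) (hc : Cen ρ ι.range ξ) {x : M} (hx : ‖x‖ ≤ 1) (n : ℕ) :
    RA ρ ξ (Yn ι x n) := by
  refine ⟨norm_le hx n, ?_⟩
  obtain ⟨Rr, hR⟩ := hc.exists_right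
  induction n with
  | zero =>
    intro δ hδ
    obtain ⟨T, hT, h1⟩ := dense_com h.vn hc.sep (ρ x ξ) hδ
    refine ⟨max ‖T‖ 1, ?_⟩
    rintro y (rfl | ⟨f, hf, rfl⟩)
    · exact ⟨T, hT, le_max_left _ _, h1⟩
    · exact ⟨Rr f, hR.com f, ((norm_ι_le Rr f).trans hf).trans (le_max_right _ _), by
        simp [right_app hR, hδ.le]⟩
  | succ n ih =>
    intro δ hδ
    obtain ⟨C₁, h1⟩ := ih (δ / 2) (by positivity)
    obtain ⟨C₂, h2⟩ := ih (δ / (2 * (|C₁| + 1))) (by positivity)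
    refine ⟨max C₁ (C₁ * C₂), ?_⟩
    rintro y (hy | ⟨a, ha, b, hb, rfl⟩ | ⟨J, _, π, hπ, a, ha, rfl⟩)
    · obtain ⟨T, hT, h3, h4⟩ := h1 y hy
      exact ⟨T, hT, h3.trans (le_max_left _ _), by linarith⟩
    · obtain ⟨S, hS, h3, h4⟩ := h1 b hb
      obtain ⟨T, hT, h5, h6⟩ := h2 a ha
      refine ⟨S * T, com_mul hS hT, ((norm_mul_le _ _).trans (mul_le_mul h3 h5 (norm_nonneg _)
        ((norm_nonneg _).trans h3))).trans (le_max_right _ _), ?_⟩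
      have e : ρ (a * b) ξ - (S * T) ξ = ρ a (ρ b ξ - S ξ) + S (ρ a ξ - T ξ) := by
        simp [com_app hS]
      have n1 : ‖ρ a (ρ b ξ - S ξ)‖ ≤ 1 * (δ / 2) :=
        (ρ a).le_of_opNorm_le_of_le (by rw [h.vn.norm_eq]; exact norm_le hx n a ha) h4
      have n2 : ‖S (ρ a ξ - T ξ)‖ ≤ (|C₁| + 1) * (δ / (2 * (|C₁| + 1))) :=
        S.le_of_opNorm_le_of_le (by linarith [le_abs_self C₁]) h6
      have e2 : (|C₁| + 1) * (δ / (2 * (|C₁| + 1))) = δ / 2 := by field_simp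
      rw [e]
      linarith [norm_add_le (ρ a (ρ b ξ - S ξ)) (S (ρ a ξ - T ξ))]
    · obtain ⟨T, hT, h3, h4⟩ := h1 a ha
      obtain ⟨h5, h6⟩ := pin_approx hR hπ a hT
      exact ⟨_, h5, ((norm_pin_le π hπ T).trans h3).trans (le_max_left _ _), by linarith⟩

theorem Wd_diff (x : M) (m : ℕ) : ∃ N n : ℕ, ∀ (J : Type) [Fintype J] (π : Ω → J),
    IsLocallyConstant π → ∀ f g : C(Ω, ℂ), ‖f‖ ≤ 1 → ‖g‖ ≤ 1 →
      Wd x (ι f) m ∈ Yn ι x n ∧ ∃ R R' : Fin N → M, (∀ a, R a ∈ Yn ι x n ∧ R' a ∈ Yn ι x n) ∧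
        ∀ i, Wd x (ι f + ee ι π i * ι g) m - Wd x (ι f) m = ∑ a, R a * ee ι π i * R' a := by
  obtain ⟨κ, _, n, h⟩ := diff (ι := ι) x m
  refine ⟨Fintype.card κ, n, fun J _ π hπ f g hf hg => ?_⟩
  obtain ⟨hW, R, R', hR, e⟩ := h J π hπ f g hf hg
  refine ⟨hW, fun a => R ((Fintype.equivFin κ).symm a), fun a => R' ((Fintype.equivFin κ).symm a),
    fun a => hR _, fun i => ?_⟩
  rw [e i, Equiv.sum_comp (Fintype.equivFin κ).symm fun a => R a * ee ι π i * R' a]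

end Vale.Agent.P078
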