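import Vale.Agent.P078.MixH
import Vale.Agent.P078.MixW
import Vale.Agent.P078.MixK

/-! The mixing lemma. -/

set_option linter.unusedSectionVars false

namespace Vale.Agent.P078

open Filter Topology Finset Vale.Agent.P104 Vale.Agent.P082
open scoped InnerProductSpace ComplexOrder ComplexConjugate

universe u v

variable {G : Type u} [NormedAddCommGroup G] [InnerProductSpace ℂ G] [CompleteSpace G]
  {M : Type u} [CStarAlgebra M] {ρ : M →⋆ₐ[ℂ] (G →L[ℂ] G)}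
  {Ω : Type u} [TopologicalSpace Ω] [CompactSpace Ω] [T2Space Ω] [TotallyDisconnectedSpace Ω]
  {ι : C(Ω, ℂ) →⋆ₐ[ℂ] M} {E : M →ₗ[ℂ] C(Ω, ℂ)} {ξ : G}

theorem mx_sq_Ex {A : Type} [Fintype A] [Nonempty A] (f : A → G) :
    ‖Ex f‖ ^ 2 ≤ Ex fun a => ‖f a‖ ^ 2 := by
  have h1 := pow_le_pow_left₀ (norm_nonneg _) (norm_Ex_le f) 2
  refine h1.trans ?_
  have h2 := sq_sum_le_card_mul_sum_sq (s := univ) (f := fun a => ‖f a‖)
  have hc : (0 : ℝ) < Fintype.card A := by exact_mod_cast Fintype.card_pos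
  simp only [Ex, smul_eq_mul]
  rw [card_univ] at h2
  rw [mul_pow, sq (Fintype.card A : ℝ)⁻¹, mul_assoc]
  refine mul_le_mul_of_nonneg_left ?_ (by positivity)
  rw [inv_mul_le_iff₀ hc]
  exact h2

theorem mx_dl {J K : Type} [Fintype J] [DecidableEq J] [Fintype K] {n : ℕ} [NeZero n]
    (T : J → K → G →L[ℂ] G) (U : (J → Fin n) → G) (l : J → Fin n) {N : ℕ}
    (v : Fin n → Fin N → J → G) (hv : ∀ a i, U (Function.update l i a) - U l = ∑ c, v a c i)
    {η : ℝ} (hb : ∀ a c, ∑ i, ∑ k, ‖T i k (v a c i)‖ ^ 2 ≤ η) :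
    ∑ i, ∑ k, ‖T i k (Dl U i l)‖ ^ 2 ≤ N ^ 2 * η := by
  have e1 : ∀ i k, ‖T i k (Dl U i l)‖ ^ 2 ≤ Ex fun a => N * ∑ c, ‖T i k (v a c i)‖ ^ 2 := by
    intro i k
    have e2 : Dl U i l = -Ex fun a => ∑ c, v a c i := by
      simp only [← hv, Ex_sub, Ex_const, Dl, neg_sub]
    have e3 : T i k (Ex fun a => ∑ c, v a c i) = Ex fun a => ∑ c, T i k (v a c i) := by
      simp [Ex]
    rw [e2, map_neg, norm_neg, e3]
    refine (mx_sq_Ex _).trans (Ex_mono fun a => ?_)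
    refine (pow_le_pow_left₀ (norm_nonneg _) (norm_sum_le _ _) 2).trans ?_
    simpa using sq_sum_le_card_mul_sum_sq (s := univ) (f := fun c => ‖T i k (v a c i)‖)
  refine (sum_le_sum fun i _ => sum_le_sum fun k _ => e1 i k).trans ?_
  simp only [← Ex_sum]
  refine Ex_le fun a => ?_
  simp only [← mul_sum]
  rw [sq, mul_assoc]
  refine mul_le_mul_of_nonneg_left ?_ (by positivity)
  rw [sum_congr rfl fun i _ => sum_comm, sum_comm]
  simpa using sum_le_sum fun c (_ : c ∈ univ) => hb a c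

theorem mx_part {J : Type} [Fintype J] {e : J → M} (he : IsPart e) : IsPart fun i => ρ (e i) :=
  ⟨fun i => ⟨by rw [IsIdempotentElem, ← map_mul, he.idem],
      by rw [IsSelfAdjoint, ← map_star, he.star_eq]⟩,
    fun i j h => by rw [← map_mul, he.orth i j h, map_zero], by rw [← map_sum, he.sum, map_one]⟩

theorem mx_norm_le {y : M} (hy : ‖y‖ ≤ 1) (v : G) : ‖ρ y v‖ ≤ ‖v‖ :=
  ((ρ y).le_opNorm v).trans (mul_le_of_le_one_left (norm_nonneg _)
    ((NonUnitalStarAlgHom.norm_apply_le ρ y).trans hy))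

theorem mx_pyth {J : Type} [Fintype J] {e : J → M} (he : IsPart e) (y : M) :
    ∑ j, ‖ρ (e j * y) ξ‖ ^ 2 = ‖ρ y ξ‖ ^ 2 := by
  have h1 : ∑ j, star (e j * y) * (e j * y) = star y * y := by
    simp only [star_mul, mul_assoc, ← mul_sum]
    simp only [← mul_assoc, ← sum_mul, he.sum_star_mul, one_mul]
  have h2 := congrArg (fi ρ ξ) h1
  simp only [map_sum, fi_star_self] at h2
  exact_mod_cast h2

theorem mx_wd {x p : M} (hp : p * p = p) (m : ℕ) : p * Wd x p m = Wd x p m := by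
  cases m with
  | zero => exact hp
  | succ m => rw [Wd, ← mul_assoc, ← mul_assoc, hp]

theorem mx_wd_pow {x p : M} (hp : p * p = p) (m : ℕ) : Wd x p m = (p * x * p) ^ m * p := by
  induction m with
  | zero => rw [pow_zero, one_mul, Wd]
  | succ m ih => rw [Wd, ← mx_wd hp m, ih, pow_succ']; simp only [mul_assoc]

section Lab

variable {J : Type} [Fintype J] [DecidableEq J] {π : Ω → J} {n : ℕ} [NeZero n]

theorem mx_clopen (hπ : IsLocallyConstant π) (l : J → Fin n) : IsClopen {ω | l (π ω) = 0} :=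
  (hπ.comp l).isClopen_fiber 0

theorem mx_ee_pl (hπ : IsLocallyConstant π) {l : J → Fin n} {i : J} (h : l i ≠ 0) :
    ee ι π i * pl ι π l = 0 := by
  have e : π ⁻¹' {i} ∩ {ω | l (π ω) = 0} = ∅ :=
    Set.eq_empty_of_forall_notMem fun ω hω => h (by
      have h1 : π ω = i := hω.1
      rw [← h1]; exact hω.2)
  rw [ee, pl, pr, pr, ← map_mul, ind_mul (U := π ⁻¹' {i}) (hπ.isClopen_fiber i) (mx_clopen hπ l),
    e, ind_empty, map_zero]

theorem mx_update (hπ : IsLocallyConstant π) (l : J → Fin n) (a : Fin n) :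
    ∃ g : C(Ω, ℂ), ‖g‖ ≤ 1 ∧
      ∀ i, pl ι π (Function.update l i a) = pl ι π l + ee ι π i * ι g := by
  refine ⟨(if a = 0 then 1 else 0) - ind {ω | l (π ω) = 0}, ?_, fun i => ?_⟩
  · split_ifs
    · rw [← ind_compl (mx_clopen hπ l)]; exact norm_ind_le _
    · rw [zero_sub, norm_neg]; exact norm_ind_le _
  · rw [ee, pl, pl, pr, pr, pr, ← map_mul, ← map_add]
    congr 1
    ext ω
    rw [ContinuousMap.add_apply, ContinuousMap.mul_apply, ContinuousMap.sub_apply]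
    by_cases hi : π ω = i
    · rw [ind_of_mem (U := π ⁻¹' {i}) (hπ.isClopen_fiber i) hi, one_mul, add_sub_cancel]
      split_ifs with ha
      · exact ind_of_mem (mx_clopen hπ _) (by simp [hi, ha])
      · exact ind_of_notMem (by simp [hi, ha])
    · rw [ind_of_notMem (U := π ⁻¹' {i}) hi, zero_mul, add_zero]
      by_cases hl : l (π ω) = 0
      · rw [ind_of_mem (mx_clopen hπ _) (by simp [hi, hl]), ind_of_mem (mx_clopen hπ _) hl]
      · rw [ind_of_notMem (by simp [hi, hl]), ind_of_notMem (U := {ω | l (π ω) = 0}) hl]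

end Lab

theorem mx_diff (x : M) (m : ℕ) : ∃ N r : ℕ, ∀ (J : Type) [Fintype J] [DecidableEq J] (π : Ω → J),
    IsLocallyConstant π → ∀ (n : ℕ) [NeZero n] (l : J → Fin n),
      ∃ R R' : Fin n → Fin N → M, (∀ a c, R a c ∈ Yn ι x r ∧ R' a c ∈ Yn ι x r) ∧ ∀ a i,
        ρ (Wd x (pl ι π (Function.update l i a)) m) ξ - ρ (Wd x (pl ι π l) m) ξ =
          ∑ c, ρ (R a c * ee ι π i * R' a c) ξ := by
  obtain ⟨N, r, h⟩ := Wd_diff (ι := ι) x m
  refine ⟨N, r, fun J _ _ π hπ n _ l => ?_⟩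
  choose g hg hu using mx_update (ι := ι) hπ l
  choose R R' h1 h2 using fun a => (h J π hπ (ind {ω | l (π ω) = 0}) (g a) (norm_ind_le _) (hg a)).2
  refine ⟨R, R', h1, fun a i => ?_⟩
  have := congrArg (fun y => ρ y ξ) (h2 a i)
  simp only [map_sub, map_sum, _root_.sub_apply, _root_.sum_apply] at this
  rw [hu a i]
  exact this

theorem mx_step_real {a b θ ε : ℝ} (hε : 0 ≤ ε) (ha : 0 ≤ θ * a)
    (h : b ^ 2 ≤ θ * a * b + ε ^ 2) : b ≤ θ * a + ε := by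
  by_contra hc
  have h1 := not_le.1 hc
  nlinarith [mul_pos (sub_pos.2 h1) (show 0 < b by linarith), mul_nonneg hε ha]

theorem Sys.mx_step (h : Sys ι ρ E) (hc : Cen ρ ι.range ξ) {x : M} (hx : star x = x)
    (hn : ‖x‖ ≤ 1) (hd : Dif ι ρ E ξ x) (n : ℕ) [NeZero n] (m : ℕ) {ε : ℝ} (hε : 0 < ε) :
    ∃ P : Pt Ω, ∀ (J : Type) [Fintype J] [DecidableEq J] (π : Ω → J),
      IsLocallyConstant π → Rf π P.π →
        √(Ex fun l : J → Fin n => ‖ρ (Wd x (pl ι π l) (m + 1)) ξ‖ ^ 2) ≤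
          3 / √n * √(Ex fun l : J → Fin n => ‖ρ (Wd x (pl ι π l) m) ξ‖ ^ 2) + ε := by
  obtain ⟨N, r, h1⟩ := mx_diff (ρ := ρ) (ι := ι) (ξ := ξ) x m
  obtain ⟨N', r', h2⟩ := mx_diff (ρ := ρ) (ι := ι) (ξ := ξ) x (m + 1)
  obtain ⟨P, hP⟩ := h.key hc hx hn hd (Yn_RA h hc hn r)
    (η := (ε ^ 2 / ((N + 1) * (N' + 1))) ^ 2) (by positivity)
  refine ⟨P, fun J _ _ π hπ hR => ?_⟩
  have he := ee_part ι hπ
  have hp : ∀ l : J → Fin n, IsStarProjection (pl ι π l) := fun l => pr_proj ι _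
  have hU : ∀ (k : ℕ) (l : J → Fin n) (i : J), l i ≠ 0 →
      ρ (ee ι π i) (ρ (Wd x (pl ι π l) k) ξ) = 0 := by
    intro k l i hi
    rw [← mul_apply_eq_comp, ← map_mul, ← mx_wd (hp l).isIdempotentElem.eq,
      ← mul_assoc, mx_ee_pl hπ hi, zero_mul, map_zero, _root_.zero_apply]
  have key := mix_hilbert (mx_part (ρ := ρ) he) (x := ρ x)
    ((NonUnitalStarAlgHom.norm_apply_le ρ x).trans hn) (hU m) (hU (m + 1))
  have hA : (Ex fun l : J → Fin n => ∑ i, ∑ j, ‖ρ (ee ι π i) (ρ x (ρ (ee ι π j)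
      (Dl (fun l => ρ (Wd x (pl ι π l) m) ξ) i l)))‖ ^ 2) ≤
        (N * (ε ^ 2 / ((N + 1) * (N' + 1)))) ^ 2 := by
    refine Ex_le fun l => ?_
    obtain ⟨R, R', a1, a2⟩ := h1 J π hπ n l
    rw [mul_pow]
    refine mx_dl (fun i j => ρ (ee ι π i) * ρ x * ρ (ee ι π j)) _ l _ a2 fun a c => ?_
    refine le_trans (le_of_eq ?_) (hP J π hπ hR _ (a1 a c).1 _ (a1 a c).2)
    simp only [map_mul, mul_apply_eq_comp]
  have hB : (Ex fun l : J → Fin n => ∑ j,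
      ‖Dl (fun l => ρ (Wd x (pl ι π l) (m + 1)) ξ) j l‖ ^ 2) ≤ (N' : ℝ) ^ 2 := by
    refine Ex_le fun l => ?_
    obtain ⟨R, R', a1, a2⟩ := h2 J π hπ n l
    have hY := (Yn_RA h hc hn r').1
    have := mx_dl (K := Unit) (fun _ _ => 1) (fun l => ρ (Wd x (pl ι π l) (m + 1)) ξ) l _ a2
      (η := 1) fun a c => by
      simp only [univ_unique, sum_singleton, one_apply_eq_self]
      have b1 : ∀ i, ‖ρ (R a c * ee ι π i * R' a c) ξ‖ ^ 2 ≤ ‖ρ (ee ι π i * R' a c) ξ‖ ^ 2 :=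
        fun i => by
          rw [mul_assoc, map_mul, mul_apply_eq_comp]
          exact pow_le_pow_left₀ (norm_nonneg _) (mx_norm_le (hY _ (a1 a c).1) _) 2
      refine (sum_le_sum fun i _ => b1 i).trans ?_
      rw [mx_pyth he]
      exact pow_le_one₀ (norm_nonneg _) ((mx_norm_le (hY _ (a1 a c).2) _).trans hc.norm_one.le)
    simpa only [univ_unique, sum_singleton, one_apply_eq_self, mul_one] using this
  have hV : ∀ l : J → Fin n, ⟪ρ (Wd x (pl ι π l) (m + 1)) ξ, ρ x (ρ (Wd x (pl ι π l) m) ξ)⟫_ℂ =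
      ((‖ρ (Wd x (pl ι π l) (m + 1)) ξ‖ ^ 2 : ℝ) : ℂ) := by
    intro l
    rw [← fi_star_self, ← mul_apply_eq_comp, ← map_mul, ← fi_star_mul]
    congr 1
    conv_lhs => rw [← mx_wd (hp l).isIdempotentElem.eq (m + 1), star_mul,
      (hp l).isSelfAdjoint.star_eq]
    rw [mul_assoc, ← mul_assoc (pl ι π l)]
    rfl
  have h0 : 0 ≤ Ex fun l : J → Fin n => ‖ρ (Wd x (pl ι π l) (m + 1)) ξ‖ ^ 2 :=
    (Ex_const (0 : ℝ)).symm.le.trans (Ex_mono fun l => by positivity)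
  have e1 : (Ex fun l : J → Fin n => ((‖ρ (Wd x (pl ι π l) (m + 1)) ξ‖ ^ 2 : ℝ) : ℂ)) =
      ((Ex fun l : J → Fin n => ‖ρ (Wd x (pl ι π l) (m + 1)) ξ‖ ^ 2 : ℝ) : ℂ) := by
    simp [Ex]
  simp only [hV] at key
  rw [e1, Complex.norm_real, Real.norm_of_nonneg h0] at key
  refine mx_step_real hε.le (by positivity) ?_
  rw [Real.sq_sqrt h0]
  refine key.trans (add_le_add le_rfl ?_)
  refine (mul_le_mul (Real.sqrt_le_sqrt hA) (Real.sqrt_le_sqrt hB) (Real.sqrt_nonneg _)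
    (Real.sqrt_nonneg _)).trans ?_
  rw [Real.sqrt_sq (by positivity), Real.sqrt_sq (by positivity), mul_div_assoc', div_mul_eq_mul_div,
    div_le_iff₀ (by positivity)]
  have : (0 : ℝ) ≤ ε ^ 2 * (N + N' + 1) := by positivity
  nlinarith

theorem Sys.mx_ind (h : Sys ι ρ E) (hc : Cen ρ ι.range ξ) {x : M} (hx : star x = x)
    (hn : ‖x‖ ≤ 1) (hd : Dif ι ρ E ξ x) {n : ℕ} [NeZero n] (h9 : 9 ≤ n) (m : ℕ) : ∀ ε : ℝ, 0 < ε →
    ∃ P : Pt Ω, ∀ (J : Type) [Fintype J] [DecidableEq J] (π : Ω → J),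
      IsLocallyConstant π → Rf π P.π →
        √(Ex fun l : J → Fin n => ‖ρ (Wd x (pl ι π l) m) ξ‖ ^ 2) ≤ (3 / √n) ^ m + ε := by
  have h3 : (3 : ℝ) ≤ √n := Real.le_sqrt_of_sq_le (by norm_num; exact_mod_cast h9)
  have hθ : 3 / √(n : ℝ) ≤ 1 := (div_le_one (by linarith)).2 h3
  induction m with
  | zero =>
    refine fun ε hε => ⟨Classical.arbitrary _, fun J _ _ π _ _ => ?_⟩
    have : (Ex fun l : J → Fin n => ‖ρ (Wd x (pl ι π l) 0) ξ‖ ^ 2) ≤ 1 := Ex_le fun l =>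
      pow_le_one₀ (norm_nonneg _) ((mx_norm_le (pr_proj ι _).norm_le _).trans hc.norm_one.le)
    have := Real.sqrt_le_one.2 this
    rw [pow_zero]
    linarith
  | succ m ih =>
    intro ε hε
    obtain ⟨P1, h1⟩ := ih (ε / 2) (by positivity)
    obtain ⟨P2, h2⟩ := h.mx_step hc hx hn hd n m (ε := ε / 2) (by positivity)
    obtain ⟨P, a1, a2⟩ := exists_ge_ge P1 P2
    refine ⟨P, fun J _ _ π hπ hR => ?_⟩
    have b1 := h1 J π hπ fun ω ω' e => a1 ω ω' (hR ω ω' e)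
    have b2 := h2 J π hπ fun ω ω' e => a2 ω ω' (hR ω ω' e)
    have b3 := mul_le_mul_of_nonneg_left b1 (by positivity : 0 ≤ 3 / √(n : ℝ))
    rw [pow_succ']
    nlinarith

theorem Sys.mixing (h : Sys ι ρ E) (hc : Cen ρ ι.range ξ) {x : M} (hx : star x = x)
    (hn : ‖x‖ ≤ 1) (hd : Dif ι ρ E ξ x) {n : ℕ} [NeZero n] (h9 : 9 ≤ n) (k : ℕ) {η : ℝ}
    (hη : 0 < η) : ∃ P : Pt Ω, ∀ (J : Type) [Fintype J] [DecidableEq J] (π : Ω → J),
      IsLocallyConstant π → Rf π P.π →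
        (Ex fun l : J → Fin n => ‖ρ ((pl ι π l * x * pl ι π l) ^ k) ξ‖ ^ 2) ≤
          2 * (9 / n) ^ k + η := by
  cases k with
  | zero =>
    refine ⟨Classical.arbitrary _, fun J _ _ π _ _ => ?_⟩
    simp only [pow_zero, map_one, one_apply_eq_self, hc.norm_one, Ex_const]
    linarith
  | succ k =>
    obtain ⟨P, hP⟩ := h.mx_ind hc hx hn hd h9 (k + 1) (√(η / 2)) (by positivity)
    refine ⟨P, fun J _ _ π hπ hR => ?_⟩
    have h1 := hP J π hπ hR
    have e : ∀ l : J → Fin n, Wd x (pl ι π l) (k + 1) = (pl ι π l * x * pl ι π l) ^ (k + 1) := by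
      intro l
      have hp : pl ι π l * pl ι π l = pl ι π l := (pr_proj ι _).isIdempotentElem.eq
      rw [mx_wd_pow hp, pow_succ, mul_assoc, mul_assoc (_ * x), hp]
    simp only [e] at h1
    have h2 := Real.sqrt_le_iff.1 h1
    have e2 : ((3 / √(n : ℝ)) ^ (k + 1)) ^ 2 = (9 / n) ^ (k + 1) := by
      rw [← pow_mul, mul_comm, pow_mul, div_pow, Real.sq_sqrt (by positivity)]; norm_num
    have e3 : √(η / 2) ^ 2 = η / 2 := Real.sq_sqrt (by positivity)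
    nlinarith [h2.2, sq_nonneg ((3 / √(n : ℝ)) ^ (k + 1) - √(η / 2))]

end Vale.Agent.P078
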