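import Vale.Agent.P078.MDefs

/-! The Hilbert space inequality behind the mixing lemma. -/

set_option linter.unusedSectionVars false

namespace Vale.Agent.P078

open Filter Topology Finset Vale.Agent.P104 Vale.Agent.P082
open scoped InnerProductSpace ComplexOrder ComplexConjugate

universe u v

variable {G : Type v} [NormedAddCommGroup G] [InnerProductSpace ℂ G] [CompleteSpace G]
  {M : Type u} [CStarAlgebra M] {ρ : M →⋆ₐ[ℂ] (G →L[ℂ] G)}

variable {J : Type} [Fintype J] [DecidableEq J] {h : ℕ} [NeZero h]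

/-- The fluctuation of a random vector in the label `i`. -/
noncomputable def Dl (U : (J → Fin h) → G) (i : J) (l : J → Fin h) : G :=
  U l - Ex fun a => U (Function.update l i a)

namespace MixHAux

theorem cs {L K : Type} [Fintype L] [Fintype K] (a b : L → K → G) :
    ‖Ex fun l => ∑ k, ⟪a l k, b l k⟫_ℂ‖
      ≤ √(Ex fun l => ∑ k, ‖a l k‖ ^ 2) * √(Ex fun l => ∑ k, ‖b l k‖ ^ 2) := by
  refine (norm_Ex_le _).trans ((Ex_mono fun l => (norm_sum_le _ _).trans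
    (sum_le_sum fun k _ => norm_inner_le_norm _ _)).trans ?_)
  have hc : (0 : ℝ) ≤ (Fintype.card L : ℝ)⁻¹ := by positivity
  simp only [Ex, smul_eq_mul, ← Fintype.sum_prod_type', Real.sqrt_mul hc]
  rw [mul_mul_mul_comm, Real.mul_self_sqrt hc]
  exact mul_le_mul_of_nonneg_left (Real.sum_mul_le_sqrt_mul_sqrt _ _ _) hc

theorem cs1 {L : Type} [Fintype L] (a b : L → G) :
    ‖Ex fun l => ⟪a l, b l⟫_ℂ‖ ≤ √(Ex fun l => ‖a l‖ ^ 2) * √(Ex fun l => ‖b l‖ ^ 2) := by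
  simpa using cs (K := Unit) (fun l _ => a l) fun l _ => b l

theorem inner_Ex {L : Type} [Fintype L] (v : G) (f : L → G) :
    ⟪v, Ex f⟫_ℂ = Ex fun l => ⟪v, f l⟫_ℂ := by
  simp only [Ex, inner_smul_right_eq_smul, inner_sum]

theorem Ex_inner {L : Type} [Fintype L] (v : G) (f : L → G) :
    ⟪Ex f, v⟫_ℂ = Ex fun l => ⟪f l, v⟫_ℂ := by
  simp only [Ex, inner_smul_left_eq_smul, sum_inner]

theorem op_Ex {L : Type} [Fintype L] (A : G →L[ℂ] G) (f : L → G) :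
    A (Ex f) = Ex fun l => A (f l) :=
  map_Ex ((A : G →ₗ[ℂ] G).restrictScalars ℝ) f

/-- The average over the label `i`. -/
noncomputable def Av (U : (J → Fin h) → G) (i : J) (l : J → Fin h) : G :=
  Ex fun a => U (Function.update l i a)

theorem Av_update (U : (J → Fin h) → G) (i : J) (l : J → Fin h) (a : Fin h) :
    Av U i (Function.update l i a) = Av U i l := by
  simp only [Av, Function.update_idem]

theorem Av_sa (V W : (J → Fin h) → G) (i : J) :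
    (Ex fun l => ⟪Av V i l, W l⟫_ℂ) = Ex fun l => ⟪V l, Av W i l⟫_ℂ := by
  rw [Ex_update i fun l => ⟪Av V i l, W l⟫_ℂ, Ex_update i fun l => ⟪V l, Av W i l⟫_ℂ]
  simp only [Av_update, ← inner_Ex, ← Ex_inner]
  rfl

theorem Dl_sa (V W : (J → Fin h) → G) (i : J) :
    (Ex fun l => ⟪Dl V i l, W l⟫_ℂ) = Ex fun l => ⟪V l, Dl W i l⟫_ℂ := by
  have := Av_sa V W i
  simp only [Av] at this
  simp only [Dl, inner_sub_left, inner_sub_right, Ex_sub, this]

theorem Dl_comm (U : (J → Fin h) → G) (i j : J) : Dl (Dl U j) i = Dl (Dl U i) j := by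
  by_cases hij : i = j
  · rw [hij]
  funext l
  simp only [Dl, Ex_sub, Function.update_comm hij]
  rw [Ex_comm]
  abel

theorem op_Dl (A : G →L[ℂ] G) (U : (J → Fin h) → G) (i : J) (l : J → Fin h) :
    A (Dl U i l) = Dl (fun l => A (U l)) i l := by
  simp only [Dl, map_sub, op_Ex]

theorem swap (A : G →L[ℂ] G) (U V : (J → Fin h) → G) (i j : J) :
    (Ex fun l => ⟪Dl V i l, A (Dl U j l)⟫_ℂ) = Ex fun l => ⟪Dl V j l, A (Dl U i l)⟫_ℂ := by
  simp only [op_Dl]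
  rw [Dl_sa, Dl_sa, Dl_comm]

variable {e : J → G →L[ℂ] G}

theorem sa (he : IsPart e) (i : J) (v w : G) : ⟪e i v, w⟫_ℂ = ⟪v, e i w⟫_ℂ := by
  rw [← ContinuousLinearMap.adjoint_inner_right, ← ContinuousLinearMap.star_eq_adjoint, he.star_eq]

theorem app (he : IsPart e) (i j : J) (v : G) : e i (e j v) = if i = j then e i v else 0 := by
  rw [← mul_apply_eq_comp, he.mul_ite]
  split_ifs <;> rfl

theorem total (he : IsPart e) (v : G) : ∑ i, e i v = v := by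
  rw [← _root_.sum_apply, he.sum]
  rfl

theorem parseval (he : IsPart e) (v : G) : ∑ i, ‖e i v‖ ^ 2 = ‖v‖ ^ 2 := by
  have : ∑ i, ⟪e i v, e i v⟫_ℂ = ⟪v, v⟫_ℂ := by
    simp only [sa he, app he, if_true, ← inner_sum, total he]
  simp only [inner_self_eq_norm_sq_to_K] at this
  exact_mod_cast this

theorem norm_sum (he : IsPart e) (w : J → G) : ‖∑ i, e i (w i)‖ ^ 2 = ∑ i, ‖e i (w i)‖ ^ 2 := by
  rw [← parseval he]
  simp only [map_sum, app he, sum_ite_eq, mem_univ, if_true]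

theorem Ex_single {W : Type*} [AddCommGroup W] [Module ℝ W] {f : Fin h → W}
    (hf : ∀ a, a ≠ 0 → f a = 0) : Ex f = (h : ℝ)⁻¹ • f 0 := by
  rw [Ex, Fintype.card_fin, sum_eq_single 0 (fun a _ => hf a) (by simp)]

theorem small (he : IsPart e) {U : (J → Fin h) → G} (hU : ∀ l i, l i ≠ 0 → e i (U l) = 0) :
    √(Ex fun l => ‖∑ i, e i (Av U i l)‖ ^ 2) = 1 / √h * √(Ex fun l => ‖U l‖ ^ 2) := by
  have hh : (0 : ℝ) ≤ (h : ℝ)⁻¹ := by positivity
  rw [one_div, ← Real.sqrt_inv, ← Real.sqrt_mul hh]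
  congr 1
  simp only [norm_sum he, ← parseval he (U _), Ex_sum, mul_sum]
  refine sum_congr rfl fun i _ => ?_
  rw [Ex_update i fun l => ‖e i (U l)‖ ^ 2, ← Ex_mul_left]
  congr 1
  funext l
  have h1 : ∀ a, a ≠ 0 → e i (U (Function.update l i a)) = 0 := fun a ha =>
    hU _ i (by simpa using ha)
  rw [Av, op_Ex, Ex_single h1, Ex_single fun a ha => by rw [h1 a ha]; simp, norm_smul,
    Real.norm_of_nonneg hh, smul_eq_mul]
  ring

theorem main (he : IsPart e) (x : G →L[ℂ] G) (U V : (J → Fin h) → G) :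
    ‖Ex fun l => ⟪∑ i, e i (Dl V i l), x (∑ i, e i (Dl U i l))⟫_ℂ‖ ≤
      √(Ex fun l => ∑ i, ∑ j, ‖e i (x (e j (Dl U i l)))‖ ^ 2) *
        √(Ex fun l => ∑ j, ‖Dl V j l‖ ^ 2) := by
  have e1 : (Ex fun l => ⟪∑ i, e i (Dl V i l), x (∑ i, e i (Dl U i l))⟫_ℂ)
      = Ex fun l => ∑ p : J × J, ⟪e p.1 (Dl V p.2 l), e p.1 (x (e p.2 (Dl U p.1 l)))⟫_ℂ := by
    simp only [Fintype.sum_prod_type, sum_inner, map_sum, inner_sum, Ex_sum]
    rw [sum_comm]
    refine sum_congr rfl fun i _ => sum_congr rfl fun j _ => ?_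
    simp only [sa he, app he, if_true]
    exact swap (e i * x * e j) U V i j
  rw [e1, mul_comm]
  refine (cs _ _).trans (le_of_eq ?_)
  simp only [Fintype.sum_prod_type]
  congr 3
  funext l
  rw [sum_comm]
  simp only [parseval he]

end MixHAux

open MixHAux

theorem mix_hilbert {e : J → G →L[ℂ] G} (he : IsPart e) {x : G →L[ℂ] G} (hx : ‖x‖ ≤ 1)
    {U V : (J → Fin h) → G} (hU : ∀ l i, l i ≠ 0 → e i (U l) = 0)
    (hV : ∀ l i, l i ≠ 0 → e i (V l) = 0) :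
    ‖Ex fun l => ⟪V l, x (U l)⟫_ℂ‖ ≤
      3 / √h * √(Ex fun l => ‖U l‖ ^ 2) * √(Ex fun l => ‖V l‖ ^ 2) +
        √(Ex fun l => ∑ i, ∑ j, ‖e i (x (e j (Dl U i l)))‖ ^ 2) *
          √(Ex fun l => ∑ j, ‖Dl V j l‖ ^ 2) := by
  have d : ∀ (W : (J → Fin h) → G) l, ∑ i, e i (Dl W i l) = W l - ∑ i, e i (Av W i l) := by
    intro W l
    simp only [Dl, map_sub, sum_sub_distrib, total he, Av]
  have hx' : ∀ W : (J → Fin h) → G,
      √(Ex fun l => ‖x (W l)‖ ^ 2) ≤ √(Ex fun l => ‖W l‖ ^ 2) := fun W =>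
    Real.sqrt_le_sqrt (Ex_mono fun l => by
      have := x.le_of_opNorm_le hx (W l)
      rw [one_mul] at this
      gcongr)
  have b : ∀ W W' : (J → Fin h) → G, ‖Ex fun l => ⟪W l, x (W' l)⟫_ℂ‖
      ≤ √(Ex fun l => ‖W l‖ ^ 2) * √(Ex fun l => ‖W' l‖ ^ 2) := fun W W' =>
    (cs1 _ _).trans (mul_le_mul_of_nonneg_left (hx' W') (Real.sqrt_nonneg _))
  have b1 := b V fun l => ∑ i, e i (Av U i l)
  have b2 := b (fun l => ∑ i, e i (Av V i l)) U
  have b3 := b (fun l => ∑ i, e i (Av V i l)) fun l => ∑ i, e i (Av U i l)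
  have b4 := main he x U V
  rw [small he hU] at b1 b3
  rw [small he hV] at b2 b3
  have e1 : (Ex fun l => ⟪V l, x (U l)⟫_ℂ) = (Ex fun l => ⟪V l, x (∑ i, e i (Av U i l))⟫_ℂ)
      + (Ex fun l => ⟪∑ i, e i (Av V i l), x (U l)⟫_ℂ)
      - (Ex fun l => ⟪∑ i, e i (Av V i l), x (∑ i, e i (Av U i l))⟫_ℂ)
      + Ex fun l => ⟪∑ i, e i (Dl V i l), x (∑ i, e i (Dl U i l))⟫_ℂ := by
    simp only [d, map_sub, inner_sub_left, inner_sub_right, Ex_sub]
    ring
  rw [e1]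
  refine (norm_add_le_of_le (norm_sub_le_of_le (norm_add_le_of_le b1 b2) b3) b4).trans ?_
  have h1 : (1 : ℝ) ≤ √h := Real.one_le_sqrt.2 (by exact_mod_cast NeZero.one_le)
  have h2 : 1 / √(h : ℝ) ≤ 1 := div_le_one_of_le₀ h1 (by linarith)
  have h3 : 0 ≤ 1 / √(h : ℝ) := by positivity
  have h4 : 3 / √(h : ℝ) = 3 * (1 / √h) := by ring
  rw [h4]
  have := mul_nonneg (Real.sqrt_nonneg (Ex fun l => ‖U l‖ ^ 2))
    (Real.sqrt_nonneg (Ex fun l => ‖V l‖ ^ 2))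
  nlinarith [mul_nonneg (mul_nonneg h3 (sub_nonneg.2 h2)) this]

end Vale.Agent.P078
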