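import Vale.Agent.P078.RN

/-! The semigroup of normalizers. -/

set_option linter.unusedSectionVars false

namespace Vale.Agent.P078

open Filter Topology Finset Vale.Agent.P104 Vale.Agent.P082
open scoped InnerProductSpace ComplexOrder ComplexConjugate

universe u v

variable {G : Type u} [NormedAddCommGroup G] [InnerProductSpace ℂ G] [CompleteSpace G]
  {M : Type u} [CStarAlgebra M] {ρ : M →⋆ₐ[ℂ] (G →L[ℂ] G)}
  {Ω : Type u} [TopologicalSpace Ω] [CompactSpace Ω] [T2Space Ω] [TotallyDisconnectedSpace Ω]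
  {ι : C(Ω, ℂ) →⋆ₐ[ℂ] M} {E : M →ₗ[ℂ] C(Ω, ℂ)} {ξ : G}

variable {L L' : ℝ} {u v : M}

theorem nrm_mem (f : C(Ω, ℂ)) : ι f ∈ ι.range := ⟨f, rfl⟩

theorem nrm_ex {a : M} (h : a ∈ ι.range) : ∃ f, a = ι f := by
  obtain ⟨f, hf⟩ := h
  exact ⟨f, hf.symm⟩

theorem Nz₀.star (h : Nz₀ ι v) : Nz₀ ι (star v) :=
  ⟨fun f => by rw [star_star]; exact h.r f, fun f => by rw [star_star]; exact h.l f⟩

theorem Nz₀.l_one (h : Nz₀ ι v) : Star.star v * v ∈ ι.range := by
  simpa only [map_one, mul_one] using h.l 1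

theorem Nz₀.r_one (h : Nz₀ ι v) : v * Star.star v ∈ ι.range := by
  simpa only [map_one, mul_one] using h.r 1

theorem Nz₀.mul (hu : Nz₀ ι u) (hv : Nz₀ ι v) : Nz₀ ι (u * v) := by
  constructor
  · intro f
    obtain ⟨g, hg⟩ := nrm_ex (hu.l f)
    have := hv.l g
    rw [← hg] at this
    simpa only [star_mul, mul_assoc] using this
  · intro f
    obtain ⟨g, hg⟩ := nrm_ex (hv.r f)
    have := hu.r g
    rw [← hg] at this
    simpa only [star_mul, mul_assoc] using this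

theorem Nz₀.of_mem (h : v ∈ ι.range) : Nz₀ ι v :=
  ⟨fun f => mul_mem (mul_mem (star_mem h) (nrm_mem f)) h,
    fun f => mul_mem (mul_mem h (nrm_mem f)) (star_mem h)⟩

theorem Gb.star (h : Gb ι ρ ξ L v) : Gb ι ρ ξ L (star v) :=
  ⟨h.pi.star, h.nz.star, fun f => ⟨by rw [star_star]; exact (h.bd f).2, (h.bd f).1⟩⟩

theorem Gb.mono (h : Gb ι ρ ξ L v) (hL : L ≤ L') : Gb ι ρ ξ L' v :=
  ⟨h.pi, h.nz, fun f => ⟨(h.bd f).1.trans (mul_le_mul_of_nonneg_right hL (sq_nonneg _)),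
    (h.bd f).2.trans (mul_le_mul_of_nonneg_right hL (sq_nonneg _))⟩⟩

theorem nrm_sq_congr {a a' : M} (h : star a * a = star a' * a') (b : M) :
    ‖ρ (a * b) ξ‖ ^ 2 = ‖ρ (a' * b) ξ‖ ^ 2 := by
  have e : ∀ c : M, star (c * b) * (c * b) = star b * (star c * c) * b := fun c => by
    simp only [star_mul, mul_assoc]
  rw [ws_norm_sq, ws_norm_sq, e, e, h]

theorem Sys.nrm_abs (h : Sys ι ρ E) {a : M} (ha : star a * a ∈ ι.range) :
    ∃ g : C(Ω, ℂ), star g = g ∧ (∀ ω, 0 ≤ g ω) ∧ star a * a = star (ι g) * ι g := by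
  obtain ⟨g, h1, h2, h3⟩ := exists_sqrt (h.pos a)
  refine ⟨g, h1, h3, ?_⟩
  rw [← map_star, h1, ← map_mul, h2, h.ι_E ha]

theorem Sys.nrm_bd (h : Sys ι ρ E) (hL' : 0 ≤ L') (hu : Nz₀ ι u)
    (h1 : ∀ f, ‖ρ (ι f * u) ξ‖ ^ 2 ≤ L * ‖ρ (ι f) ξ‖ ^ 2)
    (h2 : ∀ f, ‖ρ (ι f * v) ξ‖ ^ 2 ≤ L' * ‖ρ (ι f) ξ‖ ^ 2) (f : C(Ω, ℂ)) :
    ‖ρ (ι f * (u * v)) ξ‖ ^ 2 ≤ L * L' * ‖ρ (ι f) ξ‖ ^ 2 := by
  have hm : star (ι f * u) * (ι f * u) ∈ ι.range := by
    have := hu.l (star f * f)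
    simpa only [star_mul, map_mul, map_star, mul_assoc] using this
  obtain ⟨g, -, -, hg⟩ := h.nrm_abs hm
  have e := nrm_sq_congr (ρ := ρ) (ξ := ξ) hg 1
  rw [mul_one, mul_one] at e
  rw [← mul_assoc, nrm_sq_congr hg v]
  calc _ ≤ L' * ‖ρ (ι g) ξ‖ ^ 2 := h2 g
    _ ≤ L' * (L * ‖ρ (ι f) ξ‖ ^ 2) := mul_le_mul_of_nonneg_left (e ▸ h1 f) hL'
    _ = _ := by ring

theorem Gb.mul (h : Sys ι ρ E) (hL : 0 ≤ L) (hL' : 0 ≤ L') (hu : Gb ι ρ ξ L u)
    (hv : Gb ι ρ ξ L' v) :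
    Gb ι ρ ξ (L * L') (u * v) := by
  refine ⟨PI.of_idem ?_, hu.nz.mul hv.nz, fun f => ⟨?_, ?_⟩⟩
  · obtain ⟨e, he⟩ := nrm_ex hu.nz.l_one
    obtain ⟨q, hq⟩ := nrm_ex hv.nz.r_one
    have e1 : Star.star (u * v) * (u * v) = Star.star v * ι e * v := by
      rw [← he]
      simp only [star_mul, mul_assoc]
    have e2 : ι e * ι e = ι e := he ▸ hu.pi.proj.isIdempotentElem.eq
    have e3 : ι q * v = v := hq ▸ hv.pi.left
    rw [e1]
    calc _ = Star.star v * ι e * (v * Star.star v * ι e) * v := by simp only [mul_assoc]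
      _ = Star.star v * (ι e * ι e) * (ι q * v) := by
        rw [hq, ι_comm ι q e]
        simp only [mul_assoc]
      _ = _ := by rw [e2, e3]
  · rw [star_mul, mul_comm L L']
    exact h.nrm_bd hL hv.nz.star (fun f => (hv.bd f).1) (fun f => (hu.bd f).1) f
  · exact h.nrm_bd hL' hu.nz (fun f => (hu.bd f).2) (fun f => (hv.bd f).2) f

theorem nrm_le (h1 : ‖v‖ ≤ 1) (h2 : v ∈ ι.range) (f : C(Ω, ℂ)) :
    ‖ρ (ι f * v) ξ‖ ^ 2 ≤ 1 * ‖ρ (ι f) ξ‖ ^ 2 := by
  obtain ⟨g, rfl⟩ := nrm_ex h2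
  rw [one_mul, ι_comm, ws_mul_apply]
  refine pow_le_pow_left₀ (norm_nonneg _) ((ws_norm_le _ _).trans ?_) 2
  exact mul_le_of_le_one_left (norm_nonneg _) h1

theorem Gb.of_mem (h1 : PI v) (h2 : v ∈ ι.range) : Gb ι ρ ξ 1 v :=
  ⟨h1, Nz₀.of_mem h2, fun f =>
    ⟨nrm_le h1.star.norm_le (star_mem h2) f, nrm_le h1.norm_le h2 f⟩⟩

theorem Gb.pr (U : Set Ω) : Gb ι ρ ξ 1 (pr ι U) :=
  Gb.of_mem (PI.ofProj (pr_proj ι U)) (pr_mem ι U)

theorem GS_star (h : v ∈ GS ι ρ ξ) : star v ∈ GS ι ρ ξ :=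
  let ⟨L, hL⟩ := h; ⟨L, hL.star⟩

theorem nrm_GS (h : v ∈ GS ι ρ ξ) : ∃ L, 0 ≤ L ∧ Gb ι ρ ξ L v :=
  let ⟨L, hL⟩ := h; ⟨max L 0, le_max_right _ _, hL.mono (le_max_left _ _)⟩

theorem GS_mul (h : Sys ι ρ E) (hu : u ∈ GS ι ρ ξ) (hv : v ∈ GS ι ρ ξ) : u * v ∈ GS ι ρ ξ := by
  obtain ⟨L, h1, h2⟩ := nrm_GS hu
  obtain ⟨L', h3, h4⟩ := nrm_GS hv
  exact ⟨_, Gb.mul h h1 h3 h2 h4⟩

theorem GS_dom (h : Sys ι ρ E) (hv : v ∈ GS ι ρ ξ) : ∃ U, IsClopen U ∧ star v * v = pr ι U := by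
  obtain ⟨L, hv⟩ := hv
  obtain ⟨e, he⟩ := nrm_ex hv.nz.l_one
  have e2 : ι e * ι e = ι e := he ▸ hv.pi.proj.isIdempotentElem.eq
  obtain ⟨U, hU, rfl⟩ := exists_ind (f := e) (h.inj (by rw [map_mul, e2]))
  exact ⟨U, hU, he⟩

theorem GS_comm (hv : v ∈ GS ι ρ ξ) (f : C(Ω, ℂ)) : ι f * v = v * (star v * ι f * v) := by
  obtain ⟨L, hv⟩ := hv
  obtain ⟨q, hq⟩ := nrm_ex hv.nz.r_one
  calc ι f * v = ι f * (v * star v) * v := by rw [mul_assoc, hv.pi.left]
    _ = v * star v * ι f * v := by rw [hq, ι_comm]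
    _ = _ := by simp only [mul_assoc]

theorem nrm_NA (h : v ∈ GS ι ρ ξ) : v ∈ NA ι ρ ξ := Submodule.subset_span h

theorem ι_mem_NA (f : C(Ω, ℂ)) : ι f ∈ NA ι ρ ξ := by
  have hf : f ∈ Submodule.span ℂ (unitary C(Ω, ℂ) : Set C(Ω, ℂ)) := by
    rw [CStarAlgebra.span_unitary]
    trivial
  induction hf using Submodule.span_induction with
  | mem g hg =>
    refine nrm_NA ⟨1, Gb.of_mem (PI.of_proj (IsStarProjection.one M) ?_) (nrm_mem g)⟩
    rw [← map_star, ← map_mul, hg.1, map_one]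
  | zero => rw [map_zero]; exact zero_mem _
  | add a b _ _ ha hb => rw [map_add]; exact add_mem ha hb
  | smul c a _ ha => rw [map_smul]; exact Submodule.smul_mem _ c ha

theorem NA_star (h : v ∈ NA ι ρ ξ) : star v ∈ NA ι ρ ξ := by
  induction h using Submodule.span_induction with
  | mem g hg => exact nrm_NA (GS_star hg)
  | zero => rw [star_zero]; exact zero_mem _
  | add a b _ _ ha hb => rw [star_add]; exact add_mem ha hb
  | smul c a _ ha => rw [star_smul]; exact Submodule.smul_mem _ _ ha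

theorem NA_mul (h : Sys ι ρ E) (hu : u ∈ NA ι ρ ξ) (hv : v ∈ NA ι ρ ξ) : u * v ∈ NA ι ρ ξ := by
  induction hu using Submodule.span_induction with
  | mem g hg =>
    induction hv using Submodule.span_induction with
    | mem g' hg' => exact nrm_NA (GS_mul h hg hg')
    | zero => rw [mul_zero]; exact zero_mem _
    | add a b _ _ ha hb => rw [mul_add]; exact add_mem ha hb
    | smul c a _ ha => rw [mul_smul_comm]; exact Submodule.smul_mem _ _ ha
  | zero => rw [zero_mul]; exact zero_mem _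
  | add a b _ _ ha hb => rw [add_mul]; exact add_mem ha hb
  | smul c a _ ha => rw [smul_mul_assoc]; exact Submodule.smul_mem _ _ ha

theorem nrm_cell (hc : Cen ρ ι.range ξ) (hv : v ∈ GS ι ρ ξ) (f : C(Ω, ℂ)) (U : Set Ω) (m : M) :
    fi ρ ξ (ι f * star v * (pr ι U * m * pr ι U) * v) =
      fi ρ ξ (ι f * star v * (pr ι U * m) * v) := by
  obtain ⟨k, hk⟩ := nrm_ex (hv.choose_spec.nz.l (ind U))
  have e1 : pr ι U * v = v * ι k := hk ▸ GS_comm hv (ind U)
  have hp := pr_proj ι U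
  have e2 : star (ι k) = ι k := by
    rw [← hk]
    simp only [star_mul, star_star, mul_assoc, ← map_star, star_ind]
  have e3 : ι k * star v = star v * pr ι U := by
    have := congrArg star e1
    rw [star_mul, star_mul, e2, hp.isSelfAdjoint.star_eq] at this
    exact this.symm
  calc _ = fi ρ ξ (ι f * star v * (pr ι U * m) * v * ι k) := by
        rw [mul_assoc _ v, ← e1]
        simp only [mul_assoc]
    _ = fi ρ ξ (ι k * (ι f * star v * (pr ι U * m) * v)) := (hc.cen _ (nrm_mem k) _).symm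
    _ = fi ρ ξ (ι f * (ι k * star v) * (pr ι U * m) * v) := by
        rw [← mul_assoc (ι f), ι_comm ι f k]
        simp only [mul_assoc]
    _ = fi ρ ξ (ι f * star v * (pr ι U * pr ι U * m) * v) := by
        rw [e3]
        simp only [mul_assoc]
    _ = _ := by rw [hp.isIdempotentElem.eq]

theorem Sys.E_conj (h : Sys ι ρ E) (hc : Cen ρ ι.range ξ) (hv : v ∈ GS ι ρ ξ) (m : M) :
    ι (E (star v * m * v)) = star v * ι (E m) * v := by
  obtain ⟨k, hk⟩ := nrm_ex (hv.choose_spec.nz.l (E m))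
  rw [hk]
  refine congrArg ι (sub_eq_zero.1 (h.eq_zero_of_fi hc fun f => ?_))
  have e1 : ∀ P : Pt Ω, fi ρ ξ (ι f * star v * pin ι P.π m * v) =
      fi ρ ξ (ι f * star v * m * v) := by
    intro P
    have hs := (ee_part ι P.lc).sum
    calc _ = ∑ j, fi ρ ξ (ι f * star v * (ee ι P.π j * m * ee ι P.π j) * v) := by
          rw [pin, mul_sum, sum_mul, map_sum]
      _ = ∑ j, fi ρ ξ (ι f * star v * (ee ι P.π j * m) * v) :=
          sum_congr rfl fun j _ => nrm_cell hc hv f _ m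
      _ = _ := by rw [← map_sum, ← sum_mul, ← mul_sum, ← sum_mul, hs, one_mul]
  have e2 := fi_tendsto (ξ := ξ) (h.lim m) (ι f * star v) v
  simp only [e1] at e2
  have e3 := tendsto_nhds_unique tendsto_const_nhds e2
  rw [mul_sub, map_sub, map_sub, ← h.left, h.fi_E hc, map_mul ι, ← hk, sub_eq_zero]
  simpa only [mul_assoc] using e3

theorem Sys.nrm_diag (h : Sys ι ρ E) (hv : v ∈ GS ι ρ ξ) :
    v * ι (star (E v) * E v) = ι (E v) ∧
      star (E v) * E v * (star (E v) * E v) = star (E v) * E v := by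
  obtain ⟨d, hd⟩ : ∃ d, d = E v := ⟨_, rfl⟩
  have hg := hv.choose_spec
  have h1 : v * ι (star d) ∈ ι.range := by
    refine (h.masa' _).2 fun a ha => ?_
    obtain ⟨f, rfl⟩ := nrm_ex ha
    obtain ⟨k, hk⟩ := nrm_ex (hg.nz.l f)
    have e1 : ι f * v = v * ι k := hk ▸ GS_comm hv f
    have e2 : f * d = d * k := by rw [hd, ← h.left, e1, h.right]
    have e3 : k * star d = star d * f := by
      ext ω
      have := DFunLike.congr_fun e2 ω
      simp only [ContinuousMap.mul_apply, ContinuousMap.star_apply] at this ⊢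
      by_cases h0 : d ω = 0
      · simp [h0]
      · rw [mul_comm (f ω)] at this
        rw [mul_left_cancel₀ h0 this, mul_comm]
    rw [← mul_assoc, e1, mul_assoc, mul_assoc, ← map_mul, ← map_mul, e3]
  have h2 : v * ι (star d) = ι (d * star d) := by rw [← h.ι_E h1, h.right, ← hd]
  obtain ⟨e, he⟩ := nrm_ex hg.nz.l_one
  have h3 : d * e = d := by rw [hd, ← h.right, ← he, hg.pi]
  have h4 : star d * d * (star d * d) = star d * d := by
    apply h.inj
    have e1 := congrArg (fun a => star a * a) h2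
    simp only [star_mul, ← map_star, star_star] at e1
    have e2 : ι d * star v * (v * ι (star d)) = ι (star d * d) := by
      rw [mul_assoc, ← mul_assoc (star v), he, ← map_mul, ← map_mul, ← mul_assoc, h3, mul_comm]
    rw [← e2, e1, ← map_mul, mul_comm d]
  rw [← hd]
  refine ⟨?_, h4⟩
  rw [map_mul, ← mul_assoc, h2, ← map_mul]
  congr 1
  ext ω
  have := DFunLike.congr_fun h4 ω
  simp only [ContinuousMap.mul_apply, ContinuousMap.star_apply] at this ⊢
  by_cases h0 : d ω = 0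
  · simp [h0]
  · have h5 : star (d ω) * d ω ≠ 0 := mul_ne_zero (star_ne_zero.2 h0) h0
    rw [mul_assoc, (mul_eq_left₀ h5).1 this, mul_one]

theorem Sys.diag_part (h : Sys ι ρ E) (hv : v ∈ GS ι ρ ξ) :
    ∃ U, IsClopen U ∧ v * pr ι U = ι (E v) ∧ pr ι U * v = ι (E v) ∧
      star (E v) * E v = ind U := by
  obtain ⟨h1, h2⟩ := h.nrm_diag hv
  obtain ⟨h3, -⟩ := h.nrm_diag (GS_star hv)
  obtain ⟨U, hU, e⟩ := exists_ind h2
  refine ⟨U, hU, by rw [pr, ← e, h1], ?_, e⟩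
  rw [h.E_star, star_star, mul_comm (E v), e] at h3
  have := congrArg star h3
  rw [star_mul, star_star, ← map_star, ← map_star, star_ind, star_star] at this
  exact this

theorem Sys.right_adj (h : Sys ι ρ E) (hc : Cen ρ ι.range ξ) (hv : v ∈ NA ι ρ ξ) :
    ∃ v' ∈ NA ι ρ ξ, ∀ m, fi ρ ξ (star v * m) = fi ρ ξ (m * v') := by
  induction hv using Submodule.span_induction with
  | mem w hw =>
    have hg := hw.choose_spec
    obtain ⟨D, hD⟩ := h.exists_D hc hg.star.bd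
    refine ⟨star w * ι D, NA_mul h (nrm_NA (GS_star hw)) (ι_mem_NA D), fun m => ?_⟩
    have e1 : star w * w * star w = star w := by simpa only [star_star] using hg.pi.star.left
    have e2 := hD (E (m * star w))
    rw [star_star] at e2
    calc _ = fi ρ ξ (star w * w * (star w * m)) := by rw [← mul_assoc, e1]
      _ = fi ρ ξ (star w * (m * star w) * w) := by
        rw [hc.cen _ hg.nz.l_one]
        simp only [mul_assoc]
      _ = fi ρ ξ (ι (E (m * star w) * D)) := by rw [← h.fi_E hc, h.E_conj hc hw, e2]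
      _ = _ := by rw [← h.right, h.fi_E hc, mul_assoc]
  | zero => exact ⟨0, zero_mem _, fun m => by simp⟩
  | add a b _ _ ha hb =>
    obtain ⟨a', h1, h2⟩ := ha
    obtain ⟨b', h3, h4⟩ := hb
    refine ⟨a' + b', add_mem h1 h3, fun m => ?_⟩
    rw [star_add, add_mul, mul_add, map_add, map_add, h2, h4]
  | smul c a _ ha =>
    obtain ⟨a', h1, h2⟩ := ha
    refine ⟨star c • a', Submodule.smul_mem _ _ h1, fun m => ?_⟩
    rw [star_smul, smul_mul_assoc, mul_smul_comm, map_smul, map_smul, h2]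

theorem Sys.right_bdd (h : Sys ι ρ E) (hc : Cen ρ ι.range ξ) (hv : v ∈ NA ι ρ ξ) :
    ∃ C : ℝ, 0 ≤ C ∧ ∀ m, ‖ρ (m * v) ξ‖ ≤ C * ‖ρ m ξ‖ := by
  induction hv using Submodule.span_induction with
  | mem w hw =>
    obtain ⟨L, hL, hg⟩ := nrm_GS hw
    refine ⟨√L, Real.sqrt_nonneg _, fun m => ?_⟩
    obtain ⟨g, h1, h2, -⟩ := exists_sqrt (h.pos m)
    have e0 : ι (E (star m * m)) = star (ι g) * ι g := by rw [← map_star, h1, ← map_mul, h2]
    have e1 : ‖ρ (m * w) ξ‖ ^ 2 = ‖ρ (ι g * w) ξ‖ ^ 2 := by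
      apply Complex.ofReal_injective
      rw [← fi_star_self, ← fi_star_self, ← h.fi_E hc]
      have : star (m * w) * (m * w) = star w * (star m * m) * w := by
        simp only [star_mul, mul_assoc]
      rw [this, h.E_conj hc hw, e0]
      simp only [star_mul, mul_assoc]
    have e2 : ‖ρ (ι g) ξ‖ ^ 2 = ‖ρ m ξ‖ ^ 2 := by
      apply Complex.ofReal_injective
      rw [← fi_star_self, ← fi_star_self, ← e0, h.fi_E hc]
    refine le_of_sq_le_sq ?_ (by positivity)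
    rw [mul_pow, Real.sq_sqrt hL, e1, ← e2]
    exact (hg.bd g).2
  | zero => exact ⟨0, le_rfl, fun m => by simp⟩
  | add a b _ _ ha hb =>
    obtain ⟨C, h1, h2⟩ := ha
    obtain ⟨C', h3, h4⟩ := hb
    refine ⟨C + C', add_nonneg h1 h3, fun m => ?_⟩
    rw [mul_add, map_add, add_apply, add_mul]
    exact (norm_add_le _ _).trans (add_le_add (h2 m) (h4 m))
  | smul c a _ ha =>
    obtain ⟨C, h1, h2⟩ := ha
    refine ⟨‖c‖ * C, mul_nonneg (norm_nonneg _) h1, fun m => ?_⟩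
    rw [mul_smul_comm, map_smul, smul_apply, norm_smul, mul_assoc]
    exact mul_le_mul_of_nonneg_left (h2 m) (norm_nonneg _)

theorem nrm_cutoff {s : C(Ω, ℂ)} (hs : ∀ ω, 0 ≤ s ω) {ε : ℝ} (hε : 0 < ε) :
    ∃ (U : Set Ω) (t : C(Ω, ℂ)), IsClopen U ∧ t * s = ind U ∧ ‖s * (1 - ind U)‖ ≤ ε := by
  have hr : Continuous fun ω => (s ω).re := Complex.continuous_re.comp s.continuous
  obtain ⟨U, hU, h1, h2⟩ := exists_clopen_between (K := {ω | ε ≤ (s ω).re})
    (U := {ω | ε / 2 < (s ω).re}) (isClosed_le continuous_const hr) (isOpen_lt continuous_const hr)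
    fun ω hω => lt_of_lt_of_le (half_lt_self hε) hω
  have hre : ∀ ω, s ω = ((s ω).re : ℂ) := fun ω =>
    Complex.ext rfl (by rw [Complex.ofReal_im]; exact (Complex.le_def.1 (hs ω)).2.symm)
  have hc : Continuous fun ω => (((max (s ω).re (ε / 2))⁻¹ : ℝ) : ℂ) :=
    Complex.continuous_ofReal.comp ((hr.max continuous_const).inv₀ fun ω =>
      (lt_max_of_lt_right (half_pos hε)).ne')
  refine ⟨U, ind U * ⟨_, hc⟩, hU, ?_, ?_⟩
  · ext ω
    simp only [ContinuousMap.mul_apply, ContinuousMap.coe_mk]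
    by_cases hω : ω ∈ U
    · have h3 : ε / 2 < (s ω).re := h2 hω
      have h4 : (s ω).re ≠ 0 := ((half_pos hε).trans h3).ne'
      rw [ind_of_mem hU hω, max_eq_left h3.le, one_mul]
      nth_rewrite 2 [hre ω]
      rw [← Complex.ofReal_mul, inv_mul_cancel₀ h4, Complex.ofReal_one]
    · rw [ind_of_notMem hω, zero_mul, zero_mul]
  · refine (ContinuousMap.norm_le _ hε.le).2 fun ω => ?_
    simp only [ContinuousMap.mul_apply, ContinuousMap.sub_apply, ContinuousMap.one_apply]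
    by_cases hω : ω ∈ U
    · rw [ind_of_mem hU hω, sub_self, mul_zero, norm_zero]
      exact hε.le
    · have h3 : (s ω).re < ε := not_le.1 fun h => hω (h1 h)
      rw [ind_of_notMem hω, sub_zero, mul_one, hre ω, Complex.norm_real,
        Real.norm_of_nonneg (Complex.le_def.1 (hs ω)).1]
      exact h3.le

theorem Sys.approx_Nz (h : Sys ι ρ E) (hc : Cen ρ ι.range ξ) (hv : Nz₀ ι v) {δ : ℝ} (hδ : 0 < δ) :
    ∃ n ∈ NA ι ρ ξ, ‖ρ (v - n) ξ‖ ≤ δ := by
  obtain ⟨s, -, hs0, hs⟩ := h.nrm_abs hv.l_one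
  obtain ⟨U, t, hU, ht, hn⟩ := nrm_cutoff hs0 (half_pos hδ)
  have hw : PI (v * ι t) := by
    refine PI.of_proj (pr_proj ι U) ?_
    have e : star (v * ι t) * (v * ι t) = star (ι (t * s)) * ι (t * s) := by
      rw [mul_comm t s, map_mul, star_mul, star_mul, mul_assoc, mul_assoc, ← mul_assoc (star v),
        ← mul_assoc (star (ι s)), hs]
    rw [e, ht]
    have hp := pr_proj ι U
    exact (congrArg (· * pr ι U) hp.isSelfAdjoint.star_eq).trans hp.isIdempotentElem.eq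
  have hd : 0 < δ / 2 / (‖s‖ + 1) := by positivity
  obtain ⟨U', -, h1, h2⟩ := h.exists_cut hc hw (hv.mul (Nz₀.of_mem (nrm_mem t))) hd
  refine ⟨v * ι t * pr ι U' * ι s, NA_mul h (nrm_NA h1) (ι_mem_NA s), ?_⟩
  have e : v - v * ι t * pr ι U' * ι s =
      v * ι (1 - ind U) + (v * ι t - v * ι t * pr ι U') * ι s := by
    rw [← ht, map_sub, map_one, map_mul]
    noncomm_ring
  have b1 : ‖ρ (v * ι (1 - ind U)) ξ‖ ≤ δ / 2 := by
    rw [(sq_eq_sq₀ (norm_nonneg _) (norm_nonneg _)).1 (nrm_sq_congr hs _), ← map_mul]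
    refine (ws_norm_le _ _).trans ?_
    rw [hc.norm_one, mul_one]
    exact (norm_ι_le ι _).trans hn
  have b2 : ‖ρ ((v * ι t - v * ι t * pr ι U') * ι s) ξ‖ ≤ δ / 2 := by
    refine (hc.norm_mul_le _ s).trans ?_
    calc _ ≤ (‖s‖ + 1) * (δ / 2 / (‖s‖ + 1)) :=
          mul_le_mul (by linarith) h2 (norm_nonneg _) (by positivity)
      _ = δ / 2 := by field_simp
  rw [e, map_add, add_apply]
  exact (norm_add_le _ _).trans (by linarith)

end Vale.Agent.P078
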