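import Vale.Agent.P078.FDefs

/-! Principal minors. -/

set_option linter.unusedSectionVars false

namespace Vale.Agent.P078

open Finset Polynomial MeasureTheory Complex Filter Topology
open scoped ComplexConjugate Matrix

variable {V : Type} [Fintype V] [DecidableEq V] {r : ℕ}

section Ring

variable {R : Type} [CommRing R]

/-- The matrix whose determinant is the principal minor. -/
def pmR (A : Matrix V V R) (T : Finset V) : Matrix V V R :=
  Matrix.of fun a b => if a ∈ T then A a b else if a = b then 1 else 0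

theorem pm_def (A : Matrix V V R) (T : Finset V) : pm A T = (pmR A T).det := rfl

theorem pm_eq_det (A : Matrix V V R) (T : Finset V) :
    pm A T = (A.submatrix (Subtype.val : T → V) (Subtype.val : T → V)).det := by
  rw [← Matrix.det_piecewise_one_eq_submatrix_det, pm]
  congr 1
  ext a b
  by_cases h : a ∈ T <;> simp [h, Matrix.one_apply]

theorem pm_empty (A : Matrix V V R) : pm A ∅ = 1 := by
  rw [pm_eq_det]
  exact Matrix.det_isEmpty

theorem pm_univ (A : Matrix V V R) : pm A univ = A.det := by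
  rw [pm]
  congr 1
  ext a b
  simp

theorem pm_congr {A B : Matrix V V R} {T : Finset V} (h : ∀ a ∈ T, ∀ b ∈ T, A a b = B a b) :
    pm A T = pm B T := by
  rw [pm_eq_det, pm_eq_det]
  congr 1
  ext a b
  exact h a a.2 b b.2

theorem pm_union {A : Matrix V V R} {S T : Finset V} (hd : Disjoint S T)
    (h : ∀ a ∈ S, ∀ b ∈ T, A a b = 0) : pm A (S ∪ T) = pm A S * pm A T := by
  rw [pm_def, pm_def, pm_def, ← Matrix.det_mul]
  congr 1
  ext a b
  rw [Matrix.mul_apply]
  by_cases ha : a ∈ S
  · rw [sum_eq_single b]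
    · by_cases hb : b ∈ T <;> simp [pmR, ha, hb, h a ha]
    · intro c _ hc
      by_cases hb : c ∈ T <;> simp [pmR, ha, hb, h a ha, hc]
    · simp
  · rw [sum_eq_single a]
    · simp [pmR, ha]
    · intro c _ hc
      simp [pmR, ha, Ne.symm hc]
    · simp

theorem pm_single (A : Matrix V V R) (v : V) : pm A {v} = A v v := by
  rw [pm_eq_det, Matrix.det_eq_elem_of_card_eq_one (by simp) ⟨v, by simp⟩]
  rfl

theorem pm_pair (A : Matrix V V R) {x v : V} (h : x ≠ v) :
    pm A {x, v} = A x x * A v v - A x v * A v x := by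
  have hb : Function.Bijective
      (![⟨x, by simp⟩, ⟨v, by simp⟩] : Fin 2 → ({x, v} : Finset V)) := by
    refine (Fintype.bijective_iff_surjective_and_card _).2 ⟨?_, by
      rw [Fintype.card_coe, card_pair h, Fintype.card_fin]⟩
    rintro ⟨a, ha⟩
    rcases mem_insert.1 ha with rfl | ha
    · exact ⟨0, rfl⟩
    · obtain rfl := mem_singleton.1 ha
      exact ⟨1, rfl⟩
  rw [pm_eq_det, ← Matrix.det_submatrix_equiv_self (Equiv.ofBijective _ hb), Matrix.det_fin_two]
  rfl

theorem pm_update (Y : Matrix V V R) (z : V → R) {T : Finset V} {v : V} (hv : v ∈ T) (u : R) :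
    pm (Matrix.diagonal (Function.update z v u) + Y) T =
      u * pm (Matrix.diagonal z + Y) (T.erase v) +
        pm (Matrix.diagonal (Function.update z v 0) + Y) T := by
  have h1 : ∀ u : R, pmR (Matrix.diagonal (Function.update z v u) + Y) T =
      (pmR (Matrix.diagonal z + Y) (T.erase v)).updateRow v (u • Pi.single v 1 + Y v) := by
    intro u
    ext a b
    by_cases ha : a = v
    · subst ha
      by_cases hb : a = b
      · subst hb
        simp [pmR, hv]
      · simp [pmR, hv, hb, Ne.symm hb]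
    · simp [pmR, ha, Matrix.diagonal_apply]
  have h2 : (pmR (Matrix.diagonal z + Y) (T.erase v)).updateRow v (Pi.single v 1) =
      pmR (Matrix.diagonal z + Y) (T.erase v) := by
    ext a b
    by_cases ha : a = v
    · subst ha
      simp [pmR, Pi.single_apply, eq_comm]
    · simp [ha]
  rw [pm_def, pm_def, pm_def, h1, h1, Matrix.det_updateRow_add, Matrix.det_updateRow_smul, h2,
    zero_smul, zero_add]

theorem pm_expand_aux (Y : Matrix V V R) (z : V → R) (U : Finset V) : ∀ T, U ⊆ T →
    pm (Matrix.diagonal (fun a => if a ∈ U then z a else 0) + Y) T =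
      ∑ S ∈ U.powerset, pm Y (T \ S) * ∏ v ∈ S, z v := by
  induction U using Finset.induction_on with
  | empty => simp
  | insert v U hv ih =>
    intro T hT
    have h1 : (fun a => if a ∈ insert v U then z a else 0) =
        Function.update (fun a => if a ∈ U then z a else 0) v (z v) := by
      ext a
      by_cases ha : a = v
      · simp [ha]
      · simp [ha]
    have h2 : Function.update (fun a => if a ∈ U then z a else 0) v 0 =
        fun a => if a ∈ U then z a else 0 := Function.update_eq_self_iff.2 (by simp [hv])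
    rw [h1, pm_update _ _ (hT (mem_insert_self _ _)), h2, ih T ((subset_insert _ _).trans hT),
      ih _ (subset_erase.2 ⟨(subset_insert _ _).trans hT, hv⟩), sum_powerset_insert hv, add_comm,
      mul_sum]
    congr 1
    refine sum_congr rfl fun S hS => ?_
    rw [prod_insert fun h => hv (mem_powerset.1 hS h), sdiff_insert, erase_sdiff_comm]
    ring

theorem pm_expand (Y : Matrix V V R) (z : V → R) (T : Finset V) :
    pm (Matrix.diagonal z + Y) T = ∑ S ∈ T.powerset, pm Y S * ∏ v ∈ T \ S, z v := by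
  rw [pm_congr (B := Matrix.diagonal (fun a => if a ∈ T then z a else 0) + Y)
    fun a ha b _ => by simp [Matrix.diagonal_apply, ha], pm_expand_aux Y z T T subset_rfl]
  refine sum_nbij' (T \ ·) (T \ ·) (fun _ _ => by simp) (fun _ _ => by simp)
    (fun S hS => Finset.sdiff_sdiff_eq_self (mem_powerset.1 hS))
    (fun S hS => Finset.sdiff_sdiff_eq_self (mem_powerset.1 hS)) fun S hS => ?_
  rw [Finset.sdiff_sdiff_eq_self (mem_powerset.1 hS)]

theorem pm_scale (A : Matrix V V R) (d : V → R) (T : Finset V) :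
    pm (Matrix.diagonal d * A) T = (∏ v ∈ T, d v) * pm A T := by
  have h : pmR (Matrix.diagonal d * A) T =
      Matrix.diagonal (fun a => if a ∈ T then d a else 1) * pmR A T := by
    ext a b
    by_cases ha : a ∈ T <;> simp [pmR, ha]
  rw [pm_def, h, Matrix.det_mul, Matrix.det_diagonal, prod_ite_mem, univ_inter, pm_def]

theorem pm_map {R' : Type} [CommRing R'] (f : R →+* R') (A : Matrix V V R) (T : Finset V) :
    pm (A.map f) T = f (pm A T) := by
  rw [pm_eq_det, pm_eq_det, RingHom.map_det]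
  rfl

theorem adjugate_diag (A : Matrix V V R) (y : V) : A.adjugate y y = pm A (univ.erase y) := by
  rw [Matrix.adjugate_apply, pm]
  congr 1
  ext a b
  by_cases ha : a = y
  · subst ha
    simp [Pi.single_apply, eq_comm]
  · simp [ha]

end Ring

theorem pm_im {A : Matrix V V ℂ} (h : A.IsHermitian) (T : Finset V) : (pm A T).im = 0 := by
  rw [pm_eq_det, ← Complex.conj_eq_iff_im]
  have := Matrix.det_conjTranspose (A.submatrix (Subtype.val : T → V) (Subtype.val : T → V))
  rw [(h.submatrix _).eq] at this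
  exact this.symm

theorem pm_gauge {A B : Matrix V V ℂ} {T : Finset V} {g : V → ℂ} (hg : ∀ a, ‖g a‖ = 1)
    (h : ∀ a ∈ T, ∀ b ∈ T, A a b = conj (g a) * B a b * g b) : pm A T = pm B T := by
  have h1 : A.submatrix (Subtype.val : T → V) (Subtype.val : T → V) =
      Matrix.diagonal (fun a : T => conj (g a)) *
        B.submatrix (Subtype.val : T → V) (Subtype.val : T → V) *
          Matrix.diagonal (fun a : T => g a) := by
    ext a b
    simp [h a a.2 b b.2]
  have h2 : (∏ a : T, conj (g a)) * ∏ a : T, g a = 1 := by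
    rw [← prod_mul_distrib]
    exact prod_eq_one fun a _ => by rw [Complex.conj_mul', hg]; simp
  rw [pm_eq_det, pm_eq_det, h1, Matrix.det_mul, Matrix.det_mul, Matrix.det_diagonal,
    Matrix.det_diagonal, mul_right_comm, h2, one_mul]

theorem pm_mask {C : Type} [Fintype C] [DecidableEq C] (X : Matrix V V ℂ) (c : V → C) (z : V → ℂ)
    (T : Finset V) : pm (Matrix.diagonal z - mask X c) T =
      ∏ i, pm (Matrix.diagonal z - X) (T.filter fun v => c v = i) := by
  have key : ∀ I : Finset C, pm (Matrix.diagonal z - mask X c) (T.filter fun v => c v ∈ I) =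
      ∏ i ∈ I, pm (Matrix.diagonal z - X) (T.filter fun v => c v = i) := by
    intro I
    induction I using Finset.induction_on with
    | empty => simp [pm_empty]
    | insert i I hi ih =>
      have h1 : (T.filter fun v => c v ∈ insert i I) =
          (T.filter fun v => c v = i) ∪ T.filter fun v => c v ∈ I := by
        simp only [mem_insert, filter_or]
      have h2 : ∀ a ∈ T.filter fun v => c v = i, ∀ b ∈ T.filter fun v => c v ∈ I, c a ≠ c b :=
        fun a ha b hb e => hi ((mem_filter.1 ha).2 ▸ e ▸ (mem_filter.1 hb).2)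
      rw [h1, pm_union (disjoint_left.2 fun a ha hb => h2 a ha a hb rfl), ih, prod_insert hi]
      · congr 1
        refine pm_congr fun a ha b hb => ?_
        simp [mask, (mem_filter.1 ha).2, (mem_filter.1 hb).2]
      · intro a ha b hb
        have h3 : a ≠ b := fun e => h2 a ha b hb (e ▸ rfl)
        simp [mask, h2 a ha b hb, h3]
  simpa using key univ

theorem continuous_pm (T : Finset V) : Continuous fun A : Matrix V V ℂ => pm A T := by
  simp only [pm_eq_det]
  exact (continuous_id.matrix_submatrix _ _).matrix_det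

theorem qf_coe {X : Matrix V V ℂ} (h : X.IsHermitian) (v : V → ℂ) :
    star v ⬝ᵥ X *ᵥ v = (qf X v : ℂ) :=
  Complex.ext rfl (h.im_star_dotProduct_mulVec_self v)

theorem qf_diag {X : Matrix V V ℂ} (h : X.IsHermitian) (z w : V → ℂ) :
    star w ⬝ᵥ (Matrix.diagonal z - X) *ᵥ w = ∑ a, z a * (‖w a‖ ^ 2 : ℝ) - qf X w := by
  rw [Matrix.sub_mulVec, dotProduct_sub, qf_coe h]
  congr 1
  refine sum_congr rfl fun a _ => ?_
  rw [Matrix.mulVec_diagonal, mul_left_comm, Pi.star_apply, RCLike.star_def, Complex.conj_mul']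
  simp

theorem pmR_vec {A : Matrix V V ℂ} {T : Finset V} (w : V → ℂ) :
    (∀ a ∉ T, (pmR A T *ᵥ w) a = w a) ∧ ∀ a ∈ T, (pmR A T *ᵥ w) a = (A *ᵥ w) a :=
  ⟨fun a ha => by simp [pmR, Matrix.mulVec, dotProduct, ha],
    fun a ha => by simp [pmR, Matrix.mulVec, dotProduct, ha]⟩

theorem pmR_dot {A : Matrix V V ℂ} {T : Finset V} {w : V → ℂ} (h : ∀ a ∉ T, w a = 0) :
    star w ⬝ᵥ A *ᵥ w = star w ⬝ᵥ pmR A T *ᵥ w :=
  sum_congr rfl fun a _ => by
    by_cases ha : a ∈ T
    · rw [(pmR_vec w).2 a ha]
    · simp [h a ha]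

theorem Adm.pm_ne_zero {X : Matrix V V ℂ} (hX : Adm X) {α : ℂ} {T : Finset V} {z : V → ℂ}
    (hz : ∀ v ∈ T, |α.re| < (conj α * z v).re) : pm (Matrix.diagonal z - X) T ≠ 0 := by
  intro h0
  obtain ⟨w, hw, h1⟩ := Matrix.exists_mulVec_eq_zero_iff.2 h0
  change pmR _ T *ᵥ w = 0 at h1
  have h2 : ∀ a ∉ T, w a = 0 := fun a ha => by rw [← (pmR_vec w).1 a ha, h1]; rfl
  have h3 := qf_diag hX.herm z w
  rw [pmR_dot h2, h1, dotProduct_zero, eq_comm, sub_eq_zero] at h3
  have h4 := congrArg (fun t => (conj α * t).re) h3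
  simp only [mul_sum, ← mul_assoc, Complex.re_sum, Complex.re_mul_ofReal, Complex.conj_re] at h4
  have h5 : α.re * qf X w ≤ |α.re| * nsq w := (le_abs_self _).trans (by
    rw [abs_mul]
    exact mul_le_mul_of_nonneg_left (hX.contr w) (abs_nonneg _))
  obtain ⟨a, ha⟩ := Function.ne_iff.1 hw
  have h6 : ∑ a, |α.re| * ‖w a‖ ^ 2 < ∑ a, (conj α * z a).re * ‖w a‖ ^ 2 := by
    refine sum_lt_sum (fun b _ => ?_) ⟨a, mem_univ _, ?_⟩
    · by_cases hb : b ∈ T
      · exact mul_le_mul_of_nonneg_right (hz b hb).le (sq_nonneg _)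
      · simp [h2 b hb]
    · have : 0 < ‖w a‖ := norm_pos_iff.2 ha
      exact mul_lt_mul_of_pos_right (hz a (by_contra fun h => ha (h2 a h))) (by positivity)
  rw [← mul_sum] at h6
  unfold nsq at h5
  linarith

theorem qf_neg (X : Matrix V V ℂ) (v : V → ℂ) : qf (-X) v = -qf X v := by
  simp [qf, Matrix.neg_mulVec]

theorem Adm.neg {X : Matrix V V ℂ} (hX : Adm X) : Adm (-X) :=
  ⟨hX.herm.neg, fun a => by simp [hX.diag], fun v => by rw [qf_neg, abs_neg]; exact hX.contr v⟩

theorem Adm.mask {C : Type} [Fintype C] [DecidableEq C] {X : Matrix V V ℂ} (hX : Adm X)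
    (c : V → C) : Adm (mask X c) := by
  refine ⟨Matrix.IsHermitian.ext fun a b => ?_, fun a => by simp [P078.mask, hX.diag], fun v => ?_⟩
  · by_cases h : c a = c b
    · simp [P078.mask, h, ← hX.herm.apply a b]
    · simp [P078.mask, h, Ne.symm h]
  have h1 : qf (P078.mask X c) v = ∑ i, qf X fun a => if c a = i then v a else 0 := by
    unfold qf
    rw [← Complex.re_sum]
    congr 1
    simp only [dotProduct, Matrix.mulVec, mul_sum]
    symm
    rw [sum_comm]
    refine sum_congr rfl fun a _ => ?_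
    rw [sum_comm]
    refine sum_congr rfl fun b _ => ?_
    rw [sum_eq_single (c a)]
    · by_cases h : c a = c b
      · simp [P078.mask, h]
      · simp [P078.mask, h, Ne.symm h]
    · intro i _ hi
      simp [Ne.symm hi]
    · simp
  have h2 : nsq v = ∑ i, nsq fun a => if c a = i then v a else 0 := by
    unfold nsq
    rw [sum_comm]
    refine sum_congr rfl fun a _ => ?_
    rw [sum_eq_single (c a)]
    · simp
    · intro i _ hi
      simp [Ne.symm hi]
    · simp
  rw [h1, h2]
  exact (abs_sum_le_sum_abs _ _).trans (sum_le_sum fun i _ => hX.contr _)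

theorem qf_add_single {X : Matrix V V ℂ} (hX : Adm X) (w : V → ℂ) (x : V) (t : ℝ) :
    qf X (w + Pi.single x (t : ℂ)) = qf X w + 2 * t * ((X *ᵥ w) x).re := by
  have h1 : star w ⬝ᵥ X *ᵥ Pi.single x (t : ℂ) = t * conj ((X *ᵥ w) x) := by
    rw [Matrix.mulVec_single]
    simp only [dotProduct, Matrix.mulVec, map_sum, mul_sum]
    refine sum_congr rfl fun a _ => ?_
    simp [← hX.herm.apply a x]
    ring
  unfold qf
  rw [Matrix.mulVec_add, star_add, add_dotProduct, dotProduct_add, dotProduct_add, h1,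
    ← Pi.single_star, single_dotProduct, single_dotProduct, Matrix.mulVec_single]
  simp [hX.diag]
  ring

theorem nsq_add_single {w : V → ℂ} {x : V} (h : w x = 0) (t : ℝ) :
    nsq (w + Pi.single x (t : ℂ)) = nsq w + t ^ 2 := by
  unfold nsq
  rw [← add_sum_erase _ _ (mem_univ x), ← add_sum_erase _ _ (mem_univ x), add_right_comm]
  congr 1
  · simp [h]
  · exact sum_congr rfl fun a ha => by simp [ne_of_mem_erase ha]

theorem Adm.cross {X : Matrix V V ℂ} (hX : Adm X) {w : V → ℂ} {x : V} (h : w x = 0) (t : ℝ) :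
    2 * t * ((X *ᵥ w) x).re ≤ nsq w + t ^ 2 := by
  have h1 := (abs_le.1 (hX.contr (w + Pi.single x (t : ℂ)))).2
  have h2 := (abs_le.1 (hX.contr (w + Pi.single x ((-t : ℝ) : ℂ)))).1
  rw [qf_add_single hX, nsq_add_single h] at h1 h2
  linarith

theorem Adm.row {X : Matrix V V ℂ} (hX : Adm X) (x : V) : ∑ v, ‖X x v‖ ^ 2 ≤ 1 := by
  have h := hX.cross (w := fun v => conj (X x v)) (x := x) (by simp [hX.diag]) 1
  simp only [nsq, Matrix.mulVec, dotProduct, Complex.mul_conj', Complex.re_sum,
    Complex.norm_conj, ← Complex.ofReal_pow, Complex.ofReal_re] at h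
  linarith

theorem mask_neg {C : Type} [DecidableEq C] (X : Matrix V V ℂ) (c : V → C) :
    mask (-X) c = -mask X c := by
  ext a b
  by_cases h : c a = c b <;> simp [mask, h]

theorem Adm.pm_step {X : Matrix V V ℂ} (hX : Adm X) {T : Finset V} {z : V → ℝ} {Ω : ℝ}
    (hΩ : 2 ≤ Ω) (hz : ∀ v ∈ T, Ω ≤ z v) {y : V} (hy : y ∈ T)
    (hp : 0 < (pm (Matrix.diagonal (fun v => (z v : ℂ)) - X) (T.erase y)).re) :
    (Ω - 1 / (Ω - 1)) * (pm (Matrix.diagonal (fun v => (z v : ℂ)) - X) (T.erase y)).re ≤
      (pm (Matrix.diagonal (fun v => (z v : ℂ)) - X) T).re := by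
  set A := Matrix.diagonal (fun v => (z v : ℂ)) - X with hA
  have hH : A.IsHermitian := (Matrix.isHermitian_diagonal_iff.2 fun v => by
    simp [IsSelfAdjoint]).sub hX.herm
  set p := (pm A (T.erase y)).re with hpd
  obtain ⟨w, hw⟩ : ∃ w : V → ℂ, w = fun a => (pmR A T).adjugate a y := ⟨_, rfl⟩
  have h1 : pmR A T *ᵥ w = Pi.single y (pm A T) := by
    ext a
    have := congrFun (congrFun (Matrix.mul_adjugate (pmR A T)) a) y
    rw [Matrix.mul_apply] at this
    simpa [hw, Matrix.mulVec, dotProduct, Pi.single_apply, Matrix.one_apply, pm_def] using this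
  have h2 : w y = p := by
    rw [hw]
    change (pmR A T).adjugate y y = p
    rw [adjugate_diag, ← (Complex.ext rfl (pm_im hH _) : pm A (T.erase y) = p), pm, pm]
    congr 1
    ext a b
    by_cases ha : a = y <;> simp [pmR, ha]
  have h3 : ∀ a ∉ T, w a = 0 := fun a ha => by
    rw [← (pmR_vec (A := A) w).1 a ha, h1, Pi.single_eq_of_ne fun e : a = y => ha (e ▸ hy)]
  have h4 := congrArg Complex.re (qf_diag hX.herm (fun v => (z v : ℂ)) w)
  rw [← hA, pmR_dot h3, h1, dotProduct_single, Pi.star_apply, h2] at h4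
  have h5 : Ω * nsq w ≤ ∑ a, z a * ‖w a‖ ^ 2 := by
    unfold nsq
    rw [mul_sum]
    refine sum_le_sum fun a _ => ?_
    by_cases ha : a ∈ T
    · exact mul_le_mul_of_nonneg_right (hz a ha) (sq_nonneg _)
    · simp [h3 a ha]
  obtain ⟨w', hw'⟩ : ∃ w', w' = w - Pi.single y (p : ℂ) := ⟨_, rfl⟩
  have h6 : w' y = 0 := by simp [hw', h2]
  have h7 : w = w' + Pi.single y (p : ℂ) := by simp [hw']
  have h8 := qf_add_single hX w' y p
  have h9 := nsq_add_single h6 p
  rw [← h7] at h8 h9
  have h10 := mul_le_mul_of_nonneg_left (hX.cross h6 (p / (Ω - 1))) (by linarith : 0 ≤ Ω - 1)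
  have h11 : Ω - 1 ≠ 0 := by linarith
  have h12 : (Ω - 1) * (2 * (p / (Ω - 1)) * ((X *ᵥ w') y).re) = 2 * p * ((X *ᵥ w') y).re := by
    field_simp
  have h13 : (Ω - 1) * (nsq w' + (p / (Ω - 1)) ^ 2) = (Ω - 1) * nsq w' + 1 / (Ω - 1) * p ^ 2 := by
    field_simp
  have h14 := (abs_le.1 (hX.contr w')).2
  simp only [RCLike.star_def, Complex.conj_ofReal, Complex.re_ofReal_mul, Complex.sub_re,
    Complex.re_sum, Complex.ofReal_re] at h4
  rw [h12, h13] at h10
  rw [h9] at h5
  refine le_of_mul_le_mul_left ?_ hp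
  linarith

/-- The base case of the barrier argument. -/
theorem Adm.pm_ratio {X : Matrix V V ℂ} (hX : Adm X) {T : Finset V} {z : V → ℝ} {Ω : ℝ}
    (hΩ : 2 ≤ Ω) (hz : ∀ v ∈ T, Ω ≤ z v) :
    0 < (pm (Matrix.diagonal (fun v => (z v : ℂ)) - X) T).re ∧
      ∀ y ∈ T, (Ω - 1 / (Ω - 1)) * (pm (Matrix.diagonal (fun v => (z v : ℂ)) - X) (T.erase y)).re ≤
        (pm (Matrix.diagonal (fun v => (z v : ℂ)) - X) T).re := by
  have key : ∀ T : Finset V, (∀ v ∈ T, Ω ≤ z v) →
      0 < (pm (Matrix.diagonal (fun v => (z v : ℂ)) - X) T).re := by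
    intro T
    induction T using Finset.induction_on with
    | empty => simp [pm_empty]
    | insert y T hy ih =>
      intro h
      have h1 := ih fun v hv => h v (mem_insert_of_mem hv)
      have h2 := hX.pm_step hΩ h (mem_insert_self y T)
      rw [erase_insert hy] at h2
      have h3 : 1 / (Ω - 1) ≤ 1 := (div_le_one (by linarith)).2 (by linarith)
      exact (mul_pos (by linarith) h1).trans_le (h2 h1)
  exact ⟨key T hz, fun y hy => hX.pm_step hΩ hz hy
    (key _ fun v hv => hz v (mem_of_mem_erase hv))⟩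

end Vale.Agent.P078
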