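import Vale.Agent.P078.Maj
import Vale.Agent.P078.Nrm

/-! Elements orthogonal to the normalizer are diffuse. -/

set_option linter.unusedSectionVars false

namespace Vale.Agent.P078

open Filter Topology Finset Vale.Agent.P104 Vale.Agent.P082
open scoped InnerProductSpace ComplexOrder ComplexConjugate

universe u v

variable {G : Type u} [NormedAddCommGroup G] [InnerProductSpace ℂ G] [CompleteSpace G]
  {M : Type u} [CStarAlgebra M] {ρ : M →⋆ₐ[ℂ] (G →L[ℂ] G)}
  {Ω : Type u} [TopologicalSpace Ω] [CompactSpace Ω] [T2Space Ω] [TotallyDisconnectedSpace Ω]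
  {ι : C(Ω, ℂ) →⋆ₐ[ℂ] M} {E : M →ₗ[ℂ] C(Ω, ℂ)} {ξ : G}

theorem st_clopen {J : Type} {π : Ω → J} (hπ : IsLocallyConstant π) (s : Set J) :
    IsClopen (π ⁻¹' s) := ⟨⟨hπ sᶜ⟩, hπ s⟩

theorem st_star_pr (U : Set Ω) : star (pr ι U) = pr ι U := (pr_proj ι U).isSelfAdjoint.star_eq

theorem st_pr_mul {U V : Set Ω} (hU : IsClopen U) (hV : IsClopen V) :
    pr ι U * pr ι V = pr ι (U ∩ V) := by
  unfold pr
  rw [← map_mul, ind_mul hU hV]

theorem st_pr_disj {U V : Set Ω} (hU : IsClopen U) (hV : IsClopen V) (h : Disjoint U V) :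
    pr ι U * pr ι V = 0 := by
  rw [st_pr_mul hU hV, h.inter_eq, pr, ind_empty, map_zero]

theorem st_mono {θ : Set Ω → Set Ω} (hθ : Hom θ) {U V : Set Ω} (hU : IsClopen U)
    (hV : IsClopen V) (h : U ⊆ V) : θ U ⊆ θ V := by
  rw [← Set.union_sdiff_cancel h, hθ.union _ _ hU (hV.diff hU) Set.disjoint_sdiff_right]
  exact Set.subset_union_left

theorem st_add {θ : Set Ω → Set Ω} (hθ : Hom θ) {J : Type} {π : Ω → J}
    (hπ : IsLocallyConstant π) (s : Finset J) :
    ∑ j ∈ s, ind (θ (π ⁻¹' {j})) = ind (θ (π ⁻¹' s)) := by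
  classical
  induction s using Finset.induction_on with
  | empty => rw [sum_empty, coe_empty, Set.preimage_empty, hθ.empty, ind_empty]
  | insert j s hj ih =>
    have hd : Disjoint (π ⁻¹' {j}) (π ⁻¹' s) :=
      Disjoint.preimage _ (Set.disjoint_singleton_left.2 hj)
    have c1 := st_clopen hπ {j}
    have c2 := st_clopen hπ s
    rw [sum_insert hj, ih, coe_insert, Set.insert_eq, Set.preimage_union, hθ.union _ _ c1 c2 hd,
      ind_union (hθ.clopen _ c1) (hθ.clopen _ c2) (hθ.disj _ _ c1 c2 hd)]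

theorem st_fine {U : Set Ω} (hU : IsClopen U) : ∀ᶠ P : Pt Ω in (UU Ω : Filter (Pt Ω)),
    ∀ ω ω', P.π ω = P.π ω' → ω ∈ U → ω' ∈ U := by
  have hl : IsLocallyConstant fun ω => ω ∈ U := by
    refine (IsLocallyConstant.iff_exists_open _).2 fun x => ?_
    by_cases hx : x ∈ U
    · exact ⟨U, hU.isOpen, hx, fun y hy => propext (iff_of_true hy hx)⟩
    · exact ⟨Uᶜ, hU.compl.isOpen, hx, fun y hy => propext (iff_of_false hy hx)⟩
  filter_upwards [eventually_Rf hl] with P hP ω ω' e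
  exact (hP ω ω' e).mp

theorem st_pos (h : Sys ι ρ E) (a : M) {p : M} (hp : IsStarProjection p) (ω : Ω) :
    0 ≤ E (star a * p * a) ω := by
  have := h.pos (p * a) ω
  rwa [star_mul, hp.isSelfAdjoint.star_eq, mul_assoc, ← mul_assoc p, hp.isIdempotentElem.eq,
    ← mul_assoc] at this

theorem st_itw_star {θ : Set Ω → Set Ω} {z : M} (hz : Itw ι θ z) {U : Set Ω} (hU : IsClopen U) :
    star z * pr ι U = pr ι (θ U) * star z := by
  have := congrArg star (hz U hU)
  rwa [star_mul, star_mul, st_star_pr, st_star_pr] at this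

theorem st_mem (h : Sys ι ρ E) {θ : Set Ω → Set Ω} {a b : M} (ha : Itw ι θ a) (hb : Itw ι θ b)
    (f : C(Ω, ℂ)) : a * ι f * star b ∈ ι.range := by
  refine h.masa _ fun U hU => ?_
  calc _ = pr ι U * a * ι f * star b := by simp only [mul_assoc]
    _ = a * (pr ι (θ U) * ι f) * star b := by rw [ha U hU, mul_assoc a]
    _ = a * ι f * (pr ι (θ U) * star b) := by rw [pr, ι_comm]; simp only [mul_assoc]
    _ = _ := by rw [← st_itw_star hb hU]; simp only [mul_assoc]

theorem Sys.intertwiner (h : Sys ι ρ E) (hc : Cen ρ ι.range ξ) {w : M} (hw : ¬ Dif ι ρ E ξ w) :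
    ∃ (θ : Set Ω → Set Ω) (y : M), y ≠ 0 ∧ Itw ι θ y ∧
      (∀ z, Itw ι θ z → fi ρ ξ (star z * y) = fi ρ ξ (star z * w)) ∧
      ∀ f g, w * ι f = ι g * w → y * ι f = ι g * y := by
  obtain ⟨θ, γ, hγ, hθ, hne, hm⟩ := h.majority hc hw
  obtain ⟨y, hy⟩ := h.vn.exists_lim (UU Ω)
    (a := fun P : Pt Ω => ∑ j, ee ι P.π j * w * pr ι (θ (P.π ⁻¹' {j}))) (R := ‖w‖)
    (Eventually.of_forall fun P => norm_sum_le_of_orth (a := fun _ => w) (ee_part ι P.lc).proj
      (fun _ => pr_proj ι _) (ee_part ι P.lc).orth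
      (fun i j hij => st_pr_disj (hθ.clopen _ (st_clopen P.lc _)) (hθ.clopen _ (st_clopen P.lc _))
        (hθ.disj _ _ (st_clopen P.lc _) (st_clopen P.lc _)
          (Disjoint.preimage _ (Set.disjoint_singleton.2 hij))))
      (norm_nonneg w) fun _ => le_rfl)
  have ht := fun z : M => fi_tendsto (ξ := ξ) hy (star z) 1
  simp only [mul_one] at ht
  refine ⟨θ, y, fun h0 => ?_, fun U hU => ?_, fun z hz => ?_, fun f g e => ?_⟩
  · have h1 := (Complex.continuous_re.tendsto _).comp (ht w)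
    rw [h0, mul_zero, map_zero, Complex.zero_re] at h1
    have h2 := mul_pos hγ (h.fi_pr_pos hc (hθ.clopen _ isClopen_univ) hne)
    refine h2.not_ge (ge_of_tendsto' h1 fun P => ?_)
    have h3 := st_add hθ P.lc univ
    rw [coe_univ, Set.preimage_univ] at h3
    rw [Function.comp_apply, pr, ← h3, mul_sum, map_sum, map_sum, map_sum, Complex.re_sum,
      Complex.re_sum, mul_sum]
    refine sum_le_sum fun j _ => ?_
    have c1 := st_clopen P.lc {j}
    have h4 : fi ρ ξ (ι ((γ : ℂ) • ind (θ (P.π ⁻¹' {j})))) ≤ fi ρ ξ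
        (ι (E (star w * pr ι (P.π ⁻¹' {j}) * w) * ind (θ (P.π ⁻¹' {j})))) := by
      refine fi_ι_mono fun ω => ?_
      rw [ContinuousMap.smul_apply, ContinuousMap.mul_apply, smul_eq_mul]
      by_cases hω : ω ∈ θ (P.π ⁻¹' {j})
      · rw [ind_of_mem (hθ.clopen _ c1) hω, mul_one, mul_one]
        exact ⟨hm _ c1 ω hω, (st_pos h w (pr_proj ι _) ω).2⟩
      · rw [ind_of_notMem hω, mul_zero, mul_zero]
    rw [← h.right, h.fi_E hc, map_smul, map_smul, smul_eq_mul] at h4
    have h5 := h4.1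
    rw [Complex.re_ofReal_mul] at h5
    refine h5.trans_eq ?_
    simp only [ee, pr, mul_assoc]
  · refine WL.unique h.vn (hy.const_mul _) (hy.mul_const _) ?_
    filter_upwards [st_fine hU] with P hP
    rw [mul_sum, sum_mul]
    refine sum_congr rfl fun j _ => ?_
    have c1 := st_clopen P.lc {j}
    have e1 : pr ι U * ee ι P.π j = ee ι P.π j * pr ι U := ι_comm ι _ _
    rw [← mul_assoc, ← mul_assoc, e1, mul_assoc _ _ (pr ι (θ U))]
    rcases ee_mul_pr (ι := ι) P.lc hU hP j with ⟨h1, h2⟩ | ⟨h1, h2⟩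
    · rw [h2, st_pr_mul (hθ.clopen _ c1) (hθ.clopen _ hU),
        Set.inter_eq_left.2 (st_mono hθ c1 hU h1)]
    · rw [h2, st_pr_disj (hθ.clopen _ c1) (hθ.clopen _ hU)
        (hθ.disj _ _ c1 hU (Set.subset_compl_iff_disjoint_right.1 h1)), zero_mul, zero_mul,
        mul_zero]
  · refine tendsto_nhds_unique (ht z) (tendsto_const_nhds.congr fun P => ?_)
    have hp := ee_part ι P.lc
    conv_lhs => rw [← one_mul w, ← hp.sum, sum_mul]
    rw [mul_sum, mul_sum, map_sum, map_sum]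
    refine sum_congr rfl fun j _ => ?_
    rw [← mul_assoc (star z) _ (pr ι _), ← hc.cen _ (pr_mem ι _), ← mul_assoc (pr ι _),
      ← st_itw_star hz (st_clopen P.lc {j}), mul_assoc (star z), ← mul_assoc (pr ι _)]
    exact congrArg (fun t => fi ρ ξ (star z * (t * w))) (hp.idem j).symm
  · refine WL.unique h.vn (hy.mul_const _) (hy.const_mul _) (Eventually.of_forall fun P => ?_)
    rw [mul_sum, sum_mul]
    refine sum_congr rfl fun j _ => ?_
    unfold ee pr
    rw [mul_assoc, ι_comm, ← mul_assoc, mul_assoc _ w, e, ← mul_assoc, ι_comm]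
    simp only [mul_assoc]

theorem Sys.not_dif (h : Sys ι ρ E) (hc : Cen ρ ι.range ξ) {θ : Set Ω → Set Ω} {y : M}
    (h0 : y ≠ 0) (hy : Itw ι θ y) : ¬ Dif ι ρ E ξ (star y) := by
  intro hd
  have hT : ∀ f, ι (E (y * ι f * star y)) = y * ι f * star y := fun f => h.ι_E (st_mem h hy hy f)
  have hq : ∀ f, fi ρ ξ (y * (ι f * (star y * y) * ι f) * star y)
      = fi ρ ξ (ι (E (y * ι f * star y) * E (y * ι f * star y))) := fun f => by
    rw [map_mul ι, hT]
    simp only [mul_assoc]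
  have anti : ∀ P Q : Pt Ω, Rf Q.π P.π → fi ρ ξ (y * pin ι Q.π (star y * y) * star y)
      ≤ fi ρ ξ (y * pin ι P.π (star y * y) * star y) := by
    intro P Q hPQ
    rw [← pin_pin Q.lc P.lc hPQ]
    unfold pin
    simp only [mul_sum, sum_mul, map_sum]
    rw [sum_comm]
    refine sum_le_sum fun j _ => ?_
    have e1 : ∀ k, ee ι Q.π k * (ee ι P.π j * (star y * y) * ee ι P.π j) * ee ι Q.π k
        = ι (ind (Q.π ⁻¹' {k} ∩ P.π ⁻¹' {j})) * (star y * y)
          * ι (ind (Q.π ⁻¹' {k} ∩ P.π ⁻¹' {j})) := fun k => by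
      rw [← ind_mul (st_clopen Q.lc _) (st_clopen P.lc _), map_mul]
      conv_rhs => rw [ι_comm]; lhs; rw [ι_comm]
      simp only [ee, pr, mul_assoc]
    have e2 : E (y * ι (ind (P.π ⁻¹' {j})) * star y)
        = ∑ k, E (y * ι (ind (Q.π ⁻¹' {k} ∩ P.π ⁻¹' {j})) * star y) := by
      rw [← map_sum, ← sum_mul, ← mul_sum]
      simp only [← ind_mul (st_clopen Q.lc _) (st_clopen P.lc _), map_mul]
      rw [← sum_mul, show ∑ k, ι (ind (Q.π ⁻¹' {k})) = 1 from (ee_part ι Q.lc).sum, one_mul]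
    simp only [e1, hq]
    rw [ee, pr, hq, ← map_sum, ← map_sum, e2]
    refine fi_ι_mono fun ω => ?_
    have h1 : ∀ k, 0 ≤ E (y * ι (ind (Q.π ⁻¹' {k} ∩ P.π ⁻¹' {j})) * star y) ω := fun k => by
      have := st_pos h (star y) (pr_proj ι (Q.π ⁻¹' {k} ∩ P.π ⁻¹' {j})) ω
      rwa [star_star] at this
    rw [sum_mul, ContinuousMap.sum_apply, ContinuousMap.sum_apply]
    refine sum_le_sum fun k _ => ?_
    rw [ContinuousMap.mul_apply, ContinuousMap.mul_apply, ContinuousMap.sum_apply]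
    exact mul_le_mul_of_nonneg_left (single_le_sum (fun k _ => h1 k) (mem_univ k)) (h1 k)
  have ht := (Complex.continuous_re.tendsto _).comp
    (fi_tendsto (ξ := ξ) (h.lim (star y * y)) y (star y))
  obtain ⟨g, g1, g2, -⟩ := exists_sqrt (h.pos y)
  have e3 : y * ι (E (star y * y)) * star y = star (ι g * star y) * (ι g * star y) := by
    rw [star_mul, star_star, ← map_star, g1, ← g2, map_mul]
    simp only [mul_assoc]
  rw [e3, fi_star_self, Complex.ofReal_re] at ht
  have h1 : ‖ρ (ι g * star y) ξ‖ ^ 2 ≤ 0 := by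
    refine le_of_forall_pos_le_add fun η hη => ?_
    obtain ⟨P, hP⟩ := hd η hη
    rw [zero_add]
    refine le_trans (le_of_tendsto ht ?_) hP
    filter_upwards [eventually_Rf P.lc] with Q hQ
    refine (anti P Q hQ).1.trans_eq ?_
    rw [pin, mul_sum, sum_mul, map_sum, Complex.re_sum]
    refine sum_congr rfl fun j _ => ?_
    rw [star_star, ee, pr, hT, ← Complex.ofReal_re (_ ^ 2), ← fi_star_self, star_mul, star_mul,
      star_star, ← map_star, star_ind]
    simp only [mul_assoc]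
  have h2 : ι g * star y = 0 :=
    hc.sep _ (norm_eq_zero.1 (pow_eq_zero_iff two_ne_zero |>.1 (h1.antisymm (sq_nonneg _))))
  have h3 : g * (g * g) = 0 := by
    rw [g2, ← h.left, ← mul_assoc, h2, zero_mul, map_zero]
  refine h0 (h.eq_zero_of_E hc ?_)
  rw [← g2]
  ext ω
  have h4 : g ω * (g ω * g ω) = 0 := DFunLike.congr_fun h3 ω
  exact (mul_eq_zero.1 h4).elim (fun e => mul_eq_zero_of_left e _) id

theorem Sys.dif_of_orth (h : Sys ι ρ E) (hc : Cen ρ ι.range ξ) {x : M}
    (hx : ∀ n ∈ NA ι ρ ξ, fi ρ ξ (star n * x) = 0) : Dif ι ρ E ξ x := by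
  by_contra hd
  obtain ⟨θ, y, y0, y1, y2, -⟩ := h.intertwiner hc hd
  obtain ⟨θ', u, u0, u1, u2, u3⟩ := h.intertwiner hc (h.not_dif hc y0 y1)
  have v1 : Itw ι θ (star u) := fun U hU => by
    have := congrArg star (u3 _ _ (st_itw_star y1 hU))
    rwa [star_mul, star_mul, ← map_star, ← map_star, star_ind, star_ind] at this
  have v2 : Nz₀ ι (star u) := ⟨fun f => by rw [star_star]; exact st_mem h u1 u1 f,
    fun f => st_mem h v1 v1 f⟩
  obtain ⟨d, hd1⟩ : star u * star y ∈ ι.range := by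
    simpa only [map_one, mul_one] using st_mem h v1 y1 1
  obtain ⟨k, hk⟩ : u * star u ∈ ι.range := by
    simpa only [map_one, mul_one] using st_mem h u1 u1 1
  replace hd1 : ι d = star u * star y := hd1
  replace hk : ι k = u * star u := hk
  have d0 : ι d ≠ 0 := fun e => by
    have h1 := u2 u u1
    rw [← hd1, e, map_zero, fi_star_self, Complex.ofReal_eq_zero] at h1
    exact u0 (hc.sep _ (norm_eq_zero.1 (pow_eq_zero_iff two_ne_zero |>.1 h1)))
  have g0 : k * E (star y * y) ≠ 0 := fun e => by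
    have h1 : y * ι k = 0 := by
      refine h.eq_zero_of_E hc ?_
      rw [star_mul, ← map_star, mul_assoc, ← mul_assoc (star y), h.left, h.right,
        mul_comm _ k, e, mul_zero]
    refine d0 ((CStarRing.star_mul_self_eq_zero_iff _).1 ?_)
    rw [hd1, star_mul, star_star, star_star, mul_assoc, ← mul_assoc u, ← hk, ← mul_assoc, h1,
      zero_mul]
  obtain ⟨f, hf⟩ : ∃ f, fi ρ ξ (ι (f * (k * E (star y * y)))) ≠ 0 := by
    by_contra hn
    exact g0 (h.eq_zero_of_fi hc fun f => of_not_not fun e => hn ⟨f, e⟩)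
  have z1 : Itw ι θ (ι (star d) * star u * ι (star f)) := fun U hU => by
    calc _ = pr ι U * ι (star d) * star u * ι (star f) := by simp only [mul_assoc]
      _ = ι (star d) * (pr ι U * star u) * ι (star f) := by
          rw [pr, ι_comm]
          simp only [mul_assoc]
      _ = ι (star d) * star u * (pr ι (θ U) * ι (star f)) := by
          rw [v1 U hU]
          simp only [mul_assoc]
      _ = _ := by
          rw [pr, ι_comm]
          simp only [mul_assoc]
  have z2 : Nz₀ ι (ι (star d) * star u * ι (star f)) :=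
    ((Nz₀.of_mem ⟨_, rfl⟩).mul v2).mul (Nz₀.of_mem ⟨_, rfl⟩)
  have z3 : fi ρ ξ (star (ι (star d) * star u * ι (star f)) * x)
      = fi ρ ξ (ι (f * (k * E (star y * y)))) := by
    rw [← y2 _ z1, ← h.left, ← h.left, h.fi_E hc, star_mul, star_mul, star_star, ← map_star,
      ← map_star, star_star, star_star, hd1, hk]
    simp only [mul_assoc]
  rw [← z3] at hf
  generalize ι (star d) * star u * ι (star f) = z at z2 hf
  refine hf (norm_le_zero_iff.1 (le_of_forall_pos_le_add fun ε hε => ?_))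
  have hp : 0 < ‖ρ x ξ‖ + 1 := by positivity
  obtain ⟨n, hn, hz⟩ := h.approx_Nz hc z2 (div_pos hε hp)
  have e : fi ρ ξ (star z * x) = fi ρ ξ (star (z - n) * x) := by
    rw [star_sub, sub_mul, map_sub, hx n hn, sub_zero]
  rw [e, fi_star_mul, zero_add]
  calc _ ≤ ‖ρ (z - n) ξ‖ * ‖ρ x ξ‖ := norm_inner_le_norm _ _
    _ ≤ ε / (‖ρ x ξ‖ + 1) * (‖ρ x ξ‖ + 1) := by
        gcongr
        exact le_add_of_nonneg_right zero_le_one
    _ = ε := div_mul_cancel₀ _ hp.ne'

end Vale.Agent.P078
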