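import Vale.Agent.P078.PavN
import Vale.Agent.P078.Mix
import Vale.Agent.P078.Dec
import Vale.Agent.P078.Struct
import Vale.Agent.P078.Gelf

/-! Paving in the presence of a central vector. -/

set_option linter.unusedSectionVars false

namespace Vale.Agent.P078

open Filter Topology Finset Vale.Agent.P104 Vale.Agent.P082
open scoped InnerProductSpace ComplexOrder ComplexConjugate

universe u v

variable {G : Type u} [NormedAddCommGroup G] [InnerProductSpace ℂ G] [CompleteSpace G]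
  {M : Type u} [CStarAlgebra M] {ρ : M →⋆ₐ[ℂ] (G →L[ℂ] G)}
  {Ω : Type u} [TopologicalSpace Ω] [CompactSpace Ω] [T2Space Ω] [TotallyDisconnectedSpace Ω]
  {ι : C(Ω, ℂ) →⋆ₐ[ℂ] M} {E : M →ₗ[ℂ] C(Ω, ℂ)} {ξ : G}

variable [PartialOrder M] [StarOrderedRing M]

theorem pc_cut (hc : Cen ρ ι.range ξ) {p b : M} (hp : IsStarProjection p) (hp' : p ∈ ι.range)
    (hb : 0 ≤ b) : vf ρ ξ (p * b * p) ≤ vf ρ ξ b := by
  have key : ∀ q : M, IsStarProjection q → q ∈ ι.range → vf ρ ξ (q * b * q) = vf ρ ξ (b * q) := by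
    intro q hq hq'
    have h1 := hc.cen q hq' (b * q)
    rw [mul_assoc b, hq.isIdempotentElem.eq, ← mul_assoc] at h1
    exact congrArg Complex.re h1
  have h1 := vf_nonneg (ρ := ρ) ξ (hp.one_sub.isSelfAdjoint.conjugate_nonneg hb)
  rw [key _ hp.one_sub (sub_mem (one_mem _) hp'), mul_sub, mul_one, map_sub] at h1
  rw [key p hp hp']
  linarith

theorem pc_half {y : M} (hy : star y = y) (hn : ‖y‖ ≤ 2) : star ((1 / 2 : ℂ) • y) = (1 / 2 : ℂ) • y ∧
    ‖(1 / 2 : ℂ) • y‖ ≤ 1 ∧ (1 / 2 : ℂ) • y + (1 / 2 : ℂ) • y = y := by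
  refine ⟨by simp [hy], ?_, by rw [← add_smul]; norm_num⟩
  rw [norm_smul]
  norm_num
  linarith

theorem Sys.pave_dif (h : Sys ι ρ E) (hc : Cen ρ ι.range ξ) {x : M} (hx : star x = x)
    (hn : ‖x‖ ≤ 1) (hd : Dif ι ρ E ξ x) {k : ℕ} [NeZero k] (hk : 9 ≤ k) {δ : ℝ} (hδ : 0 < δ) :
    ∃ P : Pt Ω, ∀ (J : Type) [Fintype J] [DecidableEq J] (π : Ω → J)
      (col : (J → Fin k) → Ω → Fin (2 * k)) (Θ : Fin (2 * k) → (J → Fin k) → J → Fin k),
      IsLocallyConstant π → Rf π P.π → (∀ l, IsLocallyConstant (col l)) →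
      (∀ c, Function.Injective (Θ c)) → (∀ l ω, Θ (col l ω) l (π ω) = 0) →
      ∃ l, Nb (vf ρ ξ) (pin ι (col l) x) (6 / √k) δ := by
  have hk0 : (0 : ℝ) < k := by exact_mod_cast (by omega : 0 < k)
  obtain ⟨t, ht⟩ : ∃ t : ℝ, t = 6 / √k := ⟨_, rfl⟩
  rw [← ht]
  have ht0 : 0 < t := by rw [ht]; positivity
  have ht2 : 9 / (k : ℝ) = t ^ 2 * (1 / 4) := by
    rw [ht, div_pow, Real.sq_sqrt hk0.le]
    ring
  obtain ⟨j, hj⟩ := exists_pow_lt_of_lt_one (by positivity : 0 < δ / (8 * k * t))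
    (by norm_num : (1 / 4 : ℝ) < 1)
  obtain ⟨P, hP⟩ := h.mixing hc hx hn hd hk (j + 1)
    (by positivity : 0 < δ / (4 * k * t) * t ^ (2 * (j + 1)))
  refine ⟨P, fun J _ _ π col Θ hπ hR hcol hΘ h0 => ?_⟩
  have hs : ∀ l : J → Fin k, star (pl ι π l * x * pl ι π l) = pl ι π l * x * pl ι π l := fun l => by
    have := (pr_proj ι {ω | l (π ω) = 0}).isSelfAdjoint.star_eq
    simp only [star_mul, pl, this, hx, mul_assoc]
  choose b b0 b1 b2 b3 using fun l : J → Fin k => Nb.of_pow (vf ρ ξ) (hs l) ht0 j.succ_pos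
  have h1 : (Ex fun l => vf ρ ξ (b l)) ≤ δ / (2 * k) := by
    simp only [b3, vf_star_mul]
    rw [Ex_mul_left, Ex_div]
    have h2 := hP J π hπ hR
    rw [ht2, mul_pow, ← pow_mul] at h2
    refine (mul_le_mul_of_nonneg_left (div_le_div_of_nonneg_right h2 (by positivity))
      ht0.le).trans ?_
    have e : t * ((2 * (t ^ (2 * (j + 1)) * (1 / 4) ^ (j + 1)) +
        δ / (4 * k * t) * t ^ (2 * (j + 1))) / t ^ (2 * j.succ)) =
        t / 2 * (1 / 4) ^ j + δ / (4 * k) := by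
      rw [Nat.succ_eq_add_one]
      field_simp
      ring
    have e2 : t / 2 * (δ / (8 * k * t)) = δ / (16 * k) := by
      field_simp
      ring
    have e3 : δ / (2 * k) = δ / (16 * k) + δ / (4 * k) + 3 * δ / (16 * k) := by
      field_simp
      ring
    have h3 := mul_le_mul_of_nonneg_left hj.le (by positivity : 0 ≤ t / 2)
    have h4 : 0 ≤ 3 * δ / (16 * k) := by positivity
    rw [e, e3]
    linarith
  obtain ⟨l, hl⟩ := Finite.exists_min fun l => ∑ c, vf ρ ξ (b (Θ c l))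
  have h2 : ∑ c, vf ρ ξ (b (Θ c l)) ≤ δ := by
    refine ((Ex_const _).symm.trans_le (Ex_mono hl)).trans ?_
    rw [Ex_sum]
    refine (sum_le_card_nsmul _ _ (δ / (2 * k)) fun c _ => le_of_eq_of_le ?_ h1).trans_eq ?_
    · exact Ex_equiv (Equiv.ofBijective _ (Finite.injective_iff_bijective.1 (hΘ c)))
        fun l => vf ρ ξ (b l)
    · rw [card_univ, Fintype.card_fin, nsmul_eq_mul]
      push_cast
      field_simp
  have hp := ee_part ι (hcol l)
  have e1 : ∀ c, ee ι (col l) c * pl ι π (Θ c l) = ee ι (col l) c := fun c => by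
    rw [ee, pl, pr, pr, ← map_mul, ind_mul (U := col l ⁻¹' {c}) (U' := {ω | Θ c l (π ω) = 0})
      ((hcol l).isClopen_fiber c) ((hπ.comp (Θ c l)).isClopen_fiber 0), Set.inter_eq_left.2]
    rintro ω rfl
    exact h0 l ω
  have e2 : pin ι (col l) x = ∑ c, ee ι (col l) c * (pl ι π (Θ c l) * x * pl ι π (Θ c l)) *
      ee ι (col l) c := sum_congr rfl fun c _ => by
    have e3 : pl ι π (Θ c l) * ee ι (col l) c = ee ι (col l) c := (ι_comm ι _ _).trans (e1 c)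
    rw [← mul_assoc, ← mul_assoc, e1, mul_assoc _ (pl ι π (Θ c l)), e3]
  have e3 : t • (1 : M) + ∑ c, ee ι (col l) c * b (Θ c l) * ee ι (col l) c =
      ∑ c, ee ι (col l) c * (t • (1 : M) + b (Θ c l)) * ee ι (col l) c := by
    simp only [mul_add, add_mul, mul_smul_comm, smul_mul_assoc, mul_one, hp.idem, sum_add_distrib,
      ← smul_sum, hp.sum]
  refine ⟨l, ∑ c, ee ι (col l) c * b (Θ c l) * ee ι (col l) c,
    sum_nonneg fun c _ => (hp.proj c).isSelfAdjoint.conjugate_nonneg (b0 _), ?_, ?_, ?_⟩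
  · rw [e2, e3, ← sum_neg_distrib]
    refine sum_le_sum fun c _ => ?_
    rw [← neg_mul, ← mul_neg]
    exact (hp.proj c).isSelfAdjoint.conjugate_le_conjugate (b1 _)
  · rw [e2, e3]
    exact sum_le_sum fun c _ => (hp.proj c).isSelfAdjoint.conjugate_le_conjugate (b2 _)
  · rw [map_sum]
    exact (sum_le_sum fun c _ => pc_cut hc (hp.proj c) (pr_mem ι _) (b0 _)).trans h2

theorem Sys.pav_cen (h : Sys ι ρ E) (hc : Cen ρ ι.range ξ) {x : M} (hx : star x = x)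
    (hn : ‖x‖ ≤ 1) {k : ℕ} (hk : 9 ≤ k) {δ : ℝ} (hδ : 0 < δ) :
    Pav ι.range (vf ρ ξ) x (2 * k) (1500 / √k) δ := by
  have : NeZero k := ⟨by omega⟩
  have hδ' : 0 < δ / 6 := by positivity
  have hE : ∀ y : M, star y = y → star (ι (E y)) = ι (E y) := fun y hy => by
    rw [← map_star, ← h.E_star, hy]
  have hE' : ∀ y : M, ‖ι (E y)‖ ≤ ‖y‖ := fun y => (norm_ι_le ι _).trans (h.E_norm y)
  obtain ⟨x₀, a1, a2, a3, a4⟩ := h.decomp hc hx hn
  obtain ⟨n, n1, n2, n3, n4⟩ := a4 _ hδ'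
  obtain ⟨w1, w2, w3⟩ := pc_half (y := x - x₀) (by rw [star_sub, hx, a1])
    ((norm_sub_le _ _).trans (by linarith))
  obtain ⟨v1, v2, v3⟩ := pc_half (y := n - ι (E n)) (by rw [star_sub, n2, hE n n2])
    ((norm_sub_le _ _).trans (by linarith [hE' n]))
  have h0 : E (x - x₀) = 0 := h.eq_zero_of_fi hc fun f => by
    have h1 := a3 _ (ι_mem_NA (star f))
    rwa [← map_star, star_star, ← h.fi_E hc, h.left] at h1
  obtain ⟨P, hP⟩ := h.pave_dif hc w1 w2 (h.dif_of_orth hc fun m hm => by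
    rw [mul_smul_comm, map_smul, a3 m hm, smul_zero]) hk hδ'
  obtain ⟨J, _, _, π, col, Θ, c1, c2, c3, c4, c5, c6⟩ := h.pave_NA hc
    (Submodule.smul_mem _ _ (sub_mem n1 (ι_mem_NA _))) v1 v2
    (by rw [map_smul, map_sub, h.fix, sub_self, smul_zero]) (k := k) (by omega) hδ' P
  obtain ⟨l, hl⟩ := hP J π col Θ c1 c2 c3 c4 c5
  have r1 : star (pin ι (col l) (x₀ - n - ι (E (x₀ - n)))) =
      pin ι (col l) (x₀ - n - ι (E (x₀ - n))) := by
    have e : star (x₀ - n) = x₀ - n := by rw [star_sub, a1, n2]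
    rw [pin_star, star_sub, e, hE _ e]
  have r2 : ‖ρ (pin ι (col l) (x₀ - n - ι (E (x₀ - n)))) ξ‖ ≤ δ / 3 := by
    refine (hc.norm_pin_le (c3 l) _).trans ?_
    rw [map_sub, _root_.sub_apply]
    linarith [norm_sub_le (ρ (x₀ - n) ξ) (ρ (ι (E (x₀ - n))) ξ), h.norm_E_le hc (x₀ - n)]
  have r3 := Nb.of_sq (φ := vf ρ ξ) (c := 1) (δ := δ / 3) r1
    (le_of_eq (congrArg Complex.re hc.fi_one)) (by positivity) one_pos (by
      nth_rw 1 [← r1]
      rw [vf_star_mul, div_one]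
      exact pow_le_pow_left₀ (norm_nonneg _) r2 2)
  have r4 := ((hl.add hl).add ((c6 l).add (c6 l))).add r3
  rw [← pin_add, ← pin_add, w3, v3, ← pin_add, ← pin_add] at r4
  have e : x - x₀ + (n - ι (E n)) + (x₀ - n - ι (E (x₀ - n))) = x - ι (E x) := by
    rw [map_sub, sub_eq_zero] at h0
    rw [h0, map_sub, map_sub]
    abel
  rw [e, pin_sub, pin_ι (c3 l)] at r4
  refine ⟨ee ι (col l), ee_part ι (c3 l), fun i => pr_mem ι _, ι (E x), ⟨_, rfl⟩, hE x hx,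
    (hE' x).trans hn, r4.mono ?_ (by linarith)⟩
  have hk0 : (0 : ℝ) < k := by exact_mod_cast (by omega : 0 < k)
  have h1 : 0 < √k := Real.sqrt_pos.2 hk0
  have h2 : 7 / 5 * √k ≤ √(2 * k : ℕ) := Real.le_sqrt_of_sq_le (by
    rw [mul_pow, Real.sq_sqrt hk0.le]
    push_cast
    linarith)
  have h3 : 1024 / √(2 * k : ℕ) ≤ 1024 / (7 / 5 * √k) := by gcongr
  have h4 : 1500 / √k = 6 / √k + 6 / √k + (1024 / (7 / 5 * √k) + 1024 / (7 / 5 * √k)) +
      176 / 7 / √k := by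
    field_simp
    norm_num
  have h5 : 0 ≤ 176 / 7 / √k := by positivity
  linarith

theorem pav_cen (hρ : IsVN ρ) {A : StarSubalgebra ℂ M} (hA : Masa A) (hc : Cen ρ A ξ) {x : M}
    (hx : star x = x) (hn : ‖x‖ ≤ 1) {k : ℕ} (hk : 9 ≤ k) {δ : ℝ} (hδ : 0 < δ) :
    Pav A (vf ρ ξ) x (2 * k) (1500 / √k) δ := by
  obtain ⟨Ω, _, _, _, _, ι, E, h, rfl⟩ := exists_sys hρ hA
  exact h.pav_cen hc hx hn hk hδ

end Vale.Agent.P078
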