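import Vale.Agent.P078.LocC
import Vale.Agent.P078.LKS
import Vale.Agent.P078.Nb

/-! Paving the span of the normalizer. -/

set_option linter.unusedSectionVars false

namespace Vale.Agent.P078

open Filter Topology Finset Vale.Agent.P104 Vale.Agent.P082
open scoped InnerProductSpace ComplexOrder ComplexConjugate

universe u v

variable {G : Type u} [NormedAddCommGroup G] [InnerProductSpace ℂ G] [CompleteSpace G]
  {M : Type u} [CStarAlgebra M] {ρ : M →⋆ₐ[ℂ] (G →L[ℂ] G)}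
  {Ω : Type u} [TopologicalSpace Ω] [CompactSpace Ω] [T2Space Ω] [TotallyDisconnectedSpace Ω]
  {ι : C(Ω, ℂ) →⋆ₐ[ℂ] M} {E : M →ₗ[ℂ] C(Ω, ℂ)} {ξ : G}

variable [PartialOrder M] [StarOrderedRing M]

theorem pn_cfc {Y : M} (h1 : star Y = Y) (h2 : ‖Y‖ ≤ 1) {ε : ℝ} {Q : Polynomial ℝ}
    (h3 : ∀ s : ℝ, |s| ≤ 1 → max (|s| - ε) 0 ≤ Q.eval s) :
    0 ≤ Polynomial.aeval Y Q ∧ -(ε • (1 : M) + Polynomial.aeval Y Q) ≤ Y ∧
      Y ≤ ε • (1 : M) + Polynomial.aeval Y Q := by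
  have hY : IsSelfAdjoint Y := h1
  have hs : ∀ s ∈ spectrum ℝ Y, |s| ≤ 1 := fun s hs =>
    (spectrum.norm_le_norm_mul_of_mem hs).trans
      (mul_le_one₀ h2 (norm_nonneg _) (IsStarProjection.one (R := M)).norm_le)
  have e : ε • (1 : M) + Polynomial.aeval Y Q = cfc (fun s : ℝ => ε + Q.eval s) Y := by
    rw [cfc_const_add ε (fun s => Q.eval s) Y, cfc_polynomial Q Y, Algebra.algebraMap_eq_smul_one]
  rw [e, ← cfc_neg, ← cfc_polynomial Q Y]
  refine ⟨cfc_nonneg fun s h => (le_max_right _ _).trans (h3 s (hs s h)), ?_, ?_⟩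
  · conv_rhs => rw [← cfc_id' ℝ Y]
    refine cfc_mono fun s h => ?_
    have := (le_max_left _ _).trans (h3 s (hs s h))
    linarith [neg_abs_le s]
  · conv_lhs => rw [← cfc_id' ℝ Y]
    refine cfc_mono fun s h => ?_
    have := (le_max_left _ _).trans (h3 s (hs s h))
    linarith [le_abs_self s]

theorem pn_link {Γ I : Type} [Fintype Γ] [Fintype I] [DecidableEq I] (D : Dat ρ ι E ξ Γ I)
    {C : Type} [Fintype C] [DecidableEq C] {col : Ω → C} (hcol : IsLocallyConstant col)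
    {Q : Polynomial ℝ} (hQ : Q.natDegree ≤ D.R) (ω : Ω) :
    E (Polynomial.aeval (pin ι col D.n) Q) ω =
      Polynomial.aeval (mask (D.X ω) fun a => col (D.pt ω a)) Q (D.cell ω) (D.cell ω) := by
  rw [Polynomial.aeval_eq_sum_range, Polynomial.aeval_eq_sum_range, map_sum, Matrix.sum_apply,
    ContinuousMap.coe_sum, Finset.sum_apply]
  refine sum_congr rfl fun j hj => ?_
  rw [LinearMap.map_smul_of_tower, ContinuousMap.smul_apply, Matrix.smul_apply,
    D.link hcol ((Nat.lt_succ_iff.1 (mem_range.1 hj)).trans hQ)]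

theorem pn_cut (hc : Cen ρ ι.range ξ) {n g : M} (h3 : ‖n‖ ≤ 1) (hg : ‖g‖ ≤ 1) {C δ : ℝ}
    (hC : 0 ≤ C) (h : ∀ m, ‖ρ (m * n) ξ‖ ≤ C * ‖ρ m ξ‖) (hδ : ‖ρ (1 - g) ξ‖ ≤ δ) :
    ‖ρ (n - g * n * g) ξ‖ ≤ (C + 1) * δ := by
  have _ := hc
  have e : n - g * n * g = (1 - g) * n + g * n * (1 - g) := by noncomm_ring
  have h1 : ‖ρ (g * n)‖ ≤ 1 := (NonUnitalStarAlgHom.norm_apply_le ρ _).trans
    ((norm_mul_le _ _).trans (mul_le_one₀ hg (norm_nonneg _) h3))
  have h2 : ‖ρ (g * n * (1 - g)) ξ‖ ≤ δ := by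
    rw [map_mul, mul_apply_eq_comp]
    refine ((ρ (g * n)).le_opNorm _).trans ?_
    exact (mul_le_of_le_one_left (norm_nonneg _) h1).trans hδ
  rw [e, map_add, add_apply, add_mul, one_mul]
  exact norm_add_le_of_le ((h _).trans (mul_le_mul_of_nonneg_left hδ hC)) h2

theorem Sys.pave_NA (h : Sys ι ρ E) (hc : Cen ρ ι.range ξ) {n : M} (h1 : n ∈ NA ι ρ ξ)
    (h2 : star n = n) (h3 : ‖n‖ ≤ 1) (h4 : E n = 0) {k : ℕ} [NeZero k] (hk : 2 ≤ k) {δ : ℝ}
    (hδ : 0 < δ) (P : Pt Ω) :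
    ∃ (J : Type) (_ : Fintype J) (_ : DecidableEq J) (π : Ω → J)
      (col : (J → Fin k) → Ω → Fin (2 * k)) (Θ : Fin (2 * k) → (J → Fin k) → J → Fin k),
      IsLocallyConstant π ∧ Rf π P.π ∧ (∀ l, IsLocallyConstant (col l)) ∧
      (∀ c, Function.Injective (Θ c)) ∧ (∀ l ω, Θ (col l ω) l (π ω) = 0) ∧
      ∀ l, Nb (vf ρ ξ) (pin ι (col l) n) (1024 / √(2 * k : ℕ)) δ := by
  obtain ⟨Γ, _, gv, bar, co, L, hL, hgb, hbar, hn⟩ := exists_gens h1
  have hη : 0 < min (δ / 4) 1 := lt_min (by positivity) one_pos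
  obtain ⟨Q, q1, q2, q3⟩ := exists_cut_poly (ε := 1024 / √(2 * k : ℕ)) (by positivity) hη
    (min_le_right _ _)
  obtain ⟨R, hR, hlks⟩ := lks.{u} (N := Fintype.card Γ + 1) hk hL hη q1 q2
  obtain ⟨C, hC, hCn⟩ := h.right_bdd hc h1
  obtain ⟨P', U, -, hU, hsep⟩ := h.exists_sep hc (fun g => ⟨L, hgb g⟩) (2 * R + 2)
    (δ := δ / 2 / (C + 1)) (by positivity)
  obtain ⟨act, DD, hg⟩ := h.exists_germ hc
  have hp := pr_proj ι U
  have hs : star (pr ι U) = pr ι U := hp.isSelfAdjoint.star_eq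
  have hsum : ∑ g, co g • (pr ι U * gv g * pr ι U) = pr ι U * n * pr ι U := by
    rw [hn, mul_sum, sum_mul]
    exact sum_congr rfl fun g _ => by rw [mul_smul_comm, smul_mul_assoc]
  have hsa : star (pr ι U * n * pr ι U) = pr ι U * n * pr ι U := by
    rw [star_mul, star_mul, hs, h2, mul_assoc]
  have hnm : ‖pr ι U * n * pr ι U‖ ≤ 1 :=
    (norm_mul_le _ _).trans (mul_le_one₀ ((norm_mul_le _ _).trans
      (mul_le_one₀ hp.norm_le (norm_nonneg _) h3)) (norm_nonneg _) hp.norm_le)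
  let D : Dat ρ ι E ξ Γ (Fin P'.n) :=
    { act := act, DD := DD, gv := fun g => pr ι U * gv g * pr ι U, bar := bar, co := co, L := L,
      cell := P'.π, R := R, sys := h, cen := hc, germ := hg, one_le := hL
      gb := fun g => by
        have := Gb.mul h (by positivity) zero_le_one
          (Gb.mul h zero_le_one (by positivity) (Gb.pr U) (hgb g)) (Gb.pr U)
        rwa [one_mul, mul_one] at this
      gv_bar := fun g => by rw [star_mul, star_mul, hs, hbar, mul_assoc]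
      sa := by rw [hsum, hsa]
      norm_le := by rwa [hsum]
      zero := by rw [hsum, pr, h.right, h.left, h4, mul_zero, zero_mul]
      lc := P'.lc, sep := hsep }
  have hD : D.n = pr ι U * n * pr ι U := hsum
  let _ : MeasurableSpace Ω := borel Ω
  have : BorelSpace Ω := ⟨rfl⟩
  obtain ⟨μ, _, hμ⟩ := hc.exists_measure
  obtain ⟨J, _, _, π, col, Θ, a1, a2, a3, a4, a5, a6⟩ :=
    hlks Ω μ (Fin P'.n) (D.loc hμ) (Fin P.n) P.π P.lc
  refine ⟨J, inferInstance, inferInstance, π, col, Θ, a1, a2, a3, a4, a5, fun l => ?_⟩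
  have b1 : Nb (vf ρ ξ) (pin ι (col l) D.n) (1024 / √(2 * k : ℕ)) (δ / 2) := by
    obtain ⟨c1, c2, c3⟩ := pn_cfc (Y := pin ι (col l) D.n) (by rw [pin_star, hD, hsa])
      ((norm_pin_le _ (a3 l) _).trans (hD ▸ hnm)) q3
    refine ⟨_, c1, c2, c3, ?_⟩
    have c4 : vf ρ ξ (Polynomial.aeval (pin ι (col l) D.n) Q) =
        ∫ ω, (E (Polynomial.aeval (pin ι (col l) D.n) Q) ω).re ∂μ := by
      change (fi ρ ξ _).re = _
      rw [← h.fi_E hc, ← hμ]
      exact (Complex.reCLM.integral_comp_comm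
        ((E _).continuous.integrable_of_hasCompactSupport (HasCompactSupport.of_compactSpace _))).symm
    rw [c4]
    simp only [pn_link D (a3 l) hR]
    exact (a6 l).trans (by linarith [min_le_left (δ / 4) 1])
  have b2 : Nb (vf ρ ξ) (pin ι (col l) (n - D.n)) 0 (δ / 2) := by
    have c1 : star (pin ι (col l) (n - D.n)) = pin ι (col l) (n - D.n) := by
      rw [pin_star, star_sub, hD, hsa, h2]
    refine Nb.of_sq c1 (c := 1) (le_of_eq (congrArg Complex.re hc.fi_one)) (half_pos hδ) one_pos ?_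
    nth_rewrite 1 [← c1]
    rw [vf_star_mul, div_one]
    refine pow_le_pow_left₀ (norm_nonneg _) ((hc.norm_pin_le (a3 l) _).trans ?_) 2
    rw [hD]
    exact (pn_cut hc h3 hp.norm_le hC hCn hU).trans_eq (mul_div_cancel₀ _ (by positivity))
  have b3 := b1.add b2
  rwa [← pin_add, add_sub_cancel, add_zero, add_halves] at b3

end Vale.Agent.P078
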