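import Vale.Agent.P078.PavC
import Vale.Agent.P078.Corner

/-! Paving under the support of a normal central functional. -/

set_option linter.unusedSectionVars false

namespace Vale.Agent.P078

open Filter Topology Finset Vale.Agent.P104 Vale.Agent.P082
open scoped InnerProductSpace ComplexOrder ComplexConjugate

universe u v

variable {G : Type v} [NormedAddCommGroup G] [InnerProductSpace ℂ G] [CompleteSpace G]
  {M : Type u} [CStarAlgebra M] {ρ : M →⋆ₐ[ℂ] (G →L[ℂ] G)}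

section Pre

variable {N : Type v} [CStarAlgebra N]

/-- The preimage of a subalgebra in a corner. -/
def pavQ_pre (θ : N →⋆ₙₐ[ℂ] M) (A : StarSubalgebra ℂ M) (h1 : θ 1 ∈ A) : StarSubalgebra ℂ N where
  carrier := {n | θ n ∈ A}
  mul_mem' {a b} ha hb := by
    show θ (a * b) ∈ A
    rw [map_mul]; exact A.mul_mem ha hb
  add_mem' {a b} ha hb := by
    show θ (a + b) ∈ A
    rw [map_add]; exact A.add_mem ha hb
  algebraMap_mem' r := by
    show θ (algebraMap ℂ N r) ∈ A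
    rw [Algebra.algebraMap_eq_smul_one, map_smul]; exact A.smul_mem h1 r
  star_mem' {a} ha := by
    show θ (star a) ∈ A
    rw [map_star]; exact star_mem ha

theorem pavQ_masa (θ : N →⋆ₙₐ[ℂ] M) {A : StarSubalgebra ℂ M} (hA : Masa A) (h1 : θ 1 ∈ A)
    (hi : Function.Injective θ) (hs : ∀ m, ∃ n, θ n = θ 1 * m * θ 1) :
    Masa (pavQ_pre θ A h1) := by
  intro n
  constructor
  · intro hn a ha
    apply hi
    rw [map_mul, map_mul]
    exact (hA _).1 hn _ ha
  · intro h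
    refine (hA _).2 fun b hb => ?_
    obtain ⟨a, ha⟩ := hs b
    have haA : a ∈ pavQ_pre θ A h1 := by
      show θ a ∈ A
      rw [ha]; exact A.mul_mem (A.mul_mem h1 hb) h1
    have e := congrArg θ (h a haA)
    have l : θ 1 * θ n = θ n := by rw [← map_mul, one_mul]
    have r : θ n * θ 1 = θ n := by rw [← map_mul, mul_one]
    have c : θ 1 * b = b * θ 1 := (hA _).1 hb _ h1
    rw [map_mul, map_mul, ha] at e
    calc b * θ n = b * (θ 1 * (θ 1 * θ n)) := by rw [l, l]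
      _ = θ 1 * b * θ 1 * θ n := by rw [c]; simp only [mul_assoc]
      _ = θ n * (θ 1 * b * θ 1) := e
      _ = θ n * θ 1 * θ 1 * b := by rw [mul_assoc (θ 1), ← c]; simp only [mul_assoc]
      _ = θ n * b := by rw [r, r]

/-- The normalised restriction of a functional to a corner. -/
noncomputable def pavQ_fn (θ : N →⋆ₙₐ[ℂ] M) (χ : M →ₗ[ℂ] ℂ) (t : ℝ) : N →ₗ[ℂ] ℂ where
  toFun n := ((t⁻¹ : ℝ) : ℂ) * χ (θ n)
  map_add' a b := by rw [map_add, map_add, mul_add]
  map_smul' r a := by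
    rw [map_smul, map_smul, RingHom.id_apply, smul_eq_mul, smul_eq_mul, mul_left_comm]

theorem pavQ_proj (θ : N →⋆ₙₐ[ℂ] M) {p : N} (hp : IsStarProjection p) :
    IsStarProjection (θ p) := by
  refine ⟨?_, ?_⟩
  · show θ p * θ p = θ p
    rw [← map_mul, hp.isIdempotentElem.eq]
  · show star (θ p) = θ p
    rw [← map_star, hp.isSelfAdjoint.star_eq]

end Pre

theorem pavQ_cen (hρ : IsVN ρ) {A : StarSubalgebra ℂ M} (hA : Masa A) {χ : M →ₗ[ℂ] ℂ} {z : M}
    (h1 : Nml ρ χ) (h2 : PosF χ) (h3 : CenF A χ) (hzA : z ∈ A) (hz : IsStarProjection z)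
    (h4 : ∀ m, χ (star m * m) = 0 ↔ m * z = 0) {J : Type} [Fintype J] (η : J → G) {x : M}
    (hx : star x = x) (hn : ‖x‖ ≤ 1) {k : ℕ} (hk : 9 ≤ k) {γ δ : ℝ} (hγ : 0 < γ) (hδ : 0 < δ) :
    PavQ A (vfs ρ η) z x (2 * k) (1500 / √k + γ) δ := by
  have zz : z * z = z := hz.isIdempotentElem.eq
  have zs : star z = z := hz.isSelfAdjoint.star_eq
  have hc0 : (0 : ℝ) ≤ 1500 / √k := by positivity
  by_cases h0 : z = 0
  · subst h0
    refine ⟨fun _ => 0, fun _ => ⟨IsStarProjection.zero M, A.zero_mem⟩, fun _ _ _ => mul_zero _,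
      by simp, 0, A.zero_mem, star_zero M, by simp, mul_zero _, 0, IsStarProjection.zero M,
      mul_zero _, ?_, ?_⟩
    · rw [sub_zero, map_zero]; exact hδ.le
    · rw [mul_zero, norm_zero]; positivity
  have hz0 : 0 ≤ χ z := by have := h2 z; rwa [zs, zz] at this
  have hz1 : χ z ≠ 0 := fun e => h0 (by
    have := (h4 z).1 (by rw [zs, zz]; exact e)
    rwa [zz] at this)
  obtain ⟨t, ht0, ht⟩ : ∃ t : ℝ, 0 < t ∧ χ z = t := by
    obtain ⟨a, b⟩ := Complex.nonneg_iff.1 hz0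
    have e : χ z = ((χ z).re : ℂ) := Complex.ext (by simp) (by simp [← b])
    refine ⟨(χ z).re, lt_of_le_of_ne a fun h => hz1 ?_, e⟩
    rw [e, ← h]; simp
  obtain ⟨N, iN, K, iK1, iK2, iK3, σ, θ, hσ, hi, hθ1, hs, hW⟩ := exists_corner hρ hz
  have hnorm : ∀ n, ‖θ n‖ = ‖n‖ := fun n => NonUnitalStarAlgHom.norm_map θ hi n
  have l : ∀ n, z * θ n = θ n := fun n => by rw [← hθ1, ← map_mul, one_mul]
  have r : ∀ n, θ n * z = θ n := fun n => by rw [← hθ1, ← map_mul, mul_one]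
  have h1A : θ 1 ∈ A := hθ1 ▸ hzA
  have fn_app : ∀ n, pavQ_fn θ χ t n = ((t⁻¹ : ℝ) : ℂ) * χ (θ n) := fun _ => rfl
  have ti : (0 : ℝ) < t⁻¹ := inv_pos.2 ht0
  have g1 : Nml σ (pavQ_fn θ χ t) := by
    intro U R y hR hy
    have := h1.tendsto U (a := θ) (x := θ y) (R := R)
      (hR.mono fun a ha => by rw [hnorm]; exact ha) (hW U y hy)
    exact this.const_mul _
  have g2 : PosF (pavQ_fn θ χ t) := by
    intro m
    rw [fn_app, map_mul, map_star]
    exact mul_nonneg (Complex.zero_le_real.2 ti.le) (h2 _)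
  have g3 : ∀ m, pavQ_fn θ χ t (star m * m) = 0 → m = 0 := by
    intro m hm
    rw [fn_app, map_mul, map_star, mul_eq_zero] at hm
    rcases hm with hm | hm
    · exact absurd (Complex.ofReal_eq_zero.1 hm) ti.ne'
    · have := (h4 _).1 hm
      rw [r] at this
      exact hi (by rw [this, map_zero])
  have g4 : pavQ_fn θ χ t 1 = 1 := by
    rw [fn_app, hθ1, ht, ← Complex.ofReal_mul, inv_mul_cancel₀ ht0.ne', Complex.ofReal_one]
  obtain ⟨K', jK1, jK2, jK3, σ', ξ, hσ', hξ1, hξ2, hξ3, hξ4⟩ := exists_gns_vn hσ g1 g2 g3 g4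
  have hAN : Masa (pavQ_pre θ A h1A) := pavQ_masa θ hA h1A hi (by rw [hθ1]; exact hs)
  have hcen : Cen σ' (pavQ_pre θ A h1A) ξ := ⟨hξ1, hξ2, hξ3, fun a ha m => by
    rw [hξ4, hξ4, fn_app, fn_app, map_mul θ, map_mul θ, h3 _ ha]⟩
  obtain ⟨y, hy⟩ := hs x
  have hys : star y = y := hi (by
    rw [map_star, hy, star_mul, star_mul, zs, hx, mul_assoc])
  have hyn : ‖y‖ ≤ 1 := by
    rw [← hnorm, hy]
    have a := hz.norm_le
    calc ‖z * x * z‖ ≤ ‖z‖ * ‖x‖ * ‖z‖ :=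
          (norm_mul_le _ _).trans (by gcongr; exact norm_mul_le _ _)
      _ ≤ 1 * 1 * 1 := by gcongr
      _ = 1 := by norm_num
  obtain ⟨δ', hδ', hac⟩ := abs_cont hρ h1 hz (fun m => (h4 m).1) h2 η hδ
  let _ := CStarAlgebra.spectralOrder N
  have _ := CStarAlgebra.spectralOrderedRing N
  obtain ⟨p, hp, hpA, a, haA, has, han, b, hb0, hb1, hb2, hb3⟩ :=
    pav_cen hσ' hAN hcen hys hyn hk (δ := γ * (t⁻¹ * δ')) (by positivity)
  obtain ⟨q, hq, hq1, -, hq2⟩ := exists_proj_of_le hσ' hb0 hγ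
  have hq3 := hq2 _ _ hc0 hb1 hb2
  have hq4 : (χ (θ (1 - q))).re ≤ δ' := by
    have a1 := (vf_mono (ρ := σ') ξ hq1).trans hb3
    rw [map_smul, smul_eq_mul] at a1
    have a2 := le_of_mul_le_mul_left a1 hγ
    have a3 : vf σ' ξ (1 - q) = t⁻¹ * (χ (θ (1 - q))).re := by
      show (fi σ' ξ (1 - q)).re = _
      rw [hξ4, fn_app, Complex.re_ofReal_mul]
    rw [a3] at a2
    exact le_of_mul_le_mul_left a2 ti
  refine ⟨fun i => θ (p i), fun i => ⟨pavQ_proj θ (hp.proj i), hpA i⟩, fun i j hij => ?_, ?_,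
    θ a, haA, ?_, ?_, l a, θ q, pavQ_proj θ hq, l q, ?_, ?_⟩
  · show θ (p i) * θ (p j) = 0
    rw [← map_mul, hp.orth i j hij, map_zero]
  · rw [← map_sum, hp.sum, hθ1]
  · rw [← map_star, has]
  · rw [hnorm]; exact han
  · have := hac _ (pavQ_proj θ hq.one_sub) (l _) hq4
    rwa [map_sub, hθ1] at this
  · have e : ∀ i, θ (p i) * x * θ (p i) = θ (p i * y * p i) := fun i => by
      rw [map_mul, map_mul, hy]
      calc θ (p i) * x * θ (p i) = θ (p i) * z * x * (z * θ (p i)) := by rw [l, r]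
        _ = _ := by simp only [mul_assoc]
    simp only [e]
    rw [← map_sum, ← map_sub, ← map_mul, ← map_mul, hnorm]
    exact hq3

end Vale.Agent.P078
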