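import Vale.Agent.P078.Cen

/-! Radon-Nikodym derivatives. -/

set_option linter.unusedSectionVars false

namespace Vale.Agent.P078

open Filter Topology Finset Vale.Agent.P104 Vale.Agent.P082
open scoped InnerProductSpace ComplexOrder ComplexConjugate

universe u v

variable {G : Type u} [NormedAddCommGroup G] [InnerProductSpace ℂ G] [CompleteSpace G]
  {M : Type u} [CStarAlgebra M] {ρ : M →⋆ₐ[ℂ] (G →L[ℂ] G)}
  {Ω : Type u} [TopologicalSpace Ω] [CompactSpace Ω] [T2Space Ω] [TotallyDisconnectedSpace Ω]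
  {ι : C(Ω, ℂ) →⋆ₐ[ℂ] M} {E : M →ₗ[ℂ] C(Ω, ℂ)} {ξ : G}

theorem rn_small {x C t₀ : ℝ} (h₀ : 0 < t₀) (h : ∀ t, 0 < t → t ≤ t₀ → x ≤ t * C) : x ≤ 0 := by
  have h1 : Tendsto (fun t : ℝ => t * C) (𝓝[>] 0) (𝓝 0) := by
    have : Tendsto (fun t : ℝ => t * C) (𝓝 0) (𝓝 (0 * C)) := tendsto_id.mul_const C
    rw [zero_mul] at this
    exact this.mono_left nhdsWithin_le_nhds
  refine ge_of_tendsto h1 ?_
  filter_upwards [Ioc_mem_nhdsGT h₀] with t ht using h t ht.1 ht.2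

theorem rn_inv {u : C(Ω, ℂ)} (hu : ∀ ω, u ω ≠ 0) : ∃ k : C(Ω, ℂ), ∀ ω, k ω = (u ω)⁻¹ :=
  ⟨⟨fun ω => (u ω)⁻¹, u.continuous.inv₀ hu⟩, fun _ => rfl⟩

theorem rn_half {φ₁ φ₂ : C(Ω, ℂ) →ₗ[ℂ] ℂ} (p₁ : ∀ f : C(Ω, ℂ), (∀ ω, 0 ≤ f ω) → 0 ≤ φ₁ f)
    (p₂ : ∀ f : C(Ω, ℂ), (∀ ω, 0 ≤ f ω) → 0 ≤ φ₂ f) {u w : C(Ω, ℂ)} (hu : ∀ ω, 0 ≤ u ω)
    (hw : ∀ ω, 0 ≤ w ω)
    (hm : ∀ d : C(Ω, ℂ), (∀ ω, 0 ≤ (u - d) ω) → (∀ ω, 0 ≤ (w + d) ω) →
      (φ₁ (u * u) + φ₂ (w * w)).re ≤ (φ₁ ((u - d) * (u - d)) + φ₂ ((w + d) * (w + d))).re)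
    {a : C(Ω, ℂ)} (ha : ∀ ω, 0 ≤ a ω) : (φ₁ (a * u)).re ≤ (φ₂ (a * w)).re := by
  have s1 : ∀ b : C(Ω, ℂ), (∀ ω, 0 ≤ b ω) → (φ₁ (b * u * u)).re ≤ (φ₂ (b * u * w)).re := by
    intro b hb
    rw [← sub_nonpos]
    have hb1 : 0 < ‖b‖ + 1 := by positivity
    refine rn_small (C := (φ₁ (b * u * (b * u)) + φ₂ (b * u * (b * u))).re / 2)
      (inv_pos.2 hb1) fun t ht ht' => ?_
    have h1 := hm ((t : ℂ) • (b * u)) (fun ω => ?_) (fun ω => ?_)
    · have e1 : (u - (t : ℂ) • (b * u)) * (u - (t : ℂ) • (b * u)) =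
          u * u - (2 * t : ℂ) • (b * u * u) + (t * t : ℂ) • (b * u * (b * u)) := by
        ext ω; simp; ring
      have e2 : (w + (t : ℂ) • (b * u)) * (w + (t : ℂ) • (b * u)) =
          w * w + (2 * t : ℂ) • (b * u * w) + (t * t : ℂ) • (b * u * (b * u)) := by
        ext ω; simp; ring
      rw [e1, e2] at h1
      simp only [map_add, map_sub, map_smul, smul_eq_mul, Complex.add_re, Complex.sub_re,
        Complex.mul_re, Complex.ofReal_re, Complex.ofReal_im, Complex.mul_im, Complex.re_ofNat,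
        Complex.im_ofNat] at h1 ⊢
      refine le_of_mul_le_mul_left ?_ ht
      nlinarith
    · have e : (u - (t : ℂ) • (b * u)) ω = u ω * ((1 - t * ‖b ω‖ : ℝ) : ℂ) := by
        have := Complex.eq_coe_norm_of_nonneg (hb ω)
        push_cast
        rw [← this]
        simp; ring
      rw [e]
      refine mul_nonneg (hu ω) (Complex.zero_le_real.2 ?_)
      have h2 : ‖b ω‖ ≤ ‖b‖ := b.norm_coe_le_norm ω
      have h3 : t * (‖b‖ + 1) ≤ 1 := by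
        rwa [← le_div_iff₀ hb1, one_div]
      nlinarith
    · have : (0 : ℂ) ≤ t := Complex.zero_le_real.2 ht.le
      simpa using add_nonneg (hw ω) (mul_nonneg this (mul_nonneg (hb ω) (hu ω)))
  rw [← sub_nonpos]
  refine rn_small (C := (φ₁ a).re) one_pos fun t ht _ => ?_
  have ht' : (0 : ℂ) < t := Complex.zero_lt_real.2 ht
  have hpos : ∀ ω, 0 < (u + (t : ℂ) • (1 : C(Ω, ℂ))) ω := fun ω => by
    simpa using add_pos_of_nonneg_of_pos (hu ω) ht'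
  obtain ⟨k, hk⟩ := rn_inv fun ω => (hpos ω).ne'
  have hb : ∀ ω, 0 ≤ (a * k) ω := fun ω => by
    rw [ContinuousMap.mul_apply, hk]
    exact mul_nonneg (ha ω) (inv_nonneg.2 (hpos ω).le)
  have e : a = a * k * u + (t : ℂ) • (a * k) := by
    ext ω
    have h1 := (hpos ω).ne'
    have h2 := hk ω
    simp only [ContinuousMap.add_apply, ContinuousMap.smul_apply, ContinuousMap.mul_apply,
      ContinuousMap.one_apply, smul_eq_mul, mul_one] at h1 h2 ⊢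
    rw [h2]
    field_simp
  generalize a * k = b at hb e
  subst e
  have h1 := s1 b hb
  have h2 := Complex.re_le_re (p₂ (b * w) fun ω => mul_nonneg (hb ω) (hw ω))
  have h3 := Complex.re_le_re (p₁ b hb)
  simp only [add_mul, smul_mul_assoc, map_add, map_smul, smul_eq_mul, Complex.add_re,
    Complex.re_ofReal_mul, Complex.zero_re] at h2 h3 ⊢
  have h4 := mul_nonneg ht.le h2
  have h5 := mul_nonneg ht.le (mul_nonneg ht.le h3)
  nlinarith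

theorem rn_abs {φ₁ φ₂ : C(Ω, ℂ) →ₗ[ℂ] ℂ} (p₁ : ∀ f : C(Ω, ℂ), (∀ ω, 0 ≤ f ω) → 0 ≤ φ₁ f)
    (p₂ : ∀ f : C(Ω, ℂ), (∀ ω, 0 ≤ f ω) → 0 ≤ φ₂ f)
    (hc : ∀ a : ℕ → C(Ω, ℂ), (∀ n ω, 0 ≤ a n ω ∧ a n ω ≤ 1) → ∃ g : C(Ω, ℂ),
      (∀ ω, 0 ≤ g ω ∧ g ω ≤ 1) ∧ ∀ f,
        Tendsto (fun n => φ₁ (f * a n)) (hyperfilter ℕ) (𝓝 (φ₁ (f * g))) ∧
        Tendsto (fun n => φ₂ (f * a n)) (hyperfilter ℕ) (𝓝 (φ₂ (f * g)))) :
    ∃ g : C(Ω, ℂ), (∀ ω, 0 ≤ g ω ∧ g ω ≤ 1) ∧ ∀ f, φ₁ (f * (1 - g)) = φ₂ (f * g) := by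
  let K := {g : C(Ω, ℂ) // ∀ ω, 0 ≤ g ω ∧ g ω ≤ 1}
  let q : C(Ω, ℂ) → ℝ := fun g => (φ₁ ((1 - g) * (1 - g)) + φ₂ (g * g)).re
  have : Nonempty K := ⟨⟨0, fun ω => ⟨le_rfl, zero_le_one⟩⟩⟩
  have hq : BddBelow (Set.range fun g : K => q g.1) := ⟨0, by
    rintro _ ⟨g, rfl⟩
    have h1 : ∀ ω, 0 ≤ (1 - g.1) ω := fun ω => sub_nonneg.2 (g.2 ω).2
    exact Complex.re_le_re (add_nonneg (p₁ _ fun ω => mul_nonneg (h1 ω) (h1 ω))
      (p₂ _ fun ω => mul_nonneg (g.2 ω).1 (g.2 ω).1))⟩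
  have h1 : ∀ n : ℕ, ∃ a : K, q a.1 < (⨅ g : K, q g.1) + 1 / (n + 1) := fun n =>
    exists_lt_of_ciInf_lt (lt_add_of_pos_right _ Nat.one_div_pos_of_nat)
  choose a ha using h1
  obtain ⟨g, hg, hl⟩ := hc (fun n => (a n).1) fun n => (a n).2
  have hmin : q g ≤ ⨅ g : K, q g.1 := by
    have t1 : Tendsto (fun n : ℕ => (⨅ g : K, q g.1) + 1 / ((n : ℝ) + 1)) (hyperfilter ℕ)
        (𝓝 ((⨅ g : K, q g.1) + 0)) :=
      (tendsto_const_nhds.add tendsto_one_div_add_atTop_nhds_zero_nat).mono_left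
        Nat.hyperfilter_le_atTop
    have t2 := (Complex.continuous_re.tendsto _).comp
      ((((hl g).2.sub_const (φ₂ (g * g))).sub
        (((hl (1 - g)).1.sub_const (φ₁ ((1 - g) * g))))).const_mul 2)
    simp only [sub_self, mul_zero, Complex.zero_re] at t2
    have t3 := t2.const_add (q g)
    rw [add_zero] at t1 t3
    refine le_of_tendsto_of_tendsto' t3 t1 fun n => le_trans ?_ (ha n).le
    have hs : ∀ ω, 0 ≤ ((g - (a n).1) * (g - (a n).1)) ω := fun ω => by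
      rw [ContinuousMap.mul_apply, ContinuousMap.sub_apply,
        Complex.eq_coe_norm_of_nonneg (hg ω).1, Complex.eq_coe_norm_of_nonneg ((a n).2 ω).1]
      exact_mod_cast mul_self_nonneg _
    have h2 := Complex.re_le_re (p₁ _ hs)
    have h3 := Complex.re_le_re (p₂ _ hs)
    simp only [q, Function.comp_def]
    generalize (a n).1 = b at h2 h3
    have e1 : (1 - b) * (1 - b) = (1 - g) * (1 - g) - (2 : ℂ) • ((1 - g) * b - (1 - g) * g) +
      (g - b) * (g - b) := by ext ω; simp; ring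
    have e2 : b * b = g * g + (2 : ℂ) • (g * b - g * g) + (g - b) * (g - b) := by
      ext ω; simp; ring
    rw [e1, e2]
    simp only [map_add, map_sub, map_smul, smul_eq_mul, Complex.add_re, Complex.sub_re,
      Complex.mul_re, Complex.re_ofNat, Complex.im_ofNat, Complex.zero_re] at h2 h3 ⊢
    linarith
  have hm : ∀ c : C(Ω, ℂ), (∀ ω, 0 ≤ c ω) → (∀ ω, 0 ≤ (1 - c) ω) → q g ≤ q c := fun c h1 h2 =>
    hmin.trans (ciInf_le hq (⟨c, fun ω => ⟨h1 ω, sub_nonneg.1 (h2 ω)⟩⟩ : K))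
  have hu : ∀ ω, 0 ≤ (1 - g) ω := fun ω => sub_nonneg.2 (hg ω).2
  refine ⟨g, hg, fun f => ?_⟩
  refine LinearMap.congr_fun (f := φ₁ ∘ₗ LinearMap.mulRight ℂ (1 - g))
    (g := φ₂ ∘ₗ LinearMap.mulRight ℂ g) (LinearMap.ext_on CStarAlgebra.span_nonneg ?_) f
  intro b hb
  have hb' : ∀ ω, 0 ≤ b ω := ContinuousMap.le_def.1 hb
  change φ₁ (b * (1 - g)) = φ₂ (b * g)
  refine Complex.ext (le_antisymm ?_ ?_) ?_
  · refine rn_half p₁ p₂ hu (fun ω => (hg ω).1) (fun d h1 h2 => ?_) hb'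
    rw [sub_sub] at h1 ⊢
    exact hm _ h2 h1
  · refine rn_half p₂ p₁ (fun ω => (hg ω).1) hu (fun d h1 h2 => ?_) hb'
    rw [show 1 - g + d = 1 - (g - d) by ring] at h2 ⊢
    rw [add_comm (φ₂ _), add_comm (φ₂ _)]
    exact hm _ h1 h2
  · rw [← (Complex.nonneg_iff.1 (p₁ _ fun ω => mul_nonneg (hb' ω) (hu ω))).2,
      ← (Complex.nonneg_iff.1 (p₂ _ fun ω => mul_nonneg (hb' ω) (hg ω).1)).2]

theorem Sys.rn_lim (h : Sys ι ρ E) (a : ℕ → C(Ω, ℂ)) (ha : ∀ n ω, 0 ≤ a n ω ∧ a n ω ≤ 1) :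
    ∃ g : C(Ω, ℂ), (∀ ω, 0 ≤ g ω ∧ g ω ≤ 1) ∧ WL ρ (hyperfilter ℕ) (fun n => ι (a n)) (ι g) := by
  let _ := CStarAlgebra.spectralOrder M
  have _ := CStarAlgebra.spectralOrderedRing M
  have hn : ∀ n, ‖ι (a n)‖ ≤ 1 := fun n => (norm_ι_le ι _).trans
    (((a n).norm_le zero_le_one).2 fun ω => by
      have h1 := (ha n ω).2
      rw [Complex.eq_coe_norm_of_nonneg (ha n ω).1] at h1
      exact_mod_cast h1)
  obtain ⟨x, hx⟩ := IsVN.exists_lim h.vn (hyperfilter ℕ) (.of_forall hn)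
  obtain ⟨g, rfl⟩ := h.mem_of_WL (.of_forall fun n => ⟨a n, rfl⟩) hx
  have h1 := (h.nonneg_iff g).1 (WL.nonneg h.vn
    (.of_forall fun n => (h.nonneg_iff _).2 fun ω => (ha n ω).1) hx)
  have h2 := WL.nonneg h.vn (a := fun n => 1 - ι (a n)) (.of_forall fun n => by
    rw [← map_one ι, ← map_sub]
    exact (h.nonneg_iff _).2 fun ω => sub_nonneg.2 (ha n ω).2) ((WL.const 1).sub hx)
  have h3 : 0 ≤ ι (1 - g) := by rwa [map_sub, map_one]
  exact ⟨g, fun ω => ⟨h1 ω, sub_nonneg.1 ((h.nonneg_iff _).1 h3 ω)⟩, hx⟩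

theorem rn_pos {f : C(Ω, ℂ)} (hf : ∀ ω, 0 ≤ f ω) : 0 ≤ fi ρ ξ (ι f) := by
  simpa using fi_ι_mono (ι := ι) (ρ := ρ) (ξ := ξ) (f := 0) hf

theorem Sys.rn (h : Sys ι ρ E) (η₁ η₂ : G) : ∃ g : C(Ω, ℂ), (∀ ω, 0 ≤ g ω ∧ g ω ≤ 1) ∧
    ∀ f, fi ρ η₁ (ι (f * (1 - g))) = fi ρ η₂ (ι (f * g)) := by
  refine rn_abs (φ₁ := fi ρ η₁ ∘ₗ ι.toAlgHom.toLinearMap) (φ₂ := fi ρ η₂ ∘ₗ ι.toAlgHom.toLinearMap)
    (fun f hf => rn_pos hf) (fun f hf => rn_pos hf) fun a ha => ?_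
  obtain ⟨g, hg, hl⟩ := h.rn_lim a ha
  have key : ∀ η f, Tendsto (fun n => fi ρ η (ι (f * a n))) (hyperfilter ℕ)
      (𝓝 (fi ρ η (ι (f * g)))) := fun η f => by
    simpa only [map_mul, mul_one] using fi_tendsto (ξ := η) hl (ι f) 1
  exact ⟨g, hg, fun f => ⟨key η₁ f, key η₂ f⟩⟩

theorem rn_fi (v x : M) : fi ρ (ρ (star v) ξ) x = fi ρ ξ (v * x * star v) := by
  change ⟪ρ (star v) ξ, ρ x (ρ (star v) ξ)⟫_ℂ = ⟪ξ, ρ (v * x * star v) ξ⟫_ℂ
  rw [ws_inner, star_star, ws_mul_apply, ws_mul_apply]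

theorem rn_sq (f : C(Ω, ℂ)) : fi ρ ξ (ι (star f * f)) = (‖ρ (ι f) ξ‖ ^ 2 : ℝ) := by
  rw [map_mul, map_star, fi_star_self]

theorem rn_sq' (v : M) (f : C(Ω, ℂ)) :
    fi ρ (ρ (star v) ξ) (ι (star f * f)) = (‖ρ (ι f * star v) ξ‖ ^ 2 : ℝ) := by
  rw [rn_sq, ws_mul_apply]

theorem Sys.exists_D (h : Sys ι ρ E) (hc : Cen ρ ι.range ξ) {L : ℝ} {v : M} (hv : Bd ι ρ ξ L v) :
    ∃ D : C(Ω, ℂ), ∀ f, fi ρ ξ (v * ι f * star v) = fi ρ ξ (ι (f * D)) := by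
  obtain ⟨g, hg, e⟩ := h.rn (ρ (star v) ξ) ξ
  obtain ⟨s, hs, hs', -⟩ := exists_sqrt (f := 1 - g) fun ω => sub_nonneg.2 (hg ω).2
  have h1 := h.nonneg_of_fi hc (g := (L : ℂ) • (1 - g) - g) fun f => by
    have e1 : star f * f * (1 - g) = star (f * s) * (f * s) := by
      rw [star_mul, hs, ← hs']; ring
    rw [mul_sub, mul_smul_comm, map_sub, map_sub, ← e, e1, map_smul, map_smul, rn_sq', rn_sq,
      smul_eq_mul, sub_nonneg]
    exact_mod_cast (hv (f * s)).1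
  have hne : ∀ ω, (1 - g) ω ≠ 0 := fun ω h0 => by
    have h2 := h1 ω
    rw [ContinuousMap.sub_apply, ContinuousMap.smul_apply, h0, smul_zero, zero_sub,
      neg_nonneg] at h2
    rw [ContinuousMap.sub_apply, le_antisymm h2 (hg ω).1] at h0
    simp at h0
  obtain ⟨k, hk⟩ := rn_inv hne
  refine ⟨k * g, fun f => ?_⟩
  rw [← mul_assoc, ← e, rn_fi]
  congr 4
  ext ω
  rw [mul_assoc, ContinuousMap.mul_apply, ContinuousMap.mul_apply, hk, inv_mul_cancel₀ (hne ω),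
    mul_one]

theorem rn_cmp {η₁ η₂ : G} {u w a : C(Ω, ℂ)}
    (e : ∀ f, fi ρ η₁ (ι (f * u)) = fi ρ η₂ (ι (f * w))) {U : Set Ω} (hU : IsClopen U) {L c : ℝ}
    (hL : 0 ≤ L) (hc : 0 ≤ c) (h : ∀ ω ∈ U, 1 ≤ L * (u ω).re ∧ (w ω).re ≤ c) (hu : ∀ ω, 0 ≤ u ω)
    (hw : ∀ ω, 0 ≤ w ω) (ha : ∀ ω, 0 ≤ a ω) :
    (fi ρ η₁ (ι (a * ind U))).re ≤ L * c * (fi ρ η₂ (ι a)).re := by
  have h1 : fi ρ η₁ (ι (a * ind U)) ≤ fi ρ η₁ (ι ((L : ℂ) • (a * ind U * u))) :=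
    fi_ι_mono fun ω => by
      simp only [ContinuousMap.smul_apply, ContinuousMap.mul_apply, smul_eq_mul]
      by_cases hω : ω ∈ U
      · rw [ind_of_mem hU hω, mul_one, mul_left_comm]
        refine le_mul_of_one_le_right (ha ω) ?_
        rw [Complex.eq_re_of_ofReal_le (r := 0) (hu ω)]
        exact_mod_cast (h ω hω).1
      · simp [ind_of_notMem hω]
  have h2 : fi ρ η₂ (ι (a * ind U * w)) ≤ fi ρ η₂ (ι ((c : ℂ) • a)) :=
    fi_ι_mono fun ω => by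
      simp only [ContinuousMap.smul_apply, ContinuousMap.mul_apply, smul_eq_mul]
      by_cases hω : ω ∈ U
      · rw [ind_of_mem hU hω, mul_one, mul_comm]
        refine mul_le_mul_of_nonneg_right ?_ (ha ω)
        rw [Complex.eq_re_of_ofReal_le (r := 0) (hw ω)]
        exact_mod_cast (h ω hω).2
      · rw [ind_of_notMem hω, mul_zero, zero_mul]
        exact mul_nonneg (Complex.zero_le_real.2 hc) (ha ω)
  rw [map_smul, map_smul, smul_eq_mul] at h1 h2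
  have h3 := Complex.re_le_re h1
  have h4 := Complex.re_le_re h2
  rw [Complex.re_ofReal_mul] at h3 h4
  rw [e] at h3
  rw [mul_assoc]
  exact h3.trans (mul_le_mul_of_nonneg_left h4 hL)

theorem rn_ind_sq (f : C(Ω, ℂ)) {U : Set Ω} (hU : IsClopen U) :
    star (f * ind U) * (f * ind U) = star f * f * ind U := by
  rw [star_mul, star_ind, mul_comm (ind U), mul_mul_mul_comm, ind_mul hU hU, Set.inter_self]

theorem Sys.rn_gb (h : Sys ι ρ E) (hc : Cen ρ ι.range ξ) {v : M} (h1 : PI v) (h2 : Nz₀ ι v)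
    {g : C(Ω, ℂ)} (hg : ∀ ω, 0 ≤ g ω ∧ g ω ≤ 1)
    (e : ∀ f, fi ρ (ρ (star v) ξ) (ι (f * (1 - g))) = fi ρ ξ (ι (f * g))) {U : Set Ω}
    (hU : IsClopen U) {L : ℝ} (hL : 0 ≤ L)
    (hb : ∀ ω ∈ U, 1 ≤ L * (g ω).re ∧ 1 ≤ L * ((1 - g) ω).re) : Gb ι ρ ξ L (v * pr ι U) := by
  have hu : ∀ ω, 0 ≤ (1 - g) ω := fun ω => sub_nonneg.2 (hg ω).2
  have hp := pr_proj ι U
  have hs : star (v * pr ι U) = pr ι U * star v := by rw [star_mul, hp.isSelfAdjoint.star_eq]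
  refine ⟨?_, ⟨fun f => ?_, fun f => ?_⟩, fun f => ⟨?_, ?_⟩⟩
  · obtain ⟨k, hk⟩ := h2.l 1
    have hk' : star v * v = ι k := by rw [map_one, mul_one] at hk; exact hk.symm
    have e1 : v * pr ι U * (pr ι U * star v * (v * pr ι U)) =
        v * (pr ι U * pr ι U * (star v * v) * pr ι U) := by simp only [mul_assoc]
    rw [PI, hs, e1, hp.isIdempotentElem.eq, hk', pr, ι_comm, mul_assoc, ← pr,
      hp.isIdempotentElem.eq, ← mul_assoc, ← hk', h1]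
  · have e1 : star (v * pr ι U) * ι f * (v * pr ι U) = pr ι U * (star v * ι f * v) * pr ι U := by
      simp only [hs, mul_assoc]
    rw [e1]
    exact mul_mem (mul_mem (pr_mem ι U) (h2.l f)) (pr_mem ι U)
  · have e1 : v * pr ι U * ι f * star (v * pr ι U) = v * ι (ind U * f * ind U) * star v := by
      rw [hs]; simp only [mul_assoc, map_mul, pr]
    rw [e1]
    exact h2.r _
  · have h3 := rn_cmp e hU hL zero_le_one (a := star f * f)
      (fun ω hω => ⟨(hb ω hω).2, Complex.re_le_re (hg ω).2⟩) hu (fun ω => (hg ω).1)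
      fun ω => star_mul_self_nonneg (f ω)
    rw [← rn_ind_sq f hU, rn_sq', rn_sq, mul_one, Complex.ofReal_re, Complex.ofReal_re] at h3
    rwa [hs, ← mul_assoc, pr, ← map_mul]
  · obtain ⟨k, hk⟩ := h2.l (star f * f)
    have hk' : star (ι f * v) * (ι f * v) = ι k := by
      rw [star_mul, mul_assoc, ← mul_assoc (star (ι f)), ← map_star, ← map_mul, ← mul_assoc]
      exact hk.symm
    have h3 := rn_cmp (fun f => (e f).symm) hU hL zero_le_one (a := k)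
      (fun ω hω => ⟨(hb ω hω).1, Complex.re_le_re (sub_le_self _ (hg ω).1)⟩) (fun ω => (hg ω).1) hu
      fun ω => by simpa only [hk', h.fix] using h.pos (ι f * v) ω
    have e1 : star (ι f * (v * pr ι U)) * (ι f * (v * pr ι U)) = ι (k * ind U) := by
      rw [← mul_assoc (ι f), star_mul, mul_assoc, ← mul_assoc (star (ι f * v)), hk',
        hp.isSelfAdjoint.star_eq, pr, ← map_mul, ← map_mul, mul_left_comm, ind_mul hU hU,
        Set.inter_self]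
    have e2 : v * ι k * star v = star (ι f * (v * star v)) * (ι f * (v * star v)) := by
      simp only [← hk', star_mul, star_star, mul_assoc]
    rw [← e1, fi_star_self, rn_fi, e2, fi_star_self, mul_one, Complex.ofReal_re,
      Complex.ofReal_re] at h3
    refine h3.trans (mul_le_mul_of_nonneg_left (pow_le_pow_left₀ (norm_nonneg _) ?_ 2) hL)
    obtain ⟨r, hr⟩ := h2.r 1
    have hr' : v * star v = ι r := by rw [map_one, mul_one] at hr; exact hr.symm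
    rw [hr']
    refine (hc.norm_mul_le _ r).trans (mul_le_of_le_one_left (norm_nonneg _) ?_)
    rw [← h.norm_ι, ← hr']
    exact h1.proj'.norm_le

theorem Sys.rn_lo (h : Sys ι ρ E) (hc : Cen ρ ι.range ξ) {v : M} {W : ℕ → Set Ω}
    (hW : ∀ n, IsClopen (W n))
    (h0 : Tendsto (fun n => (fi ρ (ρ (star v) ξ) (pr ι (W n))).re) (hyperfilter ℕ) (𝓝 0)) :
    Tendsto (fun n => ‖ρ (v * pr ι (W n)) ξ‖ ^ 2) (hyperfilter ℕ) (𝓝 0) := by
  obtain ⟨p, hp, hl⟩ := h.rn_lim (fun n => ind (W n)) fun n ω => by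
    by_cases hω : ω ∈ W n
    · rw [ind_of_mem (hW n) hω]; exact ⟨zero_le_one, le_rfl⟩
    · rw [ind_of_notMem hω]; exact ⟨le_rfl, zero_le_one⟩
  obtain ⟨s, hs, hs', -⟩ := exists_sqrt fun ω => (hp ω).1
  have h1 := (Complex.continuous_re.tendsto _).comp (fi_tendsto (ξ := ρ (star v) ξ) hl 1 1)
  simp only [one_mul, mul_one] at h1
  have h2 := tendsto_nhds_unique h1 h0
  rw [← hs'] at h2
  nth_rw 1 [← hs] at h2
  rw [rn_sq', Complex.ofReal_re, sq_eq_zero_iff, norm_eq_zero] at h2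
  have h3 := congrArg star (hc.sep _ h2)
  rw [star_mul, star_star, ← map_star, hs, star_zero] at h3
  have h4 := (Complex.continuous_re.tendsto _).comp (fi_tendsto (ξ := ξ) hl (star v * v) 1)
  have h5 : star v * v * ι p * 1 = 0 := by
    rw [← hs', map_mul, mul_one, mul_assoc, ← mul_assoc v, h3, zero_mul, mul_zero]
  rw [h5, map_zero, Complex.zero_re] at h4
  refine h4.congr fun n => ?_
  have hq := pr_proj ι (W n)
  have e1 : fi ρ ξ (star (v * pr ι (W n)) * (v * pr ι (W n))) =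
      fi ρ ξ (star v * v * pr ι (W n) * 1) := by
    rw [star_mul, hq.isSelfAdjoint.star_eq, mul_assoc, hc.cen _ (pr_mem ι _), mul_one, mul_assoc,
      mul_assoc, hq.isIdempotentElem.eq, mul_assoc]
  rw [fi_star_self] at e1
  exact (congrArg Complex.re e1).symm

theorem Sys.exists_cut (h : Sys ι ρ E) (hc : Cen ρ ι.range ξ) {v : M} (h1 : PI v) (h2 : Nz₀ ι v)
    {δ : ℝ} (hδ : 0 < δ) :
    ∃ U, IsClopen U ∧ v * pr ι U ∈ GS ι ρ ξ ∧ ‖ρ (v - v * pr ι U) ξ‖ ≤ δ := by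
  obtain ⟨g, hg, e⟩ := h.rn (ρ (star v) ξ) ξ
  have hu : ∀ ω, 0 ≤ (1 - g) ω := fun ω => sub_nonneg.2 (hg ω).2
  let ε : ℕ → ℝ := fun n => 1 / ((n : ℝ) + 1) / 2
  have hε : ∀ n, 0 < ε n := fun n => half_pos Nat.one_div_pos_of_nat
  have hε' : ∀ n, ε n ≤ 1 / 2 := fun n => div_le_div_of_nonneg_right
    ((div_le_one (by positivity)).2 (le_add_of_nonneg_left n.cast_nonneg)) zero_le_two
  have hε0 : Tendsto (fun n => 2 * ε n) (hyperfilter ℕ) (𝓝 0) :=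
    (tendsto_one_div_add_atTop_nhds_zero_nat.mono_left Nat.hyperfilter_le_atTop).congr
      fun n => by simp only [ε]; ring
  have cl : ∀ (u : C(Ω, ℂ)) (n : ℕ), ∃ W, IsClopen W ∧ {ω | (u ω).re ≤ ε n / 2} ⊆ W ∧
      W ⊆ {ω | (u ω).re < ε n} := fun u n =>
    exists_clopen_between (isClosed_le (by fun_prop) continuous_const)
      (isOpen_lt (by fun_prop) continuous_const) fun ω hω => lt_of_le_of_lt hω (half_lt_self (hε n))
  choose W hW hW1 hW2 using cl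
  have one : ∀ ω, (0 : ℂ) ≤ (1 : C(Ω, ℂ)) ω := fun _ => zero_le_one
  have re1 : ∀ ω, ((1 - g) ω).re = 1 - (g ω).re := fun ω => rfl
  have hlo : ∀ n, (fi ρ (ρ (star v) ξ) (pr ι (W g n))).re ≤ 2 * ε n := fun n => by
    have h3 := rn_cmp e (hW g n) zero_le_two (hε n).le (fun ω hω => by
      have h4 : (g ω).re < ε n := hW2 g n hω
      exact ⟨by rw [re1]; linarith [hε' n], h4.le⟩) hu (fun ω => (hg ω).1) one
    rwa [one_mul, map_one, hc.fi_one, Complex.one_re, mul_one] at h3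
  have hhi : ∀ n, ‖ρ (v * pr ι (W (1 - g) n)) ξ‖ ^ 2 ≤ 2 * ε n := fun n => by
    have h3 := rn_cmp (fun f => (e f).symm) (hW (1 - g) n) zero_le_two (hε n).le (fun ω hω => by
      have h4 : ((1 - g) ω).re < ε n := hW2 _ n hω
      exact ⟨by rw [re1] at h4; linarith [hε' n], h4.le⟩) (fun ω => (hg ω).1) hu one
    have h4 := rn_ind_sq 1 (hW (1 - g) n)
    have h5 := rn_sq' (ι := ι) (ρ := ρ) (ξ := ξ) v 1
    rw [star_one, mul_one] at h4 h5
    rw [← h4, h5, rn_sq, one_mul, map_one, one_mul, Complex.ofReal_re, Complex.ofReal_re] at h3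
    have h6 : ‖ρ (star v) ξ‖ ≤ 1 := (ws_norm_le _ _).trans
      (by rw [hc.norm_one, mul_one]; exact h1.star.norm_le)
    have h7 : ‖ρ (v * pr ι (W (1 - g) n)) ξ‖ ≤ ‖ρ (ι (ind (W (1 - g) n))) ξ‖ := by
      rw [ws_mul_apply]
      exact (ws_norm_le _ _).trans (mul_le_of_le_one_left (norm_nonneg _) h1.norm_le)
    refine (pow_le_pow_left₀ (norm_nonneg _) h7 2).trans (h3.trans ?_)
    exact mul_le_of_le_one_right (by linarith [hε n]) (pow_le_one₀ (norm_nonneg _) h6)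
  have t1 := h.rn_lo hc (hW g) (v := v) (squeeze_zero (fun n => ?_) hlo hε0)
  · have hd : 0 < (δ / 2) ^ 2 := by positivity
    obtain ⟨n, n1, n2⟩ := ((t1.eventually (gt_mem_nhds hd)).and
      (hε0.eventually (gt_mem_nhds hd))).exists
    have hU := (hW g n).compl.inter (hW (1 - g) n).compl
    refine ⟨_, hU, ⟨2 / ε n, h.rn_gb hc h1 h2 hg e hU (div_pos two_pos (hε n)).le fun ω hω => ?_⟩, ?_⟩
    · have key : ∀ u : C(Ω, ℂ), ω ∉ W u n → 1 ≤ 2 / ε n * (u ω).re := fun u hu => by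
        have h3 : ε n / 2 < (u ω).re := lt_of_not_ge fun h3 => hu (hW1 u n h3)
        rw [div_mul_eq_mul_div, one_le_div (hε n)]
        linarith
      exact ⟨key _ hω.1, key _ hω.2⟩
    · have e1 : v - v * pr ι ((W g n)ᶜ ∩ (W (1 - g) n)ᶜ) =
          v * pr ι (W g n) * ι (ind (W (1 - g) n)ᶜ) + v * pr ι (W (1 - g) n) := by
        rw [pr, ← ind_mul (hW g n).compl (hW _ n).compl, ind_compl (hW g n), ind_compl (hW _ n)]
        simp only [pr, map_mul, map_sub, map_one]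
        noncomm_ring
      rw [e1, map_add, add_apply, ← add_halves δ]
      refine (norm_add_le _ _).trans (add_le_add ((hc.norm_mul_le _ _).trans
        ((mul_le_of_le_one_left (norm_nonneg _) (norm_ind_le _)).trans ?_)) ?_)
      · exact (pow_le_pow_iff_left₀ (norm_nonneg _) (half_pos hδ).le two_ne_zero).1 n1.le
      · exact (pow_le_pow_iff_left₀ (norm_nonneg _) (half_pos hδ).le two_ne_zero).1
          ((hhi n).trans n2.le)
  · refine Complex.re_le_re (rn_pos fun ω => ?_)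
    by_cases hω : ω ∈ W g n
    · rw [ind_of_mem (hW g n) hω]; exact zero_le_one
    · rw [ind_of_notMem hω]

end Vale.Agent.P078
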