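import Vale.Agent.P078.HL

/-! Closure properties and atoms of real rational functions. -/

set_option linter.unusedSectionVars false

namespace Vale.Agent.P078

open Finset Polynomial MeasureTheory Complex Filter Topology
open scoped ComplexConjugate Matrix

variable {V : Type} [Fintype V] [DecidableEq V] {r : ℕ}

variable {S T : ℂ → ℂ}

theorem RatOn.const (a : ℝ) : RatOn fun _ => (a : ℂ) :=
  ⟨C a, 1, fun _ _ => by simp, fun _ _ => by simp⟩

theorem RatOn.id : RatOn fun z => z := ⟨X, 1, fun _ _ => by simp, fun _ _ => by simp⟩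

theorem RatOn.add (hS : RatOn S) (hT : RatOn T) : RatOn fun z => S z + T z := by
  obtain ⟨N, f, h1, h2⟩ := hS
  obtain ⟨M, g, h3, h4⟩ := hT
  refine ⟨N * g + f * M, f * g, fun z hz => ?_, fun z hz => ?_⟩
  · rw [map_mul]; exact mul_ne_zero (h1 z hz) (h3 z hz)
  · simp only [map_add, map_mul]
    rw [h2 z hz, h4 z hz, div_add_div _ _ (h1 z hz) (h3 z hz)]

theorem RatOn.mul (hS : RatOn S) (hT : RatOn T) : RatOn fun z => S z * T z := by
  obtain ⟨N, f, h1, h2⟩ := hS
  obtain ⟨M, g, h3, h4⟩ := hT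
  refine ⟨N * M, f * g, fun z hz => ?_, fun z hz => ?_⟩
  · rw [map_mul]; exact mul_ne_zero (h1 z hz) (h3 z hz)
  · simp only [map_mul]
    rw [h2 z hz, h4 z hz, div_mul_div_comm]

theorem RatOn.neg (hS : RatOn S) : RatOn fun z => -S z := by
  obtain ⟨N, f, h1, h2⟩ := hS
  refine ⟨-N, f, h1, fun z hz => ?_⟩
  simp only [map_neg]
  rw [h2 z hz, neg_div]

theorem RatOn.inv (hS : RatOn S) (h : ∀ z : ℂ, 0 < z.im → S z ≠ 0) : RatOn fun z => (S z)⁻¹ := by
  obtain ⟨N, f, h1, h2⟩ := hS
  refine ⟨f, N, fun z hz e => h z hz (by rw [h2 z hz, e, zero_div]), fun z hz => ?_⟩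
  simp only
  rw [h2 z hz, inv_div]

theorem RatOn.congr (hS : RatOn S) (h : ∀ z : ℂ, 0 < z.im → S z = T z) : RatOn T := by
  obtain ⟨N, f, h1, h2⟩ := hS
  exact ⟨N, f, h1, fun z hz => (h z hz).symm.trans (h2 z hz)⟩

theorem RatOn.sum {ι : Type*} (A : Finset ι) {F : ι → ℂ → ℂ} (h : ∀ i ∈ A, RatOn (F i)) :
    RatOn fun z => ∑ i ∈ A, F i z := by
  classical
  induction A using Finset.induction_on with
  | empty => simpa using RatOn.const 0
  | insert a A ha ih =>
    simp only [Finset.sum_insert ha]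
    exact (h a (mem_insert_self _ _)).add (ih fun i hi => h i (mem_insert_of_mem hi))

theorem RatOn.prod {ι : Type*} (A : Finset ι) {F : ι → ℂ → ℂ} (h : ∀ i ∈ A, RatOn (F i)) :
    RatOn fun z => ∏ i ∈ A, F i z := by
  classical
  induction A using Finset.induction_on with
  | empty => simpa using RatOn.const 1
  | insert a A ha ih =>
    simp only [Finset.prod_insert ha]
    exact (h a (mem_insert_self _ _)).mul (ih fun i hi => h i (mem_insert_of_mem hi))

namespace RatAux

theorem sub_ne {z : ℂ} (hz : 0 < z.im) (a : ℝ) : z - a ≠ 0 := fun h => by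
  have := congrArg Complex.im h
  simp at this
  linarith

theorem tendsto_axis : Tendsto (fun y : ℝ => (y : ℂ) * I) atTop (Bornology.cobounded ℂ) := by
  rw [← tendsto_norm_atTop_iff_cobounded]
  simpa using tendsto_abs_atTop_atTop

theorem degree_lt {N f : ℝ[X]} (h1 : ∀ z : ℂ, 0 < z.im → aeval z f ≠ 0) {B : ℝ}
    (hB : ∀ᶠ y : ℝ in atTop, y * ‖aeval (y * I : ℂ) N / aeval (y * I : ℂ) f‖ ≤ B) :
    N.degree < f.degree := by
  have hf := HLAux.ne_zero h1
  by_contra h
  have hN : N ≠ 0 := by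
    rintro rfl
    exact h (by simpa [bot_lt_iff_ne_bot] using hf)
  have h2 : (f.map (algebraMap ℝ ℂ)).degree < ((X * N).map (algebraMap ℝ ℂ)).degree := by
    rw [degree_map, degree_map, degree_mul, degree_X, degree_eq_natDegree hN,
      degree_eq_natDegree hf]
    rw [degree_eq_natDegree hN, degree_eq_natDegree hf, Nat.cast_lt] at h
    norm_cast
    omega
  have h3 := ((isLittleO_cobounded_of_degree_lt h2).comp_tendsto tendsto_axis).def
    (c := 1 / (|B| + 1)) (by positivity)
  obtain ⟨y, ⟨h4, h5⟩, hy⟩ := ((h3.and hB).and (eventually_gt_atTop 0)).exists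
  have h6 : 0 < ‖aeval (y * I : ℂ) f‖ := norm_pos_iff.2 (h1 _ (by simpa using hy))
  simp only [Function.comp, eval_map_algebraMap, map_mul, aeval_X, norm_mul, norm_real, norm_I,
    mul_one, Real.norm_eq_abs, abs_of_pos hy] at h4
  rw [norm_div, ← mul_div_assoc, div_le_iff₀ h6] at h5
  rw [one_div, inv_mul_eq_div, le_div_iff₀ (by positivity)] at h4
  nlinarith [le_abs_self B]

theorem tendsto_atom (s : ℝ) :
    Tendsto (fun y : ℝ => (y : ℂ) * I / (y * I - s)) atTop (𝓝 1) := by
  have h1 : Tendsto (fun y : ℝ => (y : ℂ) * I - s) atTop (Bornology.cobounded ℂ) :=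
    (tendsto_sub_const_cobounded (s : ℂ)).comp tendsto_axis
  have h2 := (tendsto_inv₀_cobounded.comp h1).const_mul (s : ℂ)
  have h3 := h2.const_add 1
  rw [mul_zero, add_zero] at h3
  refine h3.congr' ?_
  filter_upwards [eventually_gt_atTop 0] with y hy
  have := sub_ne (z := y * I) (by simpa using hy) s
  simp only [Function.comp]
  field_simp
  ring

/-- The Newton iteration. -/
noncomputable def nw : ℕ → ℂ → ℂ
  | 0, z => z
  | k + 1, z => (nw k z - (nw k z)⁻¹) / 2

/-- The iteration on the imaginary axis. -/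
noncomputable def nr (y : ℝ) : ℕ → ℝ
  | 0 => y
  | k + 1 => (nr y k + (nr y k)⁻¹) / 2

theorem nw_im (k : ℕ) (z : ℂ) (hz : 0 < z.im) : 0 < (nw k z).im := by
  induction k with
  | zero => exact hz
  | succ k ih =>
    have h0 : nw k z ≠ 0 := fun h => by simp [h] at ih
    have := div_pos ih (normSq_pos.2 h0)
    simp only [nw, div_ofNat_im, sub_im, inv_im, neg_div]
    linarith

theorem nw_rat (k : ℕ) : RatOn (nw k) := by
  induction k with
  | zero => exact RatOn.id
  | succ k ih =>
    have h := (ih.add (ih.inv fun z hz h => by simpa [h] using nw_im k z hz).neg).mul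
      (RatOn.const (1 / 2))
    refine h.congr fun z _ => ?_
    simp only [nw]
    push_cast
    ring

theorem nw_axis (y : ℝ) (k : ℕ) : nw k (y * I) = nr y k * I := by
  induction k with
  | zero => rfl
  | succ k ih =>
    simp only [nw, nr, ih, mul_inv, inv_I]
    push_cast
    ring

theorem nr_pos {y : ℝ} (hy : 0 < y) (k : ℕ) : 0 < nr y k := by
  induction k with
  | zero => exact hy
  | succ k ih => simp only [nr]; positivity

theorem nr_ge {y : ℝ} (hy : 0 < y) (k : ℕ) : 1 ≤ nr y (k + 1) := by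
  have h := nr_pos hy k
  simp only [nr]
  have : nr y k * (nr y k)⁻¹ = 1 := mul_inv_cancel₀ h.ne'
  nlinarith [sq_nonneg (nr y k - 1), inv_pos.2 h, mul_nonneg (inv_pos.2 h).le (sq_nonneg (nr y k - 1))]

theorem nr_le {y : ℝ} (hy : 0 < y) (k : ℕ) : nr y (k + 1) - 1 ≤ (nr y 1 - 1) * (1 / 2) ^ k := by
  induction k with
  | zero => simp
  | succ k ih =>
    have h := inv_le_one_of_one_le₀ (nr_ge hy k)
    have e : nr y (k + 1 + 1) = (nr y (k + 1) + (nr y (k + 1))⁻¹) / 2 := rfl
    rw [e, pow_succ]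
    linarith

theorem nr_tendsto {y : ℝ} (hy : 0 < y) : Tendsto (nr y) atTop (𝓝 1) := by
  rw [← tendsto_add_atTop_iff_nat 1]
  have h := ((tendsto_pow_atTop_nhds_zero_of_lt_one (r := (1 / 2 : ℝ)) (by norm_num)
    (by norm_num)).const_mul (nr y 1 - 1)).const_add 1
  rw [mul_zero, add_zero] at h
  exact tendsto_of_tendsto_of_tendsto_of_le_of_le tendsto_const_nhds h (nr_ge hy)
    fun k => by linarith [nr_le hy k]

end RatAux

open RatAux

theorem RatOn.atoms (hS : RatOn S) (him : ∀ z : ℂ, 0 < z.im → (S z).im ≤ 0) {B : ℝ}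
    (hB : ∀ᶠ y : ℝ in atTop, y * ‖S (y * I)‖ ≤ B) :
    ∃ (n : ℕ) (s ω : Fin n → ℝ), (∀ j, 0 ≤ ω j) ∧
      ∀ z : ℂ, 0 < z.im → S z = ∑ j, (ω j : ℂ) / (z - s j) := by
  obtain ⟨N, f, h1, h2⟩ := hS
  have hd : N.degree < f.degree := degree_lt h1 (B := B) (by
    filter_upwards [hB, eventually_gt_atTop 0] with y hy hy0
    rwa [← h2 _ (by simpa using hy0)])
  have hf := HLAux.ne_zero h1
  have hlc : f.leadingCoeff ≠ 0 := leadingCoeff_ne_zero.2 hf
  obtain ⟨l, b, β, hb, e1, e2⟩ := hl rfl (natDegree_le_natDegree hd.le) h1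
    fun z hz => h2 z hz ▸ him z hz
  have hβ : β = 0 := by
    have c1 : N.coeff f.natDegree = 0 := coeff_eq_zero_of_degree_lt (degree_eq_natDegree hf ▸ hd)
    have c2 : ∀ k, (∏ j ∈ univ.erase k, (X - C (l j))).coeff f.natDegree = 0 := by
      intro k
      refine coeff_eq_zero_of_natDegree_lt ?_
      have := Lagrange.natDegree_nodal (s := univ.erase k) (v := l)
      rw [Lagrange.nodal_eq] at this
      rw [this, card_erase_of_mem (mem_univ k), card_univ, Fintype.card_fin]
      have := k.pos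
      omega
    rw [mul_add, mul_left_comm, ← e1] at e2
    have c3 := congrArg (fun p => p.coeff f.natDegree) e2
    simp only [c1, coeff_add, coeff_C_mul, finsetSum_coeff, c2, mul_zero, sum_const_zero,
      add_zero, coeff_natDegree] at c3
    exact (mul_eq_zero.1 c3.symm).resolve_right hlc
  refine ⟨_, l, b, hb, fun z hz => ?_⟩
  have e3 := congrArg (aeval z) e1
  have e4 := congrArg (aeval z) e2
  simp only [hβ, map_zero, zero_mul, zero_add, map_mul, map_sum, map_prod, map_sub, aeval_X,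
    aeval_C, coe_algebraMap] at e3 e4
  rw [h2 z hz, e3, e4, mul_div_mul_left _ _ (by exact_mod_cast hlc), Finset.sum_div]
  refine Finset.sum_congr rfl fun k _ => ?_
  rw [← Finset.mul_prod_erase univ _ (mem_univ k),
    mul_div_mul_right _ _ (prod_ne_zero_iff.2 fun j _ => sub_ne hz _)]

theorem RatOn.norm_le (hS : RatOn S) (him : ∀ z : ℂ, 0 < z.im → (S z).im ≤ 0) {m : ℝ}
    (hm : Tendsto (fun y : ℝ => y * I * S (y * I)) atTop (𝓝 m)) : ‖S I‖ ≤ m := by
  obtain ⟨n, s, ω, hω, h⟩ := hS.atoms him (B := ‖(m : ℂ)‖ + 1) (by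
    filter_upwards [hm.norm.eventually (gt_mem_nhds (lt_add_one _)), eventually_gt_atTop 0]
      with y hy hy0
    simpa [abs_of_pos hy0] using hy.le)
  have h1 : Tendsto (fun y : ℝ => y * I * S (y * I)) atTop (𝓝 (∑ j, (ω j : ℂ) * 1)) := by
    refine (tendsto_finsetSum _ fun j _ => (tendsto_atom (s j)).const_mul (ω j : ℂ)).congr' ?_
    filter_upwards [eventually_gt_atTop 0] with y hy
    rw [h _ (by simpa using hy), Finset.mul_sum]
    exact Finset.sum_congr rfl fun j _ => by ring
  have h2 : m = ∑ j, ω j := by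
    have := tendsto_nhds_unique hm h1
    simp only [mul_one] at this
    exact_mod_cast this
  rw [h I (by simp), h2]
  refine (norm_sum_le _ _).trans (Finset.sum_le_sum fun j _ => ?_)
  rw [norm_div, norm_real, Real.norm_eq_abs, abs_of_nonneg (hω j)]
  refine div_le_self (hω j) ?_
  simpa using abs_im_le_norm (I - s j)

/-- Real rational approximations of the constant `I`: the iterates of a Newton map. -/
theorem exists_newton : ∃ T : ℕ → ℂ → ℂ, (∀ k, RatOn (T k)) ∧
    (∀ k z, 0 < z.im → 0 < (T k z).im) ∧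
    ∀ y : ℝ, 0 < y → Tendsto (fun k => T k (y * I)) atTop (𝓝 I) := by
  refine ⟨nw, nw_rat, nw_im, fun y hy => ?_⟩
  simp only [nw_axis]
  simpa using ((continuous_ofReal.tendsto 1).comp (nr_tendsto hy)).mul_const I

end Vale.Agent.P078
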