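import Vale.Agent.P078.Top

/-! Colouring all cells, one at a time, with random labels. -/

set_option linter.unusedSectionVars false

namespace Vale.Agent.P078

open Finset Polynomial MeasureTheory Filter Topology
open scoped ComplexConjugate Matrix

variable {Ω : Type*} [TopologicalSpace Ω] [CompactSpace Ω] [T2Space Ω]
  [TotallyDisconnectedSpace Ω] [MeasurableSpace Ω] [BorelSpace Ω]
  {μ : Measure Ω} [IsProbabilityMeasure μ]

/-- The colouring of a set of cells. -/
theorem rounds_aux {I : Type} [DecidableEq I] {cell : Ω → I} (hcell : IsLocallyConstant cell)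
    {h r : ℕ} [NeZero h] (Ψ : (Ω → Option (Fin r)) → ℝ) {w : I → ℝ}
    (hs : ∀ (st : Ω → Option (Fin r)) (i : I), IsLocallyConstant st →
      (∀ ω, cell ω = i → st ω = none) → ∃ g : Ω → (Fin h ↪ Fin r), IsLocallyConstant g ∧
        ∀ l : Ω → Fin h, IsLocallyConstant l →
          Ψ (fun ω => if cell ω = i then some (g ω (l ω)) else st ω) ≤ Ψ st + w i)
    {J₀ : Type} [Finite J₀] {π₀ : Ω → J₀} (h₀ : IsLocallyConstant π₀) (D : Finset I) :
    ∃ (J : Type) (_ : Finite J) (π : Ω → J)
      (st : (J → Fin h) → Ω → Option (Fin r)) (Θ : Fin r → (J → Fin h) → J → Fin h),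
      IsLocallyConstant π ∧ Rf π π₀ ∧ (∀ l, IsLocallyConstant (st l)) ∧
      (∀ l ω, st l ω = none ↔ cell ω ∉ D) ∧ (∀ c, Function.Injective (Θ c)) ∧
      (∀ l ω c, st l ω = some c → Θ c l (π ω) = 0) ∧
      ∀ l, Ψ (st l) ≤ Ψ (fun _ => none) + ∑ i ∈ D, w i := by
  induction D using Finset.induction_on with
  | empty =>
    exact ⟨J₀, inferInstance, π₀, fun _ _ => none, fun _ l => l, h₀, fun _ _ e => e,
      fun _ => IsLocallyConstant.const _, fun _ _ => by simp, fun _ _ _ e => e,
      fun _ _ _ e => by simp at e, fun _ => by simp⟩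
  | insert i D hi ih =>
    obtain ⟨J, _, π, st, Θ, h1, h2, h3, h4, h5, h6, h7⟩ := ih
    choose g hg hΨ using fun l => hs (st l) i (h3 l) fun ω e => (h4 l ω).2 (e ▸ hi)
    have hG : IsLocallyConstant fun ω l => g l ω := lc_pi hg
    let π' : Ω → J ⊕ (J × ((J → Fin h) → (Fin h ↪ Fin r))) := fun ω =>
      if cell ω = i then .inr (π ω, fun l => g l ω) else .inl (π ω)
    have hπ : IsLocallyConstant π' := (hcell.prodMk (h1.prodMk hG)).comp fun p =>
      if p.1 = i then Sum.inr p.2 else Sum.inl p.2.1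
    have e0 : ∀ ω, Sum.elim id Prod.fst (π' ω) = π ω := fun ω => by
      simp only [π']
      split_ifs <;> rfl
    refine ⟨_, inferInstance, π', fun l ω => if cell ω = i then
        some (g (l ∘ Sum.inl) ω (l (π' ω))) else st (l ∘ Sum.inl) ω,
      fun c l => Sum.elim (Θ c (l ∘ Sum.inl))
        fun x => l (.inr x) - Function.invFun (x.2 (l ∘ Sum.inl)) c,
      hπ, fun ω ω' e => h2 ω ω' (by rw [← e0, e, e0]), fun l => ?_, fun l ω => ?_,
      fun c l l' e => ?_, fun l ω c e => ?_, fun l => ?_⟩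
    · exact ((hcell.prodMk (h3 (l ∘ Sum.inl))).prodMk ((hg (l ∘ Sum.inl)).prodMk hπ)).comp
        fun p => if p.1.1 = i then some (p.2.1 (l p.2.2)) else p.1.2
    · by_cases e : cell ω = i
      · simp [e]
      · simp [e, h4]
    · have e1 : l ∘ Sum.inl = l' ∘ Sum.inl := h5 c (funext fun j => congrFun e (.inl j))
      funext x
      rcases x with j | x
      · exact congrFun e1 j
      · have e2 := congrFun e (.inr x)
        simp only [Sum.elim_inr, e1] at e2
        exact sub_left_inj.1 e2
    · by_cases e1 : cell ω = i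
      · have e2 : π' ω = .inr (π ω, fun l => g l ω) := if_pos e1
        simp only [if_pos e1, Option.some.injEq] at e
        rw [e2] at e ⊢
        simp only [Sum.elim_inr]
        rw [← e, Function.leftInverse_invFun (g _ ω).injective, sub_self]
      · have e2 : π' ω = .inl (π ω) := if_neg e1
        simp only [if_neg e1] at e
        rw [e2]
        exact h6 _ ω c e
    · have := h7 (l ∘ Sum.inl)
      have := hΨ (l ∘ Sum.inl) (fun ω => l (π' ω)) (hπ.comp l)
      rw [Finset.sum_insert hi]
      linarith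

/-- The abstract form of the colouring procedure. -/
theorem rounds {I : Type} [Fintype I] [DecidableEq I] {cell : Ω → I} (hcell : IsLocallyConstant cell)
    {h r : ℕ} [NeZero h] (Ψ : (Ω → Option (Fin r)) → ℝ) {η : ℝ}
    (hs : ∀ (st : Ω → Option (Fin r)) (i : I), IsLocallyConstant st →
      (∀ ω, cell ω = i → st ω = none) → ∃ g : Ω → (Fin h ↪ Fin r), IsLocallyConstant g ∧
        ∀ l : Ω → Fin h, IsLocallyConstant l →
          Ψ (fun ω => if cell ω = i then some (g ω (l ω)) else st ω) ≤
            Ψ st + η * μ.real (cell ⁻¹' {i}))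
    {J₀ : Type} [Fintype J₀] {π₀ : Ω → J₀} (h₀ : IsLocallyConstant π₀) :
    ∃ (J : Type) (_ : Fintype J) (_ : DecidableEq J) (π : Ω → J)
      (col : (J → Fin h) → Ω → Fin r) (Θ : Fin r → (J → Fin h) → J → Fin h),
      IsLocallyConstant π ∧ Rf π π₀ ∧ (∀ l, IsLocallyConstant (col l)) ∧
      (∀ c, Function.Injective (Θ c)) ∧ (∀ l ω, Θ (col l ω) l (π ω) = 0) ∧
      ∀ l, Ψ (fun ω => some (col l ω)) ≤ Ψ (fun _ => none) + η := by
  classical
  obtain ⟨J, _, π, st, Θ, h1, h2, h3, h4, h5, h6, h7⟩ :=
    rounds_aux hcell Ψ (w := fun i => η * μ.real (cell ⁻¹' {i})) hs h₀ Finset.univ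
  choose col hcol using fun l ω =>
    Option.ne_none_iff_exists'.1 fun e => (h4 l ω).1 e (Finset.mem_univ _)
  have e : ∀ l, (fun ω => some (col l ω)) = st l := fun l => funext fun ω => (hcol l ω).symm
  refine ⟨J, Fintype.ofFinite J, inferInstance, π, col, Θ, h1, h2, fun l => ?_, h5,
    fun l ω => h6 l ω _ (hcol l ω), fun l => ?_⟩
  · exact IsLocallyConstant.desc _ some ((e l).symm ▸ h3 l :) (Option.some_injective _)
  · have := h7 l
    rw [← Finset.mul_sum, sum_measureReal_preimage_singleton _ fun i _ =>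
      (hcell {i}).measurableSet] at this
    simpa [e] using this

end Vale.Agent.P078
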