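import Vale.Agent.P078.Ind
import Vale.Agent.P078.Kap

/-! A central functional without normal part is disjoint from the normal ones. -/

set_option linter.unusedSectionVars false

namespace Vale.Agent.P078

open Filter Topology Finset Vale.Agent.P104 Vale.Agent.P082
open scoped InnerProductSpace ComplexOrder ComplexConjugate

universe u v

variable {G : Type v} [NormedAddCommGroup G] [InnerProductSpace ℂ G] [CompleteSpace G]
  {M : Type u} [CStarAlgebra M] {ρ : M →⋆ₐ[ℂ] (G →L[ℂ] G)}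
  {Ω : Type u} [TopologicalSpace Ω] [CompactSpace Ω] [T2Space Ω] [TotallyDisconnectedSpace Ω]
  {ι : C(Ω, ℂ) →⋆ₐ[ℂ] M} {E : M →ₗ[ℂ] C(Ω, ℂ)} {ξ : G}

theorem Nml.tendsto {χ : M →ₗ[ℂ] ℂ} (h : Nml ρ χ) {κ : Type*} (U : Ultrafilter κ) {a : κ → M}
    {x : M} {R : ℝ} (hR : ∀ᶠ i in (U : Filter κ), ‖a i‖ ≤ R) (hx : WL ρ (U : Filter κ) a x) :
    Tendsto (fun i => χ (a i)) (U : Filter κ) (𝓝 (χ x)) :=
  h (U.map a) R x hR fun ξ η => hx ξ η

theorem sing_eq_zero {ψ : M →ₗ[ℂ] ℂ} (h : ∀ b, ψ (star b * b) = 0) (m : M) : ψ m = 0 := by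
  have h0 : ψ 1 = 0 := by simpa only [star_one, mul_one] using h 1
  have h1 : ∀ m, ψ m + ψ (star m) = 0 := fun m => by
    have h2 := h (1 + m)
    simp only [star_add, star_one, mul_add, add_mul, one_mul, mul_one, map_add, h0, h m] at h2
    linear_combination h2
  have h2 := h1 (Complex.I • m)
  rw [star_smul, map_smul, map_smul, Complex.star_def, Complex.conj_I, smul_eq_mul,
    smul_eq_mul] at h2
  linear_combination (1 / 2 : ℂ) * h1 m - (Complex.I / 2) * h2 +
    ((ψ m - ψ (star m)) / 2) * Complex.I_mul_I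

theorem sing_re_zero {ψ : M →ₗ[ℂ] ℂ} (h : ∀ b, (ψ b).re = 0) (m : M) : ψ m = 0 := by
  refine Complex.ext (h m) ?_
  have h2 := h (Complex.I • m)
  rw [map_smul, smul_eq_mul, Complex.I_mul_re, neg_eq_zero] at h2
  exact h2

theorem sing_comm {H : Type*} [NormedAddCommGroup H] [InnerProductSpace ℂ H] (K : Submodule ℂ H)
    [K.HasOrthogonalProjection] {T T' : H →L[ℂ] H} (h : ∀ x y, ⟪T x, y⟫_ℂ = ⟪x, T' y⟫_ℂ)
    (h1 : ∀ z ∈ K, T z ∈ K) (h2 : ∀ z ∈ K, T' z ∈ K) (x : H) :
    K.starProjection (T x) = T (K.starProjection x) :=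
  K.eq_starProjection_of_mem_of_inner_eq_zero (h1 _ (K.starProjection_apply_mem x)) fun w hw => by
    rw [← map_sub, h]
    exact K.starProjection_inner_eq_zero x _ (h2 w hw)

theorem sing_proj_inner {H : Type*} [NormedAddCommGroup H] [InnerProductSpace ℂ H]
    (K : Submodule ℂ H) [K.HasOrthogonalProjection] (x : H) :
    ⟪K.starProjection x, x⟫_ℂ = ((‖K.starProjection x‖ ^ 2 : ℝ) : ℂ) := by
  have h := K.starProjection_inner_eq_zero x _ (K.starProjection_apply_mem x)
  rw [inner_eq_zero_symm, inner_sub_right, sub_eq_zero] at h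
  rw [h, inner_self_eq_norm_sq_to_K]
  simp

section GNS

variable {H : Type u} [NormedAddCommGroup H] [InnerProductSpace ℂ H] [CompleteSpace H]
  (π : M →⋆ₐ[ℂ] (H →L[ℂ] H)) (w : H)

/-- The functional of a pair of vectors. -/
noncomputable def singF (z : H) : M →ₗ[ℂ] ℂ where
  toFun x := ⟪z, π x w⟫_ℂ
  map_add' x y := by simp only [map_add, add_apply, inner_add_right]
  map_smul' r x := by
    simp only [map_smul, smul_apply, inner_smul_right, RingHom.id_apply, smul_eq_mul]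

theorem singF_apply (z : H) (x : M) : singF π w z x = ⟪z, π x w⟫_ℂ := rfl

variable (ρ) in
/-- The vectors that give normal functionals. -/
noncomputable def singK : Submodule ℂ H where
  carrier := {z | Nml ρ (singF π w z)}
  zero_mem' := fun U R x _ _ => by
    change Tendsto (fun v => ⟪(0 : H), π v w⟫_ℂ) _ (𝓝 ⟪(0 : H), π x w⟫_ℂ)
    simp only [inner_zero_left]
    exact tendsto_const_nhds
  add_mem' := fun {a b} ha hb U R x h1 h2 => by
    change Tendsto (fun v => ⟪a + b, π v w⟫_ℂ) _ (𝓝 ⟪a + b, π x w⟫_ℂ)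
    simp only [inner_add_left]
    exact (ha U R x h1 h2).add (hb U R x h1 h2)
  smul_mem' := fun c a ha U R x h1 h2 => by
    change Tendsto (fun v => ⟪c • a, π v w⟫_ℂ) _ (𝓝 ⟪c • a, π x w⟫_ℂ)
    simp only [inner_smul_left]
    exact (ha U R x h1 h2).const_mul _

theorem singK_closed : IsClosed (singK ρ π w : Set H) := by
  refine isClosed_of_closure_subset fun z hz U R x h1 h2 => ?_
  refine Metric.tendsto_nhds.2 fun ε hε => ?_
  have hC : 0 < (|R| + ‖x‖) * ‖w‖ + 1 := by positivity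
  obtain ⟨z', hz', hd⟩ := Metric.mem_closure_iff.1 hz (ε / 2 / ((|R| + ‖x‖) * ‖w‖ + 1))
    (by positivity)
  rw [dist_eq_norm, lt_div_iff₀ hC] at hd
  filter_upwards [h1, Metric.tendsto_nhds.1 (hz' U R x h1 h2) (ε / 2) (half_pos hε)] with v hv h3
  rw [dist_eq_norm, ← map_sub, singF_apply] at h3 ⊢
  have h4 : ‖π (v - x) w‖ ≤ (|R| + ‖x‖) * ‖w‖ + 1 := by
    refine (ws_norm_le _ _).trans ?_
    have h5 : ‖v - x‖ ≤ |R| + ‖x‖ :=
      (norm_sub_le _ _).trans (add_le_add (hv.trans (le_abs_self R)) le_rfl)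
    nlinarith [norm_nonneg w]
  have h5 : ⟪z, π (v - x) w⟫_ℂ = ⟪z - z', π (v - x) w⟫_ℂ + ⟪z', π (v - x) w⟫_ℂ := by
    rw [inner_sub_left, sub_add_cancel]
  have h6 := norm_inner_le_norm (𝕜 := ℂ) (z - z') (π (v - x) w)
  have h7 := mul_le_mul_of_nonneg_left h4 (norm_nonneg (z - z'))
  rw [h5]
  refine (norm_add_le _ _).trans_lt ?_
  linarith

theorem singK_left (m : M) {z : H} (hz : z ∈ singK ρ π w) : π m z ∈ singK ρ π w :=
  fun U R x h1 h2 => by
    change Tendsto (fun v => ⟪π m z, π v w⟫_ℂ) _ (𝓝 ⟪π m z, π x w⟫_ℂ)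
    simp only [ws_inner, ← ws_mul_apply]
    refine Nml.tendsto hz U (R := ‖star m‖ * R) (h1.mono fun v hv => ?_) (h2.const_mul (star m))
    exact (norm_mul_le _ _).trans (mul_le_mul_of_nonneg_left hv (norm_nonneg _))

theorem singK_right {T T' : H →L[ℂ] H} (h : ∀ x y, ⟪T x, y⟫_ℂ = ⟪x, T' y⟫_ℂ) {a : M}
    (ha : ∀ v, T' (π v w) = π (v * a) w) {z : H} (hz : z ∈ singK ρ π w) : T z ∈ singK ρ π w :=
  fun U R x h1 h2 => by
    change Tendsto (fun v => ⟪T z, π v w⟫_ℂ) _ (𝓝 ⟪T z, π x w⟫_ℂ)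
    simp only [h, ha]
    refine Nml.tendsto hz U (R := R * ‖a‖) (h1.mono fun v hv => ?_) (h2.mul_const a)
    exact (norm_mul_le _ _).trans (mul_le_mul_of_nonneg_right hv (norm_nonneg _))

end GNS

theorem sing_bound {ϱ : M →ₗ[ℂ] ℂ} (h1 : PosF ϱ) (h2 : CenF ι.range ϱ) (f : C(Ω, ℂ)) (x : M) :
    (ϱ (star (x * ι f) * (x * ι f))).re ≤ ‖f‖ ^ 2 * (ϱ (star x * x)).re := by
  obtain ⟨g, hg, hgg, -⟩ := exists_sqrt (f := ((‖f‖ ^ 2 : ℝ) : ℂ) • (1 : C(Ω, ℂ)) - f * star f)
    fun ω => by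
      have h3 := pow_le_pow_left₀ (norm_nonneg _) (f.norm_coe_le_norm ω) 2
      simp only [ContinuousMap.sub_apply, ContinuousMap.smul_apply, ContinuousMap.one_apply,
        ContinuousMap.mul_apply, ContinuousMap.star_apply, smul_eq_mul, mul_one, Complex.star_def,
        Complex.mul_conj, Complex.normSq_eq_norm_sq, sub_nonneg]
      exact Complex.real_le_real.2 h3
  have key : ∀ k : C(Ω, ℂ),
      ϱ (star (x * ι k) * (x * ι k)) = ϱ (ι (k * star k) * (star x * x)) := fun k => by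
    rw [star_mul, ← mul_assoc, ← h2 (ι k) ⟨k, rfl⟩, map_mul ι, map_star ι]
    simp only [mul_assoc]
  have h3 := (h1 (x * ι g)).1
  rw [key, hg, hgg, map_sub, sub_mul, map_sub, map_smul, map_one, smul_mul_assoc, one_mul,
    map_smul, ← key, smul_eq_mul, Complex.sub_re, Complex.re_ofReal_mul, Complex.zero_re] at h3
  linarith

theorem sing_zero {ϱ : M →ₗ[ℂ] ℂ} (h1 : PosF ϱ) (h2 : CenF ι.range ϱ)
    (h3 : ∀ χ, Nml ρ χ → PosF χ → CenF ι.range χ →
      (∀ m, (χ (star m * m)).re ≤ (ϱ (star m * m)).re) → χ 1 = 0)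
    {J : Type} [Fintype J] (ζ : J → G) {δ : ℝ} (hδ : 0 < δ) :
    ∃ v : M, ∑ j, ‖ρ (1 - star v) (ζ j)‖ ^ 2 + (ϱ (star v * v)).re ≤ δ := by
  obtain ⟨H, _, _, _, π, w, hd, hn⟩ := Clo.exists_gns ϱ h1
  have hϱ : ∀ m, ⟪w, π m w⟫_ℂ = ϱ m := fun m => by
    refine sub_eq_zero.1 (sing_eq_zero (ψ := singF π w w - ϱ) (fun b => ?_) m)
    rw [LinearMap.sub_apply, singF_apply, ws_mul_apply, ← ws_inner, inner_self_eq_norm_sq_to_K,
      sub_eq_zero]
    refine Complex.ext ?_ ?_
    · rw [← hn]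
      norm_cast
    · rw [← (h1 b).2]
      norm_cast
  have hR : ∀ f : C(Ω, ℂ), ∃ S : H →L[ℂ] H, ∀ v, S (π v w) = π (v * ι f) w := fun f => by
    obtain ⟨S, hS, hS'⟩ := Clo.exists_intertwiner π w hd (π : M →ₐ[ℂ] (H →L[ℂ] H)) (π (ι f) w)
      (‖f‖ ^ 2) fun x => by
        change ‖π x (π (ι f) w)‖ ^ 2 ≤ _
        rw [← ws_mul_apply, hn, hn]
        exact sing_bound h1 h2 f x
    refine ⟨S, fun v => ?_⟩
    rw [hS', hS, ws_mul_apply]
    rfl
  choose S hS using hR
  have hadj : ∀ f x y, ⟪S f x, y⟫_ℂ = ⟪x, S (star f) y⟫_ℂ := fun f x y => by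
    refine hd.induction_on₂ (p := fun x y => ⟪S f x, y⟫_ℂ = ⟪x, S (star f) y⟫_ℂ) ?_
      (fun a b => ?_) x y
    · apply isClosed_eq <;> fun_prop
    · rw [hS, hS, ws_inner, ws_inner, ← ws_mul_apply, ← ws_mul_apply, hϱ, hϱ, star_mul, ← map_star,
        mul_assoc, h2 (ι (star f)) ⟨star f, rfl⟩, mul_assoc]
  have hcl := singK_closed (ρ := ρ) π w
  have : CompleteSpace (singK ρ π w) := hcl.completeSpace_coe
  have hπ : ∀ m x, (singK ρ π w).starProjection (π m x) = π m ((singK ρ π w).starProjection x) :=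
    fun m => sing_comm _ (ws_inner m) (fun _ => singK_left π w m) fun _ => singK_left π w _
  have hSP : ∀ f x, (singK ρ π w).starProjection (S f x) = S f ((singK ρ π w).starProjection x) :=
    fun f => sing_comm _ (hadj f) (fun _ => singK_right π w (hadj f) (hS _))
      fun _ => singK_right π w (hadj (star f)) (hS _)
  have hsq : ∀ m, singF π w ((singK ρ π w).starProjection w) (star m * m) =
      ((‖(singK ρ π w).starProjection (π m w)‖ ^ 2 : ℝ) : ℂ) := fun m => by
    rw [singF_apply, ws_mul_apply, ← ws_inner, ← hπ, sing_proj_inner]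
  have h0 := h3 (singF π w ((singK ρ π w).starProjection w))
    ((singK ρ π w).starProjection_apply_mem w)
    (fun m => by
      rw [hsq]
      exact Complex.zero_le_real.2 (sq_nonneg _))
    (by
      rintro _ ⟨f, rfl⟩ m
      change ⟪_, π (ι f * m) w⟫_ℂ = ⟪_, π (m * ι f) w⟫_ℂ
      have e1 : S (star f) w = π (star (ι f)) w := by
        have e2 := hS (star f) 1
        rwa [map_one, one_mul, map_star, one_apply_eq_self] at e2
      have e2 := hadj (star f) ((singK ρ π w).starProjection w) (π m w)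
      rw [star_star, hS, ← hSP, e1, hπ, ws_inner, star_star, ← ws_mul_apply] at e2
      exact e2)
    fun m => by
      rw [hsq, Complex.ofReal_re, ← hn]
      exact pow_le_pow_left₀ (norm_nonneg _) ((singK ρ π w).norm_starProjection_apply_le _) 2
  have h4 : (singK ρ π w).starProjection w = 0 := by
    have e := hsq 1
    rw [star_one, mul_one, h0, map_one, one_apply_eq_self, eq_comm,
      Complex.ofReal_eq_zero, sq_eq_zero_iff, norm_eq_zero] at e
    exact e
  have h5 : ∀ z ∈ singK ρ π w, ⟪z, w⟫_ℂ = 0 := fun z hz => by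
    have e := (singK ρ π w).starProjection_inner_eq_zero w z hz
    rwa [h4, sub_zero, inner_eq_zero_symm] at e
  let T : M →ₗ[ℝ] WithLp 2 (PiLp 2 (fun _ : J => G) × H) :=
    { toFun := fun v => WithLp.toLp 2 (WithLp.toLp 2 fun j => ρ (star v) (ζ j), π v w)
      map_add' := fun a b => by
        simp only [star_add, map_add, add_apply]
        rfl
      map_smul' := fun r a => by
        simp only [← Complex.coe_smul r a, star_smul, map_smul, smul_apply, Complex.star_def,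
          Complex.conj_ofReal, RingHom.id_apply]
        rfl }
  have hT : ∀ v, T v = WithLp.toLp 2 (WithLp.toLp 2 fun j => ρ (star v) (ζ j), π v w) :=
    fun _ => rfl
  have h6 := mem_closure_of_re_orth (LinearMap.range T)
    (x := WithLp.toLp 2 (WithLp.toLp 2 ζ, 0)) fun y hy => by
      let ψ : M →ₗ[ℂ] ℂ :=
        { toFun := fun v => ∑ j, ⟪ζ j, ρ v (y.fst j)⟫_ℂ
          map_add' := fun a b => by
            simp only [map_add, add_apply, inner_add_right, Finset.sum_add_distrib]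
          map_smul' := fun r a => by
            simp only [map_smul, smul_apply, inner_smul_right, RingHom.id_apply, smul_eq_mul,
              Finset.mul_sum] }
      have hψ : ∀ v, ψ v = ∑ j, ⟪ζ j, ρ v (y.fst j)⟫_ℂ := fun _ => rfl
      have e1 : ∀ v, (ψ + singF π w y.snd) v = 0 := sing_re_zero fun v => by
        have e2 : (∑ j, ⟪y.fst j, ρ (star v) (ζ j)⟫_ℂ + ⟪y.snd, π v w⟫_ℂ).re = 0 :=
          hy _ ⟨v, rfl⟩
        rw [← e2, LinearMap.add_apply, hψ, singF_apply, Complex.add_re, Complex.add_re,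
          Complex.re_sum, Complex.re_sum]
        refine congrArg (· + _) (Finset.sum_congr rfl fun j _ => ?_)
        rw [← ws_inner, ← inner_conj_symm, Complex.conj_re]
      have e2 : ∀ v, singF π w y.snd v = -∑ j, ⟪ζ j, ρ v (y.fst j)⟫_ℂ := fun v =>
        eq_neg_of_add_eq_zero_right (e1 v)
      have e3 : y.snd ∈ singK ρ π w := fun U R x _ k2 => by
        rw [funext e2]
        exact (tendsto_finsetSum _ fun j _ => k2 (ζ j) (y.fst j)).neg
      have e4 := e2 1
      rw [singF_apply, map_one, map_one, one_apply_eq_self, h5 _ e3, eq_comm,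
        neg_eq_zero] at e4
      change (∑ j, ⟪y.fst j, ζ j⟫_ℂ + ⟪y.snd, (0 : H)⟫_ℂ).re = 0
      rw [inner_zero_right, add_zero, ← Complex.conj_re, map_sum]
      simp only [inner_conj_symm]
      exact (congrArg Complex.re e4).trans Complex.zero_re
  obtain ⟨_, ⟨v, rfl⟩, hv⟩ := Metric.mem_closure_iff.1 h6 _ (Real.sqrt_pos.2 hδ)
  refine ⟨v, ?_⟩
  rw [dist_eq_norm, Real.lt_sqrt (norm_nonneg _), WithLp.prod_norm_sq_eq_of_L2,
    PiLp.norm_sq_eq_of_L2] at hv
  refine le_of_eq_of_le ?_ hv.le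
  rw [← hn]
  refine congrArg₂ (· + ·) (Finset.sum_congr rfl fun j _ => ?_) ?_
  · rw [map_sub, map_one]
    rfl
  · change _ = ‖(0 : H) - π v w‖ ^ 2
    rw [zero_sub, norm_neg]

end Vale.Agent.P078
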