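import Mathlib

/-! The notions in the statement. -/

namespace Vale.Agent.P078

variable {H : Type*} [NormedAddCommGroup H] [InnerProductSpace ℂ H] [CompleteSpace H]

/-- `A` is a maximal abelian self-adjoint subalgebra of `M`. -/
def IsMASA (M : VonNeumannAlgebra H) (A : StarSubalgebra ℂ (H →L[ℂ] H)) : Prop :=
  (∀ a ∈ A, a ∈ M) ∧ (∀ a ∈ A, ∀ b ∈ A, a * b = b * a) ∧
    ∀ B : StarSubalgebra ℂ (H →L[ℂ] H), (∀ b ∈ B, b ∈ M) → (∀ a ∈ B, ∀ b ∈ B, a * b = b * a) →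
      A ≤ B → B = A

/-- A partition in `A` with `r` pieces. -/
def IsPartition (A : StarSubalgebra ℂ (H →L[ℂ] H)) {r : ℕ} (p : Fin r → H →L[ℂ] H) : Prop :=
  (∀ i, p i ∈ A ∧ IsStarProjection (p i)) ∧ (∀ i j, i ≠ j → p i * p j = 0) ∧ ∑ i, p i = 1

/-- `x` is so-pavable over `A` with error `ε` and `r` pieces. -/
def SoPavable (M : VonNeumannAlgebra H) (A : StarSubalgebra ℂ (H →L[ℂ] H)) (x : H →L[ℂ] H)
    (ε : ℝ) (r : ℕ) : Prop :=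
  ∀ (F : Finset H) (δ : ℝ), 0 < δ → ∃ p : Fin r → H →L[ℂ] H, IsPartition A p ∧
    ∃ a ∈ A, IsSelfAdjoint a ∧ ‖a‖ ≤ ‖x‖ ∧ ∃ q ∈ M, IsStarProjection q ∧
      (∀ ξ ∈ F, ‖(1 - q) ξ‖ < δ) ∧ ‖q * (∑ i, p i * x * p i - a) * q‖ ≤ ε * ‖x‖

end Vale.Agent.P078
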